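import Vale.Agent.P190.ResolA

/-! P190 job Resol: the Hilbert polynomial is bounded by the Hilbert function when the dual
vanishes. -/

namespace Vale.Agent.P190
open Module Filter

variable {k X : Type*} [Field k] [AddCommGroup X] [Module k X]

/-- there is no nonzero graded map of degree j to the polynomial ring -/
def NoDual (y : Fin 3 → Module.End k X) (E : ℤ → Submodule k X) (j : ℤ) : Prop :=
  ∀ φ : ℤ → X →ₗ[k] A3 k, (∀ t, ∀ e ∈ E t, φ t e ∈ Hom3 k (t + j)) →
    (∀ t i, ∀ e ∈ E t, φ (t + 1) (y i e) = MvPolynomial.X i * φ t e) → ∀ t, ∀ e ∈ E t, φ t e = 0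

namespace ResH
open SeqH

theorem sum_Bq {I : Type} [Fintype I] (a : I → ℤ) : ∃ α β γ : ℚ, ∀ t : ℤ,
    ∑ i, Bq ((t - a i : ℤ) : ℚ) = α * (t : ℚ) ^ 2 + β * t + γ := by
  refine ⟨∑ _i : I, 1 / 2, ∑ i, (3 - 2 * (a i : ℚ)) / 2, ∑ i, ((a i : ℚ) ^ 2 - 3 * a i + 2) / 2,
    fun t => ?_⟩
  rw [Finset.sum_mul, Finset.sum_mul, ← Finset.sum_add_distrib, ← Finset.sum_add_distrib]
  refine Finset.sum_congr rfl fun i _ => ?_
  simp only [Bq]
  push_cast
  ring

/-- pairing with a vector of forms -/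
noncomputable def pairing {I : Type} [Fintype I] (f : I → A3 k) : (I → A3 k) →ₗ[k] A3 k :=
  ∑ i, (LinearMap.mulRight k (f i)).comp (LinearMap.proj i)

theorem pairing_apply {I : Type} [Fintype I] (f p : I → A3 k) :
    pairing f p = ∑ i, p i * f i := by
  simp [pairing, LinearMap.sum_apply]

theorem pairing_smul {I : Type} [Fintype I] (f p : I → A3 k) (q : A3 k) :
    pairing f (q • p) = q * pairing f p := by
  rw [pairing_apply, pairing_apply, Finset.mul_sum]
  exact Finset.sum_congr rfl fun i _ => by simp [mul_assoc]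

theorem pairing_comm {I : Type} [Fintype I] (f p : I → A3 k) : pairing f p = pairing p f := by
  rw [pairing_apply, pairing_apply]
  exact Finset.sum_congr rfl fun i _ => mul_comm _ _

end ResH

open ResH SeqH MvPolynomial in
theorem resol {y : Fin 3 → Module.End k X} (hc : ∀ i j, Commute (y i) (y j))
    {E : ℤ → Submodule k X} (hE : Closed y E) (hg : Gen y E)
    (hf : ∀ t, FiniteDimensional k (E t)) (hb : ∃ t₀, ∀ t ≤ t₀, E t = ⊥)
    (h0 : Function.Injective (y 0))
    (h1 : ∀ t, ∀ a ∈ E t, ∀ b ∈ E t, y 1 a = y 0 b → ∃ c ∈ E (t - 1), a = y 0 c) :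
    ∃ a b c : ℚ, EvQ (fun t => (finrank k (E t) : ℚ)) a b c ∧
      ∀ m : ℤ, NoDual y E (-m - 3) → a * (m : ℚ) ^ 2 + b * m + c ≤ finrank k (E m) := by
  classical
  obtain ⟨ev, hev⟩ := exists_ev hc
  obtain rfl : y = fun i => ev (MvPolynomial.X i) := funext fun i => (hev i).symm
  obtain ⟨t₀, hb⟩ := hb
  obtain ⟨I, _, a, e, he, ha, hEeq, -⟩ := generators ev hE hg hf hb
  let ev' : A3 k →ₐ[k] Module.End k (I → A3 k) := Algebra.lsmul k k (I → A3 k)
  have hev' : ∀ q p, ev' q p = q • p := fun _ _ => rfl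
  let π := piE ev e
  let K : ℤ → Submodule k (I → A3 k) := fun t => FF k a t ⊓ LinearMap.ker π
  have hc' : ∀ i j : Fin 3, Commute (ev' (MvPolynomial.X i)) (ev' (MvPolynomial.X j)) :=
    fun i j => (Commute.all _ _).map ev'
  have hFc : Closed (fun i => ev' (MvPolynomial.X i)) (FF k a) := fun i t p hp => smul_FF i hp
  have hKc : Closed (fun i => ev' (MvPolynomial.X i)) K := by
    rintro i t p ⟨hp, hp'⟩
    refine ⟨smul_FF i hp, ?_⟩
    change π ((MvPolynomial.X i : A3 k) • p) = 0
    have h2 : π p = 0 := hp'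
    rw [piE_smul, h2, map_zero]
  have hFg : Gen (fun i => ev' (MvPolynomial.X i)) (FF k a) := by
    obtain ⟨b, hb⟩ := (Set.finite_range a).bddAbove
    refine ⟨b, fun t ht p hp => ?_⟩
    have h2 : ∀ i, ∃ w : Fin 3 → A3 k, (∀ j, w j ∈ Hom3 k (t - a i)) ∧
        p i = ∑ j, MvPolynomial.X j * w j := by
      intro i
      have h3 : a i ≤ b := hb ⟨i, rfl⟩
      have h4 := mem_FF.1 hp i
      rw [show t + 1 - a i = t - a i + 1 by ring] at h4
      exact Hom3_gen (by omega) h4
    choose w hw hw' using h2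
    have h5 : p = ∑ j : Fin 3, (MvPolynomial.X j : A3 k) • fun i => w i j := by
      funext i
      rw [hw' i, Finset.sum_apply]
      rfl
    rw [h5]
    exact Submodule.sum_mem _ fun j _ =>
      Submodule.mem_iSup_of_mem j ⟨fun i => w i j, mem_FF.2 fun i => hw i j, rfl⟩
  have hKF : ∀ t, K t ≤ FF k a t := fun t => inf_le_left
  have hKg := noeth hc' hFc hFg (fun t => Module.Finite.iff_fg.1 (FF_fin a t).1) hKc hKF
  have hKf : ∀ t, FiniteDimensional k (K t) := fun t =>
    have := (FF_fin (k := k) a t).1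
    Submodule.finiteDimensional_of_le (hKF t)
  have hKb : ∀ t ≤ t₀, K t = ⊥ := by
    intro t ht
    rw [eq_bot_iff]
    rintro p ⟨hp, _⟩
    refine funext fun i => ?_
    have h2 := mem_FF.1 hp i
    have h3 := ha i
    rwa [Hom3_neg (by omega)] at h2
  obtain ⟨L, _, b, κ, hκ, hb', hKeq, hcount⟩ := generators ev' hKc hKg hKf hKb
  have hπF : ∀ t p, p ∈ FF k a t → π p ∈ E t := fun t p hp => by
    rw [hEeq t]; exact ⟨p, hp, rfl⟩
  have hlift : ∀ t x, x ∈ E t → ∃ p ∈ FF k a t, π p = x := fun t x hx => by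
    rw [hEeq t] at hx; exact hx
  have h3 := third_diff hc' hKc hKf (by
    intro t u _ hu
    refine funext fun i => ?_
    have h2 : MvPolynomial.X 0 * u i = 0 := congrFun hu i
    exact (mul_eq_zero.1 h2).resolve_left (X_ne_zero 0)) (by
    rintro t u ⟨hu, hu'⟩ v _ huv
    have h2 : ∀ i, ∃ w ∈ Hom3 k (t - a i - 1), u i = MvPolynomial.X 0 * w :=
      fun i => reg1 (mem_FF.1 hu i) (congrFun huv i)
    choose w hw hw' using h2
    have hwF : w ∈ FF k a (t - 1) := mem_FF.2 fun i => by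
      rw [show t - 1 - a i = t - a i - 1 by ring]; exact hw i
    have huw : u = (MvPolynomial.X 0 : A3 k) • w := funext hw'
    refine ⟨w, ⟨hwF, ?_⟩, huw⟩
    have h4 : π u = 0 := hu'
    rw [huw, piE_smul] at h4
    exact h0 (h4.trans (map_zero _).symm)) (by
    rintro t u ⟨hu, hu'⟩ v₀ _ v₁ _ huv
    have h2 : ∀ i, ∃ w₀ ∈ Hom3 k (t - a i - 1), ∃ w₁ ∈ Hom3 k (t - a i - 1),
        u i = MvPolynomial.X 0 * w₀ + MvPolynomial.X 1 * w₁ :=
      fun i => reg2 (mem_FF.1 hu i) (congrFun huv i)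
    choose w₀ hw₀ w₁ hw₁ hw' using h2
    have hF₀ : w₀ ∈ FF k a (t - 1) := mem_FF.2 fun i => by
      rw [show t - 1 - a i = t - a i - 1 by ring]; exact hw₀ i
    have hF₁ : w₁ ∈ FF k a (t - 1) := mem_FF.2 fun i => by
      rw [show t - 1 - a i = t - a i - 1 by ring]; exact hw₁ i
    have huw : u = (MvPolynomial.X 0 : A3 k) • w₀ + (MvPolynomial.X 1 : A3 k) • w₁ := funext hw'
    have h4 : π u = 0 := hu'
    rw [huw, map_add, piE_smul, piE_smul] at h4
    obtain ⟨c, hcE, hc1⟩ := h1 (t - 1) (π w₁) (hπF _ _ hF₁) (-π w₀)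
      (Submodule.neg_mem _ (hπF _ _ hF₀)) (by
        rw [map_neg]
        exact eq_neg_of_add_eq_zero_right h4)
    obtain ⟨z, hz, rfl⟩ := hlift _ c hcE
    have hz0 := smul_FF 0 hz
    have hz1 := smul_FF 1 hz
    rw [sub_add_cancel] at hz0 hz1
    refine ⟨w₀ + (MvPolynomial.X 1 : A3 k) • z, ⟨Submodule.add_mem _ hF₀ hz1, ?_⟩,
      w₁ - (MvPolynomial.X 0 : A3 k) • z, ⟨Submodule.sub_mem _ hF₁ hz0, ?_⟩, ?_⟩
    · change π _ = 0
      apply h0
      change ev (MvPolynomial.X 0) _ = ev (MvPolynomial.X 0) 0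
      have h5 : π w₁ = ev (MvPolynomial.X 0) (π z) := hc1
      have h6 : ev (MvPolynomial.X 0) (ev (MvPolynomial.X 1) (π z)) =
          ev (MvPolynomial.X 1) (ev (MvPolynomial.X 0) (π z)) :=
        LinearMap.congr_fun (hc 0 1).eq _
      rw [map_add, piE_smul, map_add, map_zero, h6, ← h5]
      exact h4
    · change π _ = 0
      have h5 : π w₁ = ev (MvPolynomial.X 0) (π z) := hc1
      rw [map_sub, piE_smul, h5, sub_self]
    · rw [huw, hev', hev', smul_add, smul_sub, smul_smul, smul_smul, mul_comm]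
      abel)
  have hdimK : ∀ t, (finrank k (K t) : ℚ) = ∑ l, Bp (t - b l) := by
    intro t
    have := zero_of_diff (u := fun t => (finrank k (K t) : ℚ) - ∑ l, Bp (t - b l)) (t₀ := t₀) (by
      intro t ht
      rw [hKb t ht, finrank_bot, Nat.cast_zero, zero_sub, neg_eq_zero]
      refine Finset.sum_eq_zero fun l _ => ?_
      have := hb' l
      exact if_neg (by omega)) (by
      intro t
      have h4 := h3 t
      rw [← hcount t] at h4
      have h5 : ∑ l, (if t - b l = 0 then (1 : ℚ) else 0) = ∑ l, Bp (t - b l) -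
          3 * ∑ l, Bp (t - 1 - b l) + 3 * ∑ l, Bp (t - 2 - b l) - ∑ l, Bp (t - 3 - b l) := by
        rw [Finset.mul_sum, Finset.mul_sum, ← Finset.sum_sub_distrib, ← Finset.sum_add_distrib,
          ← Finset.sum_sub_distrib]
        refine Finset.sum_congr rfl fun l _ => ?_
        rw [← Bp_diff, show t - 1 - b l = t - b l - 1 by ring,
          show t - 2 - b l = t - b l - 2 by ring, show t - 3 - b l = t - b l - 3 by ring]
      linarith) t
    linarith
  have hdimE : ∀ t, (finrank k (E t) : ℚ) = ∑ i, Bp (t - a i) - ∑ l, Bp (t - b l) := by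
    intro t
    have := (FF_fin (k := k) a t).1
    have h4 := finrank_map_add_inf_ker π (FF k a t)
    rw [← hEeq t] at h4
    have h5 : (finrank k (E t) : ℚ) + finrank k (K t) = finrank k (FF k a t) := by
      exact_mod_cast h4
    rw [(FF_fin a t).2, hdimK] at h5
    linarith
  obtain ⟨α₁, β₁, γ₁, hP₁⟩ := sum_Bq a
  obtain ⟨α₂, β₂, γ₂, hP₂⟩ := sum_Bq b
  refine ⟨α₁ - α₂, β₁ - β₂, γ₁ - γ₂, ?_, fun m hm => ?_⟩
  · obtain ⟨b₁, hb₁⟩ := (Set.finite_range a).bddAbove
    obtain ⟨b₂, hb₂⟩ := (Set.finite_range b).bddAbove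
    filter_upwards [eventually_ge_atTop b₁, eventually_ge_atTop b₂] with t ht₁ ht₂
    have e1 : ∑ i, Bp (t - a i) = ∑ i, Bq ((t - a i : ℤ) : ℚ) := by
      refine Finset.sum_congr rfl fun i _ => ?_
      have : a i ≤ b₁ := hb₁ ⟨i, rfl⟩
      exact if_pos (by omega)
    have e2 : ∑ l, Bp (t - b l) = ∑ l, Bq ((t - b l : ℤ) : ℚ) := by
      refine Finset.sum_congr rfl fun l _ => ?_
      have : b l ≤ b₂ := hb₂ ⟨l, rfl⟩
      exact if_pos (by omega)
    rw [hdimE, e1, e2, hP₁, hP₂]
    ring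
  · have e1 : ∑ i, Bq ((m - a i : ℤ) : ℚ) = ∑ i, Bp (m - a i) + ∑ i, Bp (-m - 3 - -a i) := by
      rw [← Finset.sum_add_distrib]
      refine Finset.sum_congr rfl fun i _ => ?_
      rw [Bq_eq, show -(m - a i) - 3 = -m - 3 - -a i by ring]
    have e2 : ∑ l, Bq ((m - b l : ℤ) : ℚ) = ∑ l, Bp (m - b l) + ∑ l, Bp (-m - 3 - -b l) := by
      rw [← Finset.sum_add_distrib]
      refine Finset.sum_congr rfl fun l _ => ?_
      rw [Bq_eq, show -(m - b l) - 3 = -m - 3 - -b l by ring]
    have hpair : ∀ t, ∀ p ∈ FF k a t, ∀ f ∈ FF k (fun i => -a i) (-m - 3),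
        pairing f p ∈ Hom3 k (t + (-m - 3)) := by
      intro t p hp f hf
      rw [pairing_apply]
      refine Submodule.sum_mem _ fun i _ => ?_
      have := mul_Hom3 (mem_FF.1 hp i) (mem_FF.1 hf i)
      rwa [show t - a i + (-m - 3 - -a i) = t + (-m - 3) by ring] at this
    let Φ : FF k (fun i => -a i) (-m - 3) →ₗ[k] FF k (fun l => -b l) (-m - 3) :=
      ((LinearMap.pi fun l => pairing (κ l)).domRestrict _).codRestrict _ (by
        intro f
        rw [mem_FF]
        intro l
        have := hpair _ _ (hκ l).1 f f.2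
        rw [pairing_comm, show b l + (-m - 3) = -m - 3 - -b l by ring] at this
        exact this)
    have hΦ : Function.Injective Φ := by
      rw [injective_iff_map_eq_zero]
      intro f hf
      have hfκ : ∀ l, pairing (f : I → A3 k) (κ l) = 0 := fun l => by
        rw [pairing_comm]
        exact congrFun (congrArg Subtype.val hf) l
      have hdesc : ∀ t, ∃ φ : X →ₗ[k] A3 k, ∀ p ∈ FF k a t, φ (π p) = pairing (f : I → A3 k) p := by
        intro t
        refine exists_desc _ _ _ fun p hp hp0 => ?_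
        have h4 : p ∈ K t := ⟨hp, hp0⟩
        rw [hKeq t] at h4
        obtain ⟨q, _, rfl⟩ := h4
        rw [piE_apply, map_sum]
        refine Finset.sum_eq_zero fun l _ => ?_
        rw [hev', pairing_smul, hfκ, mul_zero]
      choose φ hφ using hdesc
      have hz := hm φ (by
        intro t x hx
        obtain ⟨p, hp, rfl⟩ := hlift t x hx
        rw [hφ t p hp]
        exact hpair t p hp f f.2) (by
        intro t i x hx
        obtain ⟨p, hp, rfl⟩ := hlift t x hx
        have h4 := hφ (t + 1) _ (smul_FF i hp)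
        rw [piE_smul, pairing_smul] at h4
        rw [hφ t p hp]
        exact h4)
      refine Subtype.ext (funext fun i => ?_)
      have hs : (Pi.single i 1 : I → A3 k) ∈ FF k a (a i) := by
        rw [mem_FF]
        intro j
        by_cases hj : j = i
        · subst hj
          rw [Pi.single_eq_same, sub_self]
          have e0 := Hom3_nat (k := k) 0
          rw [Nat.cast_zero] at e0
          rw [e0]
          exact isHomogeneous_one _ _
        · rw [Pi.single_eq_of_ne hj]
          exact Submodule.zero_mem _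
      have h4 := hz (a i) _ (hπF _ _ hs)
      rw [hφ _ _ hs, pairing_apply, Finset.sum_eq_single i] at h4
      · simpa using h4
      · intro j _ hj
        rw [Pi.single_eq_of_ne hj, zero_mul]
      · simp
    have hfd := (FF_fin (k := k) (fun l => -b l) (-m - 3)).1
    have h4 := LinearMap.finrank_le_finrank_of_injective hΦ
    have h5 : (finrank k (FF k (fun i => -a i) (-m - 3)) : ℚ) ≤
      finrank k (FF k (fun l => -b l) (-m - 3)) := by exact_mod_cast h4
    rw [(FF_fin _ _).2, (FF_fin _ _).2] at h5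
    have h6 := hP₁ m
    have h7 := hP₂ m
    rw [hdimE]
    linarith

end Vale.Agent.P190
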