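import Vale.Agent.P190.DualA
import Vale.Agent.P190.Resol

/-! P190 job Dual: a map to the polynomial ring gives a rank one quotient of bounded degree. -/

namespace Vale.Agent.P190
open MvPolynomial Module Filter

variable {k : Type} [Field k] {ι : Type} [Fintype ι]

/-- a uniformly bounded generic basis over the parameters -/
theorem IsSop.basis {y : Fin 3 → K k} (hy : IsSop y)
    (hi : ∀ (t : ℤ) (P : A3 k), P ∈ Hom3 k t → aeval y P = 0 → P = 0) :
    ∃ ρ : Fin 5 → K k, (∀ i, ρ i ∈ LL k ((88 : ℤ) • (1 : Dv))) ∧ ∀ f : K k,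
      ∃ (t : ℤ) (P : A3 k) (Q : Fin 5 → A3 k), P ≠ 0 ∧ P ∈ Hom3 k t ∧ (∀ i, Q i ∈ Hom3 k t) ∧
        aeval y P * f = ∑ i, aeval y (Q i) * ρ i :=
  DualH.basis' hy hi

namespace DualH

theorem ray_smul {y : Fin 3 → K k} (hy : IsSop y) {lam : ι → Dv} {V : Submodule (K k) (ι → K k)}
    {b : Dv} {s t : ℤ} {P : A3 k} (hP : P ∈ Hom3 k s) {e : ι → K k} (he : e ∈ ray lam V b t) :
    aeval y P • e ∈ ray lam V b (t + s) := by
  have := EE_smul he (hy.aeval_mem hP)
  rwa [add_assoc, ← add_smul, ← mul_add] at this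

theorem compat {y : Fin 3 → K k} (hy : IsSop y) {lam : ι → Dv} {V : Submodule (K k) (ι → K k)}
    {b : Dv} {φ : ℤ → (ι → K k) →ₗ[k] A3 k}
    (hφ : ∀ t i, ∀ e ∈ ray lam V b t, φ (t + 1) (mulOp y i e) = X i * φ t e)
    {s : ℤ} {P : A3 k} (hP : P ∈ Hom3 k s) {t : ℤ} {e : ι → K k} (he : e ∈ ray lam V b t) :
    φ (t + s) (aeval y P • e) = P * φ t e := by
  rcases lt_or_ge s 0 with hs | hs
  · rw [SeqH.Hom3_neg hs, Submodule.mem_bot] at hP
    simp [hP]
  induction s, hs using Int.leInduction generalizing P with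
  | base =>
    have e0 := SeqH.Hom3_nat (k := k) 0
    rw [Nat.cast_zero, MvPolynomial.homogeneousSubmodule_zero] at e0
    rw [e0, Submodule.mem_one] at hP
    obtain ⟨c, rfl⟩ := hP
    rw [add_zero, AlgHom.commutes, algebraMap_smul, map_smul, Algebra.smul_def]
  | succ s hs ih =>
    obtain ⟨q, hq, rfl⟩ := Hom3_gen hs hP
    rw [map_sum, Finset.sum_smul, map_sum, Finset.sum_mul]
    refine Finset.sum_congr rfl fun i _ => ?_
    rw [map_mul, aeval_X, mul_smul, ← add_assoc, ← mulOp_apply, hφ _ _ _ (ray_smul hy (hq i) he),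
      ih (hq i), mul_assoc]

theorem exists_form_ray {y : Fin 3 → K k} (hy : IsSop y) (lam : ι → Dv)
    {V : Submodule (K k) (ι → K k)} (b : Dv) (t : ℤ) {w : ι → K k} (hw : w ∈ V) :
    ∃ (s : ℤ) (P : A3 k), P ≠ 0 ∧ P ∈ Hom3 k s ∧ aeval y P • w ∈ ray lam V b (t + s) := by
  obtain ⟨x, hx, hx0, m, hm⟩ := exists_mul_mem lam w
  obtain ⟨m', hm'⟩ := exists_LL hx
  let a : Dv := ((m' : ℤ) • (1 : Dv)) ⊔ ((m : ℤ) • (1 : Dv) - (b + (11 * t) • C0))
  obtain ⟨s, P, h0, hP, g, hg, h⟩ := hy.norm (LL_mono (le_sup_left : _ ≤ a) hm') hx0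
  refine ⟨s, P, h0, hP, ?_⟩
  have h1 : x • w ∈ EE lam V ((m : ℤ) • (1 : Dv)) := ⟨V.smul_mem x hw, hm⟩
  have h2 := EE_smul (EE_mono lam V (sub_le_iff_le_add.1 (le_sup_right : _ ≤ a)) h1) hg
  rw [h, mul_smul]
  have e : a + (b + (11 * t) • C0) + ((11 * s) • C0 - a) = b + (11 * (t + s)) • C0 := by
    rw [mul_add, add_smul]; abel
  rwa [e] at h2

/-- the largest subspace killed by a compatible family -/
def Wk {y : Fin 3 → K k} (hy : IsSop y) (lam : ι → Dv) (V : Submodule (K k) (ι → K k)) (b : Dv)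
    (φ : ℤ → (ι → K k) →ₗ[k] A3 k)
    (hφ : ∀ t i, ∀ e ∈ ray lam V b t, φ (t + 1) (mulOp y i e) = X i * φ t e) :
    Submodule (K k) (ι → K k) where
  carrier := {v | v ∈ V ∧ ∀ (x : K k) (t : ℤ), x • v ∈ ray lam V b t → φ t (x • v) = 0}
  zero_mem' := ⟨zero_mem _, fun x t _ => by simp⟩
  smul_mem' := by
    rintro c v ⟨hv, h⟩
    refine ⟨V.smul_mem c hv, fun x t hx => ?_⟩
    rw [← mul_smul] at hx ⊢
    exact h _ t hx
  add_mem' := by
    rintro v v' ⟨hv, h⟩ ⟨hv', h'⟩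
    refine ⟨add_mem hv hv', fun x t hx => ?_⟩
    obtain ⟨s, P, h0, hP, h1⟩ := exists_form_ray hy lam b t (V.smul_mem x hv)
    have h2 := ray_smul hy hP hx
    have h3 : aeval y P • x • v' ∈ ray lam V b (t + s) := by
      have := sub_mem h2 h1
      rwa [smul_add, smul_add, add_sub_cancel_left] at this
    have h4 := compat hy hφ hP hx
    rw [← mul_smul] at h1 h3
    rw [smul_add, smul_add, map_add, ← mul_smul, ← mul_smul, h _ _ h1, h' _ _ h3, add_zero,
      ← smul_add] at h4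
    exact (mul_eq_zero.1 h4.symm).resolve_left h0

theorem mem_Wk {y : Fin 3 → K k} (hy : IsSop y) {lam : ι → Dv} {V : Submodule (K k) (ι → K k)}
    {b : Dv} {φ : ℤ → (ι → K k) →ₗ[k] A3 k}
    (hφ : ∀ t i, ∀ e ∈ ray lam V b t, φ (t + 1) (mulOp y i e) = X i * φ t e)
    {ρ : Fin 5 → K k} (hρ : ∀ f : K k,
      ∃ (t : ℤ) (P : A3 k) (Q : Fin 5 → A3 k), P ≠ 0 ∧ P ∈ Hom3 k t ∧ (∀ i, Q i ∈ Hom3 k t) ∧
        aeval y P * f = ∑ i, aeval y (Q i) * ρ i) {w : K k} (hw : w ≠ 0) {v : ι → K k} (hv : v ∈ V)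
    {t' : ℤ} (h1 : ∀ i, (w * ρ i) • v ∈ ray lam V b t') (h2 : ∀ i, φ t' ((w * ρ i) • v) = 0) :
    v ∈ Wk hy lam V b φ hφ := by
  refine ⟨hv, fun x t hx => ?_⟩
  obtain ⟨n, hn⟩ : ∃ n : ℕ, t + n = max t t' := ⟨(max t t' - t).toNat, by omega⟩
  obtain ⟨n', hn'⟩ : ∃ n' : ℕ, t' + n' = max t t' := ⟨(max t t' - t').toNat, by omega⟩
  obtain ⟨s, P, Q, h0, hP, hQ, h⟩ := hρ (x * y 0 ^ n / (w * y 0 ^ n'))
  have hy0 := hy.ne
  have h3 : aeval y (X 0 ^ n * P) * x = ∑ i, aeval y (X 0 ^ n' * Q i) * (w * ρ i) := by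
    have : aeval y (X 0 ^ n * P) * x = w * y 0 ^ n' * (aeval y P * (x * y 0 ^ n / (w * y 0 ^ n'))) := by
      rw [map_mul, map_pow, aeval_X]
      field_simp
    rw [this, h, Finset.mul_sum]
    refine Finset.sum_congr rfl fun i _ => ?_
    rw [map_mul, map_pow, aeval_X]
    ring
  have h4 := compat hy hφ (mul_Hom3 (pow_mem_Hom3 0 n) hP) hx
  rw [← mul_smul, h3, Finset.sum_smul, map_sum, ← add_assoc, hn, ← hn', add_assoc] at h4
  have h5 : ∀ i ∈ (Finset.univ : Finset (Fin 5)),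
      φ (t' + (n' + s)) ((aeval y (X 0 ^ n' * Q i) * (w * ρ i)) • v) = 0 := by
    intro i _
    rw [mul_smul, compat hy hφ (mul_Hom3 (pow_mem_Hom3 0 n') (hQ i)) (h1 i), h2, mul_zero]
  rw [Finset.sum_eq_zero h5] at h4
  exact (mul_eq_zero.1 h4.symm).resolve_left (mul_ne_zero (pow_ne_zero _ (X_ne_zero 0)) h0)

theorem abs_gam_le (c : Fin 5 → Fin 11) (e : Edge) : |gam c e| ≤ 50 := by
  rw [gam, Finset.sum_apply]
  refine (Finset.abs_sum_le_sum_abs _ _).trans ?_
  have : ∀ i ∈ (Finset.univ : Finset (Fin 5)), |(((c i : ℕ) : ℤ) • gb 1 i) e| ≤ 10 := by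
    intro i _
    rw [Pi.smul_apply, smul_eq_mul, abs_mul]
    have h1 := abs_gb_le 1 i e
    have h2 : |((c i : ℕ) : ℤ)| ≤ 10 := by
      have := (c i).2
      rw [abs_le]; omega
    nlinarith [abs_nonneg (gb 1 i e), abs_nonneg ((c i : ℕ) : ℤ)]
  simpa using Finset.sum_le_sum this

theorem exists_unit {n : ℤ} (hn : 286 ≤ n) {g : Dv} (hg : g ∈ Gam) :
    ∃ w : K k, w ≠ 0 ∧ ∀ r ∈ LL k ((88 : ℤ) • (1 : Dv)), w * r ∈ LL k (n • C0 + g) := by
  obtain ⟨c, d, hd, rfl⟩ := exists_gam hg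
  have hmem : (13 : ℤ) • ((1 : Dv) - (2 : ℤ) • C0) - d ∈ Gam :=
    sub_mem (zsmul_mem one_sub_mem 13) hd
  refine ⟨gu k _, gu_ne_zero _, fun r hr => (LL_per hmem).1 (LL_mono (fun e => ?_) hr)⟩
  have h1 := abs_le.1 (abs_gam_le c e)
  simp only [Pi.add_apply, Pi.smul_apply, Pi.sub_apply, Pi.one_apply, smul_eq_mul]
  rcases Cp_cases 1 e with h | h <;> rw [C0, h] <;> omega

theorem rank_le {X Y : Type*} [AddCommGroup X] [Module k X] [AddCommGroup Y] [Module k Y]
    (U W : Submodule k X) [FiniteDimensional k U] [FiniteDimensional k W] (H : Submodule k Y)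
    [FiniteDimensional k H] (T : Fin 5 → X →ₗ[k] Y) (h1 : ∀ i, ∀ u ∈ U, T i u ∈ H)
    (h2 : ∀ u ∈ U, (∀ i, T i u = 0) → u ∈ W) :
    finrank k U ≤ finrank k W + 5 * finrank k H := by
  let T' : U →ₗ[k] (Fin 5 → H) :=
    LinearMap.pi fun i => ((T i).domRestrict U).codRestrict H fun u => h1 i u u.2
  have e1 := LinearMap.finrank_range_add_finrank_ker T'
  have e2 : finrank k (LinearMap.range T') ≤ 5 * finrank k H := by
    have := Submodule.finrank_le (LinearMap.range T')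
    rwa [Module.finrank_pi_fintype, Finset.sum_const, Finset.card_univ, Fintype.card_fin,
      smul_eq_mul] at this
  have e3 : finrank k (LinearMap.ker T') ≤ finrank k W := by
    rw [← Submodule.finrank_map_subtype_eq]
    refine Submodule.finrank_mono ?_
    rintro _ ⟨u, hu, rfl⟩
    exact h2 u u.2 fun i => congrArg Subtype.val (congrFun (LinearMap.mem_ker.1 hu) i)
  omega

end DualH

open DualH in
theorem dual_quot [Infinite k] {y : Fin 3 → K k} (hy : IsSop y) (lam : ι → Dv)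
    (V : Submodule (K k) (ι → K k)) (m : ℤ) {g : Dv} (hg : g ∈ Gam) (j : ℤ)
    (h : ¬ NoDual (mulOp y) (ray lam V (m • C0 + g)) j) :
    ∃ W, W ≤ V ∧ rk V = rk W + 1 ∧ deg lam V - deg lam W ≤ 6655 * (11 * j - m + 1000) := by
  unfold NoDual at h
  push Not at h
  obtain ⟨φ, hj, hφ, t₀, e₀, he₀, hne⟩ := h
  have hi : ∀ (t : ℤ) (P : A3 k), P ∈ Hom3 k t → aeval y P = 0 → P = 0 := by
    intro t P hP h0
    have := compat hy hφ hP he₀
    rw [h0, zero_smul, map_zero] at this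
    exact (mul_eq_zero.1 this.symm).resolve_right hne
  obtain ⟨ρ, hρ, hρ'⟩ := hy.basis hi
  set W := Wk hy lam V (m • C0 + g) φ hφ with hW
  have hle : W ≤ V := fun v hv => hv.1
  have hlt : W < V := by
    refine lt_of_le_of_ne hle fun hh => hne ?_
    have h1 : e₀ ∈ W := by rw [hh]; exact he₀.1
    simpa using h1.2 1 t₀ (by simpa using he₀)
  have hr := rk_lt hlt
  have hD := (hasD_hh lam V).sub (hasD_hh lam W)
  let H : ℤ → ℚ := fun t => 6655 / 2 * ((t : ℚ) + (11 * j - m + 296) + 11) *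
    ((t : ℚ) + (11 * j - m + 296) + 22)
  have hH : HasD H 1 (6655 * (11 * j - m + 317)) := by
    refine ⟨|6655 / 2 * ((11 * j - m + 296 : ℚ) + 11) * ((11 * j - m + 296 : ℚ) + 22) - 61226|,
      Eventually.of_forall fun t => le_of_eq (congrArg _ ?_)⟩
    simp only [H, PP]
    push_cast
    ring
  have hev : ∀ᶠ t : ℤ in atTop, hh lam V t - hh lam W t ≤ H t + 0 := by
    filter_upwards [eventually_ge_atTop (m - 286 - 11 * j)] with t ht
    obtain ⟨t', h1, h2⟩ : ∃ t' : ℤ, 286 ≤ m + 11 * t' - t ∧ m + 11 * t' - t ≤ 296 :=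
      ⟨(t - m + 296) / 11, by omega, by omega⟩
    have key : ∀ c ∈ (Finset.univ : Finset (Fin 5 → Fin 11)),
        (finrank k (EE lam V (0 + t • C0 + gam c)) : ℚ) - finrank k (EE lam W (0 + t • C0 + gam c))
          ≤ 5 * Bq ((t' + j : ℤ) : ℚ) := by
      intro c _
      obtain ⟨w, hw, hw'⟩ := exists_unit (k := k) h1 (sub_mem hg (gam_mem c))
      have h3 : ∀ i, ∀ v ∈ EE lam V (0 + t • C0 + gam c),
          (w * ρ i) • v ∈ ray lam V (m • C0 + g) t' := by
        intro i v hv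
        have := EE_smul hv (hw' _ (hρ i))
        have e : 0 + t • C0 + gam c + ((m + 11 * t' - t) • C0 + (g - gam c)) =
            m • C0 + g + (11 * t') • C0 := by
          rw [sub_smul, add_smul]; abel
        rwa [e] at this
      have h4 := rank_le (EE lam V (0 + t • C0 + gam c)) (EE lam W (0 + t • C0 + gam c))
        (Hom3 k (t' + j))
        (fun i => (φ t').comp ((LinearMap.lsmul (K k) (ι → K k) (w * ρ i)).restrictScalars k))
        (fun i v hv => hj t' _ (h3 i v hv))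
        (fun v hv h5 => ⟨mem_Wk hy hφ hρ' hw hv.1 (fun i => h3 i v hv) h5, hv.2⟩)
      have h5 : (finrank k (EE lam V (0 + t • C0 + gam c)) : ℚ) ≤
          finrank k (EE lam W (0 + t • C0 + gam c)) + 5 * finrank k (Hom3 k (t' + j)) := by
        exact_mod_cast h4
      rw [finrank_Hom3, if_pos (by omega)] at h5
      linarith
    have h6 := Finset.sum_le_sum key
    rw [Finset.sum_sub_distrib, Finset.sum_const, Finset.card_univ, Fintype.card_pi,
      Finset.prod_const, Fintype.card_fin, Finset.card_univ, Fintype.card_fin, nsmul_eq_mul] at h6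
    refine le_trans h6 ?_
    have h7 : (0 : ℚ) ≤ t' + j := by exact_mod_cast (by omega : 0 ≤ t' + j)
    have h8 : 11 * ((t' : ℚ) + j) ≤ t + (11 * j - m + 296) := by
      exact_mod_cast (by omega : 11 * (t' + j) ≤ t + (11 * j - m + 296))
    simp only [H, Bq]
    push_cast
    nlinarith
  rcases hD.le hH 0 hev with h1 | ⟨h1, h2⟩
  · omega
  · exact ⟨W, hle, by omega, by omega⟩

end Vale.Agent.P190
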