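import Vale.Agent.P190.Gap
import Vale.Agent.P190.Dual

/-! P190 job BogP: Bogomolov inequality in characteristic p with an error term. -/

namespace Vale.Agent.P190
open MvPolynomial Module Filter

namespace BogH

variable {k : Type} [Field k] {ι : Type} [Fintype ι]

omit [Fintype ι] in
theorem mulOp_comm (y : Fin 3 → K k) (i j : Fin 3) :
    Commute (mulOp (ι := ι) y i) (mulOp y j) := by
  refine LinearMap.ext fun v => ?_
  simp only [Module.End.mul_apply, mulOp_apply, smul_smul, mul_comm]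

theorem PP_sub (r d : ℤ) (m t : ℤ) (x : ℚ) :
    (r : ℚ) * PP ((m + 11 * t : ℤ) : ℚ) + d * ((m + 11 * t : ℤ) : ℚ) + x =
      (r * 6655 * 121 / 2) * (t : ℚ) ^ 2 + (r * 6655 * 11 * (2 * m - 9) / 2 + 11 * d) * t +
        (r * PP m + d * m + x) := by
  simp only [PP]
  push_cast
  ring

/-- the value of the Hilbert polynomial is bounded by the Hilbert function -/
theorem poly_le [Infinite k] {y : Fin 3 → K k} (hy : IsSop y) (lam : ι → Dv)
    (V : Submodule (K k) (ι → K k)) (m : ℤ)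
    (hd : ∀ c, NoDual (mulOp y) (ray lam V (m • C0 + gam c)) (-3)) (x : ℚ)
    (hx : ∀ᶠ t : ℤ in atTop, rk V * PP t + deg lam V * (t : ℚ) + x ≤ hh lam V t) :
    rk V * PP m + deg lam V * (m : ℚ) + x ≤ hh lam V m := by
  have key : ∀ c : Fin 5 → Fin 11, ∃ a b e : ℚ,
      EvQ (fun t => (finrank k (ray lam V (m • C0 + gam c) t) : ℚ)) a b e ∧
        e ≤ finrank k (EE lam V (0 + m • C0 + gam c)) := by
    intro c
    obtain ⟨a, b, e, h1, h2⟩ := resol (mulOp_comm y) (hy.closed lam V (m • C0 + gam c))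
      (hy.gen_ray lam V _) (fun t => EE_fd lam V _) (ray_bot lam V _)
      (fun u v huv => smul_right_injective (ι → K k) hy.ne huv) (hy.ray_s2 lam V _)
    refine ⟨a, b, e, h1, ?_⟩
    have h3 := h2 0 (by simpa using hd c)
    have e0 : ray lam V (m • C0 + gam c) 0 = EE lam V (0 + m • C0 + gam c) := by
      simp [ray]
    rw [e0] at h3
    simpa using h3
  choose a b e h1 h2 using key
  have hs : ∀ᶠ t : ℤ in atTop, hh lam V (m + 11 * t) =
      (∑ c, a c) * (t : ℚ) ^ 2 + (∑ c, b c) * t + ∑ c, e c := by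
    filter_upwards [eventually_all.2 h1] with t ht
    rw [Finset.sum_mul, Finset.sum_mul, ← Finset.sum_add_distrib, ← Finset.sum_add_distrib, hh, sumS]
    refine Finset.sum_congr rfl fun c _ => ?_
    rw [← ht c, ray]
    have e0 : 0 + (m + 11 * t) • C0 + gam c = m • C0 + gam c + (11 * t) • C0 := by
      rw [add_smul]; abel
    rw [e0]
  have htend : Tendsto (fun t : ℤ => m + 11 * t) atTop atTop :=
    tendsto_atTop_add_const_left _ _ (tendsto_id.const_mul_atTop' (by norm_num))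
  obtain ⟨C, hC⟩ := hasD_hh lam V
  have q1 := quad_le (a := rk V * 6655 * 121 / 2)
    (b := rk V * 6655 * 11 * (2 * m - 9) / 2 + 11 * deg lam V)
    (c := rk V * PP m + deg lam V * (m : ℚ) + x) (a' := ∑ c, a c) (b' := ∑ c, b c)
    (c' := ∑ c, e c) (by
      filter_upwards [hs, htend.eventually hx] with t h3 h4
      rw [← h3, ← PP_sub]
      exact h4)
  have q2 := quad_le (a' := rk V * 6655 * 121 / 2)
    (b' := rk V * 6655 * 11 * (2 * m - 9) / 2 + 11 * deg lam V)
    (c' := rk V * PP m + deg lam V * (m : ℚ) + C) (a := ∑ c, a c) (b := ∑ c, b c)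
    (c := ∑ c, e c) (by
      filter_upwards [hs, htend.eventually hC] with t h3 h4
      rw [← h3, ← PP_sub]
      linarith [(abs_le.1 h4).2])
  have h5 : ∑ c, e c ≤ hh lam V m := Finset.sum_le_sum fun c _ => h2 c
  rcases q1 with q | ⟨q₀, q | ⟨-, q⟩⟩
  · rcases q2 with q' | ⟨q', -⟩ <;> linarith
  · rcases q2 with q' | ⟨-, q' | ⟨q', -⟩⟩ <;> linarith
  · linarith

theorem EE_grow (lam : ι → Dv) (W : Submodule (K k) (ι → K k)) (g : Dv) (t₀ M : ℤ)
    (h0 : EE lam W (t₀ • C0 + g) = ⊥) (n : ℕ)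
    (hM : ∀ j, ∀ t, t₀ ≤ t → t ≤ t₀ + n → nrm (lam j + (t • C0 + g)) ≤ M) :
    (finrank k (EE lam W ((t₀ + n) • C0 + g)) : ℤ) ≤ n * (Fintype.card ι * (5 * (M + 10))) := by
  induction n with
  | zero => rw [Nat.cast_zero, add_zero, h0]; simp
  | succ n ih =>
    have h1 := ih fun j t h1 h2 => hM j t h1 (by push_cast; omega)
    have h2 := EE_incr lam W ((t₀ + (n + 1 : ℕ)) • C0 + g)
    have e : (t₀ + (n + 1 : ℕ)) • C0 + g - C0 = (t₀ + n) • C0 + g := by
      push_cast
      rw [← add_assoc, add_smul (t₀ + n), one_smul]; abel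
    rw [e] at h2
    have h3 : ∑ j, 5 * (nrm (lam j + ((t₀ + (n + 1 : ℕ)) • C0 + g)) + 10) ≤
        ∑ _j : ι, 5 * (M + 10) := Finset.sum_le_sum fun j _ => by
      have := hM j (t₀ + (n + 1 : ℕ)) (by omega) le_rfl
      omega
    rw [Finset.sum_const, Finset.card_univ, nsmul_eq_mul] at h3
    push_cast at h1 h2 h3 ⊢
    nlinarith

theorem nrm_nonneg (a : Dv) : 0 ≤ nrm a := Finset.sum_nonneg fun _ _ => abs_nonneg _

end BogH

open BogH in
theorem bogP {ι : Type} [Fintype ι] (lam : ι → Dv) (d : ℤ) : ∃ C : ℚ,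
    ∀ (p : ℕ) [Fact p.Prime] (k : Type) [Field k] [IsAlgClosed k] [CharP k p]
      (V : Submodule (K k) (ι → K k)), 0 < rk V → deg lam V = d → SS lam ⊥ V →
      ∀ᶠ t : ℤ in atTop, hh lam V t ≤ rk V * PP t + d * ((t : ℚ) - 9 / 2) +
        (d : ℚ) ^ 2 / (2 * rk V * 6655) + C / p := by
  obtain ⟨n, hn⟩ : ∃ n : ℕ, n = Fintype.card ι := ⟨_, rfl⟩
  obtain ⟨B, hB⟩ : ∃ B : ℕ, B = 968 + 23 * n ^ 2 := ⟨_, rfl⟩
  obtain ⟨M, hM⟩ : ∃ M : ℤ, M = (∑ j, nrm (lam j)) + 5 * (|d| + 1 + B) + 510 := ⟨_, rfl⟩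
  refine ⟨161051 * (((2 * B : ℕ) : ℤ) * (n * (5 * M)) : ℤ) + 6156 * n, ?_⟩
  intro p hp k _ _ _ V hr hd hs
  obtain ⟨y, hy⟩ := exists_sop (k := k)
  obtain ⟨e, h1, h2⟩ := frob_e p lam V
  have hp1 : (1 : ℤ) ≤ p := by exact_mod_cast hp.out.one_le
  have hrn : rk V ≤ n := by rw [hn, ← rk_top (k := k)]; exact rk_mono le_top
  set lam' : ι → Dv := fun j => (p : ℤ) • lam j with hlam'
  set V' := frobS p V with hV'
  have hr' : rk V' = rk V := rk_frobS p V
  have hd' : deg lam' V' = p * d := by rw [← hd]; exact deg_frobS p lam V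
  have hgap : ∀ W, W ≤ V' → rk V * deg lam' W ≤ rk W * (p * d) + 146411 * rk V ^ 3 := by
    intro W hW
    rw [← hd]
    exact gap p lam hs hW
  set r := rk V with hrdef
  obtain ⟨q, hq1, hq2⟩ : ∃ q : ℤ, 0 ≤ p * d + 6655 * r * q ∧ p * d + 6655 * r * q < 6655 * r := by
    refine ⟨-((p * d) / (6655 * r)), ?_, ?_⟩
    · have := Int.emod_nonneg (p * d) (by omega : 6655 * r ≠ 0)
      rw [Int.emod_def] at this
      linarith
    · have := Int.emod_lt_of_pos (p * d) (by omega : 0 < 6655 * r)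
      rw [Int.emod_def] at this
      linarith
  have hr3 : 146411 * r ^ 3 ≤ 6655 * r * (23 * n ^ 2) := by
    have : r ^ 2 ≤ (n : ℤ) ^ 2 := pow_le_pow_left₀ hr.le hrn 2
    nlinarith [sq_nonneg r]
  have hBz : (B : ℤ) = 968 + 23 * (n : ℤ) ^ 2 := by rw [hB]; push_cast; ring
  have hq3 : |q| ≤ p * |d| + 1 := by
    have h3 := le_abs_self d
    have h4 := neg_abs_le d
    have h5 : p * d ≤ p * |d| := by nlinarith
    have h6 : -(p * |d|) ≤ p * d := by nlinarith
    have h7 : 0 ≤ p * |d| := by nlinarith [abs_nonneg d]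
    rw [abs_le]
    constructor
    · by_contra h8
      push Not at h8
      nlinarith
    · by_contra h8
      push Not at h8
      nlinarith
  have hnd : ∀ c, NoDual (mulOp y) (ray lam' V' ((q + B) • C0 + gam c)) (-3) := by
    intro c
    by_contra hc
    obtain ⟨W, hW, h3, h4⟩ := dual_quot hy lam' V' (q + B) (gam_mem c) (-3) hc
    have h5 := hgap W hW
    rw [hr'] at h3
    rw [hd'] at h4
    have h6 : rk W = r - 1 := by omega
    rw [h6] at h5
    have h7 := mul_le_mul_of_nonneg_left h4 hr.le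
    rw [hBz] at h7
    nlinarith
  have hbot : ∀ c, EE lam' V' ((q - B) • C0 + gam c) = ⊥ := by
    intro c
    rw [eq_bot_iff]
    intro v hv
    by_contra h0
    obtain ⟨h3, h4⟩ := deg_span_ge lam' hv.2 h0
    have h5 := hgap _ ((Submodule.span_singleton_le_iff_mem _ _).2 hv.1)
    rw [h3] at h5
    rw [dd, tot_add, tot_smul, C0, tot_Cp, tot_Gam (gam_mem c)] at h4
    have h7 := mul_le_mul_of_nonneg_left h4 hr.le
    rw [hBz] at h7
    nlinarith
  have hM0 : 0 ≤ ∑ j, nrm (lam j) := Finset.sum_nonneg fun j _ => nrm_nonneg _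
  have hup : hh lam' V' (q + B) ≤ 161051 * (((2 * B : ℕ) : ℤ) * (n * (5 * M)) : ℤ) * (p : ℚ) := by
    have key : ∀ c ∈ (Finset.univ : Finset (Fin 5 → Fin 11)),
        (finrank k (EE lam' V' (0 + (q + B) • C0 + gam c)) : ℚ) ≤
          (((2 * B : ℕ) : ℤ) * (n * (5 * M)) : ℤ) * (p : ℚ) := by
      intro c _
      have h3 := EE_grow lam' V' (gam c) (q - B) (p * M - 10) (hbot c) (2 * B) (by
        intro j t h3 h4
        have h5 := nrm_add (lam' j) (t • C0 + gam c)
        have h6 := nrm_add (t • C0) (gam c)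
        have h7 := nrm_gam c
        rw [nrm_smul, C0, nrm_Cp, ← C0] at h6
        have h8 : nrm (lam' j) = p * nrm (lam j) := by
          rw [hlam', nrm_smul, abs_of_nonneg (by omega)]
        have h9 : nrm (lam j) ≤ ∑ j, nrm (lam j) :=
          Finset.single_le_sum (f := fun j => nrm (lam j)) (fun _ _ => nrm_nonneg _)
            (Finset.mem_univ j)
        have h10 : |t| ≤ p * |d| + 1 + B := by
          have := abs_le.1 hq3
          push_cast at h4
          rw [abs_le]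
          constructor <;> linarith
        have h11 : (0 : ℤ) ≤ B := by omega
        rw [hM]
        nlinarith)
      have e : q - B + ((2 * B : ℕ) : ℤ) = q + B := by push_cast; ring
      rw [e, ← hn, sub_add_cancel] at h3
      rw [zero_add]
      have h4 : (finrank k (EE lam' V' ((q + B) • C0 + gam c)) : ℤ) ≤
          ((2 * B : ℕ) : ℤ) * (n * (5 * M)) * p := by linarith
      exact_mod_cast h4
    have h6 := Finset.sum_le_sum key
    rw [Finset.sum_const, Finset.card_univ, Fintype.card_pi,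
      Finset.prod_const, Fintype.card_fin, Finset.card_univ, Fintype.card_fin, nsmul_eq_mul] at h6
    refine le_trans h6 (le_of_eq ?_)
    push_cast
    ring
  have hlow := poly_le hy lam' V' (q + B) hnd ((p : ℚ) ^ 2 * e - p * d * (9 / 2)) (by
    filter_upwards [h2] with t ht
    rw [hr', hd']
    rw [hd] at ht
    push_cast
    linarith)
  rw [hr', hd'] at hlow
  have hrq : (0 : ℚ) < r := by exact_mod_cast hr
  have hrnq : (r : ℚ) ≤ n := by exact_mod_cast hrn
  have hpq : (1 : ℚ) ≤ p := by exact_mod_cast hp1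
  set X : ℚ := 161051 * (((2 * B : ℕ) : ℤ) * (n * (5 * M)) : ℤ) with hX
  have he : e ≤ (d : ℚ) ^ 2 / (2 * r * 6655) + (X + 6156 * n) / p := by
    have h3 : (p : ℚ) ^ 2 * e ≤ (p : ℚ) ^ 2 * ((d : ℚ) ^ 2 / (2 * r * 6655)) + (X + 6156 * n) * p := by
      obtain ⟨u, hu⟩ : ∃ u : ℚ, (d : ℚ) = r * 6655 * u := ⟨d / (r * 6655), by field_simp⟩
      have h4 : (d : ℚ) ^ 2 / (2 * r * 6655) = r * 6655 * u ^ 2 / 2 := by
        rw [hu]; field_simp
      rw [h4]
      generalize ((q + B : ℤ) : ℚ) = z at hlow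
      simp only [PP] at hlow
      push_cast at hlow
      rw [hu] at hlow
      have h5 : 0 ≤ (r : ℚ) * (z - 9 / 2 + p * u) ^ 2 := by positivity
      have h6 : (r : ℚ) ≤ n * p := by nlinarith
      nlinarith
    have hp0 : (0 : ℚ) < (p : ℚ) ^ 2 := by positivity
    have h4 : (X + 6156 * n) * p = (p : ℚ) ^ 2 * ((X + 6156 * n) / p) := by field_simp
    rw [h4, ← mul_add] at h3
    exact le_of_mul_le_mul_left h3 hp0
  filter_upwards [h1] with t ht
  rw [hd] at ht
  linarith

end Vale.Agent.P190
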