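import Vale.Agent.P190.Deg

/-! P190 job HN: reflexive hulls and the Harder-Narasimhan induction. -/

namespace Vale.Agent.P190
open MvPolynomial Module Filter

variable {k : Type} [Field k]

variable (k) in
/-- the Bogomolov type inequality over k -/
def Bog : Prop :=
  ∀ (ι : Type) [Fintype ι] (lam : ι → Dv) (V : Submodule (K k) (ι → K k)), 0 < rk V →
    SS lam ⊥ V → ∀ᶠ t : ℤ in atTop, hh lam V t ≤ rk V * PP t + deg lam V * ((t : ℚ) - 9 / 2) +
      (deg lam V : ℚ) ^ 2 / (2 * rk V * 6655) + 1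

variable {ι : Type} [Fintype ι]

set_option linter.unusedSectionVars false

section
variable {ι' : Type} [Fintype ι']

theorem HNH.rk_map (V : Submodule (K k) (ι → K k)) (T : (ι → K k) →ₗ[K k] (ι' → K k)) :
    rk V = rk (V ⊓ LinearMap.ker T) + rk (V.map T) := by
  have := DegH.rank_null T V
  unfold rk
  omega

theorem HNH.map_le {lam : ι → Dv} {lam' : ι' → Dv} {V : Submodule (K k) (ι → K k)}
    {T : (ι → K k) →ₗ[K k] (ι' → K k)} (hT : ∀ a, ∀ v ∈ EE lam V a, T v ∈ FF k lam' a) (a : Dv) :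
    (EE lam V a).map (T.restrictScalars k) ≤ EE lam' (V.map T) a := by
  rintro _ ⟨v, hv, rfl⟩
  exact ⟨⟨v, (mem_EE.mp hv).1, rfl⟩, hT a v hv⟩

theorem HNH.finrank_eq (lam : ι → Dv) (V : Submodule (K k) (ι → K k))
    (T : (ι → K k) →ₗ[K k] (ι' → K k)) (a : Dv) :
    finrank k ((EE lam V a).map (T.restrictScalars k)) +
      finrank k (EE lam (V ⊓ LinearMap.ker T) a) = finrank k (EE lam V a) := by
  have := DegH.rank_null (T.restrictScalars k) (EE lam V a)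
  rwa [DegH.EE_inf_ker] at this

theorem HNH.hh_map_le {lam : ι → Dv} {lam' : ι' → Dv} {V : Submodule (K k) (ι → K k)}
    {T : (ι → K k) →ₗ[K k] (ι' → K k)} (hT : ∀ a, ∀ v ∈ EE lam V a, T v ∈ FF k lam' a) (t : ℤ) :
    hh lam V t ≤ hh lam (V ⊓ LinearMap.ker T) t + hh lam' (V.map T) t := by
  unfold hh sumS
  rw [← Finset.sum_add_distrib]
  refine Finset.sum_le_sum fun c _ => ?_
  have h1 := HNH.finrank_eq lam V T (0 + t • C0 + gam c)
  have h2 := Submodule.finrank_mono (HNH.map_le hT (0 + t • C0 + gam c))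
  beta_reduce
  rw [← Nat.cast_add, Nat.cast_le]
  omega

theorem HNH.deg_map_le [Infinite k] {lam : ι → Dv} {lam' : ι' → Dv}
    {V : Submodule (K k) (ι → K k)} {T : (ι → K k) →ₗ[K k] (ι' → K k)}
    (hT : ∀ a, ∀ v ∈ EE lam V a, T v ∈ FF k lam' a) :
    deg lam V ≤ deg lam (V ⊓ LinearMap.ker T) + deg lam' (V.map T) := by
  have h1 := (hasD_hh lam (V ⊓ LinearMap.ker T)).add (hasD_hh lam' (V.map T))
  have h2 := (hasD_hh lam V).le h1 0 (Eventually.of_forall fun t => by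
    rw [add_zero]; exact HNH.hh_map_le hT t)
  have h3 := HNH.rk_map V T
  omega

/-- the defect of a subspace is at most the defect of the whole space -/
theorem HNH.defect [Infinite k] {lam : ι → Dv} {lam' : ι' → Dv}
    {V : Submodule (K k) (ι → K k)} {T : (ι → K k) →ₗ[K k] (ι' → K k)}
    (hT : ∀ a, ∀ v ∈ EE lam V a, T v ∈ FF k lam' a) {U : Submodule (K k) (ι' → K k)}
    (hU : U ≤ V.map T) :
    deg lam' U + deg lam V ≤ deg lam (V ⊓ U.comap T) + deg lam' (V.map T) := by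
  have e0 : (V ⊓ U.comap T).map T = U := by
    refine le_antisymm ?_ fun u hu => ?_
    · rintro _ ⟨v, hv, rfl⟩; exact hv.2
    · obtain ⟨v, hv, rfl⟩ := hU hu
      exact ⟨v, ⟨hv, hu⟩, rfl⟩
  have e1 : (V ⊓ U.comap T) ⊓ LinearMap.ker T = V ⊓ LinearMap.ker T := by
    refine le_antisymm (fun v hv => ⟨hv.1.1, hv.2⟩) fun v hv => ⟨⟨hv.1, ?_⟩, hv.2⟩
    show T v ∈ U
    rw [LinearMap.mem_ker.mp hv.2]; exact U.zero_mem
  have h1 := (hasD_hh lam' U).add (hasD_hh lam V)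
  have h2 := (hasD_hh lam (V ⊓ U.comap T)).add (hasD_hh lam' (V.map T))
  have h3 := h1.le h2 0 (Eventually.of_forall fun t => by
    rw [add_zero]
    unfold hh sumS
    rw [← Finset.sum_add_distrib, ← Finset.sum_add_distrib]
    refine Finset.sum_le_sum fun c _ => ?_
    beta_reduce
    generalize 0 + t • C0 + gam c = a
    have f1 := HNH.finrank_eq lam V T a
    have f2 := HNH.finrank_eq lam (V ⊓ U.comap T) T a
    rw [e1] at f2
    have f3 := Submodule.finrank_sup_add_finrank_inf_eq (EE lam' U a)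
      ((EE lam V a).map (T.restrictScalars k))
    have f4 : EE lam' U a ⊔ (EE lam V a).map (T.restrictScalars k) ≤ EE lam' (V.map T) a :=
      sup_le (fun u hu => mem_EE.mpr ⟨hU (mem_EE.mp hu).1, (mem_EE.mp hu).2⟩) (HNH.map_le hT a)
    have f5 : EE lam' U a ⊓ (EE lam V a).map (T.restrictScalars k) ≤
        (EE lam (V ⊓ U.comap T) a).map (T.restrictScalars k) := by
      rintro _ ⟨hu, v, hv, rfl⟩
      exact ⟨v, mem_EE.mpr ⟨⟨(mem_EE.mp hv).1, (mem_EE.mp hu).1⟩, (mem_EE.mp hv).2⟩, rfl⟩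
    have f6 := Submodule.finrank_mono f4
    have f7 := Submodule.finrank_mono f5
    rw [← Nat.cast_add, ← Nat.cast_add, Nat.cast_le]
    omega)
  have r1 := HNH.rk_map V T
  have r2 := HNH.rk_map (V ⊓ U.comap T) T
  rw [e0, e1] at r2
  omega

/-- the new coordinates in the hull construction -/
noncomputable def HNH.newMap {m : ℕ} (φ : (ι → K k) →ₗ[K k] K k) (w : Fin m → ι → K k)
    (Θ : (ι → K k) →ₗ[K k] (ι' → K k)) : (ι → K k) →ₗ[K k] (Option (Fin m × ι') → K k) where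
  toFun v o := match o with
    | none => φ v
    | some p => Θ (φ (w p.1) • v - φ v • w p.1) p.2
  map_add' u v := by
    funext o
    rcases o with _ | p
    · simp
    · have e : φ (w p.1) • (u + v) - φ (u + v) • w p.1 =
          (φ (w p.1) • u - φ u • w p.1) + (φ (w p.1) • v - φ v • w p.1) := by
        rw [map_add, smul_add, add_smul]; abel
      show Θ (φ (w p.1) • (u + v) - φ (u + v) • w p.1) p.2 = _
      rw [e, map_add]; rfl
  map_smul' c v := by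
    funext o
    rcases o with _ | p
    · simp
    · have e : φ (w p.1) • (c • v) - φ (c • v) • w p.1 =
          c • (φ (w p.1) • v - φ v • w p.1) := by
        rw [map_smul, smul_sub, smul_comm c, smul_eq_mul, mul_smul]
      show Θ (φ (w p.1) • (c • v) - φ (c • v) • w p.1) p.2 = _
      rw [e, map_smul]; rfl

theorem HNH.newMap_none {m : ℕ} (φ : (ι → K k) →ₗ[K k] K k) (w : Fin m → ι → K k)
    (Θ : (ι → K k) →ₗ[K k] (ι' → K k)) (v : ι → K k) : HNH.newMap φ w Θ v none = φ v := rfl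

theorem HNH.newMap_some {m : ℕ} (φ : (ι → K k) →ₗ[K k] K k) (w : Fin m → ι → K k)
    (Θ : (ι → K k) →ₗ[K k] (ι' → K k)) (v : ι → K k) (p : Fin m × ι') :
    HNH.newMap φ w Θ v (some p) = Θ (φ (w p.1) • v - φ v • w p.1) p.2 := rfl

theorem HNH.newMap_ker {m : ℕ} (φ : (ι → K k) →ₗ[K k] K k) (w : Fin m → ι → K k)
    (Θ : (ι → K k) →ₗ[K k] (ι' → K k)) {v : ι → K k} (hv : φ v = 0) (p : Fin m × ι') :
    HNH.newMap φ w Θ v (some p) = φ (w p.1) * Θ v p.2 := by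
  rw [HNH.newMap_some, hv, zero_smul, sub_zero, map_smul]; rfl

theorem HNH.step [Infinite k] (lam : ι → Dv) {W₀ W₁ : Submodule (K k) (ι → K k)}
    (φ : (ι → K k) →ₗ[K k] K k) {b : Dv} (hb : ∀ a, ∀ v ∈ EE lam W₁ a, φ v ∈ LL k (b + a))
    {m : ℕ} {al : Fin m → Dv} {w : Fin m → ι → K k} (hw : ∀ i, w i ∈ EE lam W₁ (al i))
    (hW : Wit b al (fun i => φ (w i))) (lam' : ι' → Dv) (Θ : (ι → K k) →ₗ[K k] (ι' → K k))
    (h1 : (W₁ ⊓ LinearMap.ker φ) ⊓ LinearMap.ker Θ = W₀)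
    (h2 : ∀ a, ∀ v ∈ EE lam (W₁ ⊓ LinearMap.ker φ) a, Θ v ∈ FF k lam' a)
    (h3 : deg lam' ((W₁ ⊓ LinearMap.ker φ).map Θ) ≤ deg lam (W₁ ⊓ LinearMap.ker φ) - deg lam W₀) :
    ∃ (ι' : Type) (_ : Fintype ι') (lam' : ι' → Dv) (Θ : (ι → K k) →ₗ[K k] (ι' → K k)),
      W₁ ⊓ LinearMap.ker Θ = W₀ ∧
      (∀ a, ∀ v ∈ EE lam W₁ a, Θ v ∈ FF k lam' a) ∧
      deg lam' (W₁.map Θ) ≤ deg lam W₁ - deg lam W₀ := by
  obtain ⟨i₀, hi₀⟩ := DegH.wit_ne hW
  let lam'' : Option (Fin m × ι') → Dv := fun o => match o with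
    | none => b
    | some p => lam' p.2 + b + al p.1
  refine ⟨Option (Fin m × ι'), inferInstance, lam'', HNH.newMap φ w Θ, ?_, ?_, ?_⟩
  · rw [← h1]
    refine le_antisymm (fun v hv => ?_) fun v hv => ⟨hv.1.1, ?_⟩
    · have e : HNH.newMap φ w Θ v = 0 := hv.2
      have e1 : φ v = 0 := congrFun e none
      refine ⟨⟨hv.1, e1⟩, ?_⟩
      show Θ v = 0
      funext j
      have e2 := congrFun e (some (i₀, j))
      rw [HNH.newMap_ker φ w Θ e1] at e2
      exact (mul_eq_zero.mp e2).resolve_left hi₀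
    · have e1 : φ v = 0 := hv.1.2
      have e2 : Θ v = 0 := hv.2
      show HNH.newMap φ w Θ v = 0
      funext o
      rcases o with _ | p
      · exact e1
      · rw [HNH.newMap_ker φ w Θ e1, e2]; simp
  · intro a v hv
    refine mem_FF.mpr fun o => ?_
    rcases o with _ | p
    · exact hb a v hv
    · have f1 := EE_smul hv (hW.mem p.1)
      have f2 := EE_smul (hw p.1) (hb a v hv)
      rw [show al p.1 + (b + a) = a + (b + al p.1) by abel] at f2
      have f3 := mem_EE.mp (Submodule.sub_mem _ f1 f2)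
      have f4 : φ (w p.1) • v - φ v • w p.1 ∈ EE lam (W₁ ⊓ LinearMap.ker φ) (a + (b + al p.1)) :=
        mem_EE.mpr ⟨⟨f3.1, by
          show φ _ = 0
          rw [map_sub, map_smul, map_smul, smul_eq_mul, smul_eq_mul]; ring⟩, f3.2⟩
      have f5 := mem_FF.mp (h2 _ _ f4) p.2
      rw [show lam' p.2 + (a + (b + al p.1)) = lam' p.2 + b + al p.1 + a by abel] at f5
      exact f5
  · have d1 := DegH.deg_step_le lam'' (W₁.map (HNH.newMap φ w Θ)) (LinearMap.proj none) (b := b)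
      (fun a v hv => (mem_EE.mp hv).2 none)
      ⟨_, ⟨w i₀, (mem_EE.mp (hw i₀)).1, rfl⟩, hi₀⟩
    have d2 := deg_step lam W₁ φ hb hw hW
    generalize hV : W₁.map (HNH.newMap φ w Θ) ⊓
      LinearMap.ker (LinearMap.proj none : (Option (Fin m × ι') → K k) →ₗ[K k] K k) = V at d1
    have hmem : ∀ u ∈ V, ∃ v ∈ W₁, φ v = 0 ∧ HNH.newMap φ w Θ v = u := by
      rw [← hV]
      rintro _ ⟨⟨v, hv, rfl⟩, h0⟩
      exact ⟨v, hv, h0, rfl⟩
    have hmem' : ∀ v ∈ W₁, φ v = 0 → HNH.newMap φ w Θ v ∈ V := by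
      rw [← hV]
      intro v hv h0
      exact ⟨⟨v, hv, rfl⟩, h0⟩
    let T : (Option (Fin m × ι') → K k) →ₗ[K k] (ι' → K k) :=
      (φ (w i₀))⁻¹ • LinearMap.funLeft (K k) (K k) (fun j => some (i₀, j))
    have hT : ∀ v, φ v = 0 → T (HNH.newMap φ w Θ v) = Θ v := by
      intro v hv
      funext j
      show (φ (w i₀))⁻¹ * HNH.newMap φ w Θ v (some (i₀, j)) = _
      rw [HNH.newMap_ker φ w Θ hv, ← mul_assoc, inv_mul_cancel₀ hi₀, one_mul]
    have d3 := HNH.deg_map_le (lam := lam'') (lam' := lam') (V := V) (T := T) (by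
      intro a u hu
      obtain ⟨v, hv, h0, rfl⟩ := hmem u (mem_EE.mp hu).1
      rw [hT v h0]
      refine mem_FF.mpr fun j => hW.gp fun i => ?_
      have := (mem_EE.mp hu).2 (some (i, j))
      rw [HNH.newMap_ker φ w Θ h0] at this
      rw [show lam' j + a + b + al i = lam' j + b + al i + a by abel]
      exact this)
    have e1 : V ⊓ LinearMap.ker T = ⊥ := by
      rw [eq_bot_iff]
      rintro u ⟨hu, hu0⟩
      obtain ⟨v, hv, h0, rfl⟩ := hmem u hu
      have e : Θ v = 0 := by rw [← hT v h0]; exact hu0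
      show HNH.newMap φ w Θ v = 0
      funext o
      rcases o with _ | p
      · exact h0
      · rw [HNH.newMap_ker φ w Θ h0, e]; simp
    have e2 : V.map T = (W₁ ⊓ LinearMap.ker φ).map Θ := by
      refine le_antisymm ?_ ?_
      · rintro _ ⟨u, hu, rfl⟩
        obtain ⟨v, hv, h0, rfl⟩ := hmem u hu
        exact ⟨v, ⟨hv, h0⟩, (hT v h0).symm⟩
      · rintro _ ⟨v, hv, rfl⟩
        exact ⟨_, hmem' v hv.1 hv.2, hT v hv.2⟩
    rw [e1, e2, deg_bot] at d3
    omega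

end

theorem hull [Infinite k] (lam : ι → Dv) {W₀ W₁ : Submodule (K k) (ι → K k)} (h : W₀ ≤ W₁) :
    ∃ (ι' : Type) (_ : Fintype ι') (lam' : ι' → Dv) (Θ : (ι → K k) →ₗ[K k] (ι' → K k)),
      W₁ ⊓ LinearMap.ker Θ = W₀ ∧
      (∀ a, ∀ v ∈ EE lam W₁ a, Θ v ∈ FF k lam' a) ∧
      deg lam' (W₁.map Θ) ≤ deg lam W₁ - deg lam W₀ := by
  obtain ⟨n, hn⟩ : ∃ n : ℕ, rk W₁ - rk W₀ = n :=
    ⟨(rk W₁ - rk W₀).toNat, by have := rk_mono h; omega⟩
  induction n generalizing W₁ with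
  | zero =>
    have e : W₀ = W₁ := by
      by_contra hne
      have := rk_lt (lt_of_le_of_ne h hne)
      omega
    subst e
    refine ⟨Empty, inferInstance, fun _ => 0, 0, by simp, fun a v _ => zero_mem _, ?_⟩
    rw [Submodule.map_zero, deg_bot]; omega
  | succ n ih =>
    have hne : W₀ ≠ W₁ := by
      rintro rfl
      omega
    obtain ⟨v, hv, hv0⟩ := SetLike.exists_of_lt (lt_of_le_of_ne h hne)
    obtain ⟨φ, hφ, hφ0⟩ := Submodule.exists_le_ker_of_notMem hv0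
    obtain ⟨x, hx, b, hb, m, al, w, hw, hW⟩ := exists_normal lam W₁ φ ⟨v, hv, hφ⟩
    have hr := rk_step W₁ φ ⟨v, hv, hφ⟩
    rw [← DegH.ker_smul φ hx] at hr hφ0
    obtain ⟨ι', _, lam', Θ, h1, h2, h3⟩ := ih (W₁ := W₁ ⊓ LinearMap.ker (x • φ))
      (le_inf h hφ0) (by push_cast at hn; omega)
    exact HNH.step lam (x • φ) hb hw hW lam' Θ h1 h2 h3

theorem bog_interval [Infinite k] (hB : Bog k) (lam : ι → Dv)
    {W₀ W₁ : Submodule (K k) (ι → K k)} (h : W₀ < W₁) (hs : SS lam W₀ W₁) :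
    ∀ᶠ t : ℤ in atTop, hh lam W₁ t - hh lam W₀ t ≤ (rk W₁ - rk W₀ : ℤ) * PP t +
      (deg lam W₁ - deg lam W₀ : ℤ) * ((t : ℚ) - 9 / 2) +
      ((deg lam W₁ - deg lam W₀ : ℤ) : ℚ) ^ 2 / (2 * (rk W₁ - rk W₀ : ℤ) * 6655) + 1 := by
  obtain ⟨ι', _, lam', Θ, h1, h2, h3⟩ := hull lam h.le
  have r1 := HNH.rk_map W₁ Θ
  have d1 := HNH.deg_map_le h2
  rw [h1] at r1 d1
  have r0 := rk_lt h
  have er : rk (W₁.map Θ) = rk W₁ - rk W₀ := by omega
  have ed : deg lam' (W₁.map Θ) = deg lam W₁ - deg lam W₀ := by omega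
  have hss : SS lam' ⊥ (W₁.map Θ) := by
    intro U _ hU
    have d2 := HNH.defect h2 hU
    have hle : W₀ ≤ W₁ ⊓ U.comap Θ := by
      rw [← h1]
      intro v hv
      refine ⟨hv.1, ?_⟩
      show Θ v ∈ U
      rw [LinearMap.mem_ker.mp hv.2]; exact U.zero_mem
    have s := hs (W₁ ⊓ U.comap Θ) hle inf_le_left
    have r2 := HNH.rk_map (W₁ ⊓ U.comap Θ) Θ
    have e0 : (W₁ ⊓ U.comap Θ).map Θ = U := by
      refine le_antisymm ?_ fun u hu => ?_
      · rintro _ ⟨v, hv, rfl⟩; exact hv.2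
      · obtain ⟨v, hv, rfl⟩ := hU hu
        exact ⟨v, ⟨hv, hu⟩, rfl⟩
    have e1 : (W₁ ⊓ U.comap Θ) ⊓ LinearMap.ker Θ = W₀ := by
      refine le_antisymm ?_ (le_inf hle (h1 ▸ inf_le_right))
      rw [← h1]
      exact fun v hv => ⟨hv.1.1, hv.2⟩
    rw [e0, e1] at r2
    rw [rk_bot, deg_bot, sub_zero, sub_zero, sub_zero, sub_zero, er, ed,
      show rk U = rk (W₁ ⊓ U.comap Θ) - rk W₀ by omega]
    refine le_trans (mul_le_mul_of_nonneg_left (by omega) (by omega)) s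
  filter_upwards [hB ι' lam' (W₁.map Θ) (by omega) hss] with t ht
  have := HNH.hh_map_le h2 t
  rw [h1] at this
  rw [er, ed] at ht
  linarith

/-- a subspace of maximal slope -/
theorem HNH.exists_max [Infinite k] (lam : ι → Dv) {W₀ : Submodule (K k) (ι → K k)} (h : W₀ ≠ ⊤) :
    ∃ W, W₀ < W ∧ ∃ s : ℚ, ((deg lam W - deg lam W₀ : ℤ) : ℚ) = (rk W - rk W₀ : ℤ) * 6655 * s ∧
      ∀ U, W₀ ≤ U → ((deg lam U - deg lam W₀ : ℤ) : ℚ) ≤ (rk U - rk W₀ : ℤ) * 6655 * s := by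
  have hM : (0 : ℤ) < ((Fintype.card ι).factorial : ℕ) := by exact_mod_cast Nat.factorial_pos _
  have hex : ∀ W, W₀ < W → ∃ q : ℤ, 0 < q ∧ q * (rk W - rk W₀) = ((Fintype.card ι).factorial : ℕ) := by
    intro W hW
    have r0 := rk_lt hW
    have r1 := rk_mono (le_top : W ≤ ⊤)
    have r2 := rk_nonneg W₀
    rw [rk_top] at r1
    obtain ⟨q, hq⟩ : (rk W - rk W₀).toNat ∣ (Fintype.card ι).factorial :=
      Nat.dvd_factorial (by omega) (by omega)
    have e : (((rk W - rk W₀).toNat : ℕ) : ℤ) = rk W - rk W₀ := by omega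
    have e2 : (q : ℤ) * (rk W - rk W₀) = ((Fintype.card ι).factorial : ℕ) := by
      rw [hq, Nat.cast_mul, e]; ring
    refine ⟨q, ?_, e2⟩
    by_contra hq0
    have : (q : ℤ) = 0 := by omega
    rw [this] at e2
    omega
  generalize (((Fintype.card ι).factorial : ℕ) : ℤ) = M at hM hex
  obtain ⟨z, ⟨W, hW, hz⟩, hmax⟩ := Int.exists_greatest_of_bdd
    (P := fun z => ∃ W, W₀ < W ∧ z * (rk W - rk W₀) = M * (deg lam W - deg lam W₀))
    ⟨M * |∑ j, |dd (lam j)| - deg lam W₀|, by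
      rintro z ⟨W, hW, hz⟩
      have r0 := rk_lt hW
      have d0 := deg_le_sum lam W
      have a0 := le_abs_self (∑ j, |dd (lam j)| - deg lam W₀)
      have a1 := abs_nonneg (∑ j, |dd (lam j)| - deg lam W₀)
      generalize |∑ j, |dd (lam j)| - deg lam W₀| = B at a0 a1 ⊢
      have a2 : M * (deg lam W - deg lam W₀) ≤ M * B :=
        mul_le_mul_of_nonneg_left (by omega) hM.le
      by_contra hc
      have a3 : 0 ≤ M * B := by positivity
      nlinarith⟩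
    (by
      obtain ⟨q, -, hq⟩ := hex ⊤ (lt_top_iff_ne_top.mpr h)
      exact ⟨q * (deg lam ⊤ - deg lam W₀), ⊤, lt_top_iff_ne_top.mpr h, by rw [← hq]; ring⟩)
  have hMq : (0 : ℚ) < M := by exact_mod_cast hM
  refine ⟨W, hW, (z : ℚ) / (M * 6655), ?_, fun U hU => ?_⟩
  · have : ((z * (rk W - rk W₀) : ℤ) : ℚ) = ((M * (deg lam W - deg lam W₀) : ℤ) : ℚ) := by rw [hz]
    push_cast at this ⊢
    field_simp
    linarith
  · rcases hU.eq_or_lt with rfl | hU
    · simp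
    · obtain ⟨q, hq0, hq⟩ := hex U hU
      have h1 := hmax (q * (deg lam U - deg lam W₀)) ⟨U, hU, by rw [← hq]; ring⟩
      have r0 := rk_lt hU
      have h2 : M * (deg lam U - deg lam W₀) ≤ z * (rk U - rk W₀) := by
        rw [← hq]
        have := mul_le_mul_of_nonneg_right h1 (show 0 ≤ rk U - rk W₀ by omega)
        linarith
      have h3 : ((M * (deg lam U - deg lam W₀) : ℤ) : ℚ) ≤ ((z * (rk U - rk W₀) : ℤ) : ℚ) := by
        exact_mod_cast h2
      have e : ((rk U - rk W₀ : ℤ) : ℚ) * 6655 * ((z : ℚ) / (M * 6655)) =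
          ((z * (rk U - rk W₀) : ℤ) : ℚ) / M := by
        push_cast; field_simp
      rw [e, le_div_iff₀ hMq]
      push_cast at h3 ⊢
      linarith

theorem hn_bound [Infinite k] (hB : Bog k) (lam : ι → Dv) (W₀ : Submodule (K k) (ι → K k))
    (t₀ : ℤ) (sm sp : ℚ) (hm : |(t₀ : ℚ) - 9 / 2 + sm| ≤ 1) (hp : |(t₀ : ℚ) - 9 / 2 + sp| ≤ 1)
    (hsub : ∀ W, W₀ ≤ W → ((deg lam W - deg lam W₀ : ℤ) : ℚ) ≤ (rk W - rk W₀ : ℤ) * 6655 * sp)
    (hquo : ∀ W, W₀ ≤ W → (rk (⊤ : Submodule (K k) (ι → K k)) - rk W : ℤ) * 6655 * sm ≤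
      ((deg lam (⊤ : Submodule (K k) (ι → K k)) - deg lam W : ℤ) : ℚ)) :
    ∃ e : ℚ, (∀ᶠ t : ℤ in atTop, hh lam (⊤ : Submodule (K k) (ι → K k)) t - hh lam W₀ t ≤
        (rk (⊤ : Submodule (K k) (ι → K k)) - rk W₀ : ℤ) * PP t +
        (deg lam (⊤ : Submodule (K k) (ι → K k)) - deg lam W₀ : ℤ) * ((t : ℚ) - 9 / 2) + e) ∧
      (rk (⊤ : Submodule (K k) (ι → K k)) - rk W₀ : ℤ) * PP t₀ +
        (deg lam (⊤ : Submodule (K k) (ι → K k)) - deg lam W₀ : ℤ) * ((t₀ : ℚ) - 9 / 2) + e ≤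
        -((rk (⊤ : Submodule (K k) (ι → K k)) - rk W₀ : ℤ) : ℚ) := by
  obtain ⟨n, hn⟩ : ∃ n : ℕ, rk (⊤ : Submodule (K k) (ι → K k)) - rk W₀ ≤ n :=
    ⟨(rk (⊤ : Submodule (K k) (ι → K k)) - rk W₀).toNat, by omega⟩
  induction n generalizing W₀ sp with
  | zero =>
    have e : W₀ = ⊤ := by
      by_contra hne
      have := rk_lt (lt_top_iff_ne_top.mpr hne)
      omega
    subst e
    exact ⟨0, Eventually.of_forall fun t => by simp, by simp⟩
  | succ n ih =>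
    by_cases e : W₀ = ⊤
    · subst e
      exact ⟨0, Eventually.of_forall fun t => by simp, by simp⟩
    obtain ⟨W, hW, s, hs, hmax⟩ := HNH.exists_max lam e
    have r0 := rk_lt hW
    have r1 := rk_lt (lt_top_iff_ne_top.mpr e)
    have w1 : (1 : ℚ) ≤ ((rk W - rk W₀ : ℤ) : ℚ) := by exact_mod_cast (show 1 ≤ rk W - rk W₀ by omega)
    have w2 : (0 : ℚ) < ((rk (⊤ : Submodule (K k) (ι → K k)) - rk W₀ : ℤ) : ℚ) := by
      exact_mod_cast (show 0 < rk (⊤ : Submodule (K k) (ι → K k)) - rk W₀ by omega)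
    have s1 : s ≤ sp := by
      have := hsub W hW.le
      rw [hs] at this
      exact le_of_mul_le_mul_left this (by positivity)
    have s2 : sm ≤ s := by
      have := (hquo W₀ le_rfl).trans (hmax ⊤ le_top)
      exact le_of_mul_le_mul_left this (by positivity)
    have s3 : |(t₀ : ℚ) - 9 / 2 + s| ≤ 1 := by
      rw [abs_le] at hm hp ⊢
      constructor <;> linarith [hm.1, hp.2]
    have hss : SS lam W₀ W := by
      intro U hU _
      have h1 := hmax U hU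
      have : ((rk W - rk W₀ : ℤ) : ℚ) * ((deg lam U - deg lam W₀ : ℤ) : ℚ) ≤
          ((rk U - rk W₀ : ℤ) : ℚ) * ((deg lam W - deg lam W₀ : ℤ) : ℚ) := by
        rw [hs]
        have := mul_le_mul_of_nonneg_left h1 (show (0 : ℚ) ≤ ((rk W - rk W₀ : ℤ) : ℚ) by linarith)
        linarith
      exact_mod_cast this
    obtain ⟨e', he1, he2⟩ := ih W s s3
      (fun U hU => by
        have h1 := hmax U (hW.le.trans hU)
        push_cast at h1 hs ⊢
        linarith)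
      (fun U hU => hquo U (hW.le.trans hU)) (by push_cast at hn; omega)
    have hb := bog_interval hB lam hW hss
    have e2 : ((deg lam W - deg lam W₀ : ℤ) : ℚ) ^ 2 / (2 * (rk W - rk W₀ : ℤ) * 6655) =
        ((rk W - rk W₀ : ℤ) : ℚ) * 6655 * s ^ 2 / 2 := by
      rw [hs]
      have : ((rk W - rk W₀ : ℤ) : ℚ) ≠ 0 := by linarith
      field_simp
    rw [e2] at hb
    refine ⟨e' + (((rk W - rk W₀ : ℤ) : ℚ) * 6655 * s ^ 2 / 2 + 1), ?_, ?_⟩
    · filter_upwards [he1, hb] with t f1 f2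
      push_cast at f1 f2 ⊢
      linarith
    · have f1 : ((rk W - rk W₀ : ℤ) : ℚ) * PP t₀ +
          ((deg lam W - deg lam W₀ : ℤ) : ℚ) * ((t₀ : ℚ) - 9 / 2) +
          (((rk W - rk W₀ : ℤ) : ℚ) * 6655 * s ^ 2 / 2 + 1) ≤ -((rk W - rk W₀ : ℤ) : ℚ) := by
        rw [hs]
        generalize ((rk W - rk W₀ : ℤ) : ℚ) = x at w1 ⊢
        have f2 : ((t₀ : ℚ) - 9 / 2 + s) ^ 2 ≤ 1 := by
          rw [abs_le] at s3
          nlinarith [s3.1, s3.2]
        have f3 : x * PP t₀ + x * 6655 * s * ((t₀ : ℚ) - 9 / 2) + (x * 6655 * s ^ 2 / 2 + 1) =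
            x * (6655 / 2 * ((t₀ : ℚ) - 9 / 2 + s) ^ 2 - 49247 / 8) + 1 := by
          unfold PP; ring
        rw [f3]
        nlinarith
      push_cast at f1 he2 ⊢
      linarith

end Vale.Agent.P190
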