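import Vale.Agent.P190.Spec
import Vale.Agent.P190.BogP
import Vale.Agent.P190.HN

/-! P190 job Bog0: Bogomolov inequality over the ultraproduct. -/

namespace Vale.Agent.P190
open MvPolynomial Module Filter

variable {ι κ : Type} [Fintype ι] [Fintype κ]

omit [Fintype κ] in
theorem SpH.ker_le {κ' : Type} [Fintype κ'] {Φ : Matrix κ ι (K UK)} {Ψ : ∀ p, Matrix κ ι (K (kp p))}
    (h : ∀ l j, Sp (Φ l j) (fun p => Ψ p l j)) {Φ' : Matrix κ' ι (K UK)}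
    {Ψ' : ∀ p, Matrix κ' ι (K (kp p))} (h' : ∀ l j, Sp (Φ' l j) (fun p => Ψ' p l j))
    (hle : ∀ᶠ p in (UU : Filter Nat.Primes), kerM (Ψ' p) ≤ kerM (Ψ p)) : kerM Φ' ≤ kerM Φ := by
  intro v hv
  obtain ⟨x, -, hx, n, hn⟩ := exists_mul_mem (fun _ => (0 : Dv)) v
  rw [← (kerM Φ).smul_mem_iff hx]
  rw [← (kerM Φ').smul_mem_iff hx] at hv
  choose V hV using fun j => exists_sp (mem_FF.1 hn j).1
  have h1 : ∀ᶠ p in (UU : Filter Nat.Primes), ∀ l, ∑ j, Ψ' p l j * V j p = 0 :=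
    eventually_all.2 fun l =>
      (Sp.sum Finset.univ fun j _ => (h' l j).mul (hV j)).eq_zero_iff.1 (mem_kerM.1 hv l)
  refine mem_kerM.2 fun l => (Sp.sum Finset.univ fun j _ => (h l j).mul (hV j)).eq_zero_iff.2 ?_
  filter_upwards [h1, hle] with p a1 a2
  exact mem_kerM.1 (a2 (mem_kerM.2 a1 : (fun j => V j p) ∈ kerM (Ψ' p))) l

theorem SpH.rk_diag {k : Type} [Field k] {J : Finset ι} [Fintype {l // l ∉ J}]
    (Θ : Matrix {l // l ∉ J} ι (K k)) (h1 : ∀ l, Θ l l.1 ≠ 0)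
    (h2 : ∀ l j, j ∉ J → j ≠ l.1 → Θ l j = 0) :
    rk (kerM Θ) + Fintype.card {l // l ∉ J} = Fintype.card ι := by
  classical
  have hs : LinearMap.range Θ.mulVecLin = ⊤ := by
    rw [eq_top_iff]
    intro y _
    refine ⟨fun j => if hj : j ∈ J then 0 else y ⟨j, hj⟩ / Θ ⟨j, hj⟩ j, funext fun l => ?_⟩
    show ∑ j, Θ l j * _ = _
    rw [Finset.sum_eq_single l.1]
    · rw [dif_neg l.2, mul_div_cancel₀ _ (h1 l)]
    · intro j _ hj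
      split_ifs with hJ
      · exact mul_zero _
      · rw [h2 l j hJ hj, zero_mul]
    · simp
  have := Θ.mulVecLin.finrank_range_add_finrank_ker
  rw [hs, finrank_top, finrank_fintype_fun_eq_card, finrank_fintype_fun_eq_card] at this
  unfold rk kerM
  omega

theorem ss_sp (lam : ι → Dv) (Φ : Matrix κ ι (K UK)) (Ψ : ∀ p, Matrix κ ι (K (kp p)))
    (h : ∀ l j, Sp (Φ l j) (fun p => Ψ p l j))
    (hr : rk (kerM Φ) + Fintype.card κ = Fintype.card ι) (hs : SS lam ⊥ (kerM Φ)) :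
    ∀ᶠ p in (UU : Filter Nat.Primes), SS lam ⊥ (kerM (Ψ p)) := by
  classical
  by_contra hc
  rw [← Ultrafilter.eventually_not] at hc
  obtain ⟨S, hS, hb⟩ := bnd_eq lam (-|deg lam (kerM Φ)|)
  have h1 : ∀ᶠ p in (UU : Filter Nat.Primes), ∃ J : Finset ι,
      ∃ Θ : Matrix {l // l ∉ J} ι (K (kp p)),
        (∀ l j, Θ l j ∈ Submodule.span (kp p) (gu (kp p) '' (S : Set Dv))) ∧ (∀ l, Θ l l.1 ≠ 0) ∧
        (∀ l j, j ∉ J → j ≠ l.1 → Θ l j = 0) ∧ kerM Θ ≤ kerM (Ψ p) ∧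
        rk (kerM Θ) * deg lam (kerM Φ) < rk (kerM Φ) * deg lam (kerM Θ) := by
    filter_upwards [hc, deg_sp lam Φ Ψ h hr] with p a1 ⟨a2, a3⟩
    unfold SS at a1
    push Not at a1
    obtain ⟨W, -, a4, a5⟩ := a1
    rw [rk_bot, deg_bot, sub_zero, sub_zero, sub_zero, sub_zero, a2, a3] at a5
    have a6 := rk_mono a4
    have a7 := rk_nonneg W
    rw [a2] at a6
    have a8 : -|deg lam (kerM Φ)| ≤ deg lam W := by
      by_contra a9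
      have b1 := neg_abs_le (deg lam (kerM Φ))
      have b2 := abs_nonneg (deg lam (kerM Φ))
      nlinarith
    obtain ⟨J, -, -, Θ, b1, b2, b3, rfl⟩ := hb (kp p) W a8
    exact ⟨J, Θ, b1, b2, b3, a4, a5⟩
  obtain ⟨J, h2⟩ := Ultrafilter.eventually_exists_iff.1 h1
  have h3 : ∀ p : Nat.Primes, ∃ Θ : Matrix {l // l ∉ J} ι (K (kp p)),
      (∀ l j, Θ l j ∈ Submodule.span (kp p) (gu (kp p) '' (S : Set Dv))) ∧
      ((∃ Θ : Matrix {l // l ∉ J} ι (K (kp p)),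
        (∀ l j, Θ l j ∈ Submodule.span (kp p) (gu (kp p) '' (S : Set Dv))) ∧ (∀ l, Θ l l.1 ≠ 0) ∧
        (∀ l j, j ∉ J → j ≠ l.1 → Θ l j = 0) ∧ kerM Θ ≤ kerM (Ψ p) ∧
        rk (kerM Θ) * deg lam (kerM Φ) < rk (kerM Φ) * deg lam (kerM Θ)) →
      (∀ l, Θ l l.1 ≠ 0) ∧ (∀ l j, j ∉ J → j ≠ l.1 → Θ l j = 0) ∧ kerM Θ ≤ kerM (Ψ p) ∧
        rk (kerM Θ) * deg lam (kerM Φ) < rk (kerM Φ) * deg lam (kerM Θ)) := by
    intro p
    by_cases a : ∃ Θ : Matrix {l // l ∉ J} ι (K (kp p)),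
        (∀ l j, Θ l j ∈ Submodule.span (kp p) (gu (kp p) '' (S : Set Dv))) ∧ (∀ l, Θ l l.1 ≠ 0) ∧
        (∀ l j, j ∉ J → j ≠ l.1 → Θ l j = 0) ∧ kerM Θ ≤ kerM (Ψ p) ∧
        rk (kerM Θ) * deg lam (kerM Φ) < rk (kerM Φ) * deg lam (kerM Θ)
    · obtain ⟨Θ, a1, a2⟩ := a
      exact ⟨Θ, a1, fun _ => a2⟩
    · exact ⟨0, fun _ _ => zero_mem _, fun a' => absurd a' a⟩
  choose Θ hΘ hΘ' using h3
  have h4 := h2.mono hΘ'
  choose Θ₀ hΘ₀ using fun l j => exists_up S hS (F := fun p => Θ p l j) fun p => hΘ p l j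
  have h5 := SpH.rk_diag (J := J) Θ₀
    (fun l h0 => by
      obtain ⟨p, a1, a2⟩ := (((hΘ₀ l l.1).eq_zero_iff.1 h0).and h4).exists
      exact a2.1 l a1)
    (fun l j a1 a2 => (hΘ₀ l j).eq_zero_iff.2 (h4.mono fun p hp => hp.2.1 l j a1 a2))
  have h6 := hs _ bot_le (SpH.ker_le (Φ' := Θ₀) h hΘ₀ (h4.mono fun p hp => hp.2.2.1))
  rw [rk_bot, deg_bot, sub_zero, sub_zero, sub_zero, sub_zero] at h6
  obtain ⟨p, ⟨a1, a2⟩, a3⟩ := ((deg_sp lam Θ₀ Θ hΘ₀ h5).and h4).exists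
  have a4 := a3.2.2.2
  rw [a1, a2] at a4
  exact absurd h6 (not_le.2 a4)

theorem bog0 : Bog UK := by
  intro ι _ lam V hV hs
  obtain ⟨m, Φ, hΦ, rfl, hr⟩ := exists_kerM V
  choose F hF using fun l j => exists_sp (hΦ l j)
  let Ψ : ∀ p, Matrix (Fin m) ι (K (kp p)) := fun p l j => F l j p
  have hr' : rk (kerM Φ) + Fintype.card (Fin m) = Fintype.card ι := by rwa [Fintype.card_fin]
  obtain ⟨C, hC⟩ := bogP lam (deg lam (kerM Φ))
  obtain ⟨p, ⟨⟨a1, a2, a3⟩, a4⟩, a5⟩ := ((((semi lam Φ Ψ hF).and (deg_sp lam Φ Ψ hF hr')).and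
    (ss_sp lam Φ Ψ hF hr' hs)).and (ev_prime_ge ⌈C⌉₊)).exists
  have a6 : C / (p.1 : ℚ) ≤ 1 := by
    rw [div_le_one (by exact_mod_cast p.2.pos)]
    exact (Nat.le_ceil C).trans (by exact_mod_cast a5)
  filter_upwards [a1, hC p.1 (kp p) (kerM (Ψ p)) (a2 ▸ hV) a3 a4] with t b1 b2
  rw [a2] at b2
  linarith

end Vale.Agent.P190
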