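import Mathlib

/-! P190: the five point model. -/

namespace Vale.Agent.P190
open MvPolynomial

/-- edges of the complete graph on five vertices -/
abbrev Edge := {x : Fin 5 × Fin 5 // x.1 < x.2}

/-- divisors supported on the ten lines -/
abbrev Dv := Edge → ℤ

/-- the edge with given end points (junk if they agree) -/
def ed (i j : Fin 5) : Edge :=
  if h : i < j then ⟨(i, j), h⟩ else if h' : j < i then ⟨(j, i), h'⟩ else ⟨(0, 1), by decide⟩

variable (k : Type) [Field k]

abbrev PX := MvPolynomial (Fin 5) k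
abbrev KX := FractionRing (PX k)
abbrev P2 := MvPolynomial (Fin 2) k
abbrev K := FractionRing (P2 k)

/-- difference of two of the five variables in the fraction field -/
noncomputable def dX (i j : Fin 5) : KX k := algebraMap (PX k) (KX k) (X i - X j)

/-- the two cross ratios attached to a labelling -/
noncomputable def crs (s : Equiv.Perm (Fin 5)) : Fin 2 → KX k :=
  ![dX k (s 0) (s 1) * dX k (s 2) (s 4) / (dX k (s 0) (s 2) * dX k (s 1) (s 4)),
    dX k (s 2) (s 3) * dX k (s 0) (s 4) / (dX k (s 0) (s 2) * dX k (s 3) (s 4))]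

variable {k}

/-- f has value z under the evaluation ψ -/
def HasVal {F : Type} [Field F] [Algebra k F] (ψ : PX k →ₐ[k] F) (f : KX k) (z : F) : Prop :=
  ∃ Q d : PX k, ψ d ≠ 0 ∧ f * algebraMap (PX k) (KX k) d = algebraMap (PX k) (KX k) Q ∧
    ψ Q = z * ψ d

section
variable {F : Type} [Field F] [Algebra k F] {ψ : PX k →ₐ[k] F}

theorem HasVal.add {f g : KX k} {z w : F} (h : HasVal ψ f z) (h' : HasVal ψ g w) :
    HasVal ψ (f + g) (z + w) := by
  obtain ⟨Q, d, hd, h1, h2⟩ := h
  obtain ⟨Q', d', hd', h1', h2'⟩ := h'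
  refine ⟨Q * d' + Q' * d, d * d', by simp [hd, hd'], ?_, ?_⟩
  · simp only [map_add, map_mul, ← h1, ← h1']; ring
  · simp only [map_add, map_mul, h2, h2']; ring

theorem HasVal.mul {f g : KX k} {z w : F} (h : HasVal ψ f z) (h' : HasVal ψ g w) :
    HasVal ψ (f * g) (z * w) := by
  obtain ⟨Q, d, hd, h1, h2⟩ := h
  obtain ⟨Q', d', hd', h1', h2'⟩ := h'
  refine ⟨Q * Q', d * d', by simp [hd, hd'], ?_, ?_⟩
  · simp only [map_mul, ← h1, ← h1']; ring
  · simp only [map_mul, h2, h2']; ring

theorem HasVal.poly (Q : PX k) : HasVal ψ (algebraMap (PX k) (KX k) Q) (ψ Q) :=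
  ⟨Q, 1, by simp, by simp, by simp⟩

theorem HasVal.div {Q d : PX k} (hd : ψ d ≠ 0) :
    HasVal ψ (algebraMap (PX k) (KX k) Q / algebraMap (PX k) (KX k) d) (ψ Q / ψ d) := by
  have h0 : d ≠ 0 := by rintro rfl; simp at hd
  have h1 : algebraMap (PX k) (KX k) d ≠ 0 := by
    simpa using h0
  exact ⟨Q, d, hd, by field_simp, by field_simp⟩

theorem HasVal.aeval {y : Fin 2 → KX k} {z : Fin 2 → F} (h : ∀ i, HasVal ψ (y i) (z i))
    (P : P2 k) : HasVal ψ (aeval y P) (aeval z P) := by
  induction P using MvPolynomial.induction_on with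
  | C c =>
    have := HasVal.poly (ψ := ψ) (C c : PX k)
    simp only [aeval_C]
    rw [IsScalarTower.algebraMap_apply k (PX k) (KX k)]
    simpa using this
  | add P Q hP hQ => simpa using hP.add hQ
  | mul_X P i hP => simpa using hP.mul (h i)

theorem HasVal.ne_zero {f : KX k} {z : F} (h : HasVal ψ f z) (hz : z ≠ 0) : f ≠ 0 := by
  obtain ⟨Q, d, hd, h1, h2⟩ := h
  rintro rfl
  have : Q = 0 := by
    have h3 : algebraMap (PX k) (KX k) Q = 0 := by rw [← h1]; simp
    simpa using h3
  rw [this] at h2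
  simp [hz, hd] at h2

/-- evaluation at a normalised configuration -/
noncomputable def evs (s : Equiv.Perm (Fin 5)) (x₁ x₃ c : F) : PX k →ₐ[k] F :=
  MvPolynomial.aeval fun i => ![(0 - c)⁻¹, (x₁ - c)⁻¹, (1 - c)⁻¹, (x₃ - c)⁻¹, 0] (s.symm i)

theorem evs_X (s : Equiv.Perm (Fin 5)) (x₁ x₃ c : F) (a : Fin 5) :
    evs (k := k) s x₁ x₃ c (X (s a)) = ![(0 - c)⁻¹, (x₁ - c)⁻¹, (1 - c)⁻¹, (x₃ - c)⁻¹, 0] a := by
  simp [evs]

theorem hasVal_crs (s : Equiv.Perm (Fin 5)) {x₁ x₃ c : F} (h0 : 0 - c ≠ 0) (h1 : x₁ - c ≠ 0)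
    (h2 : 1 - c ≠ 0) (h3 : x₃ - c ≠ 0) (P : P2 k) :
    HasVal (evs s x₁ x₃ c) (MvPolynomial.aeval (crs k s) P) (MvPolynomial.aeval ![x₁, x₃ - 1] P) := by
  have hc : c ≠ 0 := by intro h; simp [h] at h0
  have e02 : (0 - c)⁻¹ - (1 - c)⁻¹ ≠ 0 := by
    intro h
    have := inv_injective (sub_eq_zero.mp h)
    exact zero_ne_one (sub_left_injective this)
  refine HasVal.aeval (fun i => ?_) P
  fin_cases i
  · have := HasVal.div (ψ := evs (k := k) s x₁ x₃ c)
      (Q := (X (s 0) - X (s 1)) * (X (s 2) - X (s 4))) (d := (X (s 0) - X (s 2)) * (X (s 1) - X (s 4)))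
      (by simp only [map_mul, map_sub, evs_X]; simp [h1]; simpa using e02)
    simp only [map_mul] at this
    have e : evs (k := k) s x₁ x₃ c (X (s 0) - X (s 1)) * evs (k := k) s x₁ x₃ c (X (s 2) - X (s 4)) /
        (evs (k := k) s x₁ x₃ c (X (s 0) - X (s 2)) * evs (k := k) s x₁ x₃ c (X (s 1) - X (s 4))) = x₁ := by
      simp only [map_sub, evs_X]
      simp only [Matrix.cons_val_zero, Matrix.cons_val_one, Matrix.cons_val, sub_zero]
      rw [div_eq_iff (mul_ne_zero e02 (inv_ne_zero h1))]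
      field_simp
      ring
    rw [e] at this
    simpa [crs, dX] using this
  · have := HasVal.div (ψ := evs (k := k) s x₁ x₃ c)
      (Q := (X (s 2) - X (s 3)) * (X (s 0) - X (s 4))) (d := (X (s 0) - X (s 2)) * (X (s 3) - X (s 4)))
      (by simp only [map_mul, map_sub, evs_X]; simp [h3]; simpa using e02)
    simp only [map_mul] at this
    have e : evs (k := k) s x₁ x₃ c (X (s 2) - X (s 3)) * evs (k := k) s x₁ x₃ c (X (s 0) - X (s 4)) /
        (evs (k := k) s x₁ x₃ c (X (s 0) - X (s 2)) * evs (k := k) s x₁ x₃ c (X (s 3) - X (s 4))) = x₃ - 1 := by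
      simp only [map_sub, evs_X]
      simp only [Matrix.cons_val_zero, Matrix.cons_val_one, Matrix.cons_val, sub_zero]
      rw [div_eq_iff (mul_ne_zero e02 (inv_ne_zero h3))]
      field_simp
      ring
    rw [e] at this
    simpa [crs, dX] using this

end

theorem P2_ne_zero {P : P2 k} (z : Fin 2 → k) (h : MvPolynomial.eval z P ≠ 0) :
    algebraMap (P2 k) (K k) P ≠ 0 := by
  intro h0
  have : P = 0 := by simpa using h0
  simp [this] at h

theorem aeval_XK (P : P2 k) :
    MvPolynomial.aeval (fun i => algebraMap (P2 k) (K k) (X i)) P = algebraMap (P2 k) (K k) P := by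
  induction P using MvPolynomial.induction_on with
  | C c => simp [IsScalarTower.algebraMap_apply k (P2 k) (K k)]
  | add P Q hP hQ => simp [hP, hQ]
  | mul_X P i hP => simp [hP]

variable (k)

theorem chi_inj : Function.Injective (aeval (crs k 1) : P2 k →ₐ[k] KX k) := by
  rw [injective_iff_map_eq_zero]
  intro P hP
  by_contra h0
  set a := algebraMap (P2 k) (K k)
  have h := hasVal_crs (k := k) 1 (x₁ := a (X 0)) (x₃ := 1 + a (X 1)) (c := a (X 1))
    (by have := P2_ne_zero (k := k) (P := 0 - X 1) ![0, 1] (by simp); rwa [map_sub, map_zero] at this)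
    (by have := P2_ne_zero (k := k) (P := X 0 - X 1) ![0, 1] (by simp); simpa using this)
    (by have := P2_ne_zero (k := k) (P := 1 - X 1) ![0, 0] (by simp); simpa using this)
    (by simp) P
  refine h.ne_zero ?_ hP
  have e : (![a (X 0), 1 + a (X 1) - 1] : Fin 2 → K k) = fun i => a (X i) := by
    funext i; fin_cases i <;> simp
  rw [e, aeval_XK]
  simpa using h0

end Vale.Agent.P190
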