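import Vale.Agent.P190.CombB

/-! P190 job Comb: combinatorics of divisors (no field). The statements on edges, degrees and
normal forms are in CombA and CombB. -/

namespace Vale.Agent.P190
open Filter

/-- remainder modulo 11 -/
def rho (a : Dv) : Dv := fun e => a e % 11

theorem rho_val (a : Dv) (e : Edge) : (rho a e : ℚ) = (((a e : ℤ) : ZMod 11).val : ℚ) := by
  have := ZMod.val_intCast (n := 11) (a e)
  rw [rho, ← Int.cast_natCast (R := ℚ), this]
  rfl

theorem sum_zmod (f : ℕ → ℚ) : ∑ x : ZMod 11, f x.val = ∑ i ∈ Finset.range 11, f i :=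
  Fin.sum_univ_eq_sum_range f 11

theorem avg1 (a : Dv) (e : Edge) :
    ∑ c : Fin 5 → Fin 11, (rho (a + gam c) e : ℚ) = 805255 := by
  obtain ⟨s, rfl⟩ := exists_E e
  simp only [rho_val]
  rw [equid s a (fun x _ => (x.val : ℚ))]
  simp only [Finset.sum_const, Finset.card_univ, ZMod.card, nsmul_eq_mul]
  rw [sum_zmod (fun i => ((11 : ℕ) : ℚ) * (i : ℚ))]
  simp only [Finset.sum_range_succ]
  norm_num

theorem avg2 (a : Dv) (e : Edge) :
    ∑ c : Fin 5 → Fin 11, (rho (a + gam c) e : ℚ) * (rho (a + gam c) e : ℚ) = 5636785 := by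
  obtain ⟨s, rfl⟩ := exists_E e
  simp only [rho_val]
  rw [equid s a (fun x _ => (x.val : ℚ) * (x.val : ℚ))]
  simp only [Finset.sum_const, Finset.card_univ, ZMod.card, nsmul_eq_mul]
  rw [sum_zmod (fun i => ((11 : ℕ) : ℚ) * ((i : ℚ) * (i : ℚ)))]
  simp only [Finset.sum_range_succ]
  norm_num

theorem avg3 (a : Dv) {e f : Edge} (h : Adj e f) :
    ∑ c : Fin 5 → Fin 11, (rho (a + gam c) e : ℚ) * (rho (a + gam c) f : ℚ) = 4026275 := by
  obtain ⟨s, rfl, rfl⟩ := exists_E_adj h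
  simp only [rho_val]
  rw [equid s a (fun x y => (x.val : ℚ) * (y.val : ℚ))]
  simp only [← Finset.mul_sum, ← Finset.sum_mul]
  rw [sum_zmod (fun i => (i : ℚ))]
  simp only [Finset.sum_range_succ]
  norm_num

theorem avg4 (a : Dv) (e : Edge) :
    ∑ c : Fin 5 → Fin 11, (rho (a + gam c) e : ℚ) * (bint (rho (a + gam c)) e : ℚ) = 6442040 := by
  obtain ⟨s, rfl⟩ := exists_E e
  simp only [bint_E]
  push_cast
  simp only [mul_add, mul_neg, Finset.sum_add_distrib, Finset.sum_neg_distrib]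
  rw [avg2, avg3 a ((Adj_E s (by decide) (by decide)).2 (by decide)),
    avg3 a ((Adj_E s (by decide) (by decide)).2 (by decide)),
    avg3 a ((Adj_E s (by decide) (by decide)).2 (by decide))]
  norm_num

theorem sum_const_edge (x : ℚ) : ∑ _e : Edge, x = 10 * x := by
  rw [sum_edge 1]; ring

theorem avg_bf (a : Dv) :
    ∑ c : Fin 5 → Fin 11, (bf (rho (a + gam c)) (rho (a + gam c)) : ℚ) = 64420400 := by
  simp only [bf]
  push_cast
  rw [Finset.sum_comm]
  simp only [avg4, sum_const_edge]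
  norm_num

theorem avg_tot (a : Dv) : ∑ c : Fin 5 → Fin 11, (tot (rho (a + gam c)) : ℚ) = 8052550 := by
  simp only [tot]
  push_cast
  rw [Finset.sum_comm]
  simp only [avg1, sum_const_edge]
  norm_num

theorem sum_bint (a : Dv) : ∑ e, bint a e = 2 * tot a := by
  have h1 : bf (1 : Dv) a = ∑ e, bint a e := by simp [bf]
  have h2 := bf_Gam a one_sub_mem
  rw [sub_eq_add_neg, ← neg_smul, bf_add, bf_smul, C0, bf_Cp, bf_comm, h1] at h2
  omega

theorem avg_mixed (a : Dv) :
    ∑ c : Fin 5 → Fin 11, (bf (rho (a + gam c)) a : ℚ) = 1610510 * tot a := by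
  simp only [bf]
  push_cast
  rw [Finset.sum_comm]
  simp only [← Finset.sum_mul, avg1, ← Finset.mul_sum]
  have := congrArg (Int.cast (R := ℚ)) (sum_bint a)
  push_cast at this
  rw [this]; ring

theorem Qi_fl (a : Dv) : Qi (fl a) = ((bf a a : ℚ) - 2 * bf (rho a) a + bf (rho a) (rho a)) / 242
    + ((tot a : ℚ) - tot (rho a)) / 22 + 1 := by
  have h : a = (11 : ℤ) • fl a + rho a := by
    funext e
    simp only [fl, rho, Pi.add_apply, Pi.smul_apply, smul_eq_mul]
    omega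
  generalize fl a = q at *
  generalize rho a = r at *
  subst h
  simp only [Qi_eq, bf_add, bf_add', bf_smul, bf_smul', tot_add, tot_smul, bf_comm q r]
  push_cast
  ring

/-- the averaged Riemann-Roch formula -/
theorem qbar (b : Dv) (t : ℤ) :
    sumS (fun a => Qi (fl a)) b t = PP t + dd b * ((t : ℚ) - 9 / 2) + ee b := by
  have h1 : ∀ c, bf (b + t • C0 + gam c) (b + t • C0 + gam c) = bf (b + t • C0) (b + t • C0) := by
    intro c
    rw [bf_add, bf_Gam _ (gam_mem c), bf_add' _ (gam c), bf_Gam' _ (gam_mem c), add_zero, add_zero]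
  have h2 : ∀ c r, bf r (b + t • C0 + gam c) = bf r (b + t • C0) := by
    intro c r
    rw [bf_add, bf_Gam _ (gam_mem c), add_zero]
  have h3 : ∀ c, tot (b + t • C0 + gam c) = tot (b + t • C0) := by
    intro c
    rw [tot_add, tot_Gam (gam_mem c), add_zero]
  have h4 : tot (b + t • C0) = tot b + t * 5 := by rw [tot_add, tot_smul, C0, tot_Cp]
  have h5 : bf (b + t • C0) (b + t • C0) = bf b b + 2 * t * tot b + 5 * t ^ 2 := by
    rw [bf_add, bf_smul, C0, bf_Cp, ← C0, h4, bf_add', bf_smul', bf_comm C0, C0, bf_Cp]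
    ring
  simp only [sumS, Qi_fl, h1, h2, h3, Finset.sum_add_distrib, ← Finset.sum_div,
    Finset.sum_sub_distrib, ← Finset.mul_sum, avg_bf, avg_tot, avg_mixed, Finset.sum_const,
    Finset.card_univ, Fintype.card_pi, Fintype.card_fin, Finset.prod_const, nsmul_eq_mul]
  rw [h4, h5, PP, dd, ee, ← bf]
  push_cast
  ring

theorem dd_smul (m : ℤ) (b : Dv) : dd (m • b) = m * dd b := by
  rw [dd, dd, tot_smul]; ring

theorem ee_smul (m : ℤ) (b : Dv) : ee (m • b) = (m : ℚ) ^ 2 * ee b := by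
  rw [ee, ee, ← bf, ← bf, bf_smul, bf_smul']
  push_cast
  ring

theorem quad_pos {a b c : ℚ} (h : 0 < a ∨ (a = 0 ∧ (0 < b ∨ (b = 0 ∧ 0 < c)))) :
    ∀ᶠ t : ℤ in atTop, 0 < a * (t : ℚ) ^ 2 + b * t + c := by
  rcases h with h | ⟨rfl, h | ⟨rfl, h⟩⟩
  · refine (eventually_ge_atTop (⌈(|b| + |c|) / a⌉ + 1)).mono fun t ht => ?_
    have h1 : (|b| + |c|) / a + 1 ≤ (t : ℚ) := by
      have := Int.le_ceil ((|b| + |c|) / a)
      have h2 : ((⌈(|b| + |c|) / a⌉ + 1 : ℤ) : ℚ) ≤ t := by exact_mod_cast ht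
      push_cast at h2
      linarith
    have h2 : 0 ≤ (|b| + |c|) / a := by positivity
    have h3 : |b| + |c| + a ≤ a * t := by
      have := mul_le_mul_of_nonneg_left h1 h.le
      rwa [mul_add, mul_div_cancel₀ _ h.ne', mul_one] at this
    have h4 : 1 ≤ (t : ℚ) := by linarith
    have h5 := mul_le_mul_of_nonneg_right h3 (by linarith : (0 : ℚ) ≤ t)
    nlinarith [neg_abs_le b, neg_abs_le c, abs_nonneg b, abs_nonneg c]
  · refine (eventually_ge_atTop (⌈|c| / b⌉ + 1)).mono fun t ht => ?_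
    have h1 : |c| / b + 1 ≤ (t : ℚ) := by
      have := Int.le_ceil (|c| / b)
      have h2 : ((⌈|c| / b⌉ + 1 : ℤ) : ℚ) ≤ t := by exact_mod_cast ht
      push_cast at h2
      linarith
    have h3 : |c| + b ≤ b * t := by
      have := mul_le_mul_of_nonneg_left h1 h.le
      rwa [mul_add, mul_div_cancel₀ _ h.ne', mul_one] at this
    nlinarith [neg_abs_le c]
  · exact Eventually.of_forall fun t => by simpa using h

/-- comparison of quadratic polynomials at infinity -/
theorem quad_le {a b c a' b' c' : ℚ}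
    (h : ∀ᶠ t : ℤ in atTop, a * (t : ℚ) ^ 2 + b * t + c ≤ a' * (t : ℚ) ^ 2 + b' * t + c') :
    a < a' ∨ (a = a' ∧ (b < b' ∨ (b = b' ∧ c ≤ c'))) := by
  by_contra hc
  have h1 : 0 < a - a' ∨ (a - a' = 0 ∧ (0 < b - b' ∨ (b - b' = 0 ∧ 0 < c - c'))) := by
    rcases lt_trichotomy a a' with h1 | h1 | h1
    · exact absurd (Or.inl h1) hc
    · refine Or.inr ⟨by linarith, ?_⟩
      rcases lt_trichotomy b b' with h2 | h2 | h2
      · exact absurd (Or.inr ⟨h1, Or.inl h2⟩) hc
      · refine Or.inr ⟨by linarith, ?_⟩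
        by_contra h3
        exact hc (Or.inr ⟨h1, Or.inr ⟨h2, by linarith⟩⟩)
      · exact Or.inl (by linarith)
    · exact Or.inl (by linarith)
  obtain ⟨t, h2, h3⟩ := (h.and (quad_pos h1)).exists
  linarith

end Vale.Agent.P190
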