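import Vale.Agent.P190.Defs

/-! P190 job Comb, part A: edges, degrees, intersection numbers. -/

namespace Vale.Agent.P190
open Filter

theorem ed_symm (i j : Fin 5) : ed i j = ed j i := by
  revert i j; decide

theorem ed_eq_iff : ∀ i j k l : Fin 5, i ≠ j → k ≠ l →
    (ed i j = ed k l ↔ (i = k ∧ j = l) ∨ (i = l ∧ j = k)) := by
  decide +kernel

theorem Adj_ed : ∀ i j k l : Fin 5, i ≠ j → k ≠ l →
    (Adj (ed i j) (ed k l) ↔ i ≠ k ∧ i ≠ l ∧ j ≠ k ∧ j ≠ l) := by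
  decide +kernel

theorem ed_self (e : Edge) : ed e.1.1 e.1.2 = e := by
  revert e; decide

theorem exists_fifth : ∀ i j k l : Fin 5, i ≠ j → i ≠ k → i ≠ l → j ≠ k → j ≠ l → k ≠ l →
    ∃ m, ∀ x y : Fin 5, ![i, j, k, l, m] x = ![i, j, k, l, m] y → x = y := by
  decide +kernel

theorem exists_perm4 {i j k l : Fin 5} (h1 : i ≠ j) (h2 : i ≠ k) (h3 : i ≠ l) (h4 : j ≠ k)
    (h5 : j ≠ l) (h6 : k ≠ l) : ∃ s : Pm, s 0 = i ∧ s 1 = j ∧ s 2 = k ∧ s 3 = l := by
  obtain ⟨m, hm⟩ := exists_fifth i j k l h1 h2 h3 h4 h5 h6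
  have hi : Function.Injective ![i, j, k, l, m] := fun x y h => hm x y h
  exact ⟨Equiv.ofBijective _ (Finite.injective_iff_bijective.1 hi), rfl, rfl, rfl, rfl⟩

theorem exists_E_adj {e f : Edge} (h : Adj e f) : ∃ s : Pm, E s 0 1 = e ∧ E s 2 3 = f := by
  obtain ⟨h1, h2, h3, h4⟩ := h
  obtain ⟨s, a, b, c, d⟩ := exists_perm4 e.2.ne h1 h2 h3 h4 f.2.ne
  refine ⟨s, ?_, ?_⟩
  · rw [E, a, b, ed_self]
  · rw [E, c, d, ed_self]

theorem exists_adj : ∀ e : Edge, ∃ f, Adj e f := by decide +kernel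

theorem exists_E (e : Edge) : ∃ s : Pm, E s 0 1 = e := by
  obtain ⟨f, hf⟩ := exists_adj e
  obtain ⟨s, hs, -⟩ := exists_E_adj hf
  exact ⟨s, hs⟩

theorem E_inj (s : Pm) {a b c d : Fin 5} (hab : a < b) (hcd : c < d) :
    E s a b = E s c d ↔ a = c ∧ b = d := by
  rw [E, E, ed_eq_iff _ _ _ _ (s.injective.ne hab.ne) (s.injective.ne hcd.ne)]
  simp only [s.injective.eq_iff]
  omega

theorem Adj_E (s : Pm) {a b c d : Fin 5} (hab : a < b) (hcd : c < d) :
    Adj (E s a b) (E s c d) ↔ a ≠ c ∧ a ≠ d ∧ b ≠ c ∧ b ≠ d := by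
  rw [E, E, Adj_ed _ _ _ _ (s.injective.ne hab.ne) (s.injective.ne hcd.ne)]
  simp only [ne_eq, s.injective.eq_iff]

theorem E_mul (s r : Pm) (a b : Fin 5) : E (s * r) a b = E s (r a) (r b) := rfl

theorem E_symm (s : Pm) (a b : Fin 5) : E s a b = E s b a := ed_symm _ _

theorem E_bij (s : Pm) : Function.Bijective (fun e : Edge => E s e.1.1 e.1.2) := by
  refine Finite.injective_iff_bijective.1 fun e f h => ?_
  obtain ⟨h1, h2⟩ := (E_inj s e.2 f.2).1 h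
  exact Subtype.ext (Prod.ext h1 h2)

theorem univ_edge : (Finset.univ : Finset Edge) =
    {⟨(0, 1), by decide⟩, ⟨(0, 2), by decide⟩, ⟨(0, 3), by decide⟩, ⟨(0, 4), by decide⟩,
      ⟨(1, 2), by decide⟩, ⟨(1, 3), by decide⟩, ⟨(1, 4), by decide⟩, ⟨(2, 3), by decide⟩,
      ⟨(2, 4), by decide⟩, ⟨(3, 4), by decide⟩} := by
  decide +kernel

theorem sum_edge {M : Type*} [AddCommMonoid M] (s : Pm) (F : Edge → M) :
    ∑ e, F e = F (E s 0 1) + F (E s 0 2) + F (E s 0 3) + F (E s 0 4) + F (E s 1 2) + F (E s 1 3)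
      + F (E s 1 4) + F (E s 2 3) + F (E s 2 4) + F (E s 3 4) := by
  rw [← (E_bij s).sum_comp F, univ_edge]
  repeat rw [Finset.sum_insert (by decide)]
  rw [Finset.sum_singleton]
  simp only [add_assoc]

theorem forall_edge (s : Pm) {P : Edge → Prop} :
    (∀ e, P e) ↔ P (E s 0 1) ∧ P (E s 0 2) ∧ P (E s 0 3) ∧ P (E s 0 4) ∧ P (E s 1 2) ∧ P (E s 1 3)
      ∧ P (E s 1 4) ∧ P (E s 2 3) ∧ P (E s 2 4) ∧ P (E s 3 4) := by
  refine ⟨fun h => ⟨h _, h _, h _, h _, h _, h _, h _, h _, h _, h _⟩, ?_⟩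
  rintro ⟨h1, h2, h3, h4, h5, h6, h7, h8, h9, h10⟩ e
  obtain ⟨f, rfl⟩ := (E_bij s).2 e
  have hf : f ∈ (Finset.univ : Finset Edge) := Finset.mem_univ f
  rw [univ_edge] at hf
  simp only [Finset.mem_insert, Finset.mem_singleton] at hf
  rcases hf with rfl | rfl | rfl | rfl | rfl | rfl | rfl | rfl | rfl | rfl <;> assumption

theorem forall_vertex (s : Pm) {P : Fin 5 → Prop} :
    (∀ i, P i) ↔ P (s 0) ∧ P (s 1) ∧ P (s 2) ∧ P (s 3) ∧ P (s 4) := by
  refine ⟨fun h => ⟨h _, h _, h _, h _, h _⟩, ?_⟩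
  rintro ⟨h1, h2, h3, h4, h5⟩ i
  obtain ⟨j, rfl⟩ := s.surjective i
  fin_cases j <;> assumption

theorem vdeg_s (s : Pm) (a : Dv) (i : Fin 5) :
    vdeg a (s i) = ∑ j, if j = i then 0 else a (E s i j) := by
  rw [vdeg, ← Equiv.sum_comp s]
  simp only [s.injective.eq_iff, E]

theorem vdeg_E (s : Pm) (a : Dv) :
    vdeg a (s 0) = a (E s 0 1) + a (E s 0 2) + a (E s 0 3) + a (E s 0 4) ∧
    vdeg a (s 1) = a (E s 0 1) + a (E s 1 2) + a (E s 1 3) + a (E s 1 4) ∧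
    vdeg a (s 2) = a (E s 0 2) + a (E s 1 2) + a (E s 2 3) + a (E s 2 4) ∧
    vdeg a (s 3) = a (E s 0 3) + a (E s 1 3) + a (E s 2 3) + a (E s 3 4) ∧
    vdeg a (s 4) = a (E s 0 4) + a (E s 1 4) + a (E s 2 4) + a (E s 3 4) := by
  simp only [vdeg_s, Fin.sum_univ_five]
  rw [E_symm s 1 0, E_symm s 2 0, E_symm s 2 1, E_symm s 3 0, E_symm s 3 1, E_symm s 3 2,
    E_symm s 4 0, E_symm s 4 1, E_symm s 4 2, E_symm s 4 3]
  simp

theorem bint_E (s : Pm) (a : Dv) :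
    bint a (E s 0 1) = -a (E s 0 1) + a (E s 2 3) + a (E s 2 4) + a (E s 3 4) := by
  rw [bint, sum_edge s]
  simp (disch := decide) only [Adj_E s]
  simp [add_assoc]

theorem sgl_E (s : Pm) {a b c d : Fin 5} (hab : a < b) (hcd : c < d) :
    sgl (E s a b) (E s c d) = if a = c ∧ b = d then 1 else 0 := by
  rw [sgl, Pi.single_apply]
  simp only [eq_comm (a := E s c d), E_inj s hab hcd]

theorem Cp_E (s : Pm) :
    Cp s (E s 0 1) = 1 ∧ Cp s (E s 0 2) = 0 ∧ Cp s (E s 0 3) = 0 ∧ Cp s (E s 0 4) = 1 ∧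
    Cp s (E s 1 2) = 1 ∧ Cp s (E s 1 3) = 0 ∧ Cp s (E s 1 4) = 0 ∧ Cp s (E s 2 3) = 1 ∧
    Cp s (E s 2 4) = 0 ∧ Cp s (E s 3 4) = 1 := by
  simp (disch := decide) only [Cp, Pi.add_apply, sgl_E s]
  decide

theorem Cp_cases (s : Pm) (e : Edge) : Cp s e = 0 ∨ Cp s e = 1 := by
  revert e
  rw [forall_edge s]
  have := Cp_E s
  tauto

theorem gb_mem (s : Pm) (i : Fin 5) : gb s i ∈ Gam := by
  rw [mem_Gam, forall_vertex s]
  obtain ⟨h0, h1, h2, h3, h4⟩ := vdeg_E s (gb s i)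
  rw [h0, h1, h2, h3, h4]
  fin_cases i <;>
    simp (disch := decide) only [gb, Fin.zero_eta, Fin.mk_one, Fin.reduceFinMk,
      Matrix.cons_val, Pi.add_apply, Pi.sub_apply, sgl_E s] <;> decide

theorem gb_ce (s : Pm) (i j : Fin 5) : gb s i (ce s j) = if i = j then 1 else 0 := by
  fin_cases i <;> fin_cases j <;>
    simp (disch := decide) only [gb, ce, Fin.zero_eta, Fin.mk_one, Fin.reduceFinMk,
      Matrix.cons_val, Pi.add_apply, Pi.sub_apply, sgl_E s] <;> decide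

theorem abs_gb_le (s : Pm) (i : Fin 5) (e : Edge) : |gb s i e| ≤ 1 := by
  revert e
  rw [forall_edge s]
  fin_cases i <;>
    simp (disch := decide) only [gb, Fin.zero_eta, Fin.mk_one, Fin.reduceFinMk,
      Matrix.cons_val, Pi.add_apply, Pi.sub_apply, sgl_E s] <;> decide

theorem Gam_eq_zero (s : Pm) {g : Dv} (hg : g ∈ Gam) (h : ∀ i, g (ce s i) = 0) : g = 0 := by
  have h0 : g (E s 0 1) = 0 := h 0
  have h1 : g (E s 2 3) = 0 := h 1
  have h2 : g (E s 0 3) = 0 := h 2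
  have h3 : g (E s 1 2) = 0 := h 3
  have h4 : g (E s 1 3) = 0 := h 4
  obtain ⟨v0, v1, v2, v3, v4⟩ := vdeg_E s g
  rw [hg] at v0 v1 v2 v3 v4
  refine funext ((forall_edge s).2 ?_)
  simp only [Pi.zero_apply]
  omega

theorem Gam_eq_sum (s : Pm) {g : Dv} (hg : g ∈ Gam) : g = ∑ i, g (ce s i) • gb s i := by
  rw [← sub_eq_zero]
  refine Gam_eq_zero s (Gam.sub_mem hg (Gam.sum_mem fun i _ => Gam.zsmul_mem (gb_mem s i) _))
    fun j => ?_
  simp [Finset.sum_apply, gb_ce]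

theorem sum_vdeg (a : Dv) : ∑ i, vdeg a i = 2 * tot a := by
  obtain ⟨v0, v1, v2, v3, v4⟩ := vdeg_E 1 a
  rw [tot, sum_edge 1, Fin.sum_univ_five]
  simp only [Equiv.Perm.coe_one, id] at v0 v1 v2 v3 v4
  omega

theorem tot_add (a b : Dv) : tot (a + b) = tot a + tot b := by
  simp [tot, Finset.sum_add_distrib]

theorem tot_smul (m : ℤ) (a : Dv) : tot (m • a) = m * tot a := by
  simp [tot, Finset.mul_sum]

theorem tot_Gam {g : Dv} (hg : g ∈ Gam) : tot g = 0 := by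
  have := sum_vdeg g
  simp only [mem_Gam.1 hg, Finset.sum_const_zero] at this
  omega

theorem tot_Cp (s : Pm) : tot (Cp s) = 5 := by
  have := Cp_E s
  rw [tot, sum_edge s]
  omega

theorem vdeg_Cp (s : Pm) (i : Fin 5) : vdeg (Cp s) i = 2 := by
  revert i
  rw [forall_vertex s]
  have := Cp_E s
  have := vdeg_E s (Cp s)
  omega

theorem Cp_sub_mem (s r : Pm) : Cp s - Cp r ∈ Gam := by
  intro i
  rw [vdeg_sub, vdeg_Cp, vdeg_Cp, sub_self]

theorem vdeg_one (i : Fin 5) : vdeg (1 : Dv) i = 4 := by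
  revert i
  rw [forall_vertex 1]
  have := vdeg_E 1 (1 : Dv)
  simp only [Pi.one_apply] at this
  omega

theorem one_sub_mem : (1 : Dv) - (2 : ℤ) • C0 ∈ Gam := by
  intro i
  rw [vdeg_sub, vdeg_smul, C0, vdeg_Cp, vdeg_one]
  norm_num

theorem two_bint (s : Pm) (a : Dv) :
    2 * bint a (E s 0 1) = 2 * tot a - 2 * vdeg a (s 0) - 2 * vdeg a (s 1) := by
  have := vdeg_E s a
  rw [bint_E, tot, sum_edge s]
  omega

theorem bint_add (a b : Dv) (e : Edge) : bint (a + b) e = bint a e + bint b e := by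
  obtain ⟨s, rfl⟩ := exists_E e
  simp only [bint_E, Pi.add_apply]
  ring

theorem bint_smul (m : ℤ) (a : Dv) (e : Edge) : bint (m • a) e = m * bint a e := by
  obtain ⟨s, rfl⟩ := exists_E e
  simp only [bint_E, Pi.smul_apply, smul_eq_mul]
  ring

theorem bint_sub (a b : Dv) (e : Edge) : bint (a - b) e = bint a e - bint b e := by
  obtain ⟨s, rfl⟩ := exists_E e
  simp only [bint_E, Pi.sub_apply]
  ring

theorem bint_Gam {g : Dv} (hg : g ∈ Gam) (e : Edge) : bint g e = 0 := by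
  obtain ⟨s, rfl⟩ := exists_E e
  have := two_bint s g
  rw [tot_Gam hg, hg, hg] at this
  omega

theorem bint_Cp (s : Pm) (e : Edge) : bint (Cp s) e = 1 := by
  obtain ⟨r, rfl⟩ := exists_E e
  have := two_bint r (Cp s)
  rw [tot_Cp, vdeg_Cp, vdeg_Cp] at this
  omega

theorem Adj_symm (e f : Edge) : Adj e f ↔ Adj f e := by
  unfold Adj
  constructor <;> rintro ⟨a, b, c, d⟩ <;> exact ⟨a.symm, c.symm, b.symm, d.symm⟩

/-- symmetry of the intersection form -/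
theorem bint_symm (a b : Dv) : ∑ e, a e * bint b e = ∑ e, b e * bint a e := by
  simp only [bint, mul_add, Finset.sum_add_distrib, Finset.mul_sum]
  rw [Finset.sum_comm]
  refine congrArg₂ (· + ·) (Finset.sum_congr rfl fun e _ => by ring)
    (Finset.sum_congr rfl fun e _ => Finset.sum_congr rfl fun f _ => ?_)
  by_cases h : Adj e f
  · rw [if_pos h, if_pos ((Adj_symm _ _).1 h), mul_comm]
  · rw [if_neg h, if_neg (fun h' => h ((Adj_symm _ _).1 h')), mul_zero, mul_zero]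

/-- the intersection form -/
def bf (a b : Dv) : ℤ := ∑ e, a e * bint b e

theorem bf_comm (a b : Dv) : bf a b = bf b a := bint_symm a b

theorem bf_add (a b c : Dv) : bf a (b + c) = bf a b + bf a c := by
  simp [bf, bint_add, mul_add, Finset.sum_add_distrib]

theorem bf_add' (a b c : Dv) : bf (a + b) c = bf a c + bf b c := by
  simp [bf, add_mul, Finset.sum_add_distrib]

theorem bf_smul (m : ℤ) (a b : Dv) : bf a (m • b) = m * bf a b := by
  simp only [bf, bint_smul, Finset.mul_sum]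
  exact Finset.sum_congr rfl fun e _ => by ring

theorem bf_smul' (m : ℤ) (a b : Dv) : bf (m • a) b = m * bf a b := by
  rw [bf_comm, bf_smul, bf_comm]

theorem bf_Gam (a : Dv) {g : Dv} (hg : g ∈ Gam) : bf a g = 0 := by
  simp [bf, bint_Gam hg]

theorem bf_Gam' (a : Dv) {g : Dv} (hg : g ∈ Gam) : bf g a = 0 := by
  rw [bf_comm, bf_Gam a hg]

theorem bf_Cp (a : Dv) (s : Pm) : bf a (Cp s) = tot a := by
  simp [bf, bint_Cp, tot]

theorem Qi_eq (a : Dv) : Qi a = ((bf a a : ℤ) + (tot a : ℤ) : ℚ) / 2 + 1 := rfl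

theorem Qi_add_Gam (a : Dv) {g : Dv} (hg : g ∈ Gam) : Qi (a + g) = Qi a := by
  rw [Qi_eq, Qi_eq, bf_add, bf_add', bf_Gam _ hg, bf_Gam' _ hg, tot_add, tot_Gam hg]
  simp

theorem bf_sgl (a : Dv) (e : Edge) : bf (sgl e) a = bint a e := by
  simp [bf, sgl, Pi.single_apply]

theorem bint_sgl_self (e : Edge) : bint (sgl e) e = -1 := by
  obtain ⟨s, rfl⟩ := exists_E e
  rw [bint_E]
  simp (disch := decide) only [sgl_E s]
  decide

theorem tot_sgl (e : Edge) : tot (sgl e) = 1 := by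
  simp [tot, sgl]

theorem Qi_step (a : Dv) (e : Edge) : Qi a = Qi (a - sgl e) + bint a e + 1 := by
  obtain ⟨b, rfl⟩ : ∃ b, a = b + sgl e := ⟨a - sgl e, by simp⟩
  rw [add_sub_cancel_right, Qi_eq, Qi_eq, bf_add, bf_add', bf_add', bf_comm b (sgl e), bf_sgl,
    bf_sgl, bint_add, bint_sgl_self, tot_add, tot_sgl]
  push_cast
  ring

theorem Qi_zero : Qi 0 = 1 := by
  simp [Qi, tot]

theorem fl_add_smul (a g : Dv) : fl (a + (11 : ℤ) • g) = fl a + g := by
  funext e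
  simp only [fl, Pi.add_apply, Pi.smul_apply, smul_eq_mul]
  omega

theorem gam_mem (c : Fin 5 → Fin 11) : gam c ∈ Gam :=
  Gam.sum_mem fun i _ => Gam.zsmul_mem (gb_mem 1 i) _

theorem gam_ce (c : Fin 5 → Fin 11) (i : Fin 5) : gam c (ce 1 i) = ((c i : ℕ) : ℤ) := by
  simp [gam, Finset.sum_apply, gb_ce]

theorem nrm_add (a b : Dv) : nrm (a + b) ≤ nrm a + nrm b := by
  simp only [nrm, ← Finset.sum_add_distrib]
  exact Finset.sum_le_sum fun e _ => abs_add_le _ _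

theorem nrm_smul (m : ℤ) (a : Dv) : nrm (m • a) = |m| * nrm a := by
  simp [nrm, Finset.mul_sum, abs_mul]

theorem abs_le_nrm (a : Dv) (e : Edge) : |a e| ≤ nrm a :=
  Finset.single_le_sum (f := fun e => |a e|) (fun _ _ => abs_nonneg _) (Finset.mem_univ e)

theorem nrm_gam (c : Fin 5 → Fin 11) : nrm (gam c) ≤ 500 := by
  have h : ∀ e, |gam c e| ≤ 50 := by
    intro e
    rw [gam, Finset.sum_apply]
    refine (Finset.abs_sum_le_sum_abs _ _).trans ?_
    have : ∀ i ∈ (Finset.univ : Finset (Fin 5)), |(((c i : ℕ) : ℤ) • gb 1 i) e| ≤ 10 := by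
      intro i _
      rw [Pi.smul_apply, smul_eq_mul, abs_mul]
      have h1 := abs_gb_le 1 i e
      have h2 : |((c i : ℕ) : ℤ)| ≤ 10 := by
        have := (c i).2
        rw [abs_le]; omega
      nlinarith [abs_nonneg (gb 1 i e), abs_nonneg ((c i : ℕ) : ℤ)]
    simpa using Finset.sum_le_sum this
  have := Finset.sum_le_sum (s := Finset.univ) fun e _ => h e
  rw [sum_edge 1 (fun _ => (50 : ℤ))] at this
  exact this.trans (by norm_num)

theorem nrm_Cp (s : Pm) : nrm (Cp s) = 5 := by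
  obtain ⟨h1, h2, h3, h4, h5, h6, h7, h8, h9, h10⟩ := Cp_E s
  rw [nrm, sum_edge s, h1, h2, h3, h4, h5, h6, h7, h8, h9, h10]
  norm_num

end Vale.Agent.P190
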