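import Vale.Agent.P190.CombA

/-! P190 job Comb, part B: representatives, normal forms, deep divisors. -/

namespace Vale.Agent.P190
open Filter

theorem exists_gam {g : Dv} (hg : g ∈ Gam) : ∃ c, ∃ d ∈ Gam, g = gam c + (11 : ℤ) • d := by
  refine ⟨fun i => ⟨(g (ce 1 i) % 11).toNat, by omega⟩, ∑ i, (g (ce 1 i) / 11) • gb 1 i,
    Gam.sum_mem fun i _ => Gam.zsmul_mem (gb_mem 1 i) _, ?_⟩
  conv_lhs => rw [Gam_eq_sum 1 hg]
  rw [gam, Finset.smul_sum, ← Finset.sum_add_distrib]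
  refine Finset.sum_congr rfl fun i _ => ?_
  rw [smul_smul, ← add_smul]
  refine congrArg (· • gb 1 i) ?_
  simp only
  omega

theorem gam_add (c c' : Fin 5 → Fin 11) : ∃ d ∈ Gam, gam c' + gam c = gam (c + c') + (11 : ℤ) • d := by
  refine ⟨∑ i, ((((c i : ℕ) : ℤ) + ((c' i : ℕ) : ℤ)) / 11) • gb 1 i,
    Gam.sum_mem fun i _ => Gam.zsmul_mem (gb_mem 1 i) _, ?_⟩
  rw [gam, gam, gam, Finset.smul_sum, ← Finset.sum_add_distrib, ← Finset.sum_add_distrib]
  refine Finset.sum_congr rfl fun i _ => ?_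
  rw [smul_smul, ← add_smul, ← add_smul]
  refine congrArg (· • gb 1 i) ?_
  rw [Pi.add_apply, Fin.val_add]
  omega

/-- translating the representatives by an element of Gam permutes them modulo 11 Gam -/
theorem exists_gam_equiv {g : Dv} (hg : g ∈ Gam) :
    ∃ τ : (Fin 5 → Fin 11) ≃ (Fin 5 → Fin 11), ∀ c, ∃ d ∈ Gam,
      g + gam c = gam (τ c) + (11 : ℤ) • d := by
  obtain ⟨c0, d0, hd0, rfl⟩ := exists_gam hg
  refine ⟨Equiv.addRight c0, fun c => ?_⟩
  obtain ⟨d, hd, h⟩ := gam_add c c0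
  refine ⟨d + d0, Gam.add_mem hd hd0, ?_⟩
  rw [Equiv.coe_addRight, smul_add, ← add_assoc, ← h]
  abel

theorem sumS_shift {F : Dv → ℚ} (hF : Per F) (b : Dv) {g : Dv} (hg : g ∈ Gam) (t : ℤ) :
    sumS F (b + g) t = sumS F b t := by
  obtain ⟨τ, hτ⟩ := exists_gam_equiv hg
  rw [sumS, sumS, ← Equiv.sum_comp τ (fun c => F (b + t • C0 + gam c))]
  refine Finset.sum_congr rfl fun c _ => ?_
  obtain ⟨d, hd, h⟩ := hτ c
  rw [← hF (b + t • C0 + gam (τ c)) d hd, add_assoc (b + t • C0), ← h]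
  exact congrArg F (by abel)

theorem sumS_C0 (F : Dv → ℚ) (b : Dv) (m t : ℤ) : sumS F (b + m • C0) t = sumS F b (t + m) := by
  refine Finset.sum_congr rfl fun c _ => congrArg F ?_
  rw [add_smul]
  abel

theorem equid_shift (s : Pm) (a : Dv) (G : ZMod 11 → ZMod 11 → ℚ) (x y : ZMod 11) :
    ∑ c : Fin 5 → Fin 11, G (((a + gam c) (E s 0 1) : ℤ) : ZMod 11)
        (((a + gam c) (E s 2 3) : ℤ) : ZMod 11) =
      ∑ c : Fin 5 → Fin 11, G ((((a + gam c) (E s 0 1) : ℤ) : ZMod 11) + x)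
        ((((a + gam c) (E s 2 3) : ℤ) : ZMod 11) + y) := by
  obtain ⟨x, rfl⟩ := ZMod.intCast_surjective x
  obtain ⟨y, rfl⟩ := ZMod.intCast_surjective y
  obtain ⟨τ, hτ⟩ := exists_gam_equiv
    (Gam.add_mem (Gam.zsmul_mem (gb_mem s 0) x) (Gam.zsmul_mem (gb_mem s 1) y))
  rw [← Equiv.sum_comp τ]
  refine Finset.sum_congr rfl fun c _ => ?_
  obtain ⟨d, hd, h⟩ := hτ c
  have h00 : gb s 0 (E s 0 1) = 1 := gb_ce s 0 0
  have h01 : gb s 0 (E s 2 3) = 0 := gb_ce s 0 1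
  have h10 : gb s 1 (E s 0 1) = 0 := gb_ce s 1 0
  have h11 : gb s 1 (E s 2 3) = 1 := gb_ce s 1 1
  have e1 := congrFun h (E s 0 1)
  have e2 := congrFun h (E s 2 3)
  simp only [Pi.add_apply, Pi.smul_apply, smul_eq_mul, h00, h01, h10, h11] at e1 e2
  have h11' : ((11 : ℤ) : ZMod 11) = 0 := by decide
  have f1 : (((a + gam (τ c)) (E s 0 1) : ℤ) : ZMod 11) =
      (((a + gam c) (E s 0 1) : ℤ) : ZMod 11) + x := by
    have : (a + gam (τ c)) (E s 0 1) = (a + gam c) (E s 0 1) + x - 11 * d (E s 0 1) := by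
      simp only [Pi.add_apply]; omega
    rw [this, Int.cast_sub, Int.cast_mul, h11', Int.cast_add, zero_mul, sub_zero]
  have f2 : (((a + gam (τ c)) (E s 2 3) : ℤ) : ZMod 11) =
      (((a + gam c) (E s 2 3) : ℤ) : ZMod 11) + y := by
    have : (a + gam (τ c)) (E s 2 3) = (a + gam c) (E s 2 3) + y - 11 * d (E s 2 3) := by
      simp only [Pi.add_apply]; omega
    rw [this, Int.cast_sub, Int.cast_mul, h11', Int.cast_add, zero_mul, sub_zero]
  rw [f1, f2]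

/-- equidistribution at a pair of meeting lines -/
theorem equid (s : Pm) (a : Dv) (G : ZMod 11 → ZMod 11 → ℚ) :
    ∑ c : Fin 5 → Fin 11, G (((a + gam c) (E s 0 1) : ℤ) : ZMod 11) (((a + gam c) (E s 2 3) : ℤ) : ZMod 11)
      = 1331 * ∑ x, ∑ y, G x y := by
  set S := ∑ c : Fin 5 → Fin 11, G (((a + gam c) (E s 0 1) : ℤ) : ZMod 11)
    (((a + gam c) (E s 2 3) : ℤ) : ZMod 11) with hS
  have h1 : ∑ _x : ZMod 11, ∑ _y : ZMod 11, S = 121 * S := by
    simp only [Finset.sum_const, Finset.card_univ, ZMod.card, nsmul_eq_mul]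
    push_cast; ring
  have h2 : ∑ x : ZMod 11, ∑ y : ZMod 11, S = ∑ x : ZMod 11, ∑ y : ZMod 11,
      ∑ c : Fin 5 → Fin 11, G ((((a + gam c) (E s 0 1) : ℤ) : ZMod 11) + x)
        ((((a + gam c) (E s 2 3) : ℤ) : ZMod 11) + y) :=
    Finset.sum_congr rfl fun x _ => Finset.sum_congr rfl fun y _ => equid_shift s a G x y
  have h3 : ∀ u v : ZMod 11, ∑ x : ZMod 11, ∑ y : ZMod 11, G (u + x) (v + y) = ∑ x, ∑ y, G x y := by
    intro u v
    rw [← Equiv.sum_comp (Equiv.addLeft u) (fun x => ∑ y, G x y)]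
    refine Finset.sum_congr rfl fun x _ => ?_
    rw [← Equiv.sum_comp (Equiv.addLeft v) (fun y => G _ y)]
    rfl
  have h4 : ∑ x : ZMod 11, ∑ y : ZMod 11,
      ∑ c : Fin 5 → Fin 11, G ((((a + gam c) (E s 0 1) : ℤ) : ZMod 11) + x)
        ((((a + gam c) (E s 2 3) : ℤ) : ZMod 11) + y) = 161051 * ∑ x, ∑ y, G x y := by
    rw [Finset.sum_congr rfl fun x _ => Finset.sum_comm, Finset.sum_comm,
      Finset.sum_congr rfl fun c _ => h3 _ _]
    simp only [Finset.sum_const, Finset.card_univ, Fintype.card_pi, Fintype.card_fin,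
      Finset.prod_const, nsmul_eq_mul]
    norm_num
  rw [h1, h4] at h2
  linarith

/-- the divisor on a pentagon with prescribed vertex degrees -/
def pent (s : Pm) (a : Dv) : Dv :=
  (tot a - vdeg a (s 2) - vdeg a (s 4)) • sgl (E s 0 1) +
  (tot a - vdeg a (s 3) - vdeg a (s 0)) • sgl (E s 1 2) +
  (tot a - vdeg a (s 4) - vdeg a (s 1)) • sgl (E s 2 3) +
  (tot a - vdeg a (s 0) - vdeg a (s 2)) • sgl (E s 3 4) +
  (tot a - vdeg a (s 1) - vdeg a (s 3)) • sgl (E s 0 4)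

theorem pent_E (s : Pm) (a : Dv) :
    pent s a (E s 0 1) = tot a - vdeg a (s 2) - vdeg a (s 4) ∧ pent s a (E s 0 2) = 0 ∧
    pent s a (E s 0 3) = 0 ∧ pent s a (E s 0 4) = tot a - vdeg a (s 1) - vdeg a (s 3) ∧
    pent s a (E s 1 2) = tot a - vdeg a (s 3) - vdeg a (s 0) ∧ pent s a (E s 1 3) = 0 ∧
    pent s a (E s 1 4) = 0 ∧ pent s a (E s 2 3) = tot a - vdeg a (s 4) - vdeg a (s 1) ∧
    pent s a (E s 2 4) = 0 ∧ pent s a (E s 3 4) = tot a - vdeg a (s 0) - vdeg a (s 2) := by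
  simp (disch := decide) only [pent, Pi.add_apply, Pi.smul_apply, smul_eq_mul, sgl_E s]
  simp

theorem two_tot (s : Pm) (a : Dv) : vdeg a (s 0) + vdeg a (s 1) + vdeg a (s 2) + vdeg a (s 3) +
    vdeg a (s 4) = 2 * tot a := by
  have := vdeg_E s a
  rw [tot, sum_edge s]
  omega

theorem pent_sub_mem (s : Pm) (a : Dv) : pent s a - a ∈ Gam := by
  rw [mem_Gam, forall_vertex s]
  simp only [vdeg_sub]
  have h1 := vdeg_E s (pent s a)
  have h2 := pent_E s a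
  have h3 := two_tot s a
  omega

/-- every divisor is equivalent to one supported on a given pentagon -/
theorem normal_form (s : Pm) (a : Dv) : ∃ g ∈ Gam, ∀ e, Cp s e = 0 → (a + g) e = 0 := by
  refine ⟨pent s a - a, pent_sub_mem s a, ?_⟩
  rw [add_sub_cancel, forall_edge s]
  have h1 := Cp_E s
  have h2 := pent_E s a
  omega

theorem DeepI.bounds {a : Dv} (h : DeepI a) (i : Fin 5) :
    19 * tot a ≤ 50 * vdeg a i ∧ 50 * vdeg a i ≤ 21 * tot a := by
  have h1 := h.2 i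
  have h2 := le_abs_self (5 * vdeg a i - 2 * tot a)
  have h3 := neg_abs_le (5 * vdeg a i - 2 * tot a)
  omega

theorem deepI_of {a : Dv} (h1 : 1000 ≤ tot a)
    (h2 : ∀ i, 19 * tot a ≤ 50 * vdeg a i ∧ 50 * vdeg a i ≤ 21 * tot a) : DeepI a := by
  refine ⟨h1, fun i => ?_⟩
  have := h2 i
  rcases abs_cases (5 * vdeg a i - 2 * tot a) with h | h <;> omega

theorem deep_normal (s : Pm) {a : Dv} (h : DeepI a) {g : Dv} (hg : g ∈ Gam)
    (h0 : ∀ e, Cp s e = 0 → (a + g) e = 0) :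
    ∃ T : ℤ, 100 ≤ T ∧ tot a ≤ 7 * T ∧ ∀ e, Cp s e ≠ 0 → T ≤ (a + g) e ∧ (a + g) e ≤ 2 * T := by
  have h1 := h.1
  refine ⟨(tot a + 6) / 7, by omega, by omega, ?_⟩
  rw [forall_edge s] at h0 ⊢
  have h2 := Cp_E s
  have h3 := vdeg_E s (a + g)
  simp only [vdeg_add, mem_Gam.1 hg, add_zero] at h3
  have h4 := two_tot s a
  have b0 := h.bounds (s 0)
  have b1 := h.bounds (s 1)
  have b2 := h.bounds (s 2)
  have b3 := h.bounds (s 3)
  have b4 := h.bounds (s 4)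
  obtain ⟨c1, c2, c3, c4, c5, c6, c7, c8, c9, c10⟩ := h2
  obtain ⟨-, z2, z3, -, -, z6, z7, -, z9, -⟩ := h0
  replace z2 := z2 c2
  replace z3 := z3 c3
  replace z6 := z6 c6
  replace z7 := z7 c7
  replace z9 := z9 c9
  rw [c1, c2, c3, c4, c5, c6, c7, c8, c9, c10]
  refine ⟨fun _ => ?_, fun h => absurd rfl h, fun h => absurd rfl h, fun _ => ?_, fun _ => ?_,
    fun h => absurd rfl h, fun h => absurd rfl h, fun _ => ?_, fun h => absurd rfl h,
    fun _ => ?_⟩ <;> omega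

theorem DeepI.add_Gam {a : Dv} (h : DeepI a) {g : Dv} (hg : g ∈ Gam) : DeepI (a + g) := by
  unfold DeepI
  simp only [tot_add, vdeg_add, tot_Gam hg, mem_Gam.1 hg, add_zero]
  exact h

theorem DeepI.bint_ge {a : Dv} (h : DeepI a) (e : Edge) : tot a ≤ 7 * bint a e := by
  obtain ⟨s, rfl⟩ := exists_E e
  have h1 := two_bint s a
  have b0 := h.bounds (s 0)
  have b1 := h.bounds (s 1)
  have := h.1
  omega

/-- a unit whose monomial is minimal off a pentagon -/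
theorem unit_pent (s : Pm) {a : Dv} (h : DeepI (fl a)) :
    ∃ g ∈ Gam, (∀ e, 0 ≤ 11 * g e + a e) ∧ ∀ e, Cp s e = 0 → 11 * g e + a e = a e % 11 := by
  obtain ⟨g, hg, h0⟩ := normal_form s (fl a)
  obtain ⟨T, hT, -, h1⟩ := deep_normal s h hg h0
  refine ⟨g, hg, fun e => ?_, fun e he => ?_⟩
  · by_cases he : Cp s e = 0
    · have := h0 e he
      simp only [Pi.add_apply, fl] at this
      omega
    · have := (h1 e he).1
      simp only [Pi.add_apply, fl] at this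
      omega
  · have := h0 e he
    simp only [Pi.add_apply, fl] at this
    omega

/-- a divisor close to a large multiple of the pentagon is deep -/
theorem deep_near {a : Dv} {M T : ℤ} (hM : ∀ e, -M ≤ a e - T * C0 e ∧ a e - T * C0 e ≤ M)
    (hT : 1000 * M + 1000 ≤ T) : DeepI a := by
  rw [forall_edge 1] at hM
  obtain ⟨c1, c2, c3, c4, c5, c6, c7, c8, c9, c10⟩ := Cp_E 1
  rw [C0, c1, c2, c3, c4, c5, c6, c7, c8, c9, c10] at hM
  have h3 := vdeg_E 1 a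
  have h4 : tot a = _ := sum_edge 1 a
  refine deepI_of (by omega) ((forall_vertex 1).2 ?_)
  omega

theorem deep_fl {b : Dv} {M t : ℤ} (hM : nrm b ≤ M) (ht : 11000 * M + 50000 ≤ t) :
    DeepI (fl (b + t • C0)) := by
  refine deep_near (M := M + 2) (T := t / 11) (fun e => ?_) (by omega)
  have h1 := abs_le.1 ((abs_le_nrm b e).trans hM)
  simp only [fl, Pi.add_apply, Pi.smul_apply, smul_eq_mul]
  rcases Cp_cases 1 e with h | h <;> rw [C0, h] <;> omega

theorem ev_deep (b : Dv) : ∀ᶠ t : ℤ in atTop, DeepI (fl (b + t • C0)) :=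
  (eventually_ge_atTop _).mono fun _ ht => deep_fl le_rfl ht

theorem ev_deep' (b : Dv) : ∀ᶠ t : ℤ in atTop, ∀ c, DeepI (fl (b + t • C0 + gam c)) := by
  refine (eventually_ge_atTop (11000 * (nrm b + 500) + 50000)).mono fun t ht c => ?_
  rw [add_right_comm]
  exact deep_fl ((nrm_add _ _).trans (by have := nrm_gam c; omega)) ht

theorem ev_deepI (b : Dv) : ∀ᶠ t : ℤ in atTop, DeepI (b + t • C0) := by
  refine (eventually_ge_atTop (1000 * nrm b + 1000)).mono fun t ht => deep_near (fun e => ?_) ht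
  have h1 := abs_le.1 (abs_le_nrm b e)
  simp only [Pi.add_apply, Pi.smul_apply, smul_eq_mul]
  omega

theorem deep_one : ∀ m : ℤ, 100 ≤ m → DeepI (m • (1 : Dv)) := by
  intro m hm
  have h : tot (1 : Dv) = 10 := by
    rw [tot, sum_edge 1]; simp only [Pi.one_apply]; norm_num
  refine deepI_of ?_ fun i => ?_
  · rw [tot_smul, h]; omega
  · rw [tot_smul, h, vdeg_smul, vdeg_one]; omega

theorem exists_pent_avoid (s : Pm) : ∃ r : Pm, Cp r (E s 0 1) = 0 ∧ Cp r (E s 2 3) = 0 := by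
  obtain ⟨-, c2, -, -, -, c6, -⟩ := Cp_E (s * Equiv.swap 1 2)
  exact ⟨s * Equiv.swap 1 2, c2, (E_symm s 3 2 ▸ by
    have : E (s * Equiv.swap 1 2) 1 3 = E s 2 3 := rfl
    rw [← E_symm s 2 3, ← this]; exact c6)⟩

/-- any divisor can be moved into any slice by adding edges of a pentagon -/
theorem reach (s : Pm) (a b : Dv) : ∀ᶠ t : ℤ in atTop, ∃ (x : Dv) (c : Fin 5 → Fin 11), ∃ d ∈ Gam,
    0 ≤ x ∧ (∀ e, Cp s e = 0 → x e = 0) ∧ a + x = b + t • C0 + gam c + (11 : ℤ) • d := by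
  refine (ev_deepI (b - a)).mono fun t ht => ?_
  obtain ⟨g, hg, h0⟩ := normal_form s (b - a + t • C0)
  obtain ⟨T, hT, -, h1⟩ := deep_normal s ht hg h0
  obtain ⟨c, d, hd, rfl⟩ := exists_gam hg
  refine ⟨_, c, d, hd, fun e => ?_, h0, by abel⟩
  by_cases he : Cp s e = 0
  · exact (h0 e he).ge
  · have := (h1 e he).1
    simp only [Pi.zero_apply]
    omega

/-- finitely many effective classes of bounded degree -/
theorem bnd_class (M : ℤ) : ∃ D : ℤ, ∀ a : Dv, (∀ i, 0 ≤ vdeg a i) → tot a ≤ M →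
    ∃ g ∈ Gam, ∀ e, (a + g) e ≤ D := by
  refine ⟨max M 0, fun a ha hM => ⟨pent 1 a - a, pent_sub_mem 1 a, ?_⟩⟩
  rw [add_sub_cancel, forall_edge 1]
  rw [forall_vertex 1] at ha
  have h2 := pent_E 1 a
  omega

theorem not_two {Z : Edge → Prop}
    (hZ : ∀ s : Pm, Z (E s 2 3) → Z (E s 0 3) → Z (E s 0 2) ∨ Z (E s 3 4)) (r : Pm)
    (i j k l : Fin 5) (h : ∃ q : Pm, q 0 = j ∧ q 2 = i ∧ q 3 = k ∧ q 4 = l)
    (h1 : ¬ Z (E r j i)) (h2 : ¬ Z (E r k l)) : ¬ (Z (E r i k) ∧ Z (E r j k)) := by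
  obtain ⟨q, rfl, rfl, rfl, rfl⟩ := h
  rintro ⟨a, b⟩
  exact (hZ (r * q) a b).elim h1 h2

/-- a set of edges missing a pentagon and closed under the three term relations lies in a
meeting pair -/
theorem pair_of_closed (Z : Edge → Prop) (r : Pm) (hr : ∀ e, Cp r e ≠ 0 → ¬ Z e)
    (hZ : ∀ s : Pm, Z (E s 2 3) → Z (E s 0 3) → Z (E s 0 2) ∨ Z (E s 3 4)) :
    ∃ s : Pm, ∀ e, Z e → e = E s 0 1 ∨ e = E s 2 3 := by
  obtain ⟨c1, -, -, c4, c5, -, -, c8, -, c10⟩ := Cp_E r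
  have z1 := hr _ (c1 ▸ one_ne_zero)
  have z4 := hr _ (c4 ▸ one_ne_zero)
  have z5 := hr _ (c5 ▸ one_ne_zero)
  have z8 := hr _ (c8 ▸ one_ne_zero)
  have z10 := hr _ (c10 ▸ one_ne_zero)
  have n0 := not_two hZ r 3 2 0 1 (by decide +kernel) z8 z1
  have n1 := not_two hZ r 4 3 1 2 (by decide +kernel) z10 z5
  have n2 := not_two hZ r 4 0 2 3 (by decide +kernel) z4 z8
  have n3 := not_two hZ r 1 0 3 4 (by decide +kernel) z1 z10
  have n4 := not_two hZ r 2 1 4 0 (by decide +kernel) z5 (E_symm r 0 4 ▸ z4)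
  rw [E_symm r 3 0, E_symm r 2 0] at n0
  rw [E_symm r 4 1, E_symm r 3 1] at n1
  rw [E_symm r 4 2] at n2
  have key : ∀ a b c d : Fin 5, a < b → c < d → (a ≠ c ∧ a ≠ d ∧ b ≠ c ∧ b ≠ d) →
      (∀ e, Z e → e = E r a b ∨ e = E r c d) → ∃ s : Pm, ∀ e, Z e → e = E s 0 1 ∨ e = E s 2 3 := by
    intro a b c d hab hcd h hz
    obtain ⟨s, h1, h2⟩ := exists_E_adj ((Adj_E r hab hcd).2 h)
    exact ⟨s, by rwa [h1, h2]⟩
  have fin : ∀ (e f : Edge), (Z (E r 0 2) → E r 0 2 = e ∨ E r 0 2 = f) →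
      (Z (E r 0 3) → E r 0 3 = e ∨ E r 0 3 = f) → (Z (E r 1 3) → E r 1 3 = e ∨ E r 1 3 = f) →
      (Z (E r 1 4) → E r 1 4 = e ∨ E r 1 4 = f) → (Z (E r 2 4) → E r 2 4 = e ∨ E r 2 4 = f) →
      ∀ x, Z x → x = e ∨ x = f := fun e f h2 h3 h6 h7 h9 =>
    (forall_edge r).2 ⟨fun h => (z1 h).elim, h2, h3, fun h => (z4 h).elim, fun h => (z5 h).elim,
      h6, h7, fun h => (z8 h).elim, h9, fun h => (z10 h).elim⟩
  by_cases a2 : Z (E r 0 2)
  · by_cases a6 : Z (E r 1 3)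
    · exact key 0 2 1 3 (by decide) (by decide) (by decide) (fin _ _ (fun _ => .inl rfl)
        (fun h => (n0 ⟨h, a2⟩).elim) (fun _ => .inr rfl) (fun h => (n1 ⟨h, a6⟩).elim)
        (fun h => (n2 ⟨h, a2⟩).elim))
    · exact key 0 2 1 4 (by decide) (by decide) (by decide) (fin _ _ (fun _ => .inl rfl)
        (fun h => (n0 ⟨h, a2⟩).elim) (fun h => (a6 h).elim) (fun _ => .inr rfl)
        (fun h => (n2 ⟨h, a2⟩).elim))
  · by_cases a3 : Z (E r 0 3)
    · by_cases a7 : Z (E r 1 4)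
      · exact key 0 3 1 4 (by decide) (by decide) (by decide) (fin _ _ (fun h => (a2 h).elim)
          (fun _ => .inl rfl) (fun h => (n3 ⟨h, a3⟩).elim) (fun _ => .inr rfl)
          (fun h => (n4 ⟨h, a7⟩).elim))
      · exact key 0 3 2 4 (by decide) (by decide) (by decide) (fin _ _ (fun h => (a2 h).elim)
          (fun _ => .inl rfl) (fun h => (n3 ⟨h, a3⟩).elim) (fun h => (a7 h).elim)
          (fun _ => .inr rfl))
    · by_cases a7 : Z (E r 1 4)
      · exact key 0 3 1 4 (by decide) (by decide) (by decide) (fin _ _ (fun h => (a2 h).elim)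
          (fun _ => .inl rfl) (fun h => (n1 ⟨a7, h⟩).elim) (fun _ => .inr rfl)
          (fun h => (n4 ⟨h, a7⟩).elim))
      · exact key 1 3 2 4 (by decide) (by decide) (by decide) (fin _ _ (fun h => (a2 h).elim)
          (fun h => (a3 h).elim) (fun _ => .inl rfl) (fun h => (a7 h).elim)
          (fun _ => .inr rfl))

end Vale.Agent.P190
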