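import Vale.Agent.P190.Chi

/-! P190: definitions (see notes/P190.md). -/

namespace Vale.Agent.P190
open MvPolynomial Module Filter

/-! ### combinatorics of divisors -/

abbrev Pm := Equiv.Perm (Fin 5)

/-- relabelled edge -/
def E (s : Pm) (a b : Fin 5) : Edge := ed (s a) (s b)

/-- the divisor of one line -/
def sgl (e : Edge) : Dv := Pi.single e 1

/-- degree at a vertex -/
def vdeg (a : Dv) (i : Fin 5) : ℤ := ∑ j, if j = i then 0 else a (ed i j)

theorem vdeg_add (a b : Dv) (i : Fin 5) : vdeg (a + b) i = vdeg a i + vdeg b i := by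
  simp only [vdeg]
  rw [← Finset.sum_add_distrib]
  refine Finset.sum_congr rfl fun j _ => ?_
  split_ifs <;> simp

theorem vdeg_smul (m : ℤ) (a : Dv) (i : Fin 5) : vdeg (m • a) i = m * vdeg a i := by
  simp only [vdeg]
  rw [Finset.mul_sum]
  refine Finset.sum_congr rfl fun j _ => ?_
  split_ifs <;> simp

theorem vdeg_neg (a : Dv) (i : Fin 5) : vdeg (-a) i = -vdeg a i := by
  rw [← neg_one_smul ℤ a, vdeg_smul]; ring

theorem vdeg_sub (a b : Dv) (i : Fin 5) : vdeg (a - b) i = vdeg a i - vdeg b i := by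
  rw [sub_eq_add_neg, vdeg_add, vdeg_neg]; ring

/-- principal divisors (divisors of units) -/
def Gam : AddSubgroup Dv where
  carrier := {a | ∀ i, vdeg a i = 0}
  zero_mem' := by intro i; simp [vdeg]
  add_mem' := by
    intro a b ha hb i
    rw [vdeg_add, ha i, hb i, add_zero]
  neg_mem' := by
    intro a ha i
    rw [vdeg_neg, ha i, neg_zero]

theorem mem_Gam {a : Dv} : a ∈ Gam ↔ ∀ i, vdeg a i = 0 := Iff.rfl

/-- two lines meet iff the edges are disjoint -/
def Adj (e f : Edge) : Prop :=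
  e.1.1 ≠ f.1.1 ∧ e.1.1 ≠ f.1.2 ∧ e.1.2 ≠ f.1.1 ∧ e.1.2 ≠ f.1.2

instance : DecidableRel Adj := fun _ _ => by unfold Adj; infer_instance

/-- intersection number of a divisor with a line -/
def bint (a : Dv) (e : Edge) : ℤ := -a e + ∑ f, if Adj e f then a f else 0

/-- total degree (anticanonical degree) -/
def tot (a : Dv) : ℤ := ∑ e, a e

/-- l1 norm -/
def nrm (a : Dv) : ℤ := ∑ e, |a e|

/-- Euler characteristic of an integral divisor -/
def Qi (a : Dv) : ℚ := ((∑ e, a e * bint a e : ℤ) + (tot a : ℤ) : ℚ) / 2 + 1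

/-- round down of the divisor divided by 11 -/
def fl (a : Dv) : Dv := fun e => a e / 11

/-- pentagon of a labelling -/
def Cp (s : Pm) : Dv :=
  sgl (E s 0 1) + sgl (E s 1 2) + sgl (E s 2 3) + sgl (E s 3 4) + sgl (E s 0 4)

/-- the standard pentagon -/
def C0 : Dv := Cp 1

/-- divisors of the five chart units of a labelling -/
def gb (s : Pm) : Fin 5 → Dv :=
  ![sgl (E s 0 1) + sgl (E s 2 4) - sgl (E s 0 2) - sgl (E s 1 4),
    sgl (E s 2 3) + sgl (E s 0 4) - sgl (E s 0 2) - sgl (E s 3 4),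
    sgl (E s 0 3) + sgl (E s 2 4) - sgl (E s 0 2) - sgl (E s 3 4),
    sgl (E s 1 2) + sgl (E s 0 4) - sgl (E s 0 2) - sgl (E s 1 4),
    sgl (E s 1 3) + sgl (E s 0 4) + sgl (E s 2 4) - sgl (E s 0 2) - sgl (E s 1 4) - sgl (E s 3 4)]

/-- the five chart edges of a labelling -/
def ce (s : Pm) : Fin 5 → Edge := ![E s 0 1, E s 2 3, E s 0 3, E s 1 2, E s 1 3]

/-- representatives of Gam modulo 11 Gam -/
def gam (c : Fin 5 → Fin 11) : Dv := ∑ i, ((c i : ℕ) : ℤ) • gb 1 i

/-- sum over the representatives along the ray -/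
def sumS (F : Dv → ℚ) (b : Dv) (t : ℤ) : ℚ := ∑ c : Fin 5 → Fin 11, F (b + t • C0 + gam c)

/-- periodic functions -/
def Per (F : Dv → ℚ) : Prop := ∀ a, ∀ g ∈ Gam, F (a + (11 : ℤ) • g) = F a

/-- integral divisors deep in the ample cone -/
def DeepI (a : Dv) : Prop := 1000 ≤ tot a ∧ ∀ i, 20 * |5 * vdeg a i - 2 * tot a| ≤ 2 * tot a

/-- Hilbert polynomial of the surface -/
def PP (t : ℚ) : ℚ := 6655 * t * (t - 9) / 2 + 61226

/-- degree of a line bundle -/
def dd (b : Dv) : ℤ := 1331 * tot b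

/-- half self intersection of a line bundle -/
def ee (b : Dv) : ℚ := 1331 * ((∑ e, b e * bint b e : ℤ) : ℚ) / 2

/-- sign of an ordered pair -/
def sg (i j : Fin 5) : ℤ := if i < j then 1 else -1

/-! ### the function field -/

variable (k : Type) [Field k]

/-- embedding in the five point field -/
noncomputable def io : K k →+* KX k :=
  IsFractionRing.lift (g := (aeval (crs k 1) : P2 k →ₐ[k] KX k).toRingHom) (chi_inj k)

/-- prime of an edge -/
noncomputable def pp (e : Edge) : PX k := X e.1.1 - X e.1.2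

/-- order of an element of the five point field along an edge -/
noncomputable def ordX (e : Edge) (f : KX k) : ℤ :=
  (multiplicity (pp k e) (IsLocalization.sec (nonZeroDivisors (PX k)) f).1 : ℤ) -
    (multiplicity (pp k e) ((IsLocalization.sec (nonZeroDivisors (PX k)) f).2 : PX k) : ℤ)

variable {k} in
/-- the valuation along a line -/
noncomputable def nu (e : Edge) (f : K k) : ℤ := ordX k e (io k f)

/-- the five chart polynomials -/
noncomputable def cpol : Fin 5 → P2 k := ![X 0, X 1, 1 + X 1, 1 - X 0, 1 + X 1 - X 0]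

/-- the unit with given chart exponents -/
noncomputable def gu (a : Dv) : K k :=
  ∏ i, (algebraMap (P2 k) (K k) (cpol k i)) ^ (a (ce 1 i))

/-- functions regular off the ten lines -/
noncomputable def BB : Subalgebra k (K k) := Algebra.adjoin k (gu k '' (Gam : Set Dv))

/-- sections of the divisor a / 11, as a set -/
def LS (a : Dv) : Set (K k) := {f | f ∈ BB k ∧ (f = 0 ∨ ∀ e, 0 ≤ 11 * nu e f + a e)}

/-- chart coordinates of a labelling -/
noncomputable def uv (s : Pm) : Fin 2 → K k :=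
  ![((sg (s 0) (s 1) * sg (s 2) (s 4) * sg (s 0) (s 2) * sg (s 1) (s 4) : ℤ) : K k) * gu k (gb s 0),
    ((sg (s 2) (s 3) * sg (s 0) (s 4) * sg (s 0) (s 2) * sg (s 3) (s 4) : ℤ) : K k) * gu k (gb s 1)]

/-- the five chart units of a labelling -/
noncomputable def cu (s : Pm) : Fin 5 → K k := fun i => aeval (uv k s) (cpol k i)

variable {k} in
/-- equality up to sign -/
def Sg (x y : K k) : Prop := x = y ∨ x = -y

end Vale.Agent.P190
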