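import Vale.Agent.P190.RankOne

/-! P190 job Deg: degree of a subspace. -/

namespace Vale.Agent.P190
open MvPolynomial Module Filter

set_option linter.unusedSectionVars false

variable {k : Type} [Field k] {ι : Type} [Fintype ι]

variable (k) in
/-- graded pieces of a free module -/
noncomputable def FF (lam : ι → Dv) (a : Dv) : Submodule k (ι → K k) :=
  Submodule.pi Set.univ fun j => LL k (lam j + a)

/-- graded pieces of the saturated submodule with generic fibre W -/
noncomputable def EE (lam : ι → Dv) (W : Submodule (K k) (ι → K k)) (a : Dv) :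
    Submodule k (ι → K k) :=
  W.restrictScalars k ⊓ FF k lam a

/-- rank -/
noncomputable def rk (W : Submodule (K k) (ι → K k)) : ℤ := finrank (K k) W

/-- Hilbert function -/
noncomputable def hh (lam : ι → Dv) (W : Submodule (K k) (ι → K k)) (t : ℤ) : ℚ :=
  sumS (fun a => (finrank k (EE lam W a) : ℚ)) 0 t

/-- rank and degree of a numerical function -/
def HasD (h : ℤ → ℚ) (r d : ℤ) : Prop :=
  ∃ C : ℚ, ∀ᶠ t : ℤ in atTop, |h t - r * PP t - d * t| ≤ C

open Classical in
/-- degree -/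
noncomputable def deg (lam : ι → Dv) (W : Submodule (K k) (ι → K k)) : ℤ :=
  if h : ∃ d, HasD (hh lam W) (rk W) d then h.choose else 0

/-- semistability of the interval from W₀ to W₁ -/
def SS (lam : ι → Dv) (W₀ W₁ : Submodule (K k) (ι → K k)) : Prop :=
  ∀ W, W₀ ≤ W → W ≤ W₁ →
    (rk W₁ - rk W₀) * (deg lam W - deg lam W₀) ≤ (rk W - rk W₀) * (deg lam W₁ - deg lam W₀)

theorem mem_FF {lam : ι → Dv} {a : Dv} {v : ι → K k} :
    v ∈ FF k lam a ↔ ∀ j, v j ∈ LL k (lam j + a) := by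
  simp [FF, Submodule.mem_pi]

theorem mem_EE {lam : ι → Dv} {W : Submodule (K k) (ι → K k)} {a : Dv} {v : ι → K k} :
    v ∈ EE lam W a ↔ v ∈ W ∧ ∀ j, v j ∈ LL k (lam j + a) := by
  simp [EE, mem_FF]

/-- the graded piece of a free module as a product -/
noncomputable def DegH.ffEquiv (lam : ι → Dv) (a : Dv) :
    FF k lam a ≃ₗ[k] (∀ j, LL k (lam j + a)) where
  toFun v j := ⟨v.1 j, mem_FF.mp v.2 j⟩
  map_add' _ _ := rfl
  map_smul' _ _ := rfl
  invFun w := ⟨fun j => w j, mem_FF.mpr fun j => (w j).2⟩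
  left_inv _ := rfl
  right_inv _ := rfl

theorem DegH.rank_null {F V V' : Type*} [Field F] [AddCommGroup V] [Module F V] [AddCommGroup V']
    [Module F V'] (f : V →ₗ[F] V') (U : Submodule F V) [FiniteDimensional F U] :
    finrank F (U.map f) + finrank F (U ⊓ LinearMap.ker f : Submodule F V) = finrank F U := by
  have h := (f.domRestrict U).finrank_range_add_finrank_ker
  rw [LinearMap.range_domRestrict, LinearMap.ker_domRestrict] at h
  rw [← h, ← Submodule.finrank_map_subtype_eq U ((LinearMap.ker f).comap U.subtype),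
    Submodule.map_comap_subtype]

instance FF_fd (lam : ι → Dv) (a : Dv) : FiniteDimensional k (FF k lam a) := by
  exact (DegH.ffEquiv lam a).symm.finiteDimensional

instance EE_fd (lam : ι → Dv) (W : Submodule (K k) (ι → K k)) (a : Dv) :
    FiniteDimensional k (EE lam W a) := by
  exact Submodule.finiteDimensional_of_le (S₂ := FF k lam a) inf_le_right

theorem finrank_FF (lam : ι → Dv) (a : Dv) :
    finrank k (FF k lam a) = ∑ j, finrank k (LL k (lam j + a)) := by
  rw [(DegH.ffEquiv lam a).finrank_eq, Module.finrank_pi_fintype]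

theorem EE_smul {lam : ι → Dv} {W : Submodule (K k) (ι → K k)} {a a' : Dv} {v : ι → K k}
    {x : K k} (hv : v ∈ EE lam W a) (hx : x ∈ LL k a') : x • v ∈ EE lam W (a + a') := by
  rw [mem_EE] at hv ⊢
  refine ⟨W.smul_mem x hv.1, fun j => ?_⟩
  have := LL_mul hx (hv.2 j)
  rw [show a' + (lam j + a) = lam j + (a + a') by abel] at this
  exact this

theorem EE_mono (lam : ι → Dv) (W : Submodule (K k) (ι → K k)) {a a' : Dv} (h : a ≤ a') :
    EE lam W a ≤ EE lam W a' := by
  intro v hv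
  rw [mem_EE] at hv ⊢
  exact ⟨hv.1, fun j => LL_mono (add_le_add_right h _) (hv.2 j)⟩

theorem per_EE (lam : ι → Dv) (W : Submodule (K k) (ι → K k)) :
    Per (fun a => (finrank k (EE lam W a) : ℚ)) := by
  intro a g hg
  let T : (ι → K k) →ₗ[k] (ι → K k) :=
    (LinearMap.lsmul (K k) (ι → K k) (gu k g)).restrictScalars k
  have hT : ∀ v, T v = gu k g • v := fun _ => rfl
  have : (EE lam W (a + (11 : ℤ) • g)).map T = EE lam W a := by
    ext v
    constructor
    · rintro ⟨x, hx, rfl⟩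
      have hx' := mem_EE.mp hx
      refine mem_EE.mpr ⟨W.smul_mem _ hx'.1, fun j => ?_⟩
      have := hx'.2 j
      rw [← add_assoc] at this
      exact (LL_per hg).mp this
    · intro hv
      have hv' := mem_EE.mp hv
      refine ⟨(gu k g)⁻¹ • v, mem_EE.mpr ⟨W.smul_mem _ hv'.1, fun j => ?_⟩, ?_⟩
      · rw [← add_assoc]
        refine (LL_per hg).mpr ?_
        rw [Pi.smul_apply, smul_eq_mul, ← mul_assoc, mul_inv_cancel₀ (gu_ne_zero g), one_mul]
        exact hv'.2 j
      · rw [hT, smul_smul, mul_inv_cancel₀ (gu_ne_zero g), one_smul]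
  have hi : Function.Injective T := by
    intro x y h
    rw [hT, hT] at h
    exact smul_right_injective _ (gu_ne_zero g) h
  show ((finrank k (EE lam W (a + (11 : ℤ) • g)) : ℕ) : ℚ) = finrank k (EE lam W a)
  rw [← this, (Submodule.equivMapOfInjective _ hi _).finrank_eq]

/-- every vector has a multiple in some graded piece -/
theorem exists_mul_mem (lam : ι → Dv) (v : ι → K k) :
    ∃ x ∈ BB k, x ≠ 0 ∧ ∃ m : ℕ, x • v ∈ FF k lam ((m : ℤ) • (1 : Dv)) := by
  classical
  choose d hd hd0 hdv using fun j => exists_den (v j)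
  have hx : ∀ j, (∏ i, d i) * v j ∈ BB k := by
    intro j
    rw [← Finset.mul_prod_erase _ _ (Finset.mem_univ j), mul_comm (d j), mul_assoc]
    exact mul_mem (prod_mem fun i _ => hd i) (hdv j)
  choose m hm using fun j => exists_LL (hx j)
  refine ⟨∏ i, d i, prod_mem fun i _ => hd i, Finset.prod_ne_zero_iff.mpr fun i _ => hd0 i,
    ∑ j, (m j + ∑ e, (lam j e).natAbs), mem_FF.mpr fun j => LL_mono ?_ (hm j)⟩
  intro e
  have h1 : m j + ∑ e, (lam j e).natAbs ≤ ∑ j, (m j + ∑ e, (lam j e).natAbs) :=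
    Finset.single_le_sum (f := fun j => m j + ∑ e, (lam j e).natAbs) (fun _ _ => Nat.zero_le _)
      (Finset.mem_univ j)
  have h2 : (lam j e).natAbs ≤ ∑ e, (lam j e).natAbs :=
    Finset.single_le_sum (f := fun e => (lam j e).natAbs) (fun _ _ => Nat.zero_le _)
      (Finset.mem_univ e)
  simp only [Pi.smul_apply, Pi.add_apply, Pi.one_apply, smul_eq_mul, mul_one]
  generalize (∑ j, (m j + ∑ e, (lam j e).natAbs)) = A at h1 ⊢
  generalize (∑ e, (lam j e).natAbs) = B at h1 h2
  omega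

theorem DegH.hasD_le {h h' : ℤ → ℚ} {r d r' d' : ℤ} (h1 : HasD h r d) (h2 : HasD h' r' d') (C : ℚ)
    (hle : ∀ᶠ t : ℤ in atTop, h t ≤ h' t + C) : r < r' ∨ (r = r' ∧ d ≤ d') := by
  obtain ⟨C1, h1⟩ := h1
  obtain ⟨C2, h2⟩ := h2
  have key := quad_le (a := r * 6655 / 2) (b := d - r * 6655 * 9 / 2) (c := r * 61226 - C1)
    (a' := r' * 6655 / 2) (b' := d' - r' * 6655 * 9 / 2) (c' := r' * 61226 + C2 + C) (by
      filter_upwards [h1, h2, hle] with t e1 e2 e3
      have e4 := (abs_le.mp e1).1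
      have e5 := (abs_le.mp e2).2
      unfold PP at e4 e5
      nlinarith)
  rcases key with key | ⟨e, key⟩
  · left
    have : (r : ℚ) < r' := by linarith
    exact_mod_cast this
  · right
    have e' : (r : ℚ) = r' := by linarith
    refine ⟨by exact_mod_cast e', ?_⟩
    have : (d : ℚ) ≤ d' := by
      rw [e'] at key
      rcases key with key | key
      · linarith
      · linarith [key.1]
    exact_mod_cast this

theorem HasD.unique {h : ℤ → ℚ} {r d r' d' : ℤ} (h1 : HasD h r d) (h2 : HasD h r' d') :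
    r = r' ∧ d = d' := by
  have e1 := DegH.hasD_le h1 h2 0 (Eventually.of_forall fun t => by simp)
  have e2 := DegH.hasD_le h2 h1 0 (Eventually.of_forall fun t => by simp)
  omega

theorem HasD.sub {h h' : ℤ → ℚ} {r d r' d' : ℤ} (h1 : HasD h r d) (h2 : HasD h' r' d') :
    HasD (fun t => h t - h' t) (r - r') (d - d') := by
  obtain ⟨C1, h1⟩ := h1
  obtain ⟨C2, h2⟩ := h2
  refine ⟨C1 + C2, ?_⟩
  filter_upwards [h1, h2] with t e1 e2
  rw [abs_le] at e1 e2 ⊢
  push_cast
  constructor <;> linarith [e1.1, e1.2, e2.1, e2.2]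

theorem HasD.add {h h' : ℤ → ℚ} {r d r' d' : ℤ} (h1 : HasD h r d) (h2 : HasD h' r' d') :
    HasD (fun t => h t + h' t) (r + r') (d + d') := by
  obtain ⟨C1, h1⟩ := h1
  obtain ⟨C2, h2⟩ := h2
  refine ⟨C1 + C2, ?_⟩
  filter_upwards [h1, h2] with t e1 e2
  rw [abs_le] at e1 e2 ⊢
  push_cast
  constructor <;> linarith [e1.1, e1.2, e2.1, e2.2]

theorem HasD.shift {h : ℤ → ℚ} {r d : ℤ} (h1 : HasD h r d) (b : ℤ) :
    HasD (fun t => h (t + b)) r (d + 6655 * r * b) := by
  obtain ⟨C1, h1⟩ := h1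
  refine ⟨C1 + |(r : ℚ) * 6655 / 2 * (b ^ 2 - 9 * b) + d * b|, ?_⟩
  have h2 := (tendsto_atTop_add_const_right atTop b tendsto_id).eventually h1
  filter_upwards [h2] with t e1
  have e2 : h (t + b) - r * PP t - ((d + 6655 * r * b : ℤ) : ℚ) * t =
      (h (t + b) - r * PP ((t + b : ℤ) : ℚ) - d * ((t + b : ℤ) : ℚ)) +
        ((r : ℚ) * 6655 / 2 * (b ^ 2 - 9 * b) + d * b) := by
    unfold PP; push_cast; ring
  rw [e2]
  exact (abs_add_le _ _).trans (add_le_add e1 le_rfl)

theorem HasD.le {h h' : ℤ → ℚ} {r d r' d' : ℤ} (h1 : HasD h r d) (h2 : HasD h' r' d') (C : ℚ)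
    (hle : ∀ᶠ t : ℤ in atTop, h t ≤ h' t + C) : r < r' ∨ (r = r' ∧ d ≤ d') := by
  exact DegH.hasD_le h1 h2 C hle

theorem hasD_LL (b : Dv) : HasD (sumS (fun a => (finrank k (LL k a) : ℚ)) b) 1 (dd b) := by
  refine ⟨|ee b - dd b * (9 / 2)|, ?_⟩
  filter_upwards [ev_hilb (k := k) b] with t e
  rw [e]
  refine le_of_eq (congrArg _ ?_)
  push_cast; ring

/-- the image of the graded pieces under a functional -/
noncomputable def NN (lam : ι → Dv) (W : Submodule (K k) (ι → K k))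
    (φ : (ι → K k) →ₗ[K k] K k) (a : Dv) : Submodule k (K k) :=
  (EE lam W a).map (φ.restrictScalars k)

theorem NN_tcl (lam : ι → Dv) (W : Submodule (K k) (ι → K k)) (φ : (ι → K k) →ₗ[K k] K k) :
    TCl (NN lam W φ) := by
  rintro a a' f x ⟨v, hv, rfl⟩ hx
  exact ⟨x • v, EE_smul hv hx, by simp⟩

theorem DegH.EE_inf_ker {V' : Type*} [AddCommGroup V'] [Module (K k) V'] [Module k V']
    [IsScalarTower k (K k) V'] (lam : ι → Dv) (W : Submodule (K k) (ι → K k))
    (φ : (ι → K k) →ₗ[K k] V') (a : Dv) :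
    EE lam W a ⊓ LinearMap.ker (φ.restrictScalars k) = EE lam (W ⊓ LinearMap.ker φ) a := by
  ext v
  simp only [Submodule.mem_inf, mem_EE, LinearMap.mem_ker, LinearMap.restrictScalars_apply]
  tauto

theorem hh_step (lam : ι → Dv) (W : Submodule (K k) (ι → K k)) (φ : (ι → K k) →ₗ[K k] K k)
    (t : ℤ) : hh lam W t = hh lam (W ⊓ LinearMap.ker φ) t +
      sumS (fun a => (finrank k (NN lam W φ a) : ℚ)) 0 t := by
  unfold hh sumS
  rw [← Finset.sum_add_distrib]
  refine Finset.sum_congr rfl fun c _ => ?_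
  have := DegH.rank_null (φ.restrictScalars k) (EE lam W (0 + t • C0 + gam c))
  rw [DegH.EE_inf_ker] at this
  beta_reduce
  rw [← this]
  unfold NN
  push_cast; ring

theorem rk_step (W : Submodule (K k) (ι → K k)) (φ : (ι → K k) →ₗ[K k] K k)
    (h : ∃ v ∈ W, φ v ≠ 0) : rk W = rk (W ⊓ LinearMap.ker φ) + 1 := by
  obtain ⟨v, hv, h0⟩ := h
  have e : W.map φ = ⊤ := by
    rw [eq_top_iff]
    intro y _
    exact ⟨(y / φ v) • v, W.smul_mem _ hv, by simp [h0]⟩
  have := DegH.rank_null φ W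
  rw [e, finrank_top, Module.finrank_self] at this
  unfold rk
  omega

/-- normalisation of a functional -/
theorem exists_normal (lam : ι → Dv) (W : Submodule (K k) (ι → K k))
    (φ : (ι → K k) →ₗ[K k] K k) (h : ∃ v ∈ W, φ v ≠ 0) :
    ∃ x : K k, x ≠ 0 ∧ ∃ b : Dv, (∀ a, ∀ v ∈ EE lam W a, x * φ v ∈ LL k (b + a)) ∧
      ∃ (m : ℕ) (al : Fin m → Dv) (w : Fin m → ι → K k), (∀ i, w i ∈ EE lam W (al i)) ∧
        Wit b al (fun i => x * φ (w i)) := by
  classical
  obtain ⟨v, hv, h0⟩ := h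
  obtain ⟨y, -, hy0, m, hm⟩ := exists_mul_mem lam v
  obtain ⟨z, -, hz0, n, hn⟩ := exists_mul_mem (fun j => -lam j) (fun j => φ (Pi.single j 1))
  obtain ⟨x, hx0, b, hb, m', al, w, hw, hW⟩ := rank_one (NN_tcl lam W φ)
    ⟨(m : ℤ) • (1 : Dv), φ (y • v), ⟨y • v, mem_EE.mpr ⟨W.smul_mem _ hv, mem_FF.mp hm⟩, rfl⟩,
      by simp [hy0, h0]⟩
    ⟨z, hz0, (n : ℤ) • (1 : Dv), by
      rintro a f ⟨u, hu, rfl⟩
      have e : z * φ u = ∑ j, u j * (z * φ (Pi.single j 1)) := by
        conv_lhs => rw [pi_eq_sum_univ' u, map_sum, Finset.mul_sum]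
        refine Finset.sum_congr rfl fun j _ => ?_
        rw [map_smul, smul_eq_mul]; ring
      show z * φ u ∈ _
      rw [e]
      refine Submodule.sum_mem _ fun j _ => ?_
      have := LL_mul ((mem_EE.mp hu).2 j) (mem_FF.mp hn j)
      rw [show lam j + a + (-lam j + (n : ℤ) • (1 : Dv)) = (n : ℤ) • (1 : Dv) + a by abel] at this
      exact this⟩
  choose w' hw' hw'' using hw
  refine ⟨x, hx0, b, fun a u hu => hb a _ ⟨u, hu, rfl⟩, m', al, w', hw', ?_⟩
  have e : (fun i => x * φ (w' i)) = fun i => x * w i := by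
    funext i
    rw [← hw'' i]; rfl
  rw [e]; exact hW

theorem DegH.sumS_mono {F G : Dv → ℚ} {b : Dv} (h : ∀ a, F a ≤ G (b + a)) (t : ℤ) :
    sumS F 0 t ≤ sumS G b t := by
  unfold sumS
  refine Finset.sum_le_sum fun c _ => ?_
  have := h (0 + t • C0 + gam c)
  rwa [show b + (0 + t • C0 + gam c) = b + t • C0 + gam c by abel] at this

theorem DegH.sumS_mono' {F G : Dv → ℚ} {b : Dv} (h : ∀ a, G (b + a) ≤ F a) (t : ℤ) :
    sumS G b t ≤ sumS F 0 t := by
  unfold sumS
  refine Finset.sum_le_sum fun c _ => ?_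
  have := h (0 + t • C0 + gam c)
  rwa [show b + (0 + t • C0 + gam c) = b + t • C0 + gam c by abel] at this

theorem DegH.NN_le {lam : ι → Dv} {W : Submodule (K k) (ι → K k)}
    {φ : (ι → K k) →ₗ[K k] K k} {b : Dv} (hb : ∀ a, ∀ v ∈ EE lam W a, φ v ∈ LL k (b + a)) (t : ℤ) :
    sumS (fun a => (finrank k (NN lam W φ a) : ℚ)) 0 t ≤
      sumS (fun a => (finrank k (LL k a) : ℚ)) b t := by
  refine DegH.sumS_mono (fun a => ?_) t
  have : NN lam W φ a ≤ LL k (b + a) := by
    rintro _ ⟨v, hv, rfl⟩; exact hb a v hv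
  exact_mod_cast Submodule.finrank_mono this

theorem DegH.wit_ne {b : Dv} {κ : Type} [Fintype κ] {al : κ → Dv} {w : κ → K k}
    (h : Wit b al w) : ∃ i, w i ≠ 0 := by
  obtain ⟨i, hi, -⟩ := h.sharp ⟨(0, 1), by decide⟩
  exact ⟨i, hi⟩

theorem DegH.NN_ge [Infinite k] {lam : ι → Dv} {W : Submodule (K k) (ι → K k)}
    {φ : (ι → K k) →ₗ[K k] K k} {b : Dv}
    {κ : Type} [Fintype κ] {al : κ → Dv} {w : κ → ι → K k} (hw : ∀ i, w i ∈ EE lam W (al i))
    (hW : Wit b al (fun i => φ (w i))) :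
    ∃ C : ℚ, ∀ᶠ t : ℤ in atTop, sumS (fun a => (finrank k (LL k a) : ℚ)) b t - C ≤
      sumS (fun a => (finrank k (NN lam W φ a) : ℚ)) 0 t := by
  obtain ⟨C, hC⟩ := hW.bc (N := fun a => NN lam W φ a ⊓ LL k (b + a))
    (fun a a' f x hf hx => ⟨NN_tcl lam W φ a a' f x hf.1 hx, by
      have := LL_mul hx hf.2
      rwa [show a' + (b + a) = b + (a + a') by abel] at this⟩)
    (fun i => ⟨⟨w i, hw i, rfl⟩, hW.mem i⟩) (fun a => inf_le_right) 0
  refine ⟨C, ?_⟩
  filter_upwards [hC] with t ht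
  rw [add_zero] at ht
  refine ht.trans (DegH.sumS_mono (fun a => ?_) t)
  rw [zero_add]
  have : FiniteDimensional k (NN lam W φ a) := by unfold NN; infer_instance
  exact_mod_cast Submodule.finrank_mono (inf_le_left (a := NN lam W φ a) (b := LL k (b + a)))

theorem DegH.hasD_NN [Infinite k] {lam : ι → Dv} {W : Submodule (K k) (ι → K k)}
    {φ : (ι → K k) →ₗ[K k] K k} {b : Dv} (hb : ∀ a, ∀ v ∈ EE lam W a, φ v ∈ LL k (b + a))
    {κ : Type} [Fintype κ] {al : κ → Dv} {w : κ → ι → K k} (hw : ∀ i, w i ∈ EE lam W (al i))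
    (hW : Wit b al (fun i => φ (w i))) :
    HasD (sumS (fun a => (finrank k (NN lam W φ a) : ℚ)) 0) 1 (dd b) := by
  obtain ⟨C, hC⟩ := DegH.NN_ge hw hW
  obtain ⟨C', hC'⟩ := hasD_LL (k := k) b
  refine ⟨C' + |C|, ?_⟩
  filter_upwards [hC, hC'] with t e1 e2
  have e3 := DegH.NN_le hb t
  rw [abs_le] at e2 ⊢
  constructor <;> linarith [e2.1, e2.2, le_abs_self C, abs_nonneg C]

theorem DegH.EE_bot (lam : ι → Dv) (a : Dv) : EE lam (⊥ : Submodule (K k) (ι → K k)) a = ⊥ := by
  simp [EE]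

theorem DegH.hh_bot (lam : ι → Dv) (t : ℤ) :
    hh lam (⊥ : Submodule (K k) (ι → K k)) t = 0 := by
  unfold hh sumS
  refine Finset.sum_eq_zero fun c _ => ?_
  beta_reduce
  rw [DegH.EE_bot]; simp

theorem DegH.exists_coord {W : Submodule (K k) (ι → K k)} (h : W ≠ ⊥) :
    ∃ j, ∃ v ∈ W, (LinearMap.proj j : (ι → K k) →ₗ[K k] K k) v ≠ 0 := by
  obtain ⟨v, hv, h0⟩ := (Submodule.ne_bot_iff W).mp h
  obtain ⟨j, hj⟩ := Function.ne_iff.mp h0
  exact ⟨j, v, hv, hj⟩

theorem DegH.ker_smul (φ : (ι → K k) →ₗ[K k] K k) {x : K k} (hx : x ≠ 0) :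
    LinearMap.ker (x • φ) = LinearMap.ker φ := by
  ext v; simp [hx]

/-- induction on the rank along coordinates -/
theorem DegH.induction {P : Submodule (K k) (ι → K k) → Prop} (h0 : P ⊥)
    (hs : ∀ W j, (∃ v ∈ W, (LinearMap.proj j : (ι → K k) →ₗ[K k] K k) v ≠ 0) →
      P (W ⊓ LinearMap.ker (LinearMap.proj j : (ι → K k) →ₗ[K k] K k)) → P W) (W) : P W := by
  induction hn : finrank (K k) W generalizing W with
  | zero =>
    rw [Submodule.finrank_eq_zero] at hn
    rw [hn]; exact h0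
  | succ n ih =>
    have hW : W ≠ ⊥ := by
      rintro rfl
      simp at hn
    obtain ⟨j, hj⟩ := DegH.exists_coord hW
    refine hs W j hj (ih _ ?_)
    have := rk_step W _ hj
    unfold rk at this
    omega

theorem DegH.exists_hasD [Infinite k] (lam : ι → Dv) (W : Submodule (K k) (ι → K k)) :
    ∃ d, HasD (hh lam W) (rk W) d := by
  induction W using DegH.induction with
  | h0 => exact ⟨0, 0, Eventually.of_forall fun t => by simp [DegH.hh_bot, rk]⟩
  | hs W j hj ih =>
    obtain ⟨d, hd⟩ := ih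
    obtain ⟨x, hx, b, hb, m, al, w, hw, hW⟩ := exists_normal lam W _ hj
    have h1 := DegH.hasD_NN (φ := x • (LinearMap.proj j : (ι → K k) →ₗ[K k] K k)) hb hw hW
    have h2 := hd.add h1
    refine ⟨d + dd b, ?_⟩
    rw [rk_step W _ hj]
    have e : hh lam W = fun t => hh lam (W ⊓ LinearMap.ker (LinearMap.proj j : (ι → K k) →ₗ[K k] K k)) t +
        sumS (fun a => (finrank k (NN lam W (x • (LinearMap.proj j : (ι → K k) →ₗ[K k] K k)) a) : ℚ)) 0 t := by
      funext t
      rw [hh_step lam W (x • (LinearMap.proj j : (ι → K k) →ₗ[K k] K k)) t, DegH.ker_smul _ hx]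
    rw [e]; exact h2

theorem hasD_hh [Infinite k] (lam : ι → Dv) (W : Submodule (K k) (ι → K k)) :
    HasD (hh lam W) (rk W) (deg lam W) := by
  have h := DegH.exists_hasD lam W
  unfold deg
  rw [dif_pos h]
  exact h.choose_spec

/-- degree drop along a normalised functional -/
theorem deg_step [Infinite k] (lam : ι → Dv) (W : Submodule (K k) (ι → K k))
    (φ : (ι → K k) →ₗ[K k] K k) {b : Dv} (hb : ∀ a, ∀ v ∈ EE lam W a, φ v ∈ LL k (b + a))
    {κ : Type} [Fintype κ] {al : κ → Dv} {w : κ → ι → K k} (hw : ∀ i, w i ∈ EE lam W (al i))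
    (hW : Wit b al (fun i => φ (w i))) :
    deg lam W = deg lam (W ⊓ LinearMap.ker φ) + dd b := by
  obtain ⟨i, hi⟩ := DegH.wit_ne hW
  have h1 := (hasD_hh lam (W ⊓ LinearMap.ker φ)).add (DegH.hasD_NN hb hw hW)
  have e : hh lam W = fun t => hh lam (W ⊓ LinearMap.ker φ) t +
      sumS (fun a => (finrank k (NN lam W φ a) : ℚ)) 0 t := funext (hh_step lam W φ)
  rw [← e] at h1
  exact ((hasD_hh lam W).unique h1).2

/-- lower bound for the degree drop from witnesses alone -/
theorem deg_step_ge [Infinite k] (lam : ι → Dv) (W : Submodule (K k) (ι → K k))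
    (φ : (ι → K k) →ₗ[K k] K k) {b : Dv}
    {κ : Type} [Fintype κ] {al : κ → Dv} {w : κ → ι → K k} (hw : ∀ i, w i ∈ EE lam W (al i))
    (hW : Wit b al (fun i => φ (w i))) :
    deg lam (W ⊓ LinearMap.ker φ) + dd b ≤ deg lam W := by
  obtain ⟨i, hi⟩ := DegH.wit_ne hW
  have hr := rk_step W φ ⟨w i, (mem_EE.mp (hw i)).1, hi⟩
  obtain ⟨C, hC⟩ := DegH.NN_ge hw hW
  have h1 := (hasD_hh lam (W ⊓ LinearMap.ker φ)).add (hasD_LL (k := k) b)
  have := h1.le (hasD_hh lam W) C (by
    filter_upwards [hC] with t ht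
    rw [hh_step lam W φ t]
    linarith)
  omega

/-- upper bound for the degree drop -/
theorem DegH.deg_step_le [Infinite k] (lam : ι → Dv) (W : Submodule (K k) (ι → K k))
    (φ : (ι → K k) →ₗ[K k] K k) {b : Dv} (hb : ∀ a, ∀ v ∈ EE lam W a, φ v ∈ LL k (b + a))
    (h : ∃ v ∈ W, φ v ≠ 0) : deg lam W ≤ deg lam (W ⊓ LinearMap.ker φ) + dd b := by
  have hr := rk_step W φ h
  have h1 := (hasD_hh lam (W ⊓ LinearMap.ker φ)).add (hasD_LL (k := k) b)
  have := (hasD_hh lam W).le h1 0 (Eventually.of_forall fun t => by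
    rw [hh_step lam W φ t]
    linarith [DegH.NN_le hb t])
  omega

theorem rk_bot : rk (⊥ : Submodule (K k) (ι → K k)) = 0 := by
  simp [rk]

theorem rk_nonneg (W : Submodule (K k) (ι → K k)) : 0 ≤ rk W := by
  exact Int.natCast_nonneg _

theorem rk_mono {W W' : Submodule (K k) (ι → K k)} (h : W ≤ W') : rk W ≤ rk W' := by
  unfold rk
  exact_mod_cast Submodule.finrank_mono h

theorem rk_lt {W W' : Submodule (K k) (ι → K k)} (h : W < W') : rk W < rk W' := by
  unfold rk
  exact_mod_cast Submodule.finrank_lt_finrank_of_lt h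

theorem rk_top : rk (⊤ : Submodule (K k) (ι → K k)) = Fintype.card ι := by
  simp [rk]

theorem hh_bot (lam : ι → Dv) (t : ℤ) : hh lam (⊥ : Submodule (K k) (ι → K k)) t = 0 := by
  exact DegH.hh_bot lam t

theorem deg_bot [Infinite k] (lam : ι → Dv) : deg lam (⊥ : Submodule (K k) (ι → K k)) = 0 := by
  have h : HasD (hh lam (⊥ : Submodule (K k) (ι → K k))) 0 0 :=
    ⟨0, Eventually.of_forall fun t => by simp [hh_bot]⟩
  exact ((hasD_hh lam ⊥).unique h).2

theorem ev_hh_top (lam : ι → Dv) : ∀ᶠ t : ℤ in atTop,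
    hh lam (⊤ : Submodule (K k) (ι → K k)) t =
      ∑ j, (PP t + dd (lam j) * ((t : ℚ) - 9 / 2) + ee (lam j)) := by
  have h := (eventually_all (ι := ι) (l := atTop)).mpr fun j => ev_hilb (k := k) (lam j)
  filter_upwards [h] with t ht
  rw [← Finset.sum_congr rfl fun j _ => ht j]
  unfold hh sumS
  rw [Finset.sum_comm]
  refine Finset.sum_congr rfl fun c _ => ?_
  have e : EE lam (⊤ : Submodule (K k) (ι → K k)) (0 + t • C0 + gam c) =
      FF k lam (0 + t • C0 + gam c) := by simp [EE]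
  beta_reduce
  rw [e, finrank_FF]
  push_cast
  refine Finset.sum_congr rfl fun j _ => ?_
  rw [show lam j + (0 + t • C0 + gam c) = lam j + t • C0 + gam c by abel]

theorem deg_top [Infinite k] (lam : ι → Dv) :
    deg lam (⊤ : Submodule (K k) (ι → K k)) = ∑ j, dd (lam j) := by
  have h : HasD (hh lam (⊤ : Submodule (K k) (ι → K k))) (Fintype.card ι) (∑ j, dd (lam j)) := by
    refine ⟨|∑ j, (ee (lam j) - dd (lam j) * (9 / 2))|, ?_⟩
    filter_upwards [ev_hh_top (k := k) lam] with t ht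
    rw [ht]
    refine le_of_eq (congrArg _ ?_)
    push_cast
    rw [Finset.sum_mul, show (Fintype.card ι : ℚ) * PP t = ∑ _j : ι, PP t by simp,
      ← Finset.sum_sub_distrib, ← Finset.sum_sub_distrib]
    refine Finset.sum_congr rfl fun j _ => ?_
    ring
  exact ((hasD_hh lam ⊤).unique h).2

theorem DegH.exists_proj' (W : Submodule (K k) (ι → K k)) :
    ∃ J : Finset ι, (J.card : ℤ) = rk W ∧ (∀ v ∈ W, (∀ j ∈ J, v j = 0) → v = 0) ∧
      (∀ j ∈ J, ∃ v ∈ W, v j ≠ 0) ∧
      ∀ (_ : Infinite k) (lam : ι → Dv), deg lam W ≤ ∑ j ∈ J, dd (lam j) := by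
  classical
  induction W using DegH.induction with
  | h0 => exact ⟨∅, by simp [rk_bot], by simp, by simp, fun _ lam => by simp [deg_bot]⟩
  | hs W j hj ih =>
    obtain ⟨J, h1, h2, h3, h4⟩ := ih
    have hJ : j ∉ J := by
      intro hm
      obtain ⟨v, hv, h0⟩ := h3 j hm
      exact h0 hv.2
    refine ⟨insert j J, ?_, ?_, ?_, ?_⟩
    · rw [Finset.card_insert_of_notMem hJ, rk_step W _ hj]
      push_cast; omega
    · intro v hv h0
      exact h2 v ⟨hv, h0 j (Finset.mem_insert_self _ _)⟩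
        fun i hi => h0 i (Finset.mem_insert_of_mem hi)
    · intro i hi
      rcases Finset.mem_insert.mp hi with rfl | hi
      · exact hj
      · obtain ⟨v, hv, h0⟩ := h3 i hi
        exact ⟨v, hv.1, h0⟩
    · intro hk lam
      rw [Finset.sum_insert hJ]
      have e1 := DegH.deg_step_le lam W (LinearMap.proj j) (b := lam j)
        (fun a v hv => (mem_EE.mp hv).2 j) hj
      have e2 := h4 hk lam
      omega

theorem exists_proj (W : Submodule (K k) (ι → K k)) :
    ∃ J : Finset ι, (J.card : ℤ) = rk W ∧ ∀ v ∈ W, (∀ j ∈ J, v j = 0) → v = 0 := by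
  obtain ⟨J, h1, h2, -⟩ := DegH.exists_proj' W
  exact ⟨J, h1, h2⟩

theorem deg_le_sum [Infinite k] (lam : ι → Dv) (W : Submodule (K k) (ι → K k)) :
    deg lam W ≤ ∑ j, |dd (lam j)| := by
  obtain ⟨J, -, -, -, h⟩ := DegH.exists_proj' W
  refine (h inferInstance lam).trans ((Finset.sum_le_sum fun j _ => le_abs_self _).trans ?_)
  exact Finset.sum_le_sum_of_subset_of_nonneg (Finset.subset_univ _) fun _ _ _ => abs_nonneg _

/-- a nonzero section bounds the degree of the line it spans -/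
theorem deg_span_ge [Infinite k] (lam : ι → Dv) {a : Dv} {v : ι → K k} (hv : v ∈ FF k lam a)
    (h0 : v ≠ 0) : rk (Submodule.span (K k) {v}) = 1 ∧
      -dd a ≤ deg lam (Submodule.span (K k) {v}) := by
  have hr : rk (Submodule.span (K k) {v}) = 1 := by
    unfold rk
    rw [finrank_span_singleton h0]; rfl
  refine ⟨hr, ?_⟩
  have hv' : v ∈ EE lam (Submodule.span (K k) {v}) a :=
    mem_EE.mpr ⟨Submodule.mem_span_singleton_self v, mem_FF.mp hv⟩
  have := (hasD_LL (k := k) (-a)).le (hasD_hh lam (Submodule.span (K k) {v})) 0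
    (Eventually.of_forall fun t => by
      rw [add_zero]
      refine DegH.sumS_mono' (fun a' => ?_) t
      let T : K k →ₗ[k] (ι → K k) := (LinearMap.toSpanSingleton (K k) (ι → K k) v).restrictScalars k
      have hT : ∀ x, T x = x • v := fun _ => rfl
      have hi : Function.Injective T := by
        intro x y h
        rw [hT, hT] at h
        exact smul_left_injective _ h0 h
      have hle : (LL k (-a + a')).map T ≤ EE lam (Submodule.span (K k) {v}) a' := by
        rintro _ ⟨x, hx, rfl⟩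
        have := EE_smul hv' hx
        rwa [show a + (-a + a') = a' by abel] at this
      have e := Submodule.finrank_mono hle
      rw [← (Submodule.equivMapOfInjective _ hi _).finrank_eq] at e
      exact_mod_cast e)
  have e := dd_smul (-1) a
  rw [neg_one_smul] at e
  omega

theorem DegH.nrm_sub_sgl (a : Dv) (e : Edge) : nrm (a - sgl e) ≤ nrm a + 1 := by
  have h1 := nrm_add a ((-1 : ℤ) • sgl e)
  rw [nrm_smul] at h1
  have h2 : nrm (sgl e) = 1 := by
    unfold nrm sgl
    rw [Finset.sum_eq_single e]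
    · simp
    · intro f _ hf; simp [hf]
    · simp
  rw [h2, neg_one_smul, ← sub_eq_add_neg] at h1
  simpa using h1

theorem DegH.LL_incr (a : Dv) :
    (finrank k (LL k a) : ℤ) ≤ finrank k (LL k (a - C0)) + 5 * (nrm a + 10) := by
  have e : a - C0 = a - sgl (E 1 0 1) - sgl (E 1 1 2) - sgl (E 1 2 3) - sgl (E 1 3 4) -
      sgl (E 1 0 4) := by
    unfold C0 Cp; abel
  rw [e]
  have h1 := incr_le (k := k) a (E 1 0 1)
  have n1 := DegH.nrm_sub_sgl a (E 1 0 1)
  generalize a - sgl (E 1 0 1) = a1 at h1 n1 ⊢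
  have h2 := incr_le (k := k) a1 (E 1 1 2)
  have n2 := DegH.nrm_sub_sgl a1 (E 1 1 2)
  generalize a1 - sgl (E 1 1 2) = a2 at h2 n2 ⊢
  have h3 := incr_le (k := k) a2 (E 1 2 3)
  have n3 := DegH.nrm_sub_sgl a2 (E 1 2 3)
  generalize a2 - sgl (E 1 2 3) = a3 at h3 n3 ⊢
  have h4 := incr_le (k := k) a3 (E 1 3 4)
  have n4 := DegH.nrm_sub_sgl a3 (E 1 3 4)
  generalize a3 - sgl (E 1 3 4) = a4 at h4 n4 ⊢
  have h5 := incr_le (k := k) a4 (E 1 0 4)
  omega

/-- increments along the standard pentagon -/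
theorem EE_incr (lam : ι → Dv) (W : Submodule (K k) (ι → K k)) (a : Dv) :
    (finrank k (EE lam W a) : ℤ) ≤ finrank k (EE lam W (a - C0)) +
      ∑ j, 5 * (nrm (lam j + a) + 10) := by
  have hC : a - C0 ≤ a := by
    intro e
    have := Cp_cases 1 e
    simp only [Pi.sub_apply, C0]
    omega
  have h1 := Submodule.finrank_sup_add_finrank_inf_eq (EE lam W a) (FF k lam (a - C0))
  have e1 : EE lam W a ⊓ FF k lam (a - C0) = EE lam W (a - C0) := by
    refine le_antisymm (fun v hv => mem_EE.mpr ⟨(mem_EE.mp hv.1).1, mem_FF.mp hv.2⟩) ?_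
    exact le_inf (EE_mono lam W hC) inf_le_right
  have e2 : EE lam W a ⊔ FF k lam (a - C0) ≤ FF k lam a := by
    refine sup_le inf_le_right fun v hv => mem_FF.mpr fun j => ?_
    exact LL_mono (add_le_add_right hC _) (mem_FF.mp hv j)
  have h2 := Submodule.finrank_mono e2
  rw [e1] at h1
  have h3 : (finrank k (FF k lam a) : ℤ) ≤ finrank k (FF k lam (a - C0)) +
      ∑ j, 5 * (nrm (lam j + a) + 10) := by
    rw [finrank_FF, finrank_FF]
    push_cast
    rw [← Finset.sum_add_distrib]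
    refine Finset.sum_le_sum fun j _ => ?_
    have := DegH.LL_incr (k := k) (lam j + a)
    rwa [add_sub_assoc] at this
  omega

end Vale.Agent.P190
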