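import Vale.Agent.P190.Sop

/-! P190 job Dual, first half: the generic basis over the parameters. -/

namespace Vale.Agent.P190
open MvPolynomial Module Filter

variable {k : Type} [Field k]

namespace DualH

theorem one_mem_Hom3 : (1 : A3 k) ∈ Hom3 k 0 := by
  have := SeqH.Hom3_nat (k := k) 0
  rw [Nat.cast_zero] at this
  rw [this]
  exact isHomogeneous_one _ _

theorem pow_mem_Hom3 (i : Fin 3) (n : ℕ) : (X i : A3 k) ^ n ∈ Hom3 k n := by
  rw [SeqH.Hom3_nat]
  exact isHomogeneous_X_pow i n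

/-- quotients of forms of the same degree in the parameters -/
def Kp (y : Fin 3 → K k) (hi : ∀ (t : ℤ) (P : A3 k), P ∈ Hom3 k t → aeval y P = 0 → P = 0) :
    Subfield (K k) where
  carrier := {x | ∃ (t : ℤ) (P Q : A3 k), P ≠ 0 ∧ P ∈ Hom3 k t ∧ Q ∈ Hom3 k t ∧
    aeval y P * x = aeval y Q}
  zero_mem' := ⟨0, 1, 0, one_ne_zero, one_mem_Hom3, zero_mem _, by simp⟩
  one_mem' := ⟨0, 1, 1, one_ne_zero, one_mem_Hom3, one_mem_Hom3, by simp⟩
  add_mem' := by
    rintro a b ⟨t, P, Q, h0, hP, hQ, h⟩ ⟨t', P', Q', h0', hP', hQ', h'⟩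
    refine ⟨t + t', P * P', Q * P' + P * Q', mul_ne_zero h0 h0', mul_Hom3 hP hP',
      add_mem (mul_Hom3 hQ hP') (mul_Hom3 hP hQ'), ?_⟩
    simp only [map_mul, map_add, ← h, ← h']
    ring
  mul_mem' := by
    rintro a b ⟨t, P, Q, h0, hP, hQ, h⟩ ⟨t', P', Q', h0', hP', hQ', h'⟩
    refine ⟨t + t', P * P', Q * Q', mul_ne_zero h0 h0', mul_Hom3 hP hP', mul_Hom3 hQ hQ', ?_⟩
    simp only [map_mul, ← h, ← h']
    ring
  neg_mem' := by
    rintro a ⟨t, P, Q, h0, hP, hQ, h⟩
    refine ⟨t, P, -Q, h0, hP, neg_mem hQ, ?_⟩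
    simp only [map_neg, ← h]
    ring
  inv_mem' := by
    rintro a ⟨t, P, Q, h0, hP, hQ, h⟩
    by_cases ha : a = 0
    · exact ⟨0, 1, 0, one_ne_zero, one_mem_Hom3, zero_mem _, by simp [ha]⟩
    have h1 : aeval y P ≠ 0 := fun h2 => h0 (hi t P hP h2)
    refine ⟨t, Q, P, ?_, hQ, hP, ?_⟩
    · rintro rfl
      rw [map_zero] at h
      exact mul_ne_zero h1 ha h
    · rw [← h, mul_assoc, mul_inv_cancel₀ ha, mul_one]

theorem const_mem_Kp {y : Fin 3 → K k}
    {hi : ∀ (t : ℤ) (P : A3 k), P ∈ Hom3 k t → aeval y P = 0 → P = 0} (c : k) :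
    algebraMap k (K k) c ∈ Kp y hi := by
  refine ⟨0, 1, C c, one_ne_zero, one_mem_Hom3, ?_, by simp⟩
  have := Submodule.smul_mem _ c (one_mem_Hom3 (k := k))
  rwa [smul_eq_C_mul, mul_one] at this

theorem fl_88 (t : ℤ) : fl ((88 : ℤ) • (1 : Dv) + (11 * t) • C0) = (8 : ℤ) • (1 : Dv) + t • C0 := by
  funext e
  simp only [fl, Pi.add_apply, Pi.smul_apply, smul_eq_mul, Pi.one_apply]
  rcases Cp_cases 1 e with h | h <;> rw [C0, h] <;> omega

theorem tot_one : tot (1 : Dv) = 10 := by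
  rw [tot, sum_edge 1]; simp only [Pi.one_apply]; norm_num

theorem Qi_8 : ∃ b c : ℚ, ∀ t : ℤ,
    Qi ((8 : ℤ) • (1 : Dv) + t • C0) = 5 / 2 * (t : ℚ) ^ 2 + b * t + c := by
  refine ⟨165 / 2, ((bf ((8 : ℤ) • (1 : Dv)) ((8 : ℤ) • (1 : Dv)) : ℤ) + 80 : ℚ) / 2 + 1, fun t => ?_⟩
  rw [Qi_eq, bf_add, bf_add', bf_add', bf_smul t, bf_smul t, bf_smul' t, bf_comm C0, C0, bf_Cp, bf_Cp,
    tot_add, tot_smul t, tot_smul 8, tot_Cp, tot_one]
  push_cast
  ring

/-- independent families of bounded sections are small -/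
theorem card_le_five {y : Fin 3 → K k} (hy : IsSop y)
    (hi : ∀ (t : ℤ) (P : A3 k), P ∈ Hom3 k t → aeval y P = 0 → P = 0)
    {I : Type} [Fintype I] (f : I → K k) (hf : ∀ i, f i ∈ LL k ((88 : ℤ) • (1 : Dv)))
    (hl : LinearIndependent (Kp y hi) f) : Fintype.card I ≤ 5 := by
  obtain ⟨b, c, hQ⟩ := Qi_8
  have key : ∀ᶠ t : ℤ in atTop, (Fintype.card I : ℚ) / 2 * (t : ℚ) ^ 2 +
      3 * (Fintype.card I : ℚ) / 2 * t + Fintype.card I ≤ 5 / 2 * (t : ℚ) ^ 2 + b * t + c := by
    filter_upwards [ev_deepI ((8 : ℤ) • (1 : Dv)), eventually_ge_atTop (0 : ℤ)] with t ht ht0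
    have hg := (good (k := k) (a := (88 : ℤ) • (1 : Dv) + (11 * t) • C0) (by rwa [fl_88])).2
    rw [fl_88, hQ] at hg
    rw [← hg]
    let T : (I → Hom3 k t) →ₗ[k] K k :=
      ∑ i, (LinearMap.mulRight k (f i)).comp
        (((aeval y).toLinearMap.comp (Hom3 k t).subtype).comp (LinearMap.proj i))
    have hT : ∀ q, T q = ∑ i, aeval y (q i : A3 k) * f i := by
      intro q
      simp [T, LinearMap.sum_apply]
    have hmem : ∀ q, T q ∈ LL k ((88 : ℤ) • (1 : Dv) + (11 * t) • C0) := by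
      intro q
      rw [hT, add_comm]
      exact sum_mem fun i _ => LL_mul (hy.aeval_mem (q i).2) (hf i)
    have hinj : Function.Injective (T.codRestrict _ hmem) := by
      rw [injective_iff_map_eq_zero]
      intro q hq
      have h0 : T q = 0 := congrArg Subtype.val hq
      rw [hT] at h0
      obtain ⟨n, rfl⟩ := Int.eq_ofNat_of_zero_le ht0
      have hy0 : y 0 ^ n ≠ 0 := pow_ne_zero _ hy.ne
      let cc : I → Kp y hi := fun i => ⟨aeval y (q i : A3 k) / y 0 ^ n,
        ⟨n, X 0 ^ n, q i, pow_ne_zero _ (X_ne_zero 0), pow_mem_Hom3 0 n, (q i).2, by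
          rw [map_pow, aeval_X]; field_simp⟩⟩
      have h1 := Fintype.linearIndependent_iff.1 hl cc (by
        have : ∑ i, cc i • f i = (y 0 ^ n)⁻¹ * ∑ i, aeval y (q i : A3 k) * f i := by
          rw [Finset.mul_sum]
          refine Finset.sum_congr rfl fun i _ => ?_
          change aeval y (q i : A3 k) / y 0 ^ n * f i = _
          ring
        rw [this, h0, mul_zero])
      funext i
      have h2 : aeval y (q i : A3 k) / y 0 ^ n = 0 := congrArg Subtype.val (h1 i)
      rw [div_eq_zero_iff, or_iff_left hy0] at h2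
      exact Subtype.ext (hi n _ (q i).2 h2)
    have h3 := LinearMap.finrank_le_finrank_of_injective hinj
    rw [Module.finrank_pi_fintype, Finset.sum_const, Finset.card_univ, smul_eq_mul] at h3
    have h4 : ((Fintype.card I : ℚ)) * finrank k (Hom3 k t) ≤
        finrank k (LL k ((88 : ℤ) • (1 : Dv) + (11 * t) • C0)) := by exact_mod_cast h3
    rw [finrank_Hom3, if_pos ht0, Bq] at h4
    linarith
  have h5 : (Fintype.card I : ℚ) ≤ 5 := by
    rcases quad_le key with h | h
    · linarith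
    · linarith [h.1]
  exact_mod_cast h5

theorem exists_fin_span {L : Type} [Field L] (F : Subfield L) {A B : Set L} (hAB : A ⊆ B)
    (hc : ∀ s : Finset L, (s : Set L) ⊆ B → LinearIndependent F (fun i : s => (i : L)) →
      s.card ≤ 5) : ∃ s : Finset L, s.card ≤ 5 ∧ (s : Set L) ⊆ B ∧
      Submodule.span F (s : Set L) = Submodule.span F A := by
  obtain ⟨b, hb, hsp, hl⟩ := exists_linearIndependent F A
  have hsub : ∀ s : Finset L, (s : Set L) ⊆ b → s.card ≤ 5 := fun s hs =>
    hc s (hs.trans (hb.trans hAB)) (LinearIndepOn.mono (v := id) hl hs)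
  have hfin : b.Finite := by
    by_contra hinf
    obtain ⟨s, hs, hc⟩ := Set.Infinite.exists_subset_card_eq hinf 6
    have := hsub s hs
    omega
  refine ⟨hfin.toFinset, hsub _ (by simp), by simpa using hb.trans hAB, ?_⟩
  rw [hfin.coe_toFinset, hsp]

theorem chain_stop {L : Type} [Field L] (F : Subfield L) (A : ℕ → Set L) (hA : Monotone A)
    (h1 : (1 : L) ∈ A 0)
    (hc : ∀ s : Finset L, (s : Set L) ⊆ A 8 → LinearIndependent F (fun i : s => (i : L)) →
      s.card ≤ 5) : ∃ n ≤ 4, Submodule.span F (A n) = Submodule.span F (A (n + 1)) := by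
  have hfd : ∀ n ≤ 8, FiniteDimensional F (Submodule.span F (A n)) ∧
      finrank F (Submodule.span F (A n)) ≤ 5 := by
    intro n hn
    obtain ⟨s, hs, -, h⟩ := exists_fin_span F (hA hn) hc
    rw [← h]
    exact ⟨FiniteDimensional.span_finset _ s, (finrank_span_finset_le_card s).trans hs⟩
  by_contra hne
  push Not at hne
  have h2 : ∀ n ≤ 5, n + 1 ≤ finrank F (Submodule.span F (A n)) := by
    intro n hn
    induction n with
    | zero =>
      have := (hfd 0 (by omega)).1
      rw [Nat.zero_add, Nat.one_le_iff_ne_zero, Ne, Submodule.finrank_eq_zero]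
      intro h
      have h2 := Submodule.subset_span (R := F) h1
      rw [h] at h2
      exact one_ne_zero ((Submodule.mem_bot _).1 h2)
    | succ n ih =>
      have := (hfd (n + 1) (by omega)).1
      have h2 := Submodule.finrank_lt_finrank_of_lt
        (lt_of_le_of_ne (Submodule.span_mono (hA (Nat.le_add_right n 1))) (hne n (by omega)))
      have := ih (by omega)
      omega
  have := h2 5 le_rfl
  have := (hfd 5 (by omega)).2
  omega

theorem div_mem_span {L : Type} [Field L] (F : Subfield L) (s : Finset L) {a b : L} (hb : b ≠ 0)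
    (ha : a ∈ Submodule.span F (s : Set L))
    (h : ∀ x ∈ Submodule.span F (s : Set L), b * x ∈ Submodule.span F (s : Set L)) :
    a / b ∈ Submodule.span F (s : Set L) := by
  have hfin := FiniteDimensional.span_finset F s
  let T : Submodule.span F (s : Set L) →ₗ[F] Submodule.span F (s : Set L) :=
    (LinearMap.mulLeft F b).restrict h
  have hT : Function.Injective T := by
    intro u v huv
    have : b * u = b * v := congrArg Subtype.val huv
    exact Subtype.ext (mul_left_cancel₀ hb this)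
  obtain ⟨u, hu⟩ := (LinearMap.injective_iff_surjective.1 hT) ⟨_, ha⟩
  have h2 : b * u = a := congrArg Subtype.val hu
  have h3 : a / b = u := by
    rw [div_eq_iff hb, mul_comm, h2]
  rw [h3]
  exact u.2

theorem mul_mem_span {L : Type} [Field L] (F : Subfield L) {A B : Set L} {u : L}
    (h : ∀ x ∈ A, u * x ∈ B) : ∀ x ∈ Submodule.span F A, u * x ∈ Submodule.span F B := by
  intro x hx
  induction hx using Submodule.span_induction with
  | mem x hx => exact Submodule.subset_span (h x hx)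
  | zero => rw [mul_zero]; exact zero_mem _
  | add x z _ _ hx hz => rw [mul_add]; exact add_mem hx hz
  | smul c x _ hx => rw [mul_smul_comm]; exact Submodule.smul_mem _ c hx

theorem uv_mem (i : Fin 2) : algebraMap (P2 k) (K k) (X i) ∈ LL k ((11 : ℤ) • (1 : Dv)) := by
  have key : ∀ j : Fin 5, algebraMap (P2 k) (K k) (cpol k j) ∈ LL k ((11 : ℤ) • (1 : Dv)) := by
    intro j
    rw [← gu_gb_one, gu_mem_LL (gb_mem 1 j)]
    intro e
    have := abs_le.1 (abs_gb_le 1 j e)
    simp only [Pi.smul_apply, Pi.one_apply, smul_eq_mul]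
    omega
  fin_cases i
  · simpa [cpol] using key 0
  · simpa [cpol] using key 1

theorem span_top {y : Fin 3 → K k} (hy : IsSop y)
    (hi : ∀ (t : ℤ) (P : A3 k), P ∈ Hom3 k t → aeval y P = 0 → P = 0) :
    ∃ s : Finset (K k), s.card ≤ 5 ∧ (∀ x ∈ s, x ∈ LL k ((88 : ℤ) • (1 : Dv))) ∧
      ∀ x, x ∈ Submodule.span (Kp y hi) (s : Set (K k)) := by
  let A : ℕ → Set (K k) := fun n => (LL k (((11 * n : ℕ) : ℤ) • (1 : Dv)) : Set (K k))
  have hA : Monotone A := by
    intro n m h
    refine LL_mono fun e => ?_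
    simp only [Pi.smul_apply, Pi.one_apply, smul_eq_mul]
    omega
  have h1 : (1 : K k) ∈ A 0 := one_mem_LL.2 (by simp)
  have hc : ∀ s : Finset (K k), (s : Set (K k)) ⊆ A 8 →
      LinearIndependent (Kp y hi) (fun i : s => (i : K k)) → s.card ≤ 5 := by
    intro s hs hl
    simpa using card_le_five hy hi (fun i : s => (i : K k)) (fun i => hs i.2) hl
  obtain ⟨n, hn, hS⟩ := chain_stop (Kp y hi) A hA h1 hc
  obtain ⟨s, hs, hs', h⟩ := exists_fin_span (Kp y hi) (hA (by omega : n ≤ 8)) hc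
  have hP : ∀ P : P2 k, ∀ x ∈ Submodule.span (Kp y hi) (A n),
      algebraMap (P2 k) (K k) P * x ∈ Submodule.span (Kp y hi) (A n) := by
    intro P
    induction P using MvPolynomial.induction_on with
    | C c =>
      intro x hx
      have := Submodule.smul_mem _ (⟨_, const_mem_Kp c⟩ : Kp y hi) hx
      have e : algebraMap (P2 k) (K k) (C c) = algebraMap k (K k) c :=
        (IsScalarTower.algebraMap_apply k (P2 k) (K k) c).symm
      rw [e]
      exact this
    | add P Q hP hQ =>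
      intro x hx
      rw [map_add, add_mul]
      exact add_mem (hP x hx) (hQ x hx)
    | mul_X P i hP =>
      intro x hx
      rw [map_mul, mul_assoc]
      refine hP _ ?_
      rw [hS]
      refine mul_mem_span _ (fun z hz => LL_mono (fun e => ?_) (LL_mul (uv_mem i) hz)) x hx
      simp only [Pi.smul_apply, Pi.one_apply, smul_eq_mul, Pi.add_apply]
      omega
  refine ⟨s, hs, fun x hx => hs' hx, fun x => ?_⟩
  obtain ⟨a, b, hb, rfl⟩ := IsFractionRing.div_surjective (A := P2 k) x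
  have hb' : algebraMap (P2 k) (K k) b ≠ 0 := by simpa using nonZeroDivisors.ne_zero hb
  refine div_mem_span _ s hb' ?_ (by rw [h]; exact hP b)
  rw [h, ← mul_one (algebraMap (P2 k) (K k) a)]
  exact hP a 1 (Submodule.subset_span (hA (Nat.zero_le n) h1))

theorem common_den {y : Fin 3 → K k}
    {hi : ∀ (t : ℤ) (P : A3 k), P ∈ Hom3 k t → aeval y P = 0 → P = 0} {I : Type} (s : Finset I)
    (c : I → Kp y hi) : ∃ (t : ℤ) (P : A3 k) (Q : I → A3 k), P ≠ 0 ∧ P ∈ Hom3 k t ∧
      (∀ i, Q i ∈ Hom3 k t) ∧ ∀ i ∈ s, aeval y P * (c i : K k) = aeval y (Q i) := by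
  classical
  induction s using Finset.induction_on with
  | empty => exact ⟨0, 1, 0, one_ne_zero, one_mem_Hom3, fun _ => zero_mem _, by simp⟩
  | insert j s _ ih =>
    obtain ⟨t, P, Q, h0, hP, hQ, h⟩ := ih
    obtain ⟨t', P', Q', h0', hP', hQ', h'⟩ := (c j).2
    refine ⟨t + t', P * P', fun i => if i = j then P * Q' else Q i * P', mul_ne_zero h0 h0',
      mul_Hom3 hP hP', fun i => ?_, fun i hi' => ?_⟩
    · dsimp only
      split_ifs
      · exact mul_Hom3 hP hQ'
      · exact mul_Hom3 (hQ i) hP'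
    · dsimp only
      split_ifs with hij
      · rw [hij, map_mul, map_mul, ← h', mul_assoc]
      · rw [map_mul, map_mul, ← h i ((Finset.mem_insert.1 hi').resolve_left hij)]
        ring

theorem basis' {y : Fin 3 → K k} (hy : IsSop y)
    (hi : ∀ (t : ℤ) (P : A3 k), P ∈ Hom3 k t → aeval y P = 0 → P = 0) :
    ∃ ρ : Fin 5 → K k, (∀ i, ρ i ∈ LL k ((88 : ℤ) • (1 : Dv))) ∧ ∀ f : K k,
      ∃ (t : ℤ) (P : A3 k) (Q : Fin 5 → A3 k), P ≠ 0 ∧ P ∈ Hom3 k t ∧ (∀ i, Q i ∈ Hom3 k t) ∧
        aeval y P * f = ∑ i, aeval y (Q i) * ρ i := by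
  obtain ⟨s, hs, hs', h⟩ := span_top hy hi
  let ρ : Fin 5 → K k := fun i => if h : (i : ℕ) < s.card then (s.equivFin.symm ⟨i, h⟩ : K k) else 0
  refine ⟨ρ, fun i => ?_, fun f => ?_⟩
  · simp only [ρ]
    split_ifs
    · exact hs' _ (Subtype.prop _)
    · exact zero_mem _
  · have h1 : f ∈ Submodule.span (Kp y hi) (Set.range ρ) := by
      refine Submodule.span_mono (fun x hx => ?_) (h f)
      refine ⟨⟨s.equivFin ⟨x, hx⟩, lt_of_lt_of_le (s.equivFin ⟨x, hx⟩).2 hs⟩, ?_⟩
      simp [ρ]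
    obtain ⟨c, hc⟩ := (Submodule.mem_span_range_iff_exists_fun _).1 h1
    obtain ⟨t, P, Q, h0, hP, hQ, h2⟩ := common_den Finset.univ c
    refine ⟨t, P, Q, h0, hP, hQ, ?_⟩
    rw [← hc, Finset.mul_sum]
    refine Finset.sum_congr rfl fun i _ => ?_
    rw [← h2 i (Finset.mem_univ i), mul_assoc]
    rfl

end DualH

end Vale.Agent.P190
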