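import Vale.Agent.P190.EmbA

/-! P190 job Emb: the associated graded module as a quotient of a free family. -/

namespace Vale.Agent.P190
open Module Filter

variable {k : Type} [Field k]

/-- characters of the group of divisors -/
noncomputable def chr (ω : k) (g : Fin 5 → Fin 11) (a : Dv) : k :=
  ∏ i, (ω ^ a (ce 1 i)) ^ (g i : ℕ)

theorem chr_add {ω : k} (hω : ω ≠ 0) (g : Fin 5 → Fin 11) (a b : Dv) :
    chr ω g (a + b) = chr ω g a * chr ω g b := by
  simp only [chr, ← Finset.prod_mul_distrib, Pi.add_apply, zpow_add₀ hω, mul_pow]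

theorem chr_ne {ω : k} (hω : ω ≠ 0) (g : Fin 5 → Fin 11) (a : Dv) : chr ω g a ≠ 0 :=
  Finset.prod_ne_zero_iff.mpr fun _ _ => pow_ne_zero _ (zpow_ne_zero _ hω)

theorem chr_eleven {ω : k} (hω : IsPrimitiveRoot ω 11) (g : Fin 5 → Fin 11) (d : Dv) :
    chr ω g ((11 : ℤ) • d) = 1 := by
  refine Finset.prod_eq_one fun i _ => ?_
  have : ω ^ (11 : ℤ) = 1 := by exact_mod_cast hω.pow_eq_one
  rw [Pi.smul_apply, smul_eq_mul, zpow_mul, this, one_zpow, one_pow]

theorem chr_orth {ω : k} (hω : IsPrimitiveRoot ω 11) (c c₀ : Fin 5 → Fin 11) :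
    ∑ g : Fin 5 → Fin 11, chr ω g (gam c - gam c₀) = if c = c₀ then 161051 else 0 := by
  have e := Finset.prod_univ_sum (fun _ : Fin 5 => (Finset.univ : Finset (Fin 11)))
    (fun i x => (ω ^ (gam c - gam c₀) (ce 1 i)) ^ (x : ℕ))
  rw [Fintype.piFinset_univ] at e
  simp only [chr]
  rw [← e]
  split_ifs with h
  · simp [h]; norm_num
  · obtain ⟨i, hi⟩ := Function.ne_iff.mp h
    refine Finset.prod_eq_zero (Finset.mem_univ i) ?_
    rw [Pi.sub_apply, gam_ce, gam_ce]
    set z := ω ^ (((c i : ℕ) : ℤ) - ((c₀ i : ℕ) : ℤ)) with hz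
    have h1 : z ≠ 1 := by
      intro h1
      have := (hω.zpow_eq_one_iff_dvd _).mp h1
      have h2 := (c i).2
      have h3 := (c₀ i).2
      exact hi (Fin.ext (by omega))
    have h2 : z ^ 11 = 1 := by
      rw [hz, ← zpow_natCast, ← zpow_mul, mul_comm, zpow_mul, zpow_natCast, hω.pow_eq_one, one_zpow]
    rw [Fin.sum_univ_eq_sum_range (fun x => z ^ x) 11, geom_sum_eq h1, h2, sub_self, zero_div]

theorem fourier [CharZero k] {ω : k} (hω : IsPrimitiveRoot ω 11) {X : Type*} [AddCommGroup X]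
    [Module k X] (A : Submodule k X) (b : Dv) (y : (Fin 5 → Fin 11) → X)
    (h : ∀ g, ∑ c, chr ω g (b + gam c) • y c ∈ A) (c₀ : Fin 5 → Fin 11) : y c₀ ∈ A := by
  have h0 := hω.ne_zero (by norm_num)
  have h1 : ∑ g, chr ω g (-(b + gam c₀)) • ∑ c, chr ω g (b + gam c) • y c ∈ A :=
    sum_mem fun g _ => A.smul_mem _ (h g)
  simp only [Finset.smul_sum, smul_smul, ← chr_add h0] at h1
  rw [Finset.sum_comm] at h1
  simp only [← Finset.sum_smul, show ∀ c, -(b + gam c₀) + (b + gam c) = gam c - gam c₀ from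
    fun c => by abel, chr_orth hω, ite_smul, zero_smul, Finset.sum_ite_eq', Finset.mem_univ,
    if_true] at h1
  exact (A.smul_mem_iff (by norm_num)).mp h1

theorem finrank_pi_sub {κ Y : Type*} [Fintype κ] [AddCommGroup Y] [Module k Y]
    (U : κ → Submodule k Y) [∀ c, FiniteDimensional k (U c)] :
    FiniteDimensional k (Submodule.pi Set.univ U) ∧
      finrank k (Submodule.pi Set.univ U) = ∑ c, finrank k (U c) := by
  let e : Submodule.pi Set.univ U ≃ₗ[k] ∀ c, U c :=
    { toFun := fun v c => ⟨v.1 c, v.2 c trivial⟩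
      invFun := fun v => ⟨fun c => v c, fun c _ => (v c).2⟩
      map_add' := fun _ _ => rfl
      map_smul' := fun _ _ => rfl
      left_inv := fun _ => rfl
      right_inv := fun _ => rfl }
  exact ⟨e.symm.finiteDimensional, by rw [e.finrank_eq, Module.finrank_pi_fintype]⟩

theorem sum_near {n : ℕ} {N β : ℚ} (hN : 0 < N) (N' β' : Fin n → ℚ) (h0 : ∀ i, 0 ≤ N' i)
    (h1 : ∀ i, N' i ≤ N) (h : ∀ i, β' i ≤ β * N' i / N + N' i * (N - N' i) / (2 * N)) :
    ∑ i, β' i ≤ β * (∑ i, N' i) / N + (∑ i, N' i) / 2 ∧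
      ∑ i, β' i ≤ β * (∑ i, N' i) / N + (n * N - ∑ i, N' i) / 2 := by
  have e1 : β * (∑ i, N' i) / N + (∑ i, N' i) / 2 = ∑ i, (β * N' i / N + N' i / 2) := by
    rw [Finset.sum_add_distrib, ← Finset.sum_div, ← Finset.sum_div, ← Finset.mul_sum]
  have e2 : β * (∑ i, N' i) / N + (n * N - ∑ i, N' i) / 2 =
      ∑ i, (β * N' i / N + (N - N' i) / 2) := by
    rw [Finset.sum_add_distrib, ← Finset.sum_div, ← Finset.sum_div, ← Finset.mul_sum,
      Finset.sum_sub_distrib]
    simp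
  rw [e1, e2]
  constructor <;> refine Finset.sum_le_sum fun i _ => (h i).trans (add_le_add_right ?_ _) <;>
    rw [div_le_div_iff₀ (by linarith) (by norm_num)] <;> nlinarith [h0 i, h1 i]

theorem exists_comb {κ κ' Y X : Type*} [Fintype κ] [AddCommGroup Y] [Module k Y] [AddCommGroup X]
    [Module k X] (w : κ' → κ → k) (L : κ → Y →ₗ[k] X) :
    ∃ Φ : (κ → Y) →ₗ[k] (κ' → X), ∀ v g, Φ v g = ∑ c, w g c • L c (v c) :=
  ⟨LinearMap.pi fun g => ∑ c, w g c • (L c).comp (LinearMap.proj c), fun v g => by simp⟩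

theorem card_gc : Fintype.card (Fin 5 → Fin 11) = 161051 := by simp

theorem exists_enum : ∃ n : ℕ, ∃ _ : Fin n ≃ (Fin 5 → Fin 11), (n : ℚ) = 161051 :=
  ⟨_, (Fintype.equivFin _).symm, by rw [card_gc]; norm_num⟩

theorem emb [CharZero k] {ω : k} (hω : IsPrimitiveRoot ω 11) (G : GR k (KL k)) (hG : G.R = RR k)
    (hx : ∀ i, G.x i ∈ Submodule.span k (Set.range fun s : Pm => hm k (Cp s) 1))
    {M : Type*} [AddCommGroup M] [Module G.S M] [Module k M] [IsScalarTower k G.S M]
    {F : ℤ → Submodule G.S M} {N : ℕ} {β γ : ℚ} (h : MinF G F N β γ) :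
    ∃ (ι : Type) (_ : Fintype ι) (lam : ι → Dv) (W₀ : Submodule (K k) (ι → K k)),
      (∀ᶠ t : ℤ in atTop, hh lam (⊤ : Submodule (K k) (ι → K k)) t - hh lam W₀ t =
        161051 * (cod ((F (t + 1)).restrictScalars k) ((F t).restrictScalars k) : ℚ)) ∧
      ∀ W, W₀ ≤ W → ∃ A B C : ℚ, B ≤ β * A / N + A / 2 ∧ B ≤ β * A / N + (161051 * N - A) / 2 ∧
        ∀ᶠ t : ℤ in atTop, A / 2 * (t : ℚ) ^ 2 - C * t ≤ hh lam W t - hh lam W₀ t ∧
          hh lam W t - hh lam W₀ t ≤ A / 2 * (t : ℚ) ^ 2 + B * t + C := by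
  classical
  have h0 := hω.ne_zero (by norm_num)
  obtain ⟨μ, hμ⟩ := exists_mu hG
  obtain ⟨ι, _, lam, m, τ, hl, hmm, hsur⟩ := exists_pres hμ hG hx h
  obtain ⟨W₀, hW₀⟩ := exists_rel hμ hG h hl hmm
  have hinf : ∀ W, W₀ ≤ W → ∀ t a, Lt t a → ∀ v, v ∈ EE lam W₀ a ↔
      v ∈ EE lam W a ∧ Psi μ lam m a v ∈ F (t + 1) := by
    intro W hW t a ha v
    constructor
    · rintro ⟨h1, h2⟩
      exact ⟨⟨hW h1, h2⟩, (hW₀ t a ha v h2).mp h1⟩
    · rintro ⟨⟨-, h2⟩, h3⟩
      exact ⟨(hW₀ t a ha v h2).mpr h3, h2⟩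
  refine ⟨ι, inferInstance, lam, W₀, Eventually.of_forall fun t => ?_, fun W hW => ?_⟩
  · have key : ∀ c : Fin 5 → Fin 11,
        (finrank k (EE lam (⊤ : Submodule (K k) (ι → K k)) (0 + t • C0 + gam c)) : ℚ) -
          finrank k (EE lam W₀ (0 + t • C0 + gam c)) =
        cod ((F (t + 1)).restrictScalars k) ((F t).restrictScalars k) := by
      intro c
      have ha := Lt_gam t c
      set a := 0 + t • C0 + gam c
      have e1 := (cod_map (Psi μ lam m a) ((F (t + 1)).restrictScalars k) (EE lam ⊤ a)).2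
      have e2 : EE lam ⊤ a ⊓ ((F (t + 1)).restrictScalars k).comap (Psi μ lam m a) =
          EE lam W₀ a := by
        ext v; exact (hinf ⊤ le_top t a ha v).symm
      have e3 : (F (t + 1)).restrictScalars k ⊔ (EE lam ⊤ a).map (Psi μ lam m a) =
          (F t).restrictScalars k := by
        have : EE lam ⊤ a = FF k lam a := by simp [EE]
        rw [this]
        refine le_antisymm (sup_le (h.anti t) ?_) (hsur t a ha)
        rintro _ ⟨v, hv, rfl⟩
        exact Psi_mem hμ h hl hmm ha hv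
      rw [e2, ← cod_sup, e3] at e1
      rw [← e1]; push_cast; ring
    simp only [hh, sumS]
    rw [← Finset.sum_sub_distrib, Finset.sum_congr rfl fun c _ => key c, Finset.sum_const,
      Finset.card_univ, card_gc, nsmul_eq_mul]
    norm_num
  obtain ⟨n, e, hn⟩ : ∃ n : ℕ, ∃ e : Fin n ≃ (Fin 5 → Fin 11), (n : ℚ) = 161051 :=
    exists_enum
  have hΦ0 := fun t : ℤ => exists_comb (fun g c => chr ω (e g) (0 + t • C0 + gam c))
    fun c => Psi μ lam m (0 + t • C0 + gam c)
  choose Φ hΦ using hΦ0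
  let P : Submodule (K k) (ι → K k) → ℤ → Submodule k ((Fin 5 → Fin 11) → ι → K k) :=
    fun W t => Submodule.pi Set.univ fun c => EE lam W (0 + t • C0 + gam c)
  let A : ℤ → Submodule k (Fin n → M) := fun t =>
    Submodule.pi Set.univ fun _ => (F (t + 1)).restrictScalars k
  let U : ℤ → Submodule k (Fin n → M) := fun t => A t ⊔ (P W t).map (Φ t)
  have hcod : ∀ t, (cod (A t) (U t) : ℚ) = hh lam W t - hh lam W₀ t := by
    intro t
    have f1 := finrank_pi_sub fun c : Fin 5 → Fin 11 => EE lam W (0 + t • C0 + gam c)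
    have f2 := finrank_pi_sub fun c : Fin 5 → Fin 11 => EE lam W₀ (0 + t • C0 + gam c)
    haveI : FiniteDimensional k (P W t) := f1.1
    have e1 := (cod_map (Φ t) (A t) (P W t)).2
    have e2 : P W t ⊓ (A t).comap (Φ t) = P W₀ t := by
      ext v
      constructor
      · rintro ⟨h1, h2⟩ c -
        refine (hinf W hW t _ (Lt_gam t c) _).mpr ⟨h1 c trivial, ?_⟩
        refine fourier hω ((F (t + 1)).restrictScalars k) (0 + t • C0)
          (fun c => Psi μ lam m (0 + t • C0 + gam c) (v c)) (fun g => ?_) c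
        have := h2 (e.symm g) trivial
        rwa [hΦ, e.apply_symm_apply] at this
      · intro h1
        have h2 := fun c => (hinf W hW t _ (Lt_gam t c) _).mp (h1 c trivial)
        refine ⟨fun c _ => (h2 c).1, fun g _ => ?_⟩
        rw [hΦ]
        exact sum_mem fun c _ => Submodule.smul_mem ((F (t + 1)).restrictScalars k) _ (h2 c).2
    rw [e2, f1.2, f2.2] at e1
    simp only [U, cod_sup, hh, sumS]
    rw [← Nat.cast_sum, ← Nat.cast_sum, ← e1]; push_cast; ring
  have hgen : ∀ t a, Lt t a → ∀ v ∈ EE lam W a,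
      (fun g => chr ω (e g) a • Psi μ lam m a v) ∈ (P W t).map (Φ t) := by
    intro t a ha v hv
    obtain ⟨c, d, hd, rfl⟩ := ha.decomp
    obtain ⟨h1, h2⟩ := Psi_per (m := m) hμ hl (Lt_gam t c) hd hv.2
    refine ⟨Pi.single c (gu k d • v), fun c' _ => ?_, funext fun g => ?_⟩
    · by_cases hc : c' = c
      · rw [hc, Pi.single_eq_same]; exact ⟨W.smul_mem _ hv.1, h1⟩
      · rw [Pi.single_eq_of_ne hc]; exact zero_mem _
    · rw [hΦ, Finset.sum_eq_single c, Pi.single_eq_same, h2, chr_add h0 _ _ ((11 : ℤ) • d),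
        chr_eleven hω, mul_one]
      · intro c' _ hc; rw [Pi.single_eq_of_ne hc, map_zero, smul_zero]
      · simp
  have hact : ∀ t j a, Lt j a → ∀ x ∈ LL k a, ∀ u ∈ U t,
      (fun g => chr ω (e g) a • μ a x • u g) ∈ U (t + j) := by
    intro t j a ha x hx' u hu
    obtain ⟨u₀, hu₀, _, ⟨v, hv, rfl⟩, rfl⟩ := Submodule.mem_sup.mp hu
    have e1 : (fun g => chr ω (e g) a • μ a x • (u₀ + Φ t v) g) =
        (fun g => chr ω (e g) a • μ a x • u₀ g) + ∑ c, fun g =>
          chr ω (e g) (0 + t • C0 + gam c + a) • Psi μ lam m (0 + t • C0 + gam c + a) (x • v c) := by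
      funext g
      rw [Pi.add_apply, Pi.add_apply, smul_add, smul_add, hΦ, Finset.sum_apply, Finset.smul_sum,
        Finset.smul_sum]
      refine congrArg _ (Finset.sum_congr rfl fun c _ => ?_)
      rw [Psi_smul hμ hG hl (Lt_gam t c) ha (hv c trivial).2 hx', chr_add h0 _ _ a, mul_comm,
        mul_smul, smul_comm (μ a x)]
    rw [e1]
    refine Submodule.add_mem_sup (fun g _ => ?_) (sum_mem fun c _ =>
      hgen _ _ ((Lt_gam t c).add ha) _ (EE_smul (hv c trivial) hx'))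
    have := hμ.act h ha hx' (hu₀ g trivial)
    rw [show t + 1 + j = t + j + 1 by ring] at this
    exact Submodule.smul_mem ((F (t + j + 1)).restrictScalars k) _ this
  have hUF : ∀ t, ∀ u ∈ U t, ∀ g, u g ∈ F t := by
    intro t u hu g
    obtain ⟨u₀, hu₀, _, ⟨v, hv, rfl⟩, rfl⟩ := Submodule.mem_sup.mp hu
    rw [Pi.add_apply, hΦ]
    exact add_mem (h.anti t (hu₀ g trivial)) (sum_mem fun c _ =>
      Submodule.smul_mem ((F t).restrictScalars k) _
        (Psi_mem hμ h hl hmm (Lt_gam t c) (hv c trivial).2))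
  let D : Fin n → ℤ → Submodule k M := fun i t =>
    (U t ⊓ Submodule.pi {j | j < i} fun _ => (F (t + 1)).restrictScalars k).map (LinearMap.proj i)
  have hD : ∀ t i x, x ∈ D i t ↔
      ∃ u ∈ U t, (∀ j, j < i → u j ∈ (F (t + 1)).restrictScalars k) ∧ u i = x := fun t i x =>
    ⟨fun ⟨u, hu, e⟩ => ⟨u, hu.1, hu.2, e⟩, fun ⟨u, h1, h2, e⟩ => ⟨u, ⟨h1, h2⟩, e⟩⟩
  clear_value D
  have hsum : ∀ t, hh lam W t - hh lam W₀ t =
      ∑ i, (cod ((F (t + 1)).restrictScalars k) (D i t) : ℚ) := by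
    intro t
    rw [← hcod, cod_pi _ (U t) le_sup_left (fun i => D i t) (hD t)
      fun i => (h.fin (t + 1)).mono le_rfl le_top, Nat.cast_sum]
  have hnear := fun i => h.near (D i)
    (fun t x hx' => (hD t i x).mpr ⟨fun _ => x, Submodule.mem_sup_left fun _ _ => hx',
      fun _ _ => hx', rfl⟩)
    (fun t x hx' => by
      obtain ⟨u, hu, -, rfl⟩ := (hD t i x).mp hx'
      exact hUF t u hu i)
    (fun j t a ha x hx' => by
      have key : ∀ a ∈ RR k j, G.mono j a • x ∈ D i (t + j) := by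
        intro a ha
        induction ha using Submodule.span_induction with
        | mem a ha =>
          obtain ⟨g, hg, f, hf, rfl⟩ := ha
          have hb : Lt j ((j : ℤ) • C0 + g) := by simpa [Lt] using hg
          have e1 := hμ _ _ hb _ hf
          rw [Int.toNat_natCast] at e1
          obtain ⟨u, hu, hu', rfl⟩ := (hD t i x).mp hx'
          rw [← e1, ← (D i (t + j)).smul_mem_iff (chr_ne h0 (e i) ((j : ℤ) • C0 + g))]
          refine (hD _ _ _).mpr ⟨_, hact t j _ hb f hf u hu, fun l hl' => ?_, rfl⟩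
          have := hμ.act h hb hf (hu' l hl')
          rw [show t + 1 + j = t + j + 1 by ring] at this
          exact Submodule.smul_mem ((F (t + j + 1)).restrictScalars k) _ this
        | zero => simp [G.mono_zero]
        | add y z hy' hz' hy hz =>
          rw [G.mono_add (hG ▸ hy') (hG ▸ hz'), add_smul]; exact add_mem hy hz
        | smul c y hy' hy =>
          rw [G.mono_smul c (hG ▸ hy'), smul_assoc]; exact Submodule.smul_mem _ c hy
      exact key a (hG ▸ ha))
  choose N' β' C' n0 n1 n2 n3 using hnear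
  obtain ⟨s1, s2⟩ := sum_near (by exact_mod_cast h.pos) N' β' n0 n1 n2
  refine ⟨∑ i, N' i, ∑ i, β' i, ∑ i, C' i, s1, hn ▸ s2, ?_⟩
  filter_upwards [Filter.eventually_all.mpr n3] with t ht
  rw [hsum]
  constructor
  · refine le_trans (le_of_eq ?_) (Finset.sum_le_sum fun i _ => (ht i).1)
    rw [Finset.sum_sub_distrib, ← Finset.sum_mul, ← Finset.sum_mul, ← Finset.sum_div]
  · refine le_trans (Finset.sum_le_sum fun i _ => (ht i).2) (le_of_eq ?_)
    rw [Finset.sum_add_distrib, Finset.sum_add_distrib, ← Finset.sum_mul, ← Finset.sum_mul,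
      ← Finset.sum_div]

end Vale.Agent.P190
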