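import Vale.Agent.P190.SeqC

/-! P190 job Seq: graded modules as sequences of submodules.
The definitions live in SeqA (cod, FinCod), SeqB (Closed, Gen) and SeqC (A3, Hom3, Bq, EvQ). -/

namespace Vale.Agent.P190
open Module Filter

namespace SeqH
end SeqH
open SeqH

variable {k : Type*} [Field k]

theorem SeqH.ev_nonneg_quad {a b c : ℚ} (h : ∀ᶠ t : ℤ in atTop, 0 ≤ a * (t : ℚ) ^ 2 + b * t + c) :
    0 ≤ a := by
  by_contra ha
  have ha' : 0 < -a := by linarith [not_le.1 ha]
  obtain ⟨n, hn⟩ := exists_nat_gt ((|b| + |c|) / (-a))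
  obtain ⟨t, ht, ht1, htn⟩ := (h.and ((eventually_ge_atTop (1 : ℤ)).and
    (eventually_ge_atTop (n : ℤ)))).exists
  have h1 : (1 : ℚ) ≤ t := by exact_mod_cast ht1
  have h2 : (n : ℚ) ≤ t := by exact_mod_cast htn
  have h3 : |b| + |c| < t * (-a) := (div_lt_iff₀ ha').1 (hn.trans_le h2)
  have h4 := le_abs_self b
  have h5 := le_abs_self c
  have h6 := abs_nonneg c
  nlinarith

theorem SeqH.ev_nonneg_lin {b c : ℚ} (h : ∀ᶠ t : ℤ in atTop, 0 ≤ b * t + c) : 0 ≤ b := by
  refine ev_nonneg_quad (b := c) (c := 0) ?_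
  filter_upwards [h, eventually_ge_atTop (0 : ℤ)] with t ht ht0
  have h1 : (0 : ℚ) ≤ t := by exact_mod_cast ht0
  nlinarith [mul_nonneg ht h1]

theorem SeqH.ideal_poly (I : ℤ → Submodule k (A3 k)) (hI : ∀ t, I t ≤ Hom3 k t)
    (hc : ∀ (i : Fin 3) t, ∀ u ∈ I t, (MvPolynomial.X i : A3 k) * u ∈ I (t + 1)) :
    ∃ (r : ℕ) (b c : ℚ), r ≤ 1 ∧ b ≤ 0 ∧
      ∀ᶠ t : ℤ in atTop, (finrank k (I t) : ℚ) = r * Bq t + b * t + c := by
  classical
  by_cases h0 : ∀ t, I t = ⊥
  · refine ⟨0, 0, 0, by omega, le_rfl, Eventually.of_forall fun t => ?_⟩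
    rw [h0 t]
    simp
  push Not at h0
  obtain ⟨d, hd⟩ := h0
  obtain ⟨f, hf, hf0⟩ := Submodule.exists_mem_ne_zero_of_ne_bot hd
  have hmul : ∀ s : ℤ, 0 ≤ s → ∀ a ∈ Hom3 k s, a * f ∈ I (d + s) := by
    intro s hs
    induction s, hs using Int.leInduction with
    | base =>
      intro a ha
      have e := Hom3_nat (k := k) 0
      rw [Nat.cast_zero, MvPolynomial.homogeneousSubmodule_zero] at e
      rw [e, Submodule.mem_one] at ha
      obtain ⟨c, rfl⟩ := ha
      rw [add_zero, ← Algebra.smul_def]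
      exact (I d).smul_mem c hf
    | succ s hs ih =>
      intro a ha
      obtain ⟨b, hb, rfl⟩ := Hom3_gen hs ha
      rw [Finset.sum_mul]
      refine Submodule.sum_mem _ fun i _ => ?_
      rw [mul_assoc, ← add_assoc]
      exact hc i _ _ (ih _ (hb i))
  let y : Fin 3 → Module.End k (A3 k) := fun i => LinearMap.mulLeft k (MvPolynomial.X i)
  have hcomm : ∀ i j, Commute (y i) (y j) := by
    intro i j
    refine LinearMap.ext fun x => ?_
    simp only [y, Module.End.mul_apply, LinearMap.mulLeft_apply]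
    ring
  have hE : Closed y (Hom3 k) := fun i t x hx => X_mul_Hom3 i hx
  have hg : Gen y (Hom3 k) := by
    refine ⟨0, fun t ht a ha => ?_⟩
    obtain ⟨b, hb, rfl⟩ := Hom3_gen ht ha
    exact Submodule.sum_mem _ fun i _ => Submodule.mem_iSup_of_mem i ⟨b i, hb i, rfl⟩
  have hs := hilbert_serre hcomm Finset.univ I (Hom3 k) hc hE hg (fun t => Hom3_fd t) hI
    (fun i hi => absurd (Finset.mem_univ i) hi)
  rw [Finset.card_univ, Fintype.card_fin] at hs
  obtain ⟨a, b, c, habc⟩ := hs.quad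
  have hlow : ∀ᶠ t : ℤ in atTop, 0 ≤ a * (t : ℚ) ^ 2 + b * t + c := by
    filter_upwards [habc] with t ht
    rw [← ht]
    have : finrank k (I t) ≤ finrank k (Hom3 k t) := Submodule.finrank_mono (hI t)
    have h2 : (finrank k (I t) : ℚ) ≤ finrank k (Hom3 k t) := by exact_mod_cast this
    linarith
  have hup : ∀ᶠ t : ℤ in atTop,
      0 ≤ (-a) * (t : ℚ) ^ 2 + (d - b) * t + ((3 * d - d ^ 2) / 2 - c) := by
    filter_upwards [habc, eventually_ge_atTop d, eventually_ge_atTop (0 : ℤ)] with t ht htd ht0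
    have hfd : FiniteDimensional k (I t) := Submodule.finiteDimensional_of_le (hI t)
    let φ : Hom3 k (t - d) →ₗ[k] I t :=
      ((LinearMap.mulRight k f).domRestrict (Hom3 k (t - d))).codRestrict (I t) (by
        intro x
        have := hmul (t - d) (by omega) x x.2
        rwa [show d + (t - d) = t by ring] at this)
    have hφ : Function.Injective φ := by
      intro x z hxz
      have h1 : (x : A3 k) * f = (z : A3 k) * f := congrArg Subtype.val hxz
      exact Subtype.ext (mul_right_cancel₀ hf0 h1)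
    have h1 := LinearMap.finrank_le_finrank_of_injective hφ
    have h2 : (finrank k (Hom3 k (t - d)) : ℚ) ≤ finrank k (I t) := by exact_mod_cast h1
    rw [finrank_Hom3, if_pos (by omega)] at h2
    rw [finrank_Hom3, if_pos ht0] at ht
    simp only [Bq] at h2 ht
    push_cast at h2
    nlinarith
  have ha : a = 0 := le_antisymm (by linarith [ev_nonneg_quad hup]) (ev_nonneg_quad hlow)
  subst ha
  have hb : 0 ≤ b := ev_nonneg_lin (c := c) (by
    filter_upwards [hlow] with t ht
    linarith)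
  refine ⟨1, -b, -c, le_rfl, by linarith, ?_⟩
  filter_upwards [habc, eventually_ge_atTop (0 : ℤ)] with t ht ht0
  rw [finrank_Hom3, if_pos ht0] at ht
  push_cast
  linarith

theorem SeqH.fd_of_forall_mem {N : ℕ} (U : Submodule k (Fin N → A3 k)) (t : ℤ)
    (hU : ∀ u ∈ U, ∀ j, u j ∈ Hom3 k t) : FiniteDimensional k U := by
  let φ : U →ₗ[k] (Fin N → Hom3 k t) :=
    LinearMap.pi fun j => ((LinearMap.proj j).domRestrict U).codRestrict (Hom3 k t)
      fun u => hU u u.2 j
  refine Module.Finite.of_injective φ ?_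
  intro x z h
  refine Subtype.ext (funext fun j => ?_)
  exact congrArg Subtype.val (congrFun h j)

/-- Hilbert polynomial of a graded submodule of a free module -/
theorem sub_free_poly (N : ℕ) (U : ℤ → Submodule k (Fin N → A3 k))
    (hU : ∀ t, ∀ u ∈ U t, ∀ j, u j ∈ Hom3 k t)
    (hc : ∀ (i : Fin 3) t, ∀ u ∈ U t, (MvPolynomial.X i : A3 k) • u ∈ U (t + 1)) :
    ∃ (r : ℕ) (b c : ℚ), r ≤ N ∧ b ≤ 0 ∧
      ∀ᶠ t : ℤ in atTop, (finrank k (U t) : ℚ) = r * Bq t + b * t + c := by
  induction N with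
  | zero =>
    refine ⟨0, 0, 0, le_rfl, le_rfl, Eventually.of_forall fun t => ?_⟩
    have : U t = ⊥ := Subsingleton.elim _ _
    rw [this]
    simp
  | succ N ih =>
    let p0 : (Fin (N + 1) → A3 k) →ₗ[k] A3 k := LinearMap.proj 0
    let tl : (Fin (N + 1) → A3 k) →ₗ[k] (Fin N → A3 k) :=
      LinearMap.pi fun j => LinearMap.proj (Fin.succ j)
    obtain ⟨r₁, b₁, c₁, hr₁, hb₁, h₁⟩ := ideal_poly (fun t => (U t).map p0) (by
      rintro t _ ⟨u, hu, rfl⟩
      exact hU t u hu 0) (by
      rintro i t _ ⟨u, hu, rfl⟩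
      exact ⟨_, hc i t u hu, rfl⟩)
    obtain ⟨r₂, b₂, c₂, hr₂, hb₂, h₂⟩ := ih (fun t => (U t ⊓ LinearMap.ker p0).map tl) (by
      rintro t _ ⟨u, hu, rfl⟩ j
      exact hU t u hu.1 _) (by
      rintro i t _ ⟨u, hu, rfl⟩
      refine ⟨_, ⟨hc i t u hu.1, ?_⟩, rfl⟩
      have h0 : u 0 = 0 := hu.2
      change MvPolynomial.X i * u 0 = 0
      rw [h0, mul_zero])
    refine ⟨r₁ + r₂, b₁ + b₂, c₁ + c₂, by omega, by linarith, ?_⟩
    filter_upwards [h₁, h₂] with t ht₁ ht₂
    have hfd := fd_of_forall_mem (U t) t (hU t)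
    have e1 := finrank_map_add_inf_ker p0 (U t)
    have e2 := finrank_map_add_inf_ker tl (U t ⊓ LinearMap.ker p0)
    have e3 : U t ⊓ LinearMap.ker p0 ⊓ LinearMap.ker tl = ⊥ := by
      rw [eq_bot_iff]
      rintro u ⟨⟨_, h0⟩, h1⟩
      refine funext fun j => ?_
      refine Fin.cases ?_ (fun j => ?_) j
      · exact h0
      · exact congrFun h1 j
    rw [e3, finrank_bot, add_zero] at e2
    rw [← e2] at e1
    have e4 : (finrank k ((U t).map p0) : ℚ) + finrank k ((U t ⊓ LinearMap.ker p0).map tl) =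
      finrank k (U t) := by exact_mod_cast e1
    push_cast
    linarith

theorem SeqH.aeval_mem_pow {Ω : Type*} [CommRing Ω] [Algebra k Ω] {n : ℕ} (H : Submodule k Ω)
    (g : Fin n → Ω) (hg : ∀ i, g i ∈ H) :
    ∀ (t : ℕ) (a : MvPolynomial (Fin n) k), a.IsHomogeneous t → MvPolynomial.aeval g a ∈ H ^ t := by
  intro t
  induction t with
  | zero =>
    intro a ha
    have : a ∈ MvPolynomial.homogeneousSubmodule (Fin n) k 0 := ha
    rw [MvPolynomial.homogeneousSubmodule_zero, Submodule.mem_one] at this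
    obtain ⟨c, rfl⟩ := this
    rw [pow_zero, AlgHom.commutes]
    exact Submodule.algebraMap_mem c
  | succ t ih =>
    intro a ha
    obtain ⟨b, hb, rfl⟩ := homog_gen ha
    rw [map_sum]
    refine Submodule.sum_mem _ fun i _ => ?_
    rw [map_mul, MvPolynomial.aeval_X, pow_succ']
    exact Submodule.mul_mem_mul (hg i) (ih _ (hb i))

/-- the part of the power coming from the hyperplane -/
def SeqH.JJ {Ω : Type*} [CommRing Ω] [Algebra k Ω] (H' H : Submodule k Ω) : ℕ → Submodule k Ω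
  | 0 => ⊥
  | t + 1 => H' * H ^ t

theorem SeqH.mul_JJ {Ω : Type*} [CommRing Ω] [Algebra k Ω] (H' H : Submodule k Ω) (t : ℕ) {x y : Ω}
    (hx : x ∈ H) (hy : y ∈ JJ H' H t) : x * y ∈ JJ H' H (t + 1) := by
  cases t with
  | zero =>
    have : y = 0 := hy
    rw [this, mul_zero]
    exact Submodule.zero_mem _
  | succ t =>
    have : H * (H' * H ^ t) = H' * H ^ (t + 1) := by ring
    change x * y ∈ H' * H ^ (t + 1)
    rw [← this]
    exact Submodule.mul_mem_mul hx hy

theorem SeqH.noether_step [Infinite k] {Ω : Type*} [CommRing Ω] [Algebra k Ω] (G H : Submodule k Ω)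
    [FiniteDimensional k G] (hHG : H ≤ G) (C : ℕ)
    (hC : ∀ᶠ t : ℕ in atTop, finrank k ↥(G ^ t) ≤ C * t ^ 2) (h4 : 4 ≤ finrank k H) :
    ∃ (H' : Submodule k Ω) (t : ℕ), H' < H ∧ H ^ (t + 1) ≤ H' * H ^ t := by
  classical
  have hHfd : FiniteDimensional k H := Submodule.finiteDimensional_of_le hHG
  let B := Module.finBasis k H
  let g : Fin 4 → H := fun i => B (Fin.castLE h4 i)
  obtain ⟨t, ht, ht1, htC⟩ := (hC.and ((eventually_ge_atTop 1).and
    (eventually_ge_atTop (6 * C)))).exists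
  have hGfd : FiniteDimensional k ↥(G ^ t) :=
    Module.Finite.iff_fg.2 ((Module.Finite.iff_fg.1 inferInstance).pow t)
  let φ : MvPolynomial.homogeneousSubmodule (Fin 4) k t →ₗ[k] ↥(G ^ t) :=
    ((MvPolynomial.aeval (fun i => (g i : Ω))).toLinearMap.domRestrict _).codRestrict (G ^ t)
      fun a => aeval_mem_pow G _ (fun i => hHG (g i).2) t a a.2
  have hlt : finrank k ↥(G ^ t) < finrank k (MvPolynomial.homogeneousSubmodule (Fin 4) k t) := by
    rw [finrank_homog, show 4 + t - 1 = t + 3 by omega, Nat.choose_symm_add]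
    have h3 := Nat.descFactorial_eq_factorial_mul_choose (t + 3) 3
    simp only [Nat.descFactorial, Nat.factorial] at h3
    have h5 : t + 3 - 2 = t + 1 := by omega
    have h6 : t + 3 - 1 = t + 2 := by omega
    rw [h5, h6, Nat.sub_zero] at h3
    have h7 : 6 * (C * t ^ 2) < (t + 1) * ((t + 2) * ((t + 3) * 1)) := by nlinarith
    omega
  obtain ⟨F, hF, hF0⟩ := Submodule.exists_mem_ne_zero_of_ne_bot
    (LinearMap.ker_ne_bot_of_finrank_lt (f := φ) hlt)
  have hFg : MvPolynomial.aeval (fun i => (g i : Ω)) (F : MvPolynomial (Fin 4) k) = 0 :=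
    congrArg Subtype.val hF
  obtain ⟨c, hc⟩ : ∃ c : Fin 4 → k, MvPolynomial.eval c (F : MvPolynomial (Fin 4) k) ≠ 0 := by
    by_contra h
    push Not at h
    exact hF0 (Subtype.ext (MvPolynomial.funext (by simpa using h)))
  let ψ : H →ₗ[k] k := B.constr k fun i => if h : i.val < 4 then c ⟨i.val, h⟩ else 0
  have hψ : ∀ i, ψ (g i) = c i := by
    intro i
    simp only [ψ, g]
    rw [Basis.constr_basis]
    simp
  obtain ⟨t, rfl⟩ : ∃ s, t = s + 1 := ⟨t - 1, by omega⟩
  obtain ⟨i₀, hi₀⟩ : ∃ i, c i ≠ 0 := by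
    by_contra h
    push Not at h
    obtain ⟨b, _, hb⟩ := homog_gen (a := (F : MvPolynomial (Fin 4) k)) F.2
    apply hc
    rw [hb]
    simp [h]
  let z : H := (c i₀)⁻¹ • g i₀
  have hz : ψ z = 1 := by
    simp only [z, map_smul, hψ, smul_eq_mul]
    exact inv_mul_cancel₀ hi₀
  let H' : Submodule k Ω := (LinearMap.ker ψ).map H.subtype
  have hH' : ∀ x : H, (x : Ω) - ψ x • (z : Ω) ∈ H' := by
    intro x
    refine ⟨x - ψ x • z, ?_, rfl⟩
    change ψ (x - ψ x • z) = 0
    rw [map_sub, map_smul, hz, smul_eq_mul, mul_one, sub_self]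
  have hH'le : H' ≤ H := Submodule.map_subtype_le _ _
  have hzp : ∀ s : ℕ, (z : Ω) ^ s ∈ H ^ s := fun s => Submodule.pow_mem_pow H z.2 s
  have hform : ∀ (s : ℕ) (a : MvPolynomial (Fin 4) k), a.IsHomogeneous s →
      MvPolynomial.aeval (fun i => (g i : Ω)) a - MvPolynomial.eval c a • (z : Ω) ^ s ∈
        JJ H' H s := by
    intro s
    induction s with
    | zero =>
      intro a ha
      have : a ∈ MvPolynomial.homogeneousSubmodule (Fin 4) k 0 := ha
      rw [MvPolynomial.homogeneousSubmodule_zero, Submodule.mem_one] at this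
      obtain ⟨e, rfl⟩ := this
      change _ = (0 : Ω)
      simp [Algebra.smul_def]
    | succ s ih =>
      intro a ha
      obtain ⟨b, hb, rfl⟩ := homog_gen ha
      rw [map_sum, map_sum, Finset.sum_smul, ← Finset.sum_sub_distrib]
      refine Submodule.sum_mem _ fun i _ => ?_
      have e : MvPolynomial.aeval (fun i => (g i : Ω)) (MvPolynomial.X i * b i) -
          MvPolynomial.eval c (MvPolynomial.X i * b i) • (z : Ω) ^ (s + 1) =
          (g i : Ω) * (MvPolynomial.aeval (fun i => (g i : Ω)) (b i) -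
            MvPolynomial.eval c (b i) • (z : Ω) ^ s) +
          ((g i : Ω) - ψ (g i) • (z : Ω)) * (MvPolynomial.eval c (b i) • (z : Ω) ^ s) := by
        rw [hψ]
        simp only [map_mul, MvPolynomial.aeval_X, MvPolynomial.eval_X, Algebra.smul_def]
        ring
      rw [e]
      exact Submodule.add_mem _ (mul_JJ H' H s (g i).2 (ih _ (hb i)))
        (Submodule.mul_mem_mul (hH' _) (Submodule.smul_mem _ _ (hzp s)))
  have hzt : (z : Ω) ^ (t + 1) ∈ JJ H' H (t + 1) := by
    have h1 := hform (t + 1) F F.2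
    rw [hFg, zero_sub, Submodule.neg_mem_iff] at h1
    have h2 := Submodule.smul_mem _ (MvPolynomial.eval c (F : MvPolynomial (Fin 4) k))⁻¹ h1
    rwa [smul_smul, inv_mul_cancel₀ hc, one_smul] at h2
  have hpow : ∀ s : ℕ, ∀ x ∈ H ^ s, ∃ e : k, x - e • (z : Ω) ^ s ∈ JJ H' H s := by
    intro s
    induction s with
    | zero =>
      intro x hx
      rw [pow_zero, Submodule.mem_one] at hx
      obtain ⟨e, rfl⟩ := hx
      refine ⟨e, ?_⟩
      change _ = (0 : Ω)
      simp [Algebra.smul_def]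
    | succ s ih =>
      intro x hx
      rw [pow_succ'] at hx
      refine Submodule.mul_induction_on hx ?_ ?_
      · intro m hm n hn
        obtain ⟨e, he⟩ := ih n hn
        refine ⟨ψ ⟨m, hm⟩ * e, ?_⟩
        have e1 : m * n - (ψ ⟨m, hm⟩ * e) • (z : Ω) ^ (s + 1) =
            m * (n - e • (z : Ω) ^ s) + (m - ψ ⟨m, hm⟩ • (z : Ω)) * (e • (z : Ω) ^ s) := by
          simp only [Algebra.smul_def, map_mul]
          ring
        rw [e1]
        exact Submodule.add_mem _ (mul_JJ H' H s hm he)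
          (Submodule.mul_mem_mul (hH' ⟨m, hm⟩) (Submodule.smul_mem _ _ (hzp s)))
      · rintro x y ⟨e, he⟩ ⟨e', he'⟩
        refine ⟨e + e', ?_⟩
        have e1 : x + y - (e + e') • (z : Ω) ^ (s + 1) =
            (x - e • (z : Ω) ^ (s + 1)) + (y - e' • (z : Ω) ^ (s + 1)) := by
          rw [add_smul]
          ring
        rw [e1]
        exact Submodule.add_mem _ he he'
  refine ⟨H', t, lt_of_le_of_ne hH'le fun h => ?_, fun x hx => ?_⟩
  · have h1 : (z : Ω) ∈ H' := (le_of_eq h.symm : H ≤ H') z.2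
    obtain ⟨w, hw, hwz⟩ := h1
    have : w = z := Subtype.ext hwz
    rw [this] at hw
    have h2 : ψ z = 0 := hw
    rw [hz] at h2
    exact one_ne_zero h2
  · obtain ⟨e, he⟩ := hpow (t + 1) x hx
    have := Submodule.add_mem _ he (Submodule.smul_mem _ e hzt)
    rwa [sub_add_cancel] at this

/-- linear Noether normalization -/
theorem noether_lin [Infinite k] {Ω : Type*} [CommRing Ω] [Algebra k Ω] (G : Submodule k Ω)
    [FiniteDimensional k G] (C : ℕ) (hC : ∀ᶠ t : ℕ in atTop, finrank k ↥(G ^ t) ≤ C * t ^ 2) :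
    ∃ y : Fin 3 → Ω, (∀ i, y i ∈ G) ∧
      ∃ j : ℕ, G ^ (j + 1) ≤ Submodule.span k (Set.range y) * G ^ j := by
  classical
  have key : ∀ (n : ℕ) (H : Submodule k Ω), finrank k H = n → H ≤ G →
      (∃ j : ℕ, G ^ (j + 1) ≤ H * G ^ j) →
      ∃ y : Fin 3 → Ω, (∀ i, y i ∈ G) ∧
        ∃ j : ℕ, G ^ (j + 1) ≤ Submodule.span k (Set.range y) * G ^ j := by
    intro n
    induction n using Nat.strong_induction_on with
    | _ n ih =>
      intro H hn hHG ⟨j, hj⟩
      have hHfd : FiniteDimensional k H := Submodule.finiteDimensional_of_le hHG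
      by_cases h4 : 4 ≤ finrank k H
      · obtain ⟨H', t, hlt, ht⟩ := noether_step G H hHG C hC h4
        refine ih (finrank k H') (hn ▸ Submodule.finrank_lt_finrank_of_lt hlt) H' rfl
          (hlt.le.trans hHG) ⟨j + t, ?_⟩
        have hs : ∀ s : ℕ, G ^ (j + s) ≤ H ^ s * G ^ j := by
          intro s
          induction s with
          | zero => simp
          | succ s ihs =>
            calc G ^ (j + (s + 1)) = G * G ^ (j + s) := by ring
              _ ≤ G * (H ^ s * G ^ j) := mul_le_mul_right ihs _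
              _ = H ^ s * G ^ (j + 1) := by ring
              _ ≤ H ^ s * (H * G ^ j) := mul_le_mul_right hj _
              _ = H ^ (s + 1) * G ^ j := by ring
        calc G ^ (j + t + 1) ≤ H ^ (t + 1) * G ^ j := hs (t + 1)
          _ ≤ H' * H ^ t * G ^ j := mul_le_mul_left ht _
          _ ≤ H' * G ^ t * G ^ j :=
            mul_le_mul_left (mul_le_mul_right (pow_le_pow_left' hHG t) _) _
          _ = H' * G ^ (j + t) := by ring
      · let B := Module.finBasis k H
        let y : Fin 3 → Ω := fun i => if h : i.val < finrank k H then (B ⟨i.val, h⟩ : Ω) else 0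
        refine ⟨y, fun i => ?_, j, hj.trans (mul_le_mul_left ?_ _)⟩
        · simp only [y]
          split_ifs with h
          · exact hHG (B _).2
          · exact G.zero_mem
        · intro x hx
          have h1 := B.sum_repr ⟨x, hx⟩
          have h2 : x = ∑ i, B.repr ⟨x, hx⟩ i • (B i : Ω) := by
            have := congrArg H.subtype h1
            rw [map_sum] at this
            exact this.symm
          rw [h2]
          refine Submodule.sum_mem _ fun i _ => Submodule.smul_mem _ _ (Submodule.subset_span ?_)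
          refine ⟨⟨i.val, by have := i.2; omega⟩, ?_⟩
          simp [y]
  exact key _ G rfl le_rfl ⟨0, by simp⟩

/-- a nonzero form lands in a subspace of linearly growing codimension -/
theorem exists_form {Ω : Type*} [CommRing Ω] [Algebra k Ω] (y : Fin 3 → Ω)
    (R R' : ℕ → Submodule k Ω) (hfd : ∀ t, FiniteDimensional k (R t)) (hle : ∀ t, R' t ≤ R t)
    (hy : ∀ t : ℕ, ∀ a ∈ Hom3 k t, MvPolynomial.aeval y a ∈ R t) (C : ℕ)
    (h : ∀ᶠ t : ℕ in atTop, finrank k (R t) ≤ finrank k (R' t) + C * t) :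
    ∃ (t : ℕ) (a : A3 k), a ≠ 0 ∧ a ∈ Hom3 k t ∧ MvPolynomial.aeval y a ∈ R' t := by
  obtain ⟨t, ht, htC⟩ := (h.and (eventually_ge_atTop (2 * C))).exists
  have := hfd t
  obtain ⟨h1, h2⟩ := cod_fd (hle t)
  let f : A3 k →ₗ[k] Ω := (MvPolynomial.aeval y).toLinearMap
  have h3 := (cod_map f (R' t) (Hom3 k t)).2
  have h4 : cod (R' t) ((Hom3 k t).map f) ≤ cod (R' t) (R t) := by
    refine cod_mono h1 le_rfl ?_
    rintro _ ⟨a, ha, rfl⟩
    exact hy t a ha
  have h5 : C * t < finrank k (Hom3 k t) := by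
    have h6 := finrank_Hom3 (k := k) t
    rw [if_pos (by positivity)] at h6
    have h7 : ((2 * C : ℕ) : ℚ) ≤ t := by exact_mod_cast htC
    have h8 : ((C * t : ℕ) : ℚ) < finrank k (Hom3 k t) := by
      rw [h6]
      simp only [Bq]
      push_cast at h7 ⊢
      have h9 : (0 : ℚ) ≤ t := by positivity
      nlinarith
    exact_mod_cast h8
  have h6 : Hom3 k t ⊓ (R' t).comap f ≠ ⊥ := by
    intro h0
    rw [h0, finrank_bot] at h3
    omega
  obtain ⟨a, ha, ha0⟩ := Submodule.exists_mem_ne_zero_of_ne_bot h6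
  exact ⟨t, a, ha0, ha.1, ha.2⟩

end Vale.Agent.P190
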