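import Vale.Agent.P190.Good
import Vale.Agent.P190.Seq

/-! P190: helper lemmas for the jobs Sop and Kum. -/

namespace Vale.Agent.P190.SKH
open Module Filter

variable {k : Type} [Field k]

theorem mem_span_mul {Ω : Type*} [CommRing Ω] [Algebra k Ω] {y : Fin 3 → Ω} {W : Submodule k Ω}
    {a : Ω} (ha : a ∈ Submodule.span k (Set.range y) * W) :
    ∃ b : Fin 3 → Ω, (∀ i, b i ∈ W) ∧ a = ∑ i, y i * b i := by
  refine Submodule.mul_induction_on ha (fun r hr w hw => ?_) ?_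
  · obtain ⟨c, rfl⟩ := (Submodule.mem_span_range_iff_exists_fun k).1 hr
    exact ⟨fun i => c i • w, fun i => W.smul_mem _ hw, by simp [Finset.sum_mul]⟩
  · rintro _ _ ⟨b, hb, rfl⟩ ⟨b', hb', rfl⟩
    exact ⟨b + b', fun i => add_mem (hb i) (hb' i), by simp [mul_add, Finset.sum_add_distrib]⟩

theorem gen_of {Ω : Type*} [CommRing Ω] [Algebra k Ω] {G Y : Submodule k Ω} {j : ℕ}
    (h : G ^ (j + 1) ≤ Y * G ^ j) (R : ℤ → Submodule k Ω) (h1 : ∀ t, G * R t ≤ R (t + 1))
    (h2 : ∀ᶠ t in atTop, R (t + 1) ≤ G * R t) : ∀ᶠ t in atTop, R (t + 1) ≤ Y * R t := by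
  obtain ⟨T, hT⟩ := eventually_atTop.1 h2
  have k1 : ∀ (n : ℕ) t, G ^ n * R t ≤ R (t + n) := fun n t => by
    induction n with
    | zero => simp
    | succ n ih =>
      rw [pow_succ', mul_assoc, Nat.cast_succ, ← add_assoc]
      exact (mul_le_mul_right ih _).trans (h1 _)
  have k2 : ∀ (n : ℕ) t, T ≤ t → R (t + n) ≤ G ^ n * R t := fun n t ht => by
    induction n with
    | zero => simp
    | succ n ih =>
      rw [pow_succ', mul_assoc, Nat.cast_succ, ← add_assoc]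
      exact (hT _ (by omega)).trans (mul_le_mul_right ih _)
  filter_upwards [eventually_ge_atTop (T + j)] with t ht
  obtain ⟨t, rfl⟩ : ∃ t', t = t' + j := ⟨t - j, by ring⟩
  calc R (t + j + 1) ≤ G ^ (j + 1) * R t := by simpa [add_assoc] using k2 (j + 1) t (by omega)
    _ ≤ Y * G ^ j * R t := mul_le_mul_left h _
    _ ≤ Y * R (t + j) := by rw [mul_assoc]; exact mul_le_mul_right (k1 j t) _

theorem step_le {X : Type*} [AddCommGroup X] [Module k X] (f : X →ₗ[k] X) {A B A' B' : Submodule k X}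
    [FiniteDimensional k B] [FiniteDimensional k B'] (h1 : A ≤ B) (h2 : B ≤ A ⊔ B'.map f)
    (h3 : A' ≤ B') (h4 : ∀ x ∈ A', f x ∈ A) :
    finrank k B + finrank k A' ≤ finrank k A + finrank k B' := by
  obtain ⟨k1, k2⟩ := cod_map f A B'
  have k3 : cod A B ≤ cod A (B'.map f) := by
    rw [← cod_sup A (B'.map f)]
    refine cod_mono ?_ le_rfl h2
    rwa [FinCod, Submodule.map_sup, SeqH.map_mkQ_self, bot_sup_eq]
  have k4 := (SeqH.cod_fd h1).2
  have : FiniteDimensional k ↥(B' ⊓ A.comap f) := Submodule.finiteDimensional_of_le inf_le_left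
  have k5 : finrank k A' ≤ finrank k ↥(B' ⊓ A.comap f) := Submodule.finrank_mono (le_inf h3 h4)
  omega

theorem vdeg_nonneg {a : Dv} (h : ∀ e, 0 ≤ a e) (i : Fin 5) : 0 ≤ vdeg a i :=
  Finset.sum_nonneg fun j _ => by split_ifs; exacts [le_rfl, h _]

theorem vdeg_LL {a : Dv} {f : K k} (hf : f ∈ LL k a) (h0 : f ≠ 0) (i : Fin 5) :
    0 ≤ 11 * vdeg (fun e => nu e f) i + vdeg a i := by
  rw [← vdeg_smul, ← vdeg_add]
  exact vdeg_nonneg (hf.2.resolve_left h0) i

theorem Cp_nonneg (s : Pm) (e : Edge) : 0 ≤ Cp s e := by rcases Cp_cases s e with h | h <;> omega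

theorem ev_dim (b : Dv) : ∀ᶠ t : ℤ in atTop, (finrank k (LL k (b + (11 * t) • C0)) : ℚ) =
    Qi (fl b) + t * tot (fl b) + (5 * t ^ 2 + 5 * t) / 2 := by
  filter_upwards [(tendsto_id.const_mul_atTop' (by norm_num : (0 : ℤ) < 11)).eventually
    (ev_deep b)] with t ht
  rw [id] at ht
  rw [(good ht).2, mul_smul, fl_add_smul, Qi_eq, Qi_eq, bf_add, bf_add', bf_add', bf_smul,
    bf_smul', bf_smul', bf_smul, tot_add, tot_smul, bf_comm C0, C0, bf_Cp, bf_Cp, tot_Cp]
  push_cast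
  ring

theorem unit_mem (s : Pm) : gu k (Cp s - C0) ∈ LL k ((11 : ℤ) • C0) :=
  (gu_mem_LL (Cp_sub_mem s 1)).2 fun e => by
    have := Cp_nonneg s e
    simp only [Pi.sub_apply, Pi.smul_apply, smul_eq_mul, C0]
    omega

theorem ev_gen (b : Dv) : ∀ᶠ t : ℤ in atTop, LL k (b + (11 * (t + 1)) • C0) ≤
    ⨆ s : Pm, (LL k (b + (11 * t) • C0)).map (LinearMap.mulLeft k (gu k (Cp s - C0))) := by
  filter_upwards [((tendsto_atTop_add_const_right atTop 1 tendsto_id).const_mul_atTop'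
    (by norm_num : (0 : ℤ) < 11)).eventually (ev_deep b)] with t ht
  refine (gen11 ht).trans (iSup_mono fun s f hf => ⟨gu k (C0 - Cp s) * f,
    (LL_per (Cp_sub_mem 1 s)).1 ?_, ?_⟩)
  · rwa [show b + (11 * t) • C0 + (11 : ℤ) • (Cp 1 - Cp s) =
      b + (11 * (id t + 1)) • C0 - (11 : ℤ) • Cp s by simp only [C0, id]; module]
  · rw [LinearMap.mulLeft_apply, ← mul_assoc, ← gu_add, sub_add_sub_cancel, sub_self, gu_zero,
      one_mul]

end Vale.Agent.P190.SKH
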