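import Vale.Agent.P190.SRing
import Vale.Agent.P190.SKH

/-! P190 job Kum: the section ring of the Kummer cover. -/

namespace Vale.Agent.P190
open Module Filter

variable (k : Type) [Field k]

abbrev KL := AlgebraicClosure (K k)

/-- chosen 11-th roots of the chart units -/
noncomputable def rt (i : Fin 5) : KL k :=
  (IsAlgClosed.exists_pow_nat_eq (algebraMap (K k) (KL k) (algebraMap (P2 k) (K k) (cpol k i)))
    (by norm_num : 0 < 11)).choose

/-- the monomial in the roots -/
noncomputable def ze (a : Dv) : KL k := ∏ i, rt k i ^ (a (ce 1 i))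

/-- homogeneous elements -/
noncomputable def hm (a : Dv) (f : K k) : KL k := algebraMap (K k) (KL k) f * ze k a

/-- graded pieces of the section ring -/
noncomputable def RR (t : ℕ) : Submodule k (KL k) :=
  Submodule.span k {x | ∃ g ∈ Gam, ∃ f ∈ LL k ((t : ℤ) • C0 + g), x = hm k ((t : ℤ) • C0 + g) f}

variable {k}

theorem rt_pow (i : Fin 5) :
    rt k i ^ 11 = algebraMap (K k) (KL k) (algebraMap (P2 k) (K k) (cpol k i)) :=
  (IsAlgClosed.exists_pow_nat_eq (algebraMap (K k) (KL k) (algebraMap (P2 k) (K k) (cpol k i)))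
    (by norm_num : 0 < 11)).choose_spec

theorem rt_ne_zero (i : Fin 5) : rt k i ≠ 0 := fun h => by
  have := rt_pow (k := k) i
  rw [h, zero_pow (by norm_num), eq_comm, map_eq_zero] at this
  exact cpol_ne_zero i this

theorem ze_ne_zero (a : Dv) : ze k a ≠ 0 := by
  exact Finset.prod_ne_zero_iff.2 fun i _ => zpow_ne_zero _ (rt_ne_zero i)

theorem ze_add (a b : Dv) : ze k (a + b) = ze k a * ze k b := by
  simp only [ze, ← Finset.prod_mul_distrib]
  exact Finset.prod_congr rfl fun i _ => zpow_add₀ (rt_ne_zero i) _ _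

theorem ze_zero : ze k 0 = 1 := by
  simp [ze]

theorem ze_smul (a : Dv) : ze k ((11 : ℤ) • a) = algebraMap (K k) (KL k) (gu k a) := by
  rw [ze, gu, map_prod]
  refine Finset.prod_congr rfl fun i _ => ?_
  rw [map_zpow₀, ← rt_pow, ← zpow_natCast, ← zpow_mul]
  rfl

theorem hm_mul (a b : Dv) (f g : K k) : hm k (a + b) (f * g) = hm k a f * hm k b g := by
  rw [hm, hm, hm, ze_add, map_mul]
  ring

theorem hm_per (a d : Dv) (f : K k) : hm k (a + (11 : ℤ) • d) f = hm k a (gu k d * f) := by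
  rw [hm, hm, ze_add, ze_smul, map_mul]
  ring

theorem hm_mem {t : ℕ} {g : Dv} (hg : g ∈ Gam) {f : K k} (hf : f ∈ LL k ((t : ℤ) • C0 + g)) :
    hm k ((t : ℤ) • C0 + g) f ∈ RR k t :=
  Submodule.subset_span ⟨g, hg, f, hf, rfl⟩

theorem LL_neg_eq_bot {t : ℤ} (ht : t < 0) {g : Dv} (hg : g ∈ Gam) : LL k (t • C0 + g) = ⊥ := by
  refine (Submodule.eq_bot_iff _).2 fun f hf => by_contra fun h0 => ?_
  have h1 := SKH.vdeg_LL hf h0 0
  have h2 := nu_vertex hf.1 h0 0
  rw [vdeg_add, vdeg_smul, C0, vdeg_Cp, hg 0] at h1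
  omega

theorem tr_ze [CharZero (K k)] {g : Dv} (hg : g ∈ Gam) {e : Edge} (he : ¬(11 : ℤ) ∣ g e) :
    Algebra.normalizedTrace (K k) (KL k) (ze k g) = 0 := by
  have h1 : ze k g ^ 11 = algebraMap (K k) (KL k) (gu k g) := by
    rw [← ze_smul, ze, ze, ← Finset.prod_pow]
    refine Finset.prod_congr rfl fun i _ => ?_
    rw [← zpow_natCast, ← zpow_mul, mul_comm]
    rfl
  have h2 := X_pow_sub_C_irreducible_of_prime (by norm_num : Nat.Prime 11) (a := gu k g)
    fun b hb => he ⟨nu e b, by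
      have h0 : b ≠ 0 := by
        rintro rfl
        exact gu_ne_zero g (by rw [← hb, zero_pow (by norm_num)])
      rw [← nu_gu (k := k) hg e, ← hb, nu_pow e h0]
      rfl⟩
  rw [Algebra.normalizedTrace_minpoly, ← minpoly.eq_of_irreducible_of_monic h2 (by simp [h1])
    (Polynomial.monic_X_pow_sub_C _ (by norm_num)), Polynomial.nextCoeff,
    Polynomial.natDegree_X_pow_sub_C]
  simp [Polynomial.coeff_X_pow]

theorem ze_indep [CharZero k] : LinearIndependent (K k) (fun c => ze k (gam c)) := by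
  have : CharZero (K k) := algebraRat.charZero _
  refine Fintype.linearIndependent_iff.2 fun a ha c => ?_
  have h1 := congrArg (fun z => Algebra.normalizedTrace (K k) (KL k) (z * ze k (-gam c))) ha
  simp only [Finset.sum_mul, smul_mul_assoc, ← ze_add, map_sum, map_smul, zero_mul,
    map_zero] at h1
  rw [Finset.sum_eq_single c (fun c' _ hc => ?_) (fun h => absurd (Finset.mem_univ c) h),
    add_neg_cancel, ze_zero, ← map_one (algebraMap (K k) (KL k)),
    Algebra.normalizedTrace_algebraMap_apply_eq_self, smul_eq_mul, mul_one] at h1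
  · exact h1
  obtain ⟨i, hi⟩ := Function.ne_iff.1 hc
  rw [tr_ze (add_mem (gam_mem c') (neg_mem (gam_mem c))) (e := ce 1 i), smul_zero]
  rw [Pi.add_apply, Pi.neg_apply, gam_ce, gam_ce]
  have := Fin.val_ne_of_ne hi
  omega

variable (k) in
/-- homogeneous elements as a linear map -/
noncomputable def hmL (a : Dv) : K k →ₗ[k] KL k :=
  LinearMap.mulRight k (ze k a) ∘ₗ (IsScalarTower.toAlgHom k (K k) (KL k)).toLinearMap

theorem exists_Phi {ι : Type} [Fintype ι] (a : ι → Dv) :
    ∃ Φ : ((c : ι) → LL k (a c)) →ₗ[k] KL k, ∀ v, Φ v = ∑ c, hm k (a c) (v c) :=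
  ⟨∑ c, hmL k (a c) ∘ₗ (LL k _).subtype ∘ₗ LinearMap.proj c, fun _ => LinearMap.sum_apply _ _ _⟩

variable (k) in
/-- coordinates on a graded piece -/
noncomputable def Phi (t : ℕ) :
    ((c : Fin 5 → Fin 11) → LL k ((t : ℤ) • C0 + gam c)) →ₗ[k] KL k :=
  (exists_Phi fun c => (t : ℤ) • C0 + gam c).choose

theorem Phi_apply (t : ℕ) (v : (c : Fin 5 → Fin 11) → LL k ((t : ℤ) • C0 + gam c)) :
    Phi k t v = ∑ c, hm k ((t : ℤ) • C0 + gam c) (v c) :=
  (exists_Phi fun c => (t : ℤ) • C0 + gam c).choose_spec v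

theorem range_Phi (t : ℕ) : LinearMap.range (Phi k t) = RR k t := by
  refine le_antisymm ?_ (Submodule.span_le.2 ?_)
  · rintro _ ⟨v, rfl⟩
    rw [Phi_apply]
    exact Submodule.sum_mem _ fun c _ => hm_mem (gam_mem c) (v c).2
  · rintro _ ⟨g, hg, f, hf, rfl⟩
    obtain ⟨c, d, hd, rfl⟩ := exists_gam hg
    rw [← add_assoc] at hf ⊢
    refine ⟨Pi.single c ⟨gu k d * f, (LL_per hd).1 hf⟩, ?_⟩
    rw [Phi_apply, Finset.sum_eq_single c (fun c' _ hc => by simp [Pi.single_eq_of_ne hc, hm])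
      (fun h => absurd (Finset.mem_univ c) h), Pi.single_eq_same, hm_per]

theorem RR_zero : RR k 0 = 1 := by
  refine le_antisymm (Submodule.span_le.2 ?_) (Submodule.one_le.2 ?_)
  · rintro _ ⟨g, hg, f, hf, rfl⟩
    by_cases h0 : f = 0
    · simp [h0, hm]
    rw [Nat.cast_zero, zero_smul, zero_add] at hf
    have h1 := hf.2.resolve_left h0
    have h2 : ∀ i, vdeg (fun e => nu e f) i = 0 := fun i => by
      have := SKH.vdeg_LL hf h0 i
      have := nu_vertex hf.1 h0 i
      have := hg i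
      omega
    have h3 : tot ((11 : ℤ) • (fun e => nu e f) + g) = 0 :=
      tot_Gam (add_mem (zsmul_mem (mem_Gam.2 h2) _) hg)
    have h4 : g = (11 : ℤ) • -fun e => nu e f := funext fun e => by
      have := (Finset.sum_eq_zero_iff_of_nonneg fun e _ => h1 e).1 h3 e (Finset.mem_univ e)
      simp only [Pi.smul_apply, Pi.neg_apply, smul_eq_mul]
      omega
    rw [← zero_add g, h4] at hf
    obtain ⟨c, hc⟩ := LL_zero ((LL_per (neg_mem (mem_Gam.2 h2))).1 hf)
    rw [h4, hm_per, hc, Nat.cast_zero, zero_smul, hm, ze_zero, mul_one,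
      ← IsScalarTower.algebraMap_apply]
    exact Submodule.algebraMap_mem c
  · simpa [hm, ze_zero] using hm_mem (k := k) (t := 0) (zero_mem _) (f := 1) (by simp [one_mem_LL])

theorem RR_mul (s t : ℕ) : RR k s * RR k t ≤ RR k (s + t) := by
  rw [RR, RR, Submodule.span_mul_span, Submodule.span_le]
  rintro _ ⟨_, ⟨g, hg, f, hf, rfl⟩, _, ⟨g', hg', f', hf', rfl⟩, rfl⟩
  have e : (s : ℤ) • C0 + g + ((t : ℤ) • C0 + g') = ((s + t : ℕ) : ℤ) • C0 + (g + g') := by
    push_cast; module
  show hm k _ _ * hm k _ _ ∈ RR k _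
  rw [← hm_mul, e]
  exact hm_mem (add_mem hg hg') (e ▸ LL_mul hf hf')

theorem Cp_mem_RR (s : Pm) : hm k (Cp s) 1 ∈ RR k 1 := by
  have e : Cp s = ((1 : ℕ) : ℤ) • C0 + (Cp s - Cp 1) := by simp [C0]
  rw [e]
  exact hm_mem (Cp_sub_mem s 1) (e ▸ one_mem_LL.2 (SKH.Cp_nonneg s))

theorem RR_gen : ∀ᶠ t : ℕ in atTop,
    RR k (t + 1) ≤ Submodule.span k (Set.range fun s : Pm => hm k (Cp s) 1) * RR k t := by
  filter_upwards [((tendsto_natCast_atTop_atTop (R := ℤ)).comp (tendsto_add_atTop_nat 1)).eventually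
    (ev_deep' 0)] with t ht
  rw [← range_Phi]
  rintro _ ⟨v, rfl⟩
  rw [Phi_apply]
  refine Submodule.sum_mem _ fun c _ => ?_
  have h1 := ht c
  rw [zero_add] at h1
  refine Submodule.iSup_induction _ (motive := fun f => hm k (((t + 1 : ℕ) : ℤ) • C0 + gam c) f ∈ _)
    (gen11 h1 (v c).2) (fun s f hf => ?_) (by simp [hm]) fun f g hf hg => by
      simpa only [hm, map_add, add_mul] using add_mem hf hg
  have e : ((t + 1 : ℕ) : ℤ) • C0 + gam c = Cp s + ((t : ℤ) • C0 + (gam c + (Cp 1 - Cp s))) := by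
    simp only [C0]; push_cast; module
  rw [e, ← one_mul f, hm_mul]
  refine Submodule.mul_mem_mul (Submodule.subset_span ⟨s, rfl⟩)
    (hm_mem (add_mem (gam_mem c) (Cp_sub_mem 1 s)) (LL_mono (fun x => ?_) hf))
  have := congrFun e x
  have := SKH.Cp_nonneg s x
  simp only [Function.comp, Pi.add_apply, Pi.sub_apply, Pi.smul_apply, smul_eq_mul] at *
  omega

theorem finrank_RR [CharZero k] (t : ℕ) :
    (finrank k (RR k t) : ℚ) = sumS (fun a => (finrank k (LL k a) : ℚ)) 0 t := by
  have hi : Function.Injective (Phi k t) := (injective_iff_map_eq_zero _).2 fun v hv => by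
    simp only [Phi_apply, hm, ze_add] at hv
    have h1 : ∑ c, (v c : K k) • ze k (gam c) = 0 := by
      refine mul_left_cancel₀ (ze_ne_zero (k := k) ((t : ℤ) • C0)) ?_
      rw [mul_zero, ← hv, Finset.mul_sum]
      exact Finset.sum_congr rfl fun c _ => by rw [Algebra.smul_def (v c : K k)]; ring
    exact funext fun c => Subtype.ext (Fintype.linearIndependent_iff.1 ze_indep _ h1 c)
  rw [← range_Phi, LinearMap.finrank_range_of_inj hi, Module.finrank_pi_fintype, Nat.cast_sum, sumS]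
  exact Finset.sum_congr rfl fun c _ => by rw [zero_add]

theorem exists_GR [CharZero k] : ∃ G : GR k (KL k), G.R = RR k ∧
    ∀ i, G.x i ∈ Submodule.span k (Set.range fun s : Pm => hm k (Cp s) 1) := by
  have fd : ∀ t, FiniteDimensional k (RR k t) := fun t => range_Phi (k := k) t ▸ inferInstance
  have hP : ∀ᶠ t : ℕ in atTop, (finrank k (RR k t) : ℚ) = PP t := by
    filter_upwards [(tendsto_natCast_atTop_atTop (R := ℤ)).eventually (ev_hilb (k := k) 0)] with t ht
    rw [finrank_RR, ht]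
    simp [dd, ee, tot]
  set G := Submodule.span k (Set.range fun s : Pm => hm k (Cp s) 1)
  have h1 : G ≤ RR k 1 := Submodule.span_le.2 (by rintro _ ⟨s, rfl⟩; exact Cp_mem_RR s)
  have : FiniteDimensional k G := Submodule.finiteDimensional_of_le h1
  have h2 : ∀ t, G ^ t ≤ RR k t := fun t => by
    induction t with
    | zero => rw [pow_zero, RR_zero]
    | succ t ih => rw [pow_succ]; exact (mul_le_mul' ih h1).trans (RR_mul t 1)
  obtain ⟨y, hy, j, hj⟩ := noether_lin G 70000 (by
    filter_upwards [hP, eventually_ge_atTop 1] with t ht h3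
    have h4 : (finrank k ↥(G ^ t) : ℚ) ≤ finrank k (RR k t) :=
      Nat.cast_le.2 (Submodule.finrank_mono (h2 t))
    have h5 : (1 : ℚ) ≤ t := by exact_mod_cast h3
    have : (finrank k ↥(G ^ t) : ℚ) ≤ 70000 * t ^ 2 := by
      rw [ht, PP] at h4
      nlinarith
    exact_mod_cast this)
  obtain ⟨T, hT⟩ := eventually_atTop.1 (SKH.gen_of hj (fun t => if 0 ≤ t then RR k t.toNat else ⊥)
    (fun t => by
      split_ifs with h3 h4
      · rw [show (t + 1).toNat = 1 + t.toNat by omega]
        exact (mul_le_mul_left h1 _).trans (RR_mul _ _)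
      · omega
      all_goals simp) (by
      obtain ⟨T, hT⟩ := eventually_atTop.1 (RR_gen (k := k))
      filter_upwards [eventually_ge_atTop (T : ℤ)] with t ht
      rw [if_pos (by omega), if_pos (by omega), show (t + 1).toNat = t.toNat + 1 by omega]
      exact hT _ (by omega)))
  refine ⟨⟨RR k, RR_zero, fun s t a ha b hb => RR_mul s t (Submodule.mul_mem_mul ha hb), fd, y,
    fun i => h1 (hy i), T.toNat, fun t ht a ha => ?_, ?_, fun j => ⟨7000 * j + 7000 * j ^ 2, ?_⟩⟩,
    rfl, hy⟩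
  · have := hT t (by omega)
    rw [if_pos (by omega), if_pos (by omega)] at this
    exact SKH.mem_span_mul (this ha)
  · filter_upwards [hP, eventually_ge_atTop 10] with t ht h3
    have h5 : (10 : ℚ) ≤ t := by exact_mod_cast h3
    have : (t : ℚ) ^ 2 ≤ finrank k (RR k t) := by
      rw [ht, PP]
      nlinarith
    exact_mod_cast this
  · filter_upwards [hP, (tendsto_add_atTop_nat j).eventually hP, eventually_ge_atTop 1]
      with t ht ht' h3
    have h5 : (1 : ℚ) ≤ t := by exact_mod_cast h3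
    have h6 : (0 : ℚ) ≤ j := Nat.cast_nonneg j
    have : (finrank k (RR k (t + j)) : ℚ) ≤ finrank k (RR k t) + (7000 * j + 7000 * j ^ 2) * t := by
      rw [ht, ht', PP, PP]
      push_cast
      nlinarith [mul_nonneg h6 (sub_nonneg.2 h5), mul_nonneg (sq_nonneg (j : ℚ)) (sub_nonneg.2 h5)]
    exact_mod_cast this

end Vale.Agent.P190
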