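import Vale.Agent.P190.MinF
import Vale.Agent.P190.Kum
import Vale.Agent.P190.Deg

/-! P190: tools for the embedding step. -/

namespace Vale.Agent.P190
open Module Filter

/-- divisors in the class of t C0 -/
def Lt (t : ℤ) (a : Dv) : Prop := a - t • C0 ∈ Gam

theorem Lt.add {s t : ℤ} {a b : Dv} (h : Lt s a) (h' : Lt t b) : Lt (s + t) (a + b) := by
  have := add_mem h h'
  unfold Lt
  rwa [show a + b - (s + t) • C0 = a - s • C0 + (b - t • C0) by rw [add_smul]; abel]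

theorem Lt.neg {s : ℤ} {a : Dv} (h : Lt s a) : Lt (-s) (-a) := by
  have := neg_mem h
  unfold Lt
  rwa [show -a - (-s) • C0 = -(a - s • C0) by rw [neg_smul]; abel]

theorem Lt.cast {s t : ℤ} {a : Dv} (h : Lt s a) (e : s = t) : Lt t a := e ▸ h

theorem Lt_Gam {g : Dv} (hg : g ∈ Gam) : Lt 0 g := by simpa [Lt] using hg

theorem Lt_Cp (s : Pm) : Lt 1 (Cp s) := by simpa [Lt, C0] using Cp_sub_mem s 1

theorem Lt_one (m : ℤ) : Lt (2 * m) (m • (1 : Dv)) := by
  have := zsmul_mem one_sub_mem m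
  unfold Lt
  rwa [show m • (1 : Dv) - (2 * m) • C0 = m • ((1 : Dv) - (2 : ℤ) • C0) by
    rw [smul_sub, smul_smul, mul_comm]]

theorem Lt_gam (t : ℤ) (c : Fin 5 → Fin 11) : Lt t (0 + t • C0 + gam c) := by
  simpa [Lt] using gam_mem c

theorem Lt.unique {s t : ℤ} {a : Dv} (h : Lt s a) (h' : Lt t a) : s = t := by
  have h1 := tot_Gam (sub_mem h h')
  rw [show a - s • C0 - (a - t • C0) = (t - s) • C0 by rw [sub_smul]; abel, tot_smul, C0,
    tot_Cp] at h1
  omega

theorem Lt.decomp {t : ℤ} {a : Dv} (h : Lt t a) :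
    ∃ c, ∃ d ∈ Gam, a = 0 + t • C0 + gam c + (11 : ℤ) • d := by
  obtain ⟨c, d, hd, e⟩ := exists_gam h
  exact ⟨c, d, hd, by rw [zero_add, add_assoc, ← e]; abel⟩

variable {k : Type} [Field k]

theorem Lt.eq_zero {t : ℤ} {a : Dv} (h : Lt t a) (ht : t < 0) {f : K k} (hf : f ∈ LL k a) :
    f = 0 := by
  have := LL_neg_eq_bot (k := k) ht h
  rw [add_sub_cancel] at this
  simpa [this] using hf

theorem hm_zero (a : Dv) : hm k a 0 = 0 := by simp [hm]

theorem hm_add (a : Dv) (f g : K k) : hm k a (f + g) = hm k a f + hm k a g := by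
  simp [hm, add_mul]

theorem hm_smul (a : Dv) (c : k) (f : K k) : hm k a (c • f) = c • hm k a f := by
  simp only [hm, Algebra.smul_def, map_mul, mul_assoc]
  rw [← IsScalarTower.algebraMap_apply]

theorem hm_ne {a : Dv} {f : K k} (hf : f ≠ 0) : hm k a f ≠ 0 :=
  mul_ne_zero (by simpa using hf) (ze_ne_zero a)

theorem Lt.hm_mem {t : ℤ} {a : Dv} (h : Lt t a) {f : K k} (hf : f ∈ LL k a) :
    hm k a f ∈ RR k t.toNat := by
  rcases lt_or_ge t 0 with ht | ht
  · rw [h.eq_zero ht hf, hm_zero]; exact zero_mem _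
  · have e : ((t.toNat : ℕ) : ℤ) • C0 + (a - t • C0) = a := by
      rw [Int.toNat_of_nonneg ht]; abel
    have := Vale.Agent.P190.hm_mem (k := k) (t := t.toNat) h (f := f) (by rwa [e])
    rwa [e] at this

theorem ev_LL {f : K k} (hf : f ∈ BB k) (a : Dv) :
    ∀ᶠ m : ℤ in atTop, f ∈ LL k (m • (1 : Dv) + a) := by
  obtain ⟨m, hm⟩ := exists_LL hf
  have : ∀ᶠ n : ℤ in atTop, ∀ e, m - a e ≤ n :=
    Filter.eventually_all.mpr fun e => eventually_ge_atTop _
  filter_upwards [this] with n hn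
  refine LL_mono (fun e => ?_) hm
  have := hn e
  simp only [Pi.smul_apply, Pi.add_apply, Pi.one_apply, smul_eq_mul]
  omega

/-- homogeneous elements as elements of the completed ring -/
def Mu (G : GR k (KL k)) (μ : Dv → K k →ₗ[k] G.S) : Prop :=
  ∀ t a, Lt t a → ∀ f ∈ LL k a, μ a f = G.mono t.toNat (hm k a f)

variable {G : GR k (KL k)}

theorem exists_mu (hG : G.R = RR k) : ∃ μ, Mu G μ := by
  have : ∀ a : Dv, ∃ μ : K k →ₗ[k] G.S,
      ∀ t, Lt t a → ∀ f ∈ LL k a, μ f = G.mono t.toNat (hm k a f) := by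
    intro a
    by_cases h : ∃ t, Lt t a
    · obtain ⟨t, ht⟩ := h
      have hm' : ∀ f : LL k a, hm k a f ∈ G.R t.toNat := fun f => hG ▸ ht.hm_mem f.2
      let μ : LL k a →ₗ[k] G.S :=
        { toFun := fun f => G.mono t.toNat (hm k a f)
          map_add' := fun f g => by
            rw [Submodule.coe_add, hm_add, G.mono_add (hm' f) (hm' g)]
          map_smul' := fun c f => by
            rw [Submodule.coe_smul, hm_smul, G.mono_smul c (hm' f)]; rfl }
      obtain ⟨ν, hν⟩ := LinearMap.exists_extend μ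
      refine ⟨ν, fun t' ht' f hf => ?_⟩
      rw [ht'.unique ht]
      exact LinearMap.congr_fun hν ⟨f, hf⟩
    · exact ⟨0, fun t ht => (h ⟨t, ht⟩).elim⟩
  choose μ hμ using this
  exact ⟨μ, fun t a h => hμ a t h⟩

variable {μ : Dv → K k →ₗ[k] G.S}

theorem Mu.mul (hμ : Mu G μ) (hG : G.R = RR k) {s t : ℤ} {a b : Dv} (ha : Lt s a) (hb : Lt t b)
    {f g : K k} (hf : f ∈ LL k a) (hg : g ∈ LL k b) : μ (a + b) (f * g) = μ a f * μ b g := by
  rcases lt_or_ge s 0 with hs | hs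
  · simp [ha.eq_zero hs hf]
  rcases lt_or_ge t 0 with ht | ht
  · simp [hb.eq_zero ht hg]
  rw [hμ _ _ (ha.add hb) _ (LL_mul hf hg), hμ _ _ ha _ hf, hμ _ _ hb _ hg, hm_mul,
    Int.toNat_add hs ht, G.mono_mul (hG ▸ ha.hm_mem hf) (hG ▸ hb.hm_mem hg)]

theorem Mu.per (hμ : Mu G μ) {s : ℤ} {a d : Dv} (ha : Lt s a) (hd : d ∈ Gam) {f : K k}
    (hf : f ∈ LL k (a + (11 : ℤ) • d)) : μ (a + (11 : ℤ) • d) f = μ a (gu k d * f) := by
  rw [hμ _ _ ((ha.add (Lt_Gam (zsmul_mem hd 11))).cast (add_zero s)) _ hf,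
    hμ _ _ ha _ ((LL_per hd).mp hf), hm_per]

theorem Mu.one (hμ : Mu G μ) : μ 0 1 = 1 := by
  rw [hμ 0 0 (Lt_Gam (zero_mem _)) 1 (one_mem_LL.mpr le_rfl)]
  simpa [hm, ze_zero] using G.mono_one

variable {M : Type*} [AddCommGroup M] [Module G.S M] [Module k M] [IsScalarTower k G.S M]
  {F : ℤ → Submodule G.S M} {N : ℕ} {β γ : ℚ}

theorem Mu.act (hμ : Mu G μ) (h : MinF G F N β γ) {j t : ℤ} {a : Dv} (ha : Lt j a) {f : K k}
    (hf : f ∈ LL k a) {m : M} (hm : m ∈ F t) : μ a f • m ∈ F (t + j) := by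
  rcases lt_or_ge j 0 with hj | hj
  · simp [ha.eq_zero hj hf]
  have := h.mul j.toNat t _ (G.mono_mem_ge j.toNat (Vale.Agent.P190.hm k a f)) m hm
  rwa [Int.toNat_of_nonneg hj, ← hμ _ _ ha _ hf] at this

theorem Mu.cancel (hμ : Mu G μ) (hG : G.R = RR k) (h : MinF G F N β γ) {j t : ℤ} {a : Dv}
    (ha : Lt j a) {f : K k} (hf : f ∈ LL k a) (h0 : f ≠ 0) {m : M} (hm : m ∈ F t)
    (h1 : μ a f • m ∈ F (t + j + 1)) : m ∈ F (t + 1) := by
  have hj : 0 ≤ j := by
    by_contra hj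
    exact h0 (ha.eq_zero (by omega) hf)
  refine h.sat j.toNat t _ (hG ▸ ha.hm_mem hf) (hm_ne h0) m hm ?_
  rwa [Int.toNat_of_nonneg hj, ← hμ _ _ ha _ hf]

variable {ι : Type} [Fintype ι]

/-- the presentation map -/
noncomputable def Psi (μ : Dv → K k →ₗ[k] G.S) (lam : ι → Dv) (m : ι → M) (a : Dv) :
    (ι → K k) →ₗ[k] M where
  toFun v := ∑ i, μ (lam i + a) (v i) • m i
  map_add' v w := by simp [add_smul, Finset.sum_add_distrib]
  map_smul' c v := by simp [Finset.smul_sum]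

theorem Psi_apply (lam : ι → Dv) (m : ι → M) (a : Dv) (v : ι → K k) :
    Psi μ lam m a v = ∑ i, μ (lam i + a) (v i) • m i := rfl

variable {lam : ι → Dv} {m : ι → M} {τ : ι → ℤ}

theorem Psi_mem (hμ : Mu G μ) (h : MinF G F N β γ) (hl : ∀ i, Lt (-τ i) (lam i))
    (hm : ∀ i, m i ∈ F (τ i)) {t : ℤ} {a : Dv} (ha : Lt t a) {v : ι → K k}
    (hv : v ∈ FF k lam a) : Psi μ lam m a v ∈ F t := by
  refine sum_mem fun i _ => ?_
  have := hμ.act h ((hl i).add ha) (mem_FF.mp hv i) (hm i)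
  rwa [show τ i + (-τ i + t) = t by ring] at this

theorem FF_smul {a b : Dv} {v : ι → K k} (hv : v ∈ FF k lam a) {x : K k} (hx : x ∈ LL k b) :
    x • v ∈ FF k lam (a + b) := by
  rw [mem_FF] at *
  intro j
  have := LL_mul (hv j) hx
  rwa [mul_comm, add_assoc] at this

theorem Psi_smul (hμ : Mu G μ) (hG : G.R = RR k) (hl : ∀ i, Lt (-τ i) (lam i)) {t j : ℤ}
    {a b : Dv} (ha : Lt t a) (hb : Lt j b) {v : ι → K k} (hv : v ∈ FF k lam a) {x : K k}
    (hx : x ∈ LL k b) : Psi μ lam m (a + b) (x • v) = μ b x • Psi μ lam m a v := by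
  simp only [Psi_apply, Finset.smul_sum, smul_smul]
  refine Finset.sum_congr rfl fun i _ => ?_
  rw [← add_assoc, Pi.smul_apply, smul_eq_mul, mul_comm x,
    hμ.mul hG ((hl i).add ha) hb (mem_FF.mp hv i) hx, mul_comm]

theorem Psi_per (hμ : Mu G μ) (hl : ∀ i, Lt (-τ i) (lam i)) {t : ℤ} {a d : Dv} (ha : Lt t a)
    (hd : d ∈ Gam) {v : ι → K k} (hv : v ∈ FF k lam (a + (11 : ℤ) • d)) :
    gu k d • v ∈ FF k lam a ∧ Psi μ lam m (a + (11 : ℤ) • d) v = Psi μ lam m a (gu k d • v) := by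
  rw [mem_FF] at hv
  simp only [← add_assoc] at hv
  refine ⟨mem_FF.mpr fun j => (LL_per hd).mp (hv j), ?_⟩
  simp only [Psi_apply]
  refine Finset.sum_congr rfl fun i _ => ?_
  rw [← add_assoc, hμ.per ((hl i).add ha) hd (hv i)]; rfl

/-- the generic fibre of the relations -/
theorem exists_rel (hμ : Mu G μ) (hG : G.R = RR k) (h : MinF G F N β γ)
    (hl : ∀ i, Lt (-τ i) (lam i)) (hm : ∀ i, m i ∈ F (τ i)) :
    ∃ W₀ : Submodule (K k) (ι → K k), ∀ t a, Lt t a → ∀ v ∈ FF k lam a,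
      (v ∈ W₀ ↔ Psi μ lam m a v ∈ F (t + 1)) := by
  let W₀ : Submodule (K k) (ι → K k) :=
    { carrier := {v | ∃ b : K k, b ≠ 0 ∧ ∃ t a, Lt t a ∧ b • v ∈ FF k lam a ∧
        Psi μ lam m a (b • v) ∈ F (t + 1)}
      zero_mem' := ⟨1, one_ne_zero, 0, 0, Lt_Gam (zero_mem _), by simp, by simp⟩
      smul_mem' := by
        rintro c v ⟨b, hb, t, a, ha, h1, h2⟩
        by_cases hc : c = 0
        · exact ⟨1, one_ne_zero, 0, 0, Lt_Gam (zero_mem _), by simp [hc], by simp [hc]⟩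
        · have e : (b / c) • c • v = b • v := by rw [smul_smul, div_mul_cancel₀ _ hc]
          exact ⟨b / c, div_ne_zero hb hc, t, a, ha, by rwa [e], by rwa [e]⟩
      add_mem' := by
        rintro v v' ⟨b, hb, t, a, ha, h1, h2⟩ ⟨b', hb', t', a', ha', h1', h2'⟩
        obtain ⟨x, hx, hx0, hy⟩ := exists_den (b' / b)
        obtain ⟨n, hn, hn'⟩ := ((ev_LL hx a).and (ev_LL hy a')).exists
        have e1 : (x * b') • v = (x * (b' / b)) • b • v := by
          rw [smul_smul, mul_assoc, div_mul_cancel₀ _ hb]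
        have e2 : (x * b') • v' = x • b' • v' := by rw [smul_smul]
        have e3 : a + (n • (1 : Dv) + a') = a' + (n • (1 : Dv) + a) := by abel
        refine ⟨x * b', mul_ne_zero hx0 hb', _, _, ha.add ((Lt_one n).add ha'), ?_, ?_⟩
        · rw [smul_add, e1, e2]
          exact add_mem (FF_smul h1 hn') (e3 ▸ FF_smul h1' hn)
        · rw [smul_add, e1, e2, map_add, Psi_smul hμ hG hl ha ((Lt_one n).add ha') h1 hn', e3,
            Psi_smul hμ hG hl ha' ((Lt_one n).add ha) h1' hn]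
          refine add_mem ?_ ?_
          · have := hμ.act h ((Lt_one n).add ha') hn' h2
            rwa [show t + 1 + (2 * n + t') = t + (2 * n + t') + 1 by ring] at this
          · have := hμ.act h ((Lt_one n).add ha) hn h2'
            rwa [show t' + 1 + (2 * n + t) = t + (2 * n + t') + 1 by ring] at this }
  refine ⟨W₀, fun t a ha v hv => ⟨?_, fun h1 => ⟨1, one_ne_zero, t, a, ha, by simpa, by simpa⟩⟩⟩
  rintro ⟨b, hb, t', a', ha', h1, h2⟩
  obtain ⟨x, hx, hx0, hy⟩ := exists_den b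
  obtain ⟨n, hn, hn'⟩ := ((ev_LL hx a).and (ev_LL hy a')).exists
  refine hμ.cancel hG h ((Lt_one n).add ha') hn' (mul_ne_zero hx0 hb)
    (Psi_mem hμ h hl hm ha hv) ?_
  rw [← Psi_smul hμ hG hl ha ((Lt_one n).add ha') hv hn',
    show a + (n • (1 : Dv) + a') = a' + (n • (1 : Dv) + a) by abel, ← smul_smul,
    Psi_smul hμ hG hl ha' ((Lt_one n).add ha) h1 hn]
  have := hμ.act h ((Lt_one n).add ha) hn h2
  rwa [show t' + 1 + (2 * n + t) = t + (2 * n + t') + 1 by ring] at this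

theorem exists_gens (h : MinF G F N β γ) (t : ℤ) : ∃ (n : ℕ) (m : Fin n → M),
    (∀ l, m l ∈ F t) ∧ (F t).restrictScalars k ≤
      (F (t + 1)).restrictScalars k ⊔ Submodule.span k (Set.range m) := by
  set A := (F (t + 1)).restrictScalars k
  set B := (F t).restrictScalars k
  have : FiniteDimensional k (B.map A.mkQ) := (h.fin (t + 1)).mono le_rfl le_top
  obtain ⟨n, y, hy⟩ := Submodule.fg_iff_exists_fin_generating_family.mp
    ((Submodule.fg_iff_finiteDimensional _).mpr this)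
  have : ∀ l, ∃ x ∈ B, A.mkQ x = y l := fun l =>
    Submodule.mem_map.mp (hy ▸ Submodule.subset_span ⟨l, rfl⟩)
  choose m hm hm' using this
  refine ⟨n, m, hm, ?_⟩
  have e : (Submodule.span k (Set.range m)).map A.mkQ = B.map A.mkQ := by
    rw [Submodule.map_span, ← Set.range_comp, ← hy]
    congr 2
    funext l; exact hm' l
  rw [← Submodule.comap_map_mkQ, e]
  exact Submodule.le_comap_map _ _

theorem exists_pres (hμ : Mu G μ) (hG : G.R = RR k)
    (hx : ∀ i, G.x i ∈ Submodule.span k (Set.range fun s : Pm => hm k (Cp s) 1))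
    (h : MinF G F N β γ) : ∃ (ι : Type) (_ : Fintype ι) (lam : ι → Dv) (m : ι → M) (τ : ι → ℤ),
      (∀ i, Lt (-τ i) (lam i)) ∧ (∀ i, m i ∈ F (τ i)) ∧ ∀ t a, Lt t a →
        (F t).restrictScalars k ≤
          (F (t + 1)).restrictScalars k ⊔ (FF k lam a).map (Psi μ lam m a) := by
  classical
  obtain ⟨t₀, h0⟩ := h.top
  obtain ⟨t₂, h2⟩ := h.gen
  choose n m hmm hsp using exists_gens h
  let ι := (Σ t : Finset.Icc t₀ t₂, Fin (n t)) × (Fin 5 → Fin 11)
  let lam : ι → Dv := fun i => -(0 + (i.1.1 : ℤ) • C0 + gam i.2)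
  let m' : ι → M := fun i => m i.1.1 i.1.2
  have hl : ∀ i : ι, Lt (-(i.1.1 : ℤ)) (lam i) := fun i => (Lt_gam _ _).neg
  refine ⟨ι, inferInstance, lam, m', fun i => i.1.1, hl, fun i => hmm _ _, ?_⟩
  have low : ∀ t ≤ t₂, ∀ a, Lt t a → (F t).restrictScalars k ≤
      (F (t + 1)).restrictScalars k ⊔ (FF k lam a).map (Psi μ lam m' a) := by
    intro t ht a ha
    by_cases ht0 : t < t₀
    · rw [h0 (t + 1) (by omega)]; simp
    refine (hsp t).trans (sup_le_sup_left ?_ _)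
    rw [Submodule.span_le]
    rintro _ ⟨l, rfl⟩
    obtain ⟨c, d, hd, e⟩ := ha.decomp
    let i : ι := ⟨⟨⟨t, Finset.mem_Icc.mpr ⟨by omega, ht⟩⟩, l⟩, c⟩
    have e1 : lam i + a = 0 + (11 : ℤ) • d := by rw [e]; simp only [lam, i]; abel
    have e2 : gu k (-d) ∈ LL k (0 + (11 : ℤ) • d) := by
      rw [LL_per hd, ← gu_add, add_neg_cancel, gu_zero]; exact one_mem_LL.mpr le_rfl
    refine ⟨Pi.single i (gu k (-d)), mem_FF.mpr fun j => ?_, ?_⟩
    · by_cases hj : j = i
      · rw [hj, Pi.single_eq_same, e1]; exact e2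
      · rw [Pi.single_eq_of_ne hj]; exact zero_mem _
    · rw [Psi_apply, Finset.sum_eq_single i]
      · rw [Pi.single_eq_same, e1, hμ.per (Lt_Gam (zero_mem _)) hd e2, ← gu_add, add_neg_cancel,
          gu_zero, hμ.one, one_smul]
      · intro j _ hj; simp [Pi.single_eq_of_ne hj]
      · simp
  intro t
  rcases le_or_gt t t₂ with ht | ht
  · exact low t ht
  refine Int.le_induction (m := t₂) (motive := fun t _ => ∀ a, Lt t a → (F t).restrictScalars k ≤
      (F (t + 1)).restrictScalars k ⊔ (FF k lam a).map (Psi μ lam m' a)) (low t₂ le_rfl) ?_ t ht.le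
  intro t ht ih a ha x hx'
  obtain ⟨b, hb, rfl⟩ := h2 t ht x hx'
  refine sum_mem fun i _ => ?_
  have key : ∀ y ∈ Submodule.span k (Set.range fun s : Pm => hm k (Cp s) 1), y ∈ G.R 1 ∧
      G.mono 1 y • b i ∈
        (F (t + 1 + 1)).restrictScalars k ⊔ (FF k lam a).map (Psi μ lam m' a) := by
    intro y hy
    induction hy using Submodule.span_induction with
    | mem y hy =>
      obtain ⟨s, rfl⟩ := hy
      have h1 : (1 : K k) ∈ LL k (Cp s) := one_mem_LL.mpr fun e => by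
        rcases Cp_cases s e with h | h <;> simp [h]
      refine ⟨hG ▸ (Lt_Cp s).hm_mem h1, ?_⟩
      have ha' : Lt t (a + -Cp s) := (ha.add (Lt_Cp s).neg).cast (by ring)
      obtain ⟨b', hb', _, ⟨v, hv, rfl⟩, e⟩ := Submodule.mem_sup.mp (ih _ ha' (hb i))
      have e1 := hμ _ _ (Lt_Cp s) _ h1
      rw [show (1 : ℤ).toNat = 1 from rfl] at e1
      have e2 := Psi_smul (m := m') hμ hG hl ha' (Lt_Cp s) hv h1
      have e3 := FF_smul hv h1
      rw [neg_add_cancel_right] at e2 e3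
      rw [← e, smul_add, ← e1, ← e2]
      exact Submodule.add_mem_sup (hμ.act h (Lt_Cp s) h1 hb') (Submodule.mem_map_of_mem e3)
    | zero => exact ⟨zero_mem _, by simp [G.mono_zero]⟩
    | add y z _ _ hy hz =>
      refine ⟨add_mem hy.1 hz.1, ?_⟩
      rw [G.mono_add hy.1 hz.1, add_smul]; exact add_mem hy.2 hz.2
    | smul c y _ hy =>
      refine ⟨Submodule.smul_mem _ c hy.1, ?_⟩
      rw [G.mono_smul c hy.1, smul_assoc]; exact Submodule.smul_mem _ c hy.2
  exact (key _ (hx i)).2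

end Vale.Agent.P190
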