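import Vale.Agent.P190.Emb
import Vale.Agent.P190.Bog0

/-! P190 job Final: assembly. -/

namespace Vale.Agent.P190
open Module Filter RingTheory.Sequence

theorem not_minF {k : Type} [Field k] [CharZero k] (hB : Bog k) {ω : k}
    (hω : IsPrimitiveRoot ω 11) (G : GR k (KL k)) (hG : G.R = RR k)
    (hx : ∀ i, G.x i ∈ Submodule.span k (Set.range fun s : Pm => hm k (Cp s) 1))
    {M : Type*} [AddCommGroup M] [Module G.S M] [Module k M] [IsScalarTower k G.S M]
    {F : ℤ → Submodule G.S M} {N : ℕ} {β γ : ℚ} (h : MinF G F N β γ) : False := by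
  obtain ⟨ι, _, lam, W₀, ha, hb⟩ := emb hω G hG hx h
  have hN : (0 : ℚ) < N := by exact_mod_cast h.pos
  have key : ∀ W, W₀ ≤ W → ∃ C : ℚ, ∀ᶠ t : ℤ in atTop,
      ((rk W - rk W₀ : ℤ) : ℚ) * 6655 / 2 * (t : ℚ) ^ 2 +
        (((deg lam W - deg lam W₀ : ℤ) : ℚ) - ((rk W - rk W₀ : ℤ) : ℚ) * 6655 * 9 / 2) * t +
        (((rk W - rk W₀ : ℤ) : ℚ) * 61226 - C) ≤ hh lam W t - hh lam W₀ t ∧
      hh lam W t - hh lam W₀ t ≤ ((rk W - rk W₀ : ℤ) : ℚ) * 6655 / 2 * (t : ℚ) ^ 2 +
        (((deg lam W - deg lam W₀ : ℤ) : ℚ) - ((rk W - rk W₀ : ℤ) : ℚ) * 6655 * 9 / 2) * t +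
        (((rk W - rk W₀ : ℤ) : ℚ) * 61226 + C) := by
    intro W _
    obtain ⟨C, hC⟩ := (hasD_hh lam W).sub (hasD_hh lam W₀)
    refine ⟨C, hC.mono fun t ht => ?_⟩
    have := abs_le.mp ht
    simp only [PP] at this
    constructor <;> linarith [this.1, this.2]
  set r : ℚ := ((rk (⊤ : Submodule (K k) (ι → K k)) - rk W₀ : ℤ) : ℚ) with hr
  set d : ℚ := ((deg lam (⊤ : Submodule (K k) (ι → K k)) - deg lam W₀ : ℤ) : ℚ) with hd
  have hpoly : ∀ᶠ t : ℤ in atTop, hh lam (⊤ : Submodule (K k) (ι → K k)) t - hh lam W₀ t =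
      161051 * N / 2 * (t : ℚ) ^ 2 + 161051 * β * t + 161051 * γ := by
    filter_upwards [ha, h.poly] with t h1 h2
    rw [h1, h2]; ring
  obtain ⟨C, hC⟩ := key ⊤ le_top
  have q1 := quad_le (hC.mp (hpoly.mono fun t h1 h2 => h2.1.trans h1.le))
  have q2 := quad_le (hC.mp (hpoly.mono fun t h1 h2 => h1.symm.le.trans h2.2))
  rw [← hr, ← hd] at q1 q2
  have e1 : r * 6655 / 2 = 161051 * N / 2 := by
    rcases q1 with q1 | q1
    · rcases q2 with q2 | q2
      · linarith
      · linarith [q2.1]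
    · exact q1.1
  have e2 : d - r * 6655 * 9 / 2 = 161051 * β := by
    rcases q1 with q1 | ⟨-, q1 | q1⟩
    · linarith
    · rcases q2 with q2 | ⟨-, q2 | q2⟩
      · linarith
      · linarith
      · linarith [q2.1]
    · exact q1.1
  have hr0 : 0 < r := by linarith
  set σ : ℚ := d / (6655 * r) with hσ
  have hdσ : d = 6655 * r * σ := by rw [hσ]; field_simp
  have hβ : β / N = σ - 9 / 2 := by
    rw [div_eq_iff hN.ne']
    have : (N : ℚ) = 6655 * r / 161051 := by linarith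
    rw [this]
    linarith
  have hW : ∀ W, W₀ ≤ W →
      ((deg lam W - deg lam W₀ : ℤ) : ℚ) ≤ (rk W - rk W₀ : ℤ) * 6655 * (σ + 1 / 2) ∧
      ((deg lam W - deg lam W₀ : ℤ) : ℚ) ≤ (rk W - rk W₀ : ℤ) * 6655 * σ +
        (r - (rk W - rk W₀ : ℤ)) * 6655 / 2 := by
    intro W hW
    obtain ⟨C, hC⟩ := key W hW
    obtain ⟨A, B, C', hB1, hB2, hev⟩ := hb W hW
    set w : ℚ := ((rk W - rk W₀ : ℤ) : ℚ)
    set dw : ℚ := ((deg lam W - deg lam W₀ : ℤ) : ℚ)
    have p1 := quad_le (a := A / 2) (b := -C') (c := 0)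
      (hC.mp (hev.mono fun t h1 h2 => le_trans (by linarith [h1.1]) h2.2))
    have p2 := quad_le (hC.mp (hev.mono fun t h1 h2 => h2.1.trans h1.2))
    have f1 : A = 6655 * w := by
      rcases p1 with p1 | p1 <;> rcases p2 with p2 | p2
      · linarith
      · linarith [p2.1]
      · linarith [p1.1]
      · linarith [p1.1]
    have f2 : dw - w * 6655 * 9 / 2 ≤ B := by
      rcases p2 with p2 | ⟨-, p2 | p2⟩
      · linarith
      · linarith
      · linarith [p2.1]
    have f3 : β * A / N = (σ - 9 / 2) * (6655 * w) := by rw [← hβ, f1]; ring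
    rw [f3] at hB1 hB2
    constructor
    · linarith
    · linarith
  set t₀ : ℤ := round (9 / 2 - σ)
  have ht₀ := abs_le.mp (abs_sub_round (9 / 2 - σ))
  obtain ⟨e, he1, he2⟩ := hn_bound hB lam W₀ t₀ (σ - 1 / 2) (σ + 1 / 2)
    (abs_le.mpr ⟨by linarith [ht₀.1, ht₀.2], by linarith [ht₀.1, ht₀.2]⟩)
    (abs_le.mpr ⟨by linarith [ht₀.1, ht₀.2], by linarith [ht₀.1, ht₀.2]⟩)
    (fun W hW' => (hW W hW').1)
    (fun W hW' => by
      have := (hW W hW').2
      have e3 : ((rk (⊤ : Submodule (K k) (ι → K k)) - rk W : ℤ) : ℚ) = r - (rk W - rk W₀ : ℤ) := by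
        rw [hr]; push_cast; ring
      have e4 : ((deg lam (⊤ : Submodule (K k) (ι → K k)) - deg lam W : ℤ) : ℚ) =
          d - (deg lam W - deg lam W₀ : ℤ) := by
        rw [hd]; push_cast; ring
      rw [e3, e4]
      linarith)
  rw [← hr, ← hd] at he1 he2
  have q3 := quad_le (a' := r * 6655 / 2) (b' := d - r * 6655 * 9 / 2)
    (c' := r * 61226 - d * 9 / 2 + e)
    (he1.mp (hpoly.mono fun t h1 h2 => h1.symm.le.trans (h2.trans (by simp only [PP]; linarith))))
  have q4 : 161051 * γ ≤ r * 61226 - d * 9 / 2 + e := by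
    rcases q3 with q3 | ⟨-, q3 | q3⟩
    · linarith
    · linarith
    · exact q3.2
  have q5 := h.nonneg t₀
  simp only [PP] at he2
  have q6 : 161051 * ((N : ℚ) / 2 * (t₀ : ℚ) ^ 2 + β * t₀ + γ) =
      r * 6655 / 2 * (t₀ : ℚ) ^ 2 + (d - r * 6655 * 9 / 2) * t₀ + 161051 * γ := by
    rw [e1, e2]; ring
  nlinarith


universe u

theorem main : ∃ (R : Type) (_ : CommRing R) (_ : IsDomain R) (_ : IsNoetherianRing R)
    (_ : IsLocalRing R), IsAdicComplete (IsLocalRing.maximalIdeal R) R ∧ ringKrullDim R = 3 ∧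
    ∀ (M : Type u) [AddCommGroup M] [Module R M] [Module.Finite R M] [Nontrivial M]
      (rs : List R), (∀ r ∈ rs, r ∈ IsLocalRing.maximalIdeal R) → IsWeaklyRegular M rs →
      (rs.length : WithBot ℕ∞) < ringKrullDim R := by
  obtain ⟨ω, hω⟩ := exists_root
  obtain ⟨G, hG, hx⟩ := exists_GR (k := UK)
  refine ⟨G.S, inferInstance, inferInstance, inferInstance, inferInstance, inferInstance,
    G.dim_eq, ?_⟩
  intro M _ _ _ _ rs hrs hreg
  rw [G.dim_eq]
  by_contra hlen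
  have hl : 3 ≤ rs.length := by
    by_contra h3
    apply hlen
    have : rs.length < 3 := by omega
    exact_mod_cast this
  obtain ⟨n, f, hf⟩ := Module.Finite.exists_fin' G.S M
  let M' := (Fin n → G.S) ⧸ LinearMap.ker f
  let e : M' ≃ₗ[G.S] M := f.quotKerEquivOfSurjective hf
  haveI : Nontrivial M' := e.toEquiv.nontrivial
  have h3 : IsWeaklyRegular M' (rs.take 3) := by
    rw [e.isWeaklyRegular_congr]
    rw [← List.take_append_drop 3 rs, isWeaklyRegular_append_iff] at hreg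
    exact hreg.1
  have hmem : ∀ r ∈ rs.take 3, r ∈ IsLocalRing.maximalIdeal G.S :=
    fun r hr => hrs r (List.mem_of_mem_take hr)
  have h4 : IsRegular M' (rs.take 3) :=
    (IsLocalRing.isRegular_iff_isWeaklyRegular_of_subset_maximalIdeal hmem).mpr h3
  have hpow : ∀ j : ℕ, G.ge 1 ^ j ≤ G.ge j := by
    intro j
    induction j with
    | zero => simp [G.ge_zero]
    | succ j ih =>
      rw [pow_succ, Ideal.mul_le]
      exact fun a ha b hb => G.ge_mul (ih ha) hb
  have h5 : IsWeaklyRegular M' [G.xs 0, G.xs 1, G.xs 2] := by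
    refine weaklyRegular_of_depth (rs.take 3) _ (by simp [hl]) hmem h4 ?_ ⟨G.t1 + 1, ?_⟩
    · intro x hx
      rw [G.max_eq]
      simp only [List.mem_cons, List.not_mem_nil, or_false] at hx
      rcases hx with rfl | rfl | rfl <;> exact G.mono_mem_ge 1 _
    · refine Submodule.smul_mono_left ?_
      rw [G.max_eq]
      refine (hpow _).trans ((G.ge_le_pow 1).trans ?_)
      rw [pow_one, Ideal.span_le]
      rintro _ ⟨i, rfl⟩
      refine Ideal.subset_span ?_
      fin_cases i <;> simp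
  obtain ⟨F, N, β, γ, hF⟩ := exists_minF G h5
  exact not_minF bog0 hω G hG hx hF


end Vale.Agent.P190
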