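import Vale.Agent.P190.Point

/-! P190 job Frob1: colength of Frobenius powers, degree of Frobenius pull backs. -/

namespace Vale.Agent.P190
open MvPolynomial Module Filter

variable {k : Type} [Field k]

namespace Fr1

theorem fd {N : Dv → Submodule k (K k)} (hle : ∀ a, N a ≤ LL k a) (a : Dv) :
    FiniteDimensional k (N a) := Submodule.finiteDimensional_of_le (hle a)

theorem col_anti {N N' : Dv → Submodule k (K k)} (h : ∀ a, N a ≤ N' a) (hle : ∀ a, N' a ≤ LL k a)
    (b : Dv) (t : ℤ) : col N' b t ≤ col N b t := by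
  unfold col sumS
  refine Finset.sum_le_sum fun c _ => ?_
  have := fd hle (b + t • C0 + gam c)
  have h1 : (finrank k (N (b + t • C0 + gam c)) : ℚ) ≤ finrank k (N' (b + t • C0 + gam c)) := by
    exact_mod_cast Submodule.finrank_mono (h _)
  beta_reduce
  linarith

theorem term_nonneg {N : Dv → Submodule k (K k)} (hle : ∀ a, N a ≤ LL k a) (a : Dv) :
    (0 : ℚ) ≤ (finrank k (LL k a) : ℚ) - finrank k (N a) := by
  have h1 : (finrank k (N a) : ℚ) ≤ finrank k (LL k a) := by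
    exact_mod_cast Submodule.finrank_mono (hle _)
  linarith

theorem col_nonneg {N : Dv → Submodule k (K k)} (hle : ∀ a, N a ≤ LL k a) (b : Dv) (t : ℤ) :
    0 ≤ col N b t :=
  Finset.sum_nonneg fun _ _ => term_nonneg hle _

theorem col_int (N : Dv → Submodule k (K k)) (b : Dv) (t : ℤ) : ∃ n : ℤ, col N b t = n :=
  ⟨∑ c : Fin 5 → Fin 11, ((finrank k (LL k (b + t • C0 + gam c)) : ℤ) -
    finrank k (N (b + t • C0 + gam c))), by simp [col, sumS]⟩

theorem eq_of_col {N : Dv → Submodule k (K k)} (hle : ∀ a, N a ≤ LL k a) {b : Dv} {t : ℤ}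
    (h : col N b t ≤ 0) (c : Fin 5 → Fin 11) :
    N (b + t • C0 + gam c) = LL k (b + t • C0 + gam c) := by
  have h0 : col N b t = 0 := le_antisymm h (col_nonneg hle b t)
  unfold col sumS at h0
  have := (Finset.sum_eq_zero_iff_of_nonneg fun c _ => term_nonneg hle (b + t • C0 + gam c)).mp h0
    c (Finset.mem_univ c)
  refine Submodule.eq_of_le_of_finrank_eq (hle _) ?_
  have h2 : (finrank k (N (b + t • C0 + gam c)) : ℚ) = finrank k (LL k (b + t • C0 + gam c)) := by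
    linarith
  exact_mod_cast h2

theorem ev_col_sat [Infinite k] {N : Dv → Submodule k (K k)} (hN : TCl N)
    (hle : ∀ a, N a ≤ LL k a) (b : Dv) : ∀ᶠ t : ℤ in atTop, col (sat N) b t = col N b t := by
  have h := eventually_all.mpr fun c : Fin 5 → Fin 11 => ev_sat_eq hN hle (b + gam c)
  filter_upwards [h] with t ht
  unfold col sumS
  refine Finset.sum_congr rfl fun c _ => ?_
  beta_reduce
  rw [show b + t • C0 + gam c = b + gam c + t • C0 by abel, ht c]

/-- saturated families -/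
def IsSat (N : Dv → Submodule k (K k)) : Prop :=
  ∀ a f, f ∈ LL k a → (∀ s : Pm, ∃ j : ℕ, f ∈ N (a + (j : ℤ) • Cp s)) → f ∈ N a

theorem isSat_sat {N : Dv → Submodule k (K k)} (hN : TCl N) : IsSat (sat N) := by
  intro a f hf h
  refine (mem_sat hN).mpr ⟨hf, fun s => ?_⟩
  obtain ⟨j, hj⟩ := h s
  obtain ⟨j', hj'⟩ := ((mem_sat hN).mp hj).2 s
  refine ⟨j + j', ?_⟩
  rwa [show a + ((j + j' : ℕ) : ℤ) • Cp s = a + (j : ℤ) • Cp s + (j' : ℤ) • Cp s by
    push_cast; module]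

theorem frobF_sat (p : ℕ) {N : Dv → Submodule k (K k)} (hN : TCl N) (a : Dv) :
    frobF p (sat N) a ≤ sat (frobF p N) a := by
  intro x hx
  refine (mem_sat (frobF_tcl p N)).mpr ⟨frobF_le p (fun _ => inf_le_left) a hx, ?_⟩
  have : frobF p (sat N) a ≤ ⨅ s : Pm, ⨆ j : ℕ, frobF p N (a + (j : ℤ) • Cp s) := by
    refine Submodule.span_le.mpr ?_
    rintro _ ⟨a', f, hf, c, hc, rfl⟩
    refine (Submodule.mem_iInf _).mpr fun s => ?_
    obtain ⟨j, hj⟩ := ((mem_sat hN).mp hf).2 s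
    refine Submodule.mem_iSup_of_mem (p * j) (Submodule.subset_span ⟨_, f, hj, c, ?_, rfl⟩)
    rwa [show a + ((p * j : ℕ) : ℤ) • Cp s - (p : ℤ) • (a' + (j : ℤ) • Cp s) = a - (p : ℤ) • a' by
      push_cast; module]
  exact ((mem_sat (frobF_tcl p N)).mp
    ⟨frobF_le p (fun _ => inf_le_left) a hx, this hx⟩).2

/-- colon family -/
noncomputable def cln (N : Dv → Submodule k (K k)) (f : K k) (a₀ a : Dv) : Submodule k (K k) :=
  LL k a ⊓ (N (a + a₀)).comap (LinearMap.mulLeft k f)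

/-- family with one more generator -/
noncomputable def adj (N : Dv → Submodule k (K k)) (f : K k) (a₀ a : Dv) : Submodule k (K k) :=
  N a ⊔ (LL k (a - a₀)).map (LinearMap.mulLeft k f)

theorem mem_cln {N : Dv → Submodule k (K k)} {f : K k} {a₀ a : Dv} {g : K k} :
    g ∈ cln N f a₀ a ↔ g ∈ LL k a ∧ f * g ∈ N (a + a₀) := Iff.rfl

theorem mem_adj {N : Dv → Submodule k (K k)} {f : K k} {a₀ a : Dv} {g : K k} :
    g ∈ adj N f a₀ a ↔ ∃ y ∈ N a, ∃ x ∈ LL k (a - a₀), y + f * x = g := by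
  unfold adj
  rw [Submodule.mem_sup]
  constructor
  · rintro ⟨y, hy, _, ⟨x, hx, rfl⟩, h⟩
    exact ⟨y, hy, x, hx, h⟩
  · rintro ⟨y, hy, x, hx, h⟩
    exact ⟨y, hy, _, ⟨x, hx, rfl⟩, h⟩

theorem cln_le (N : Dv → Submodule k (K k)) (f : K k) (a₀ a : Dv) : cln N f a₀ a ≤ LL k a :=
  inf_le_left

theorem cln_tcl {N : Dv → Submodule k (K k)} (hN : TCl N) (f : K k) (a₀ : Dv) :
    TCl (cln N f a₀) := by
  intro a a' g x hg hx
  rw [mem_cln] at hg ⊢
  refine ⟨add_comm a' a ▸ LL_mul hx hg.1, ?_⟩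
  rw [mul_left_comm, add_right_comm]
  exact hN _ _ _ _ hg.2 hx

theorem cln_sat {N : Dv → Submodule k (K k)} (hS : IsSat N) {f : K k} {a₀ : Dv}
    (hf : f ∈ LL k a₀) : IsSat (cln N f a₀) := by
  intro a g hg h
  refine mem_cln.mpr ⟨hg, hS _ _ (add_comm a₀ a ▸ LL_mul hf hg) fun s => ?_⟩
  obtain ⟨j, hj⟩ := h s
  exact ⟨j, by rw [add_right_comm]; exact (mem_cln.mp hj).2⟩

theorem adj_le {N : Dv → Submodule k (K k)} (hle : ∀ a, N a ≤ LL k a) {f : K k} {a₀ : Dv}
    (hf : f ∈ LL k a₀) (a : Dv) : adj N f a₀ a ≤ LL k a := by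
  intro g hg
  obtain ⟨y, hy, x, hx, rfl⟩ := mem_adj.mp hg
  refine add_mem (hle a hy) ?_
  have := LL_mul hf hx
  rwa [add_sub_cancel] at this

theorem adj_tcl {N : Dv → Submodule k (K k)} (hN : TCl N) (f : K k) (a₀ : Dv) :
    TCl (adj N f a₀) := by
  intro a a' g z hg hz
  obtain ⟨y, hy, x, hx, rfl⟩ := mem_adj.mp hg
  refine mem_adj.mpr ⟨z * y, hN _ _ _ _ hy hz, z * x, ?_, by ring⟩
  have := LL_mul hz hx
  rwa [show a' + (a - a₀) = a + a' - a₀ by abel] at this

theorem col_split {N : Dv → Submodule k (K k)} (hle : ∀ a, N a ≤ LL k a) {f : K k} (h0 : f ≠ 0)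
    (a₀ b : Dv) (t : ℤ) : col N b t = col (adj N f a₀) b t + col (cln N f a₀) (b - a₀) t := by
  unfold col sumS
  rw [← Finset.sum_add_distrib]
  refine Finset.sum_congr rfl fun c _ => ?_
  beta_reduce
  rw [show b - a₀ + t • C0 + gam c = b + t • C0 + gam c - a₀ by abel]
  generalize b + t • C0 + gam c = a
  have := fd hle a
  have h1 := Submodule.finrank_sup_add_finrank_inf_eq (N a)
    ((LL k (a - a₀)).map (LinearMap.mulLeft k f))
  have h2 : N a ⊓ (LL k (a - a₀)).map (LinearMap.mulLeft k f) =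
      (cln N f a₀ (a - a₀)).map (LinearMap.mulLeft k f) := by
    ext g
    constructor
    · rintro ⟨hg, x, hx, rfl⟩
      exact ⟨x, mem_cln.mpr ⟨hx, by rw [sub_add_cancel]; exact hg⟩, rfl⟩
    · rintro ⟨x, hx, rfl⟩
      have := mem_cln.mp hx
      rw [sub_add_cancel] at this
      exact ⟨this.2, x, this.1, rfl⟩
  rw [h2, finrank_map_mul h0, finrank_map_mul h0] at h1
  have h3 : (finrank k (adj N f a₀ a) : ℚ) + finrank k (cln N f a₀ (a - a₀)) =
      finrank k (N a) + finrank k (LL k (a - a₀)) := by exact_mod_cast h1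
  linarith

theorem cln_cln {N : Dv → Submodule k (K k)} {f g : K k} {a₀ a₁ : Dv} (hg : g ∈ LL k a₁) :
    cln (cln N f a₀) g a₁ = cln N (f * g) (a₁ + a₀) := by
  funext a
  ext x
  rw [mem_cln, mem_cln, mem_cln, mul_assoc, add_assoc]
  exact ⟨fun h => ⟨h.1, h.2.2⟩, fun h => ⟨h.1, add_comm a₁ a ▸ LL_mul hg h.1, h.2⟩⟩

theorem mem_of_freq {P : Dv → Submodule k (K k)} (hP : TCl P) (hle : ∀ a, P a ≤ LL k a)
    (hS : IsSat P) {a a' : Dv} {g g' : K k} (hg : g ∈ LL k a) (hg' : g' ∈ LL k a')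
    (h : g * g' ∈ P (a + a')) {b : Dv} (hf : ∃ᶠ t : ℤ in atTop, col (adj P g' a') b t ≤ 0) :
    g ∈ P a := by
  refine hS a g hg fun s => ?_
  obtain ⟨t, ht, x, c, d, hd, hx0, hx1, hx⟩ := (hf.and_eventually (reach s 0 b)).exists
  rw [zero_add] at hx
  have h1 : gu k d ∈ LL k (b + t • C0 + gam c) := by
    have := (LL_per (k := k) hd (a := b + t • C0 + gam c) (f := 1)).mp
      (by rw [← hx]; exact one_mem_LL.mpr hx0)
    rwa [mul_one] at this
  rw [← eq_of_col (adj_le hle hg') ht c] at h1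
  obtain ⟨y, hy, z, hz, e⟩ := mem_adj.mp h1
  have h2 : g * gu k d ∈ P (b + t • C0 + gam c + a) := by
    rw [← e, mul_add]
    refine add_mem (hP _ _ _ _ hy hg) ?_
    have := hP _ _ _ _ h hz
    rwa [show a + a' + (b + t • C0 + gam c - a') = b + t • C0 + gam c + a by abel,
      show z * (g * g') = g * (g' * z) by ring] at this
  have h3 := hP.unit (neg_mem hd) h2
  rw [gu_neg, mul_left_comm, inv_mul_cancel₀ (gu_ne_zero d), mul_one,
    show b + t • C0 + gam c + a - (11 : ℤ) • -d = a + x by rw [hx]; module] at h3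
  refine ⟨(nrm x).toNat, hP.mono ?_ h3⟩
  intro e
  simp only [Pi.add_apply, Pi.smul_apply, smul_eq_mul]
  have h4 := abs_le_nrm x e
  rcases Cp_cases s e with h5 | h5
  · rw [h5, hx1 e h5]; simp
  · rw [h5]
    have := le_abs_self (x e)
    omega

theorem frobF_adj (p : ℕ) [Fact p.Prime] [CharP k p] (N : Dv → Submodule k (K k)) (f : K k)
    (a₀ a : Dv) : frobF p (adj N f a₀) a ≤ adj (frobF p N) (f ^ p) ((p : ℤ) • a₀) a := by
  refine Submodule.span_le.mpr ?_
  rintro _ ⟨a', _, hg, c, hc, rfl⟩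
  obtain ⟨y, hy, x, hx, rfl⟩ := mem_adj.mp hg
  refine mem_adj.mpr ⟨c * y ^ p, Submodule.subset_span ⟨a', y, hy, c, hc, rfl⟩, c * x ^ p, ?_, ?_⟩
  · have := LL_mul hc (LL_pow hx p)
    rwa [show a - (p : ℤ) • a' + (p : ℤ) • (a' - a₀) = a - (p : ℤ) • a₀ by module] at this
  · rw [add_pow_char]; ring

theorem frobF_cln (p : ℕ) (N : Dv → Submodule k (K k)) (f : K k) (a₀ a : Dv) :
    frobF p (cln N f a₀) a ≤ cln (frobF p N) (f ^ p) ((p : ℤ) • a₀) a := by
  intro z hz
  refine mem_cln.mpr ⟨frobF_le p (cln_le N f a₀) a hz, ?_⟩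
  have : frobF p (cln N f a₀) a ≤
      (frobF p N (a + (p : ℤ) • a₀)).comap (LinearMap.mulLeft k (f ^ p)) := by
    refine Submodule.span_le.mpr ?_
    rintro _ ⟨a', g, hg, c, hc, rfl⟩
    refine Submodule.subset_span ⟨a' + a₀, f * g, (mem_cln.mp hg).2, c, ?_, ?_⟩
    · rwa [show a + (p : ℤ) • a₀ - (p : ℤ) • (a' + a₀) = a - (p : ℤ) • a' by module]
    · simp only [LinearMap.mulLeft_apply]; ring
  exact this hz

theorem exists_prime {S : Dv → Submodule k (K k)} (hS : TCl S) (hle : ∀ a, S a ≤ LL k a)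
    (hsat : IsSat S) {b : Dv} {C : ℕ} (hC : ∀ᶠ t : ℤ in atTop, col S b t ≤ C)
    (hne : ∃ a, ∃ f ∈ LL k a, f ∉ S a) :
    ∃ a₀, ∃ f ∈ LL k a₀, f ∉ S a₀ ∧ ∀ a a' g g', g ∈ LL k a → g' ∈ LL k a' →
      g * g' ∈ cln S f a₀ (a + a') → g ∈ cln S f a₀ a ∨ g' ∈ cln S f a₀ a' := by
  classical
  have hex : ∃ n : ℕ, ∃ a₀, ∃ f ∈ LL k a₀, f ∉ S a₀ ∧
      ∀ᶠ t : ℤ in atTop, col (cln S f a₀) (b - a₀) t ≤ n := by
    obtain ⟨a, f, hf, hf'⟩ := hne
    refine ⟨C, a, f, hf, hf', hC.mono fun t ht => ?_⟩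
    have h0 : f ≠ 0 := by rintro rfl; exact hf' (zero_mem _)
    have := col_split hle h0 a b t
    linarith [col_nonneg (adj_le hle hf) b t]
  obtain ⟨a₀, f, hf, hf', hn⟩ := Nat.find_spec hex
  refine ⟨a₀, f, hf, hf', fun a a' g g' hg hg' h => ?_⟩
  by_cases hP : g' ∈ cln S f a₀ a'
  · exact Or.inr hP
  left
  have h0 : g' ≠ 0 := by rintro rfl; exact hP (zero_mem _)
  have h1 : f * g' ∈ LL k (a' + a₀) := add_comm a₀ a' ▸ LL_mul hf hg'
  have h2 : f * g' ∉ S (a' + a₀) := fun h => hP (mem_cln.mpr ⟨hg', h⟩)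
  have h3 : ∃ᶠ t : ℤ in atTop, (Nat.find hex : ℚ) ≤
      col (cln S (f * g') (a' + a₀)) (b - (a' + a₀)) t := by
    rcases Nat.eq_zero_or_pos (Nat.find hex) with h4 | h4
    · rw [h4]
      exact Frequently.of_forall fun t => by simpa using col_nonneg (cln_le _ _ _) _ t
    · have h5 := Nat.find_min hex (m := Nat.find hex - 1) (by omega)
      have h6 : ¬ ∀ᶠ t : ℤ in atTop, col (cln S (f * g') (a' + a₀)) (b - (a' + a₀)) t ≤
          ((Nat.find hex - 1 : ℕ) : ℚ) := fun h6 => h5 ⟨_, _, h1, h2, h6⟩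
      refine (not_eventually.mp h6).mono fun t ht => ?_
      obtain ⟨n, hn'⟩ := col_int (cln S (f * g') (a' + a₀)) (b - (a' + a₀)) t
      rw [hn'] at ht ⊢
      have h7 : ¬ n ≤ ((Nat.find hex - 1 : ℕ) : ℤ) := fun h7 => ht (by exact_mod_cast h7)
      have h8 : ((Nat.find hex : ℕ) : ℤ) ≤ n := by omega
      exact_mod_cast h8
  refine mem_of_freq (cln_tcl hS f a₀) (cln_le S f a₀) (cln_sat hsat hf) hg hg' h (b := b - a₀) ?_
  refine (h3.and_eventually hn).mono fun t ht => ?_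
  have h4 := col_split (cln_le S f a₀) h0 a' (b - a₀) t
  rw [cln_cln hg', show b - a₀ - a' = b - (a' + a₀) by abel] at h4
  linarith [ht.1, ht.2]

theorem frob_col_aux [IsAlgClosed k] (p : ℕ) [Fact p.Prime] [CharP k p] (b₀ : Dv) (C : ℕ) :
    ∀ {N : Dv → Submodule k (K k)}, TCl N → (∀ a, N a ≤ LL k a) →
      (∀ᶠ t : ℤ in atTop, col N b₀ t ≤ C) →
      ∃ c : ℕ, ∀ b : Dv, (∀ᶠ t : ℤ in atTop, (c : ℚ) ≤ col N b t) ∧
        ∀ᶠ t : ℤ in atTop, col (frobF p N) b t ≤ (p : ℚ) ^ 2 * c := by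
  induction C using Nat.strong_induction_on with
  | _ C ih =>
  intro N hN hle hC
  have hS := sat_tcl hN
  have hSle : ∀ a, sat N a ≤ LL k a := fun _ => inf_le_left
  have hsat := isSat_sat hN
  have hC' : ∀ᶠ t : ℤ in atTop, col (sat N) b₀ t ≤ C := by
    filter_upwards [hC, ev_col_sat hN hle b₀] with t h1 h2
    rwa [h2]
  suffices h : ∃ c : ℕ, ∀ b : Dv, (∀ᶠ t : ℤ in atTop, (c : ℚ) ≤ col (sat N) b t) ∧
      ∀ᶠ t : ℤ in atTop, col (frobF p (sat N)) b t ≤ (p : ℚ) ^ 2 * c by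
    obtain ⟨c, hc⟩ := h
    refine ⟨c, fun b => ⟨?_, ?_⟩⟩
    · filter_upwards [(hc b).1, ev_col_sat hN hle b] with t h1 h2
      rwa [← h2]
    · filter_upwards [(hc b).2, ev_col_sat (frobF_tcl p N) (frobF_le p hle) b] with t h1 h2
      rw [← h2]
      exact (col_anti (frobF_sat p hN) (fun _ => inf_le_left) b t).trans h1
  generalize sat N = S at hS hSle hsat hC'
  by_cases hne : ∃ a, ∃ f ∈ LL k a, f ∉ S a
  swap
  · refine ⟨0, fun b => ⟨Eventually.of_forall fun t => by simpa using col_nonneg hSle b t,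
      Eventually.of_forall fun t => ?_⟩⟩
    have h1 : (1 : K k) ∈ S 0 := by
      by_contra h1
      exact hne ⟨0, 1, one_mem_LL.mpr le_rfl, h1⟩
    have h2 : ∀ a, LL k a ≤ frobF p S a := fun a c hc =>
      Submodule.subset_span ⟨0, 1, h1, c, by simpa using hc, by simp⟩
    refine (col_anti h2 (frobF_le p hSle) b t).trans ?_
    simp [col, sumS]
  obtain ⟨a₀, f, hf, hf', hprime⟩ := exists_prime hS hSle hsat hC' hne
  have h0 : f ≠ 0 := by rintro rfl; exact hf' (zero_mem _)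
  obtain ⟨c₁, hc₁, h1⟩ := point p (cln_tcl hS f a₀) (cln_le S f a₀) hprime
    (by
      by_contra h
      push Not at h
      have := cln_sat hsat hf 0 1 (one_mem_LL.mpr le_rfl) fun s => by simpa using h s
      exact hf' (by simpa using (mem_cln.mp this).2))
    ⟨b₀ - a₀, C, hC'.mono fun t ht => by
      have := col_split hSle h0 a₀ b₀ t
      linarith [col_nonneg (adj_le hSle hf) b₀ t]⟩
  have hc₁' : (1 : ℚ) ≤ c₁ := by exact_mod_cast hc₁
  have h2 : ∀ᶠ t : ℤ in atTop, col (adj S f a₀) b₀ t ≤ C - 1 := by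
    filter_upwards [hC', (h1 (b₀ - a₀)).1] with t e1 e2
    have := col_split hSle h0 a₀ b₀ t
    linarith
  have hC1 : 1 ≤ C := by
    obtain ⟨t, ht⟩ := h2.exists
    have := col_nonneg (adj_le hSle hf) b₀ t
    have : (1 : ℚ) ≤ C := by linarith
    exact_mod_cast this
  obtain ⟨c₂, h3⟩ := ih (C - 1) (by omega) (adj_tcl hS f a₀) (adj_le hSle hf)
    (by rw [Nat.cast_sub hC1, Nat.cast_one]; exact h2)
  refine ⟨c₁ + c₂, fun b => ⟨?_, ?_⟩⟩
  · filter_upwards [(h1 (b - a₀)).1, (h3 b).1] with t e1 e2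
    rw [col_split hSle h0 a₀ b t]
    push_cast; linarith
  · filter_upwards [(h1 (b - (p : ℤ) • a₀)).2, (h3 b).2] with t e1 e2
    rw [col_split (frobF_le p hSle) (pow_ne_zero p h0) ((p : ℤ) • a₀) b t]
    have e3 := col_anti (frobF_adj p S f a₀) (adj_le (frobF_le p hSle) (LL_pow hf p)) b t
    have e4 := col_anti (frobF_cln p S f a₀) (cln_le _ _ _) (b - (p : ℤ) • a₀) t
    push_cast; linarith

end Fr1

theorem frob_col [IsAlgClosed k] (p : ℕ) [Fact p.Prime] [CharP k p] {N : Dv → Submodule k (K k)}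
    (hN : TCl N) (hle : ∀ a, N a ≤ LL k a)
    (hbd : ∃ (b : Dv) (C : ℚ), ∀ᶠ t : ℤ in atTop, col N b t ≤ C) :
    ∃ c : ℕ, ∀ b : Dv, (∀ᶠ t : ℤ in atTop, (c : ℚ) ≤ col N b t) ∧
      ∀ᶠ t : ℤ in atTop, col (frobF p N) b t ≤ (p : ℚ) ^ 2 * c := by
  obtain ⟨b, C, h⟩ := hbd
  exact Fr1.frob_col_aux p b ⌈C⌉₊ hN hle (h.mono fun t ht => ht.trans (Nat.le_ceil C))

variable {ι : Type} [Fintype ι]

/-- Frobenius pull back of a subspace -/
noncomputable def frobS (p : ℕ) (W : Submodule (K k) (ι → K k)) : Submodule (K k) (ι → K k) :=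
  Submodule.span (K k) ((fun v j => v j ^ p) '' (W : Set (ι → K k)))

theorem frobS_mono (p : ℕ) {W W' : Submodule (K k) (ι → K k)} (h : W ≤ W') :
    frobS p W ≤ frobS p W' :=
  Submodule.span_mono (Set.image_mono h)

theorem Fr1.mem_frobS (p : ℕ) {W : Submodule (K k) (ι → K k)} {v : ι → K k} (hv : v ∈ W) :
    (fun j => v j ^ p) ∈ frobS p W := Submodule.subset_span ⟨v, hv, rfl⟩

theorem rk_frobS (p : ℕ) [Fact p.Prime] [CharP k p] (W : Submodule (K k) (ι → K k)) :
    rk (frobS p W) = rk W := by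
  classical
  have hp : p ≠ 0 := (Fact.out : p.Prime).ne_zero
  obtain ⟨J, hJ, hinj⟩ := exists_proj W
  let π : (ι → K k) →ₗ[K k] (J → K k) := LinearMap.funLeft (K k) (K k) Subtype.val
  have hπ : ∀ v (j : J), π v j = v j := fun _ _ => rfl
  have hker : W ⊓ LinearMap.ker π = ⊥ := by
    rw [eq_bot_iff]
    rintro v ⟨h1, h2⟩
    exact hinj v h1 fun j hj => congrFun (LinearMap.mem_ker.mp h2) ⟨j, hj⟩
  have h1 := DegH.rank_null π W
  rw [hker, finrank_bot, add_zero] at h1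
  have hJ' : finrank (K k) W = J.card := by unfold rk at hJ; omega
  have htop : W.map π = ⊤ := Submodule.eq_top_of_finrank_eq (by simp [h1, hJ'])
  have hw : ∀ i : J, ∃ w ∈ W, π w = Pi.single i 1 := fun i => by
    have : (Pi.single i 1 : J → K k) ∈ W.map π := by rw [htop]; trivial
    exact this
  choose w hwW hw using hw
  have hexp : ∀ v ∈ W, v = ∑ i : J, v i • w i := fun v hv => by
    refine sub_eq_zero.mp (hinj _ (sub_mem hv (Submodule.sum_mem _ fun i _ =>
      W.smul_mem _ (hwW i))) fun j hj => ?_)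
    have : ∀ i : J, w i j = (Pi.single i 1 : J → K k) ⟨j, hj⟩ := fun i => by
      rw [← hw i]; rfl
    simp [this, Pi.single_apply]
  have hup : frobS p W ≤ Submodule.span (K k) (Set.range fun i : J => fun j => w i j ^ p) := by
    refine Submodule.span_le.mpr ?_
    rintro _ ⟨v, hv, rfl⟩
    have e : (fun j => v j ^ p) = ∑ i : J, (v i ^ p) • fun j => w i j ^ p := by
      funext j
      conv_lhs => rw [hexp v hv]
      simp only [Finset.sum_apply, Pi.smul_apply, smul_eq_mul]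
      rw [sum_pow_char]
      exact Finset.sum_congr rfl fun i _ => mul_pow _ _ _
    beta_reduce
    rw [e]
    exact Submodule.sum_mem _ fun i _ => Submodule.smul_mem _ _ (Submodule.subset_span ⟨i, rfl⟩)
  have h2 : finrank (K k) (frobS p W) ≤ J.card :=
    (Submodule.finrank_mono hup).trans ((finrank_range_le_card _).trans (by simp))
  have htop' : (frobS p W).map π = ⊤ := by
    rw [eq_top_iff]
    intro y _
    rw [pi_eq_sum_univ' y]
    refine Submodule.sum_mem _ fun i _ => Submodule.smul_mem _ _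
      ⟨_, Fr1.mem_frobS p (hwW i), funext fun j => ?_⟩
    have : w i j = (Pi.single i 1 : J → K k) j := by rw [← hw i]; rfl
    rw [hπ]
    beta_reduce
    rw [this]
    by_cases hij : j = i
    · subst hij; simp
    · simp [hij, hp]
  have h3 := DegH.rank_null π (frobS p W)
  rw [htop', finrank_top] at h3
  have h4 : finrank (K k) (J → K k) = J.card := by simp
  unfold rk
  omega

namespace Fr1

open Classical in
/-- Frobenius twist of a functional -/
noncomputable def frL (p : ℕ) (φ : (ι → K k) →ₗ[K k] K k) : (ι → K k) →ₗ[K k] K k :=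
  ∑ j, (φ (Pi.single j 1) ^ p) • LinearMap.proj j

theorem frL_apply (p : ℕ) [Fact p.Prime] [CharP k p] (φ : (ι → K k) →ₗ[K k] K k) (v : ι → K k) :
    frL p φ (fun j => v j ^ p) = φ v ^ p := by
  classical
  conv_rhs => rw [pi_eq_sum_univ' v, map_sum, sum_pow_char]
  simp only [frL, LinearMap.sum_apply, LinearMap.smul_apply, LinearMap.proj_apply, smul_eq_mul,
    map_smul, mul_pow]
  refine Finset.sum_congr rfl fun j _ => ?_
  rw [mul_comm]

theorem frobS_ker (p : ℕ) [Fact p.Prime] [CharP k p] (W : Submodule (K k) (ι → K k))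
    (φ : (ι → K k) →ₗ[K k] K k) (h : ∃ v ∈ W, φ v ≠ 0) :
    frobS p W ⊓ LinearMap.ker (frL p φ) = frobS p (W ⊓ LinearMap.ker φ) := by
  have hp : p ≠ 0 := (Fact.out : p.Prime).ne_zero
  symm
  refine Submodule.eq_of_le_of_finrank_eq (le_inf (frobS_mono p inf_le_left) ?_) ?_
  · refine Submodule.span_le.mpr ?_
    rintro _ ⟨v, hv, rfl⟩
    have h1 : φ v = 0 := hv.2
    refine LinearMap.mem_ker.mpr ?_
    rw [frL_apply, h1, zero_pow hp]
  · obtain ⟨v, hv, h0⟩ := h
    have h1 := rk_step W φ ⟨v, hv, h0⟩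
    have h2 := rk_step (frobS p W) (frL p φ)
      ⟨_, mem_frobS p hv, by rw [frL_apply]; exact pow_ne_zero p h0⟩
    have h3 := rk_frobS p W
    have h4 := rk_frobS p (W ⊓ LinearMap.ker φ)
    unfold rk at h1 h2 h3 h4
    omega

theorem mem_EE_frob (p : ℕ) {lam : ι → Dv} {W : Submodule (K k) (ι → K k)} {a : Dv} {v : ι → K k}
    (hv : v ∈ EE lam W a) :
    (fun j => v j ^ p) ∈ EE (fun j => (p : ℤ) • lam j) (frobS p W) ((p : ℤ) • a) := by
  rw [mem_EE] at hv ⊢
  refine ⟨mem_frobS p hv.1, fun j => ?_⟩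
  rw [← smul_add]
  exact LL_pow (hv.2 j) p

theorem wit_pow (p : ℕ) [Fact p.Prime] [CharP k p] {b : Dv} {κ : Type} [Fintype κ] {al : κ → Dv}
    {w : κ → K k} (h : Wit b al w) :
    Wit ((p : ℤ) • b) (fun i => (p : ℤ) • al i) (fun i => w i ^ p) where
  mem i := by rw [← smul_add]; exact LL_pow (h.mem i) p
  sharp e := by
    obtain ⟨i, h0, hi⟩ := h.sharp e
    refine ⟨i, pow_ne_zero p h0, ?_⟩
    rw [nu_pow e h0]
    simp only [Pi.smul_apply, smul_eq_mul]
    linear_combination (p : ℤ) * hi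
  cop j := by
    obtain ⟨P, hP, c, hc, e⟩ := h.cop j
    refine ⟨P ^ p, pow_ne_zero p hP, fun i => c i ^ p, fun i => pow_mem (hc i) p, ?_⟩
    rw [map_pow, ← e, sum_pow_char]
    exact Finset.sum_congr rfl fun i _ => (mul_pow _ _ _).symm

theorem deg_interval [IsAlgClosed k] (p : ℕ) [Fact p.Prime] [CharP k p] (lam : ι → Dv)
    (W₀ : Submodule (K k) (ι → K k)) (n : ℕ) : ∀ W₁ : Submodule (K k) (ι → K k),
    finrank (K k) W₁ = n → W₀ ≤ W₁ → p * (deg lam W₁ - deg lam W₀) ≤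
      deg (fun j => (p : ℤ) • lam j) (frobS p W₁) - deg (fun j => (p : ℤ) • lam j) (frobS p W₀) := by
  induction n using Nat.strong_induction_on with
  | _ n ih =>
  intro W₁ hn hle
  by_cases h : W₁ ≤ W₀
  · rw [le_antisymm h hle]; simp
  obtain ⟨v, hv, hv'⟩ := SetLike.not_le_iff_exists.mp h
  obtain ⟨φ, hφ, hφ'⟩ := Submodule.exists_dual_map_eq_bot_of_notMem hv' inferInstance
  obtain ⟨x, hx, b, hb, m, al, w, hw, hW⟩ := exists_normal lam W₁ φ ⟨v, hv, hφ⟩
  have hne : ∃ v ∈ W₁, (x • φ) v ≠ 0 := ⟨v, hv, by simp [hx, hφ]⟩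
  have h1 := deg_step lam W₁ (x • φ) (b := b) hb hw hW
  have h2 := deg_step_ge (fun j => (p : ℤ) • lam j) (frobS p W₁) (frL p (x • φ))
    (b := (p : ℤ) • b) (fun i => mem_EE_frob p (hw i)) (by
      simp only [frL_apply]
      exact wit_pow p hW)
  rw [frobS_ker p W₁ _ hne, dd_smul] at h2
  have h3 := rk_step W₁ _ hne
  have h4 := ih _ (by unfold rk at h3; omega) (W₁ ⊓ LinearMap.ker (x • φ)) rfl
    (le_inf hle fun u hu => by
      have : φ u = 0 := by
        have h5 : φ u ∈ W₀.map φ := ⟨u, hu, rfl⟩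
        rwa [hφ'] at h5
      simp [this])
  rw [h1]
  linarith

end Fr1

theorem deg_frobS [IsAlgClosed k] (p : ℕ) [Fact p.Prime] [CharP k p] (lam : ι → Dv)
    (W : Submodule (K k) (ι → K k)) :
    deg (fun j => (p : ℤ) • lam j) (frobS p W) = p * deg lam W := by
  have h1 := Fr1.deg_interval p lam ⊥ _ W rfl bot_le
  have h2 := Fr1.deg_interval p lam W _ ⊤ rfl le_top
  have e1 : frobS p (⊥ : Submodule (K k) (ι → K k)) = ⊥ := by
    have := rk_frobS p (⊥ : Submodule (K k) (ι → K k))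
    rw [rk_bot] at this
    unfold rk at this
    exact Submodule.finrank_eq_zero.mp (by omega)
  have e2 : frobS p (⊤ : Submodule (K k) (ι → K k)) = ⊤ := by
    have := rk_frobS p (⊤ : Submodule (K k) (ι → K k))
    unfold rk at this
    exact Submodule.eq_of_le_of_finrank_eq le_top (by omega)
  rw [e1, deg_bot, deg_bot] at h1
  rw [e2, deg_top, deg_top] at h2
  simp only [dd_smul, ← Finset.mul_sum] at h2
  linarith

theorem frob_e [IsAlgClosed k] (p : ℕ) [Fact p.Prime] [CharP k p] (lam : ι → Dv)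
    (W : Submodule (K k) (ι → K k)) : ∃ e : ℚ,
      (∀ᶠ t : ℤ in atTop, hh lam W t ≤ rk W * PP t + deg lam W * ((t : ℚ) - 9 / 2) + e) ∧
      ∀ᶠ t : ℤ in atTop, rk W * PP t + p * deg lam W * ((t : ℚ) - 9 / 2) + (p : ℚ) ^ 2 * e ≤
        hh (fun j => (p : ℤ) • lam j) (frobS p W) t := by
  induction W using DegH.induction with
  | h0 =>
    refine ⟨0, Eventually.of_forall fun t => ?_, Eventually.of_forall fun t => ?_⟩
    · simp [hh_bot, rk_bot, deg_bot]
    · simp only [rk_bot, deg_bot, Int.cast_zero, zero_mul, mul_zero, add_zero]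
      unfold hh sumS
      exact Finset.sum_nonneg fun _ _ => Nat.cast_nonneg _
  | hs W j hj ih =>
    obtain ⟨e, h1, h2⟩ := ih
    obtain ⟨x, hx, b, hb, m, al, w, hw, hW⟩ := exists_normal lam W _ hj
    rw [← DegH.ker_smul _ hx] at h1 h2
    have hne : ∃ v ∈ W, (x • (LinearMap.proj j : (ι → K k) →ₗ[K k] K k)) v ≠ 0 := by
      obtain ⟨v, hv, h0⟩ := hj
      exact ⟨v, hv, mul_ne_zero hx h0⟩
    have hb' : ∀ a, ∀ v ∈ EE lam W a,
      (x • (LinearMap.proj j : (ι → K k) →ₗ[K k] K k)) v ∈ LL k (b + a) := hb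
    have hW' : Wit b al fun i => (x • (LinearMap.proj j : (ι → K k) →ₗ[K k] K k)) (w i) := hW
    generalize x • (LinearMap.proj j : (ι → K k) →ₗ[K k] K k) = ψ at h1 h2 hne hb' hW'
    have hI : TCl fun a => NN lam W ψ (a - b) := fun a a' f y hf hy => by
      have := NN_tcl lam W ψ _ _ f y hf hy
      rwa [show a - b + a' = a + a' - b by abel] at this
    have hle : ∀ a, NN lam W ψ (a - b) ≤ LL k a := by
      rintro a _ ⟨v, hv, rfl⟩
      have := hb' _ v hv
      rwa [add_sub_cancel] at this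
    have hcol : ∀ t, col (fun a => NN lam W ψ (a - b)) b t =
        sumS (fun a => (finrank k (LL k a) : ℚ)) b t -
          sumS (fun a => (finrank k (NN lam W ψ a) : ℚ)) 0 t := fun t => by
      unfold col sumS
      rw [← Finset.sum_sub_distrib]
      refine Finset.sum_congr rfl fun c _ => ?_
      beta_reduce
      rw [show b + t • C0 + gam c - b = 0 + t • C0 + gam c by abel]
    obtain ⟨c, hc⟩ := frob_col p hI hle (by
      obtain ⟨C, hC⟩ := DegH.NN_ge hw hW'
      exact ⟨b, C, hC.mono fun t ht => by rw [hcol]; linarith⟩)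
    have hrk := rk_step W ψ hne
    have hdeg := deg_step lam W ψ hb' hw hW'
    refine ⟨e + ee b - c, ?_, ?_⟩
    · filter_upwards [h1, (hc b).1, ev_hilb (k := k) b] with t e1 e2 e3
      rw [hh_step lam W ψ t, hrk, hdeg]
      rw [hcol] at e2
      push_cast
      linarith
    · filter_upwards [h2, (hc ((p : ℤ) • b)).2, ev_hilb (k := k) ((p : ℤ) • b)] with t e1 e2 e3
      rw [hh_step _ (frobS p W) (Fr1.frL p ψ) t, Fr1.frobS_ker p W ψ hne, hrk, hdeg]
      have e4 : sumS (fun a => (finrank k (frobF p (fun a => NN lam W ψ (a - b)) a) : ℚ))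
          ((p : ℤ) • b) t ≤ sumS (fun a => (finrank k
            (NN (fun j => (p : ℤ) • lam j) (frobS p W) (Fr1.frL p ψ) a) : ℚ)) 0 t := by
        refine DegH.sumS_mono' (fun a => ?_) t
        have : FiniteDimensional k (NN (fun j => (p : ℤ) • lam j) (frobS p W) (Fr1.frL p ψ) a) := by
          unfold NN; infer_instance
        have h3 : frobF p (fun a => NN lam W ψ (a - b)) ((p : ℤ) • b + a) ≤
            NN (fun j => (p : ℤ) • lam j) (frobS p W) (Fr1.frL p ψ) a := by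
          refine Submodule.span_le.mpr ?_
          rintro _ ⟨a', _, ⟨v, hv, rfl⟩, y, hy, rfl⟩
          have h4 := EE_smul (Fr1.mem_EE_frob p hv) hy
          rw [show (p : ℤ) • (a' - b) + ((p : ℤ) • b + a - (p : ℤ) • a') = a by module] at h4
          refine ⟨_, h4, ?_⟩
          simp only [LinearMap.restrictScalars_apply, map_smul, Fr1.frL_apply, smul_eq_mul]
        exact_mod_cast Submodule.finrank_mono h3
      have e5 : col (frobF p fun a => NN lam W ψ (a - b)) ((p : ℤ) • b) t =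
          sumS (fun a => (finrank k (LL k a) : ℚ)) ((p : ℤ) • b) t -
            sumS (fun a => (finrank k (frobF p (fun a => NN lam W ψ (a - b)) a) : ℚ))
              ((p : ℤ) • b) t := by
        unfold col sumS
        rw [← Finset.sum_sub_distrib]
      rw [dd_smul, ee_smul] at e3
      push_cast at e3 ⊢
      linarith

end Vale.Agent.P190
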