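import Vale.Agent.P190.Frob1

/-! P190 job Gap: the canonical connection bounds the instability of a Frobenius pull back. -/

namespace Vale.Agent.P190
open MvPolynomial Module Filter

variable {k : Type} [Field k]

namespace GapA

/-- first order expansion of polynomials -/
noncomputable def jet (i : Fin 2) : P2 k →ₐ[k] TrivSqZeroExt (K k) (K k) :=
  aeval fun j => TrivSqZeroExt.inl (algebraMap (P2 k) (K k) (X j)) +
    TrivSqZeroExt.inr (algebraMap (P2 k) (K k) (pderiv i (X j)))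

theorem jet_apply (i : Fin 2) (P : P2 k) :
    (jet i P).fst = algebraMap (P2 k) (K k) P ∧
      (jet i P).snd = algebraMap (P2 k) (K k) (pderiv i P) := by
  induction P using MvPolynomial.induction_on with
  | C c =>
    rw [jet, aeval_C, TrivSqZeroExt.algebraMap_eq_inl', pderiv_C, map_zero]
    exact ⟨IsScalarTower.algebraMap_apply k (P2 k) (K k) c, rfl⟩
  | add P Q hP hQ => simp [hP.1, hP.2, hQ.1, hQ.2]
  | mul_X P j hP =>
    have h1 : (jet i (X j : P2 k)).fst = algebraMap (P2 k) (K k) (X j) := by simp [jet]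
    have h2 : (jet i (X j : P2 k)).snd = algebraMap (P2 k) (K k) (pderiv i (X j)) := by
      rw [jet, aeval_X, TrivSqZeroExt.snd_add, TrivSqZeroExt.snd_inl, TrivSqZeroExt.snd_inr,
        zero_add]
    rw [map_mul, TrivSqZeroExt.fst_mul, TrivSqZeroExt.snd_mul, hP.1, hP.2, h1, h2, pderiv_mul]
    simp only [map_mul, map_add, smul_eq_mul, MulOpposite.smul_eq_mul_unop, MulOpposite.unop_op,
      true_and]
    ring

theorem jet_unit (i : Fin 2) (y : nonZeroDivisors (P2 k)) : IsUnit (jet i (y : P2 k)) := by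
  rw [TrivSqZeroExt.isUnit_iff_isUnit_fst, (jet_apply i _).1]
  exact IsLocalization.map_units (K k) y

/-- first order expansion of rational functions -/
noncomputable def jetK (i : Fin 2) : K k →ₐ[k] TrivSqZeroExt (K k) (K k) :=
  IsLocalization.liftAlgHom (jet_unit i)

theorem jetK_poly (i : Fin 2) (P : P2 k) : jetK i (algebraMap (P2 k) (K k) P) = jet i P := by
  simp [jetK]

theorem jetK_fst (i : Fin 2) (f : K k) : (jetK i f).fst = f := by
  have : ((TrivSqZeroExt.fstHom k (K k) (K k)).comp (jetK i)).toRingHom = RingHom.id (K k) := by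
    refine IsLocalization.ringHom_ext (nonZeroDivisors (P2 k)) (RingHom.ext fun P => ?_)
    show (jetK i (algebraMap (P2 k) (K k) P)).fst = algebraMap (P2 k) (K k) P
    rw [jetK_poly, (jet_apply i P).1]
  exact RingHom.congr_fun this f

/-- the coordinate derivatives of rational functions -/
noncomputable def der (i : Fin 2) : Derivation k (K k) (K k) :=
  Derivation.mk' (((TrivSqZeroExt.sndHom (K k) (K k)).restrictScalars k) ∘ₗ (jetK i).toLinearMap)
    fun a b => by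
      show (jetK i (a * b)).snd = a • (jetK i b).snd + b • (jetK i a).snd
      rw [map_mul, TrivSqZeroExt.snd_mul, jetK_fst, jetK_fst]
      simp [mul_comm]

theorem der_poly (i : Fin 2) (P : P2 k) :
    der i (algebraMap (P2 k) (K k) P) = algebraMap (P2 k) (K k) (pderiv i P) := by
  show (jetK i _).snd = _
  rw [jetK_poly, (jet_apply i P).2]

theorem der_prod (D : Derivation k (K k) (K k)) {κ : Type} (s : Finset κ) (x : κ → K k)
    (hx : ∀ j, x j ≠ 0) (n : κ → ℤ) :
    D (∏ j ∈ s, x j ^ n j) = ∑ j ∈ s, n j • (D (x j) * ((∏ j ∈ s, x j ^ n j) * (x j)⁻¹)) := by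
  classical
  induction s using Finset.induction_on with
  | empty => simp
  | insert a s ha ih =>
    rw [Finset.prod_insert ha, Finset.sum_insert ha, D.leibniz, ih, D.leibniz_zpow,
      zpow_sub_one₀ (hx a), Finset.smul_sum, add_comm]
    congr 1
    · simp only [smul_eq_mul, zsmul_eq_mul]; ring
    · refine Finset.sum_congr rfl fun j _ => ?_
      simp only [smul_eq_mul, zsmul_eq_mul]; ring

theorem pderiv_cpol (i : Fin 2) (j : Fin 5) : ∃ c : k, pderiv i (cpol k j) = C c := by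
  fin_cases i <;> fin_cases j
  exacts [⟨1, by simp [cpol]⟩, ⟨0, by simp [cpol]⟩, ⟨0, by simp [cpol]⟩, ⟨-1, by simp [cpol]⟩,
    ⟨-1, by simp [cpol]⟩, ⟨0, by simp [cpol]⟩, ⟨1, by simp [cpol]⟩, ⟨1, by simp [cpol]⟩,
    ⟨0, by simp [cpol]⟩, ⟨1, by simp [cpol]⟩]

theorem der_gu (i : Fin 2) (g : Dv) (U : Submodule k (K k)) (h : ∀ j, gu k (g - gb 1 j) ∈ U) :
    der i (gu k g) ∈ U := by
  have := der_prod (der i) Finset.univ (fun j => algebraMap (P2 k) (K k) (cpol k j))
    cpol_ne_zero fun j => g (ce 1 j)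
  rw [gu, this]
  refine sum_mem fun j _ => zsmul_mem ?_ _
  obtain ⟨c, hc⟩ := pderiv_cpol (k := k) i j
  rw [der_poly, hc, ← gu, ← gu_gb_one, ← div_eq_mul_inv, ← gu_sub,
    show algebraMap (P2 k) (K k) (C c) = algebraMap k (K k) c from
      (IsScalarTower.algebraMap_apply k (P2 k) (K k) c).symm, ← Algebra.smul_def]
  exact U.smul_mem c (h j)

theorem der_mem (i : Fin 2) (a : Dv) {f : K k} (hf : f ∈ LL k a) :
    der i f ∈ LL k (a + (11 : ℤ) • (1 : Dv)) := by
  refine ⟨?_, ?_⟩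
  · refine (Submodule.span_le (p := (BB k).toSubmodule.comap (der i).toLinearMap)).mpr ?_
      (mem_BB_iff.mp hf.1)
    rintro _ ⟨g, hg, rfl⟩
    exact der_gu i g (BB k).toSubmodule fun j => gu_mem (sub_mem hg (gb_mem 1 j))
  by_cases h0 : f = 0
  · simp [h0]
  by_cases h1 : der i f = 0
  · exact Or.inl h1
  refine Or.inr fun e => ?_
  obtain ⟨s, rfl⟩ := exists_E e
  have h2 := pair_chart s hf.1 (Or.inr ⟨le_rfl, le_rfl⟩)
  have h3 : der i f ∈ GoodA.FN (E s 0 1) (nu (E s 0 1) f - 1) := by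
    refine (Submodule.span_le (p := (GoodA.FN (E s 0 1) (nu (E s 0 1) f - 1)).comap
      (der i).toLinearMap)).mpr ?_ h2
    rintro _ ⟨g, hg, h4, -, rfl⟩
    refine der_gu i g (GoodA.FN (E s 0 1) (nu (E s 0 1) f - 1)) fun j => Or.inr ?_
    rw [nu_gu (sub_mem hg (gb_mem 1 j)), Pi.sub_apply]
    have := (abs_le.mp (abs_gb_le 1 j (E s 0 1))).2
    omega
  have h4 := h3.resolve_left h1
  have h5 := hf.2.resolve_left h0 (E s 0 1)
  simp only [Pi.add_apply, Pi.smul_apply, Pi.one_apply, smul_eq_mul]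
  omega

theorem poly_pow (p : ℕ) [Fact p.Prime] [CharP k p] [PerfectRing k p] {P : P2 k}
    (h : ∀ i, pderiv i P = 0) : ∃ Q : P2 k, P = Q ^ p := by
  have hm : P ∈ (frobenius (P2 k) p).range := by
    rw [P.as_sum]
    refine sum_mem fun m hm => ?_
    have hd : ∀ i, p ∣ m i := by
      intro i
      rcases Nat.eq_zero_or_pos (m i) with h0 | h0
      · simp [h0]
      have h1 := coeff_pderiv (i := i) P (m - Finsupp.single i 1)
      rw [h i, coeff_zero, tsub_add_cancel_of_le (Finsupp.single_le_iff.mpr h0)] at h1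
      have h2 := (mul_eq_zero.mp h1.symm).resolve_left (mem_support_iff.mp hm)
      rw [← CharP.cast_eq_zero_iff k p, ← h2, ← Nat.cast_succ]
      congr 1
      simp only [Finsupp.coe_tsub, Pi.sub_apply, Finsupp.single_eq_same]
      omega
    refine ⟨monomial (m.mapRange (· / p) (by simp)) ((frobeniusEquiv k p).symm (coeff m P)), ?_⟩
    rw [frobenius_def, monomial_pow, frobeniusEquiv_symm_pow_p]
    congr 2
    ext i
    simp [Nat.mul_div_cancel' (hd i)]
  obtain ⟨Q, hQ⟩ := hm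
  exact ⟨Q, hQ.symm⟩

theorem der_pow (p : ℕ) [CharP k p] (D : Derivation k (K k) (K k)) (x : K k) :
    D (x ^ p) = 0 := by
  rw [D.leibniz_pow, nsmul_eq_mul, CharP.cast_eq_zero, zero_mul]

variable {ι : Type}

/-- coordinatewise Frobenius -/
noncomputable def frV (p : ℕ) [Fact p.Prime] [CharP k p] :
    (ι → K k) →ₛₗ[frobenius (K k) p] (ι → K k) where
  toFun v j := v j ^ p
  map_add' v w := funext fun j => add_pow_char (v j) (w j) p
  map_smul' c v := funext fun j => mul_pow c (v j) p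

theorem frobS_le [Fintype ι] (p : ℕ) [Fact p.Prime] [CharP k p]
    {U T : Submodule (K k) (ι → K k)} : frobS p U ≤ T ↔ U ≤ T.comap (frV p) :=
  Submodule.span_le.trans ⟨fun h v hv => h ⟨v, hv, rfl⟩, by rintro h _ ⟨v, hv, rfl⟩; exact h hv⟩

/-- coordinatewise derivative -/
noncomputable def dV (D : Derivation k (K k) (K k)) : (ι → K k) →ₗ[k] (ι → K k) :=
  D.toLinearMap.compLeft ι

theorem dV_apply (D : Derivation k (K k) (K k)) (v : ι → K k) (j : ι) : dV D v j = D (v j) := rfl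

theorem dV_smul (D : Derivation k (K k) (K k)) (c : K k) (v : ι → K k) :
    dV D (c • v) = c • dV D v + D c • v := by
  funext j
  simp [dV_apply, mul_comm]

theorem dV_frobS [Fintype ι] (p : ℕ) [CharP k p] (D : Derivation k (K k) (K k))
    {V : Submodule (K k) (ι → K k)} {v : ι → K k} (hv : v ∈ frobS p V) : dV D v ∈ frobS p V := by
  induction hv using Submodule.span_induction with
  | mem x hx =>
    obtain ⟨v, -, rfl⟩ := hx
    have : dV D (fun j => v j ^ p) = 0 := funext fun j => der_pow p D _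
    rw [this]
    exact zero_mem _
  | zero => rw [map_zero]; exact zero_mem _
  | add x y _ _ hx hy => rw [map_add]; exact add_mem hx hy
  | smul c x h hx =>
    rw [dV_smul]
    exact add_mem (Submodule.smul_mem _ _ hx) (Submodule.smul_mem _ _ h)

/-- the second fundamental form -/
noncomputable def sff (D : Derivation k (K k) (K k)) (W : Submodule (K k) (ι → K k)) :
    W →ₗ[K k] (ι → K k) ⧸ W where
  toFun v := W.mkQ (dV D v)
  map_add' v w := by simp
  map_smul' c v := by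
    have : W.mkQ (D c • (v : ι → K k)) = 0 :=
      (Submodule.Quotient.mk_eq_zero _).mpr (W.smul_mem _ v.2)
    rw [Submodule.coe_smul, dV_smul, map_add, this, add_zero, map_smul]
    rfl

theorem exists_sff [Fintype ι] (D : Derivation k (K k) (K k)) (W T : Submodule (K k) (ι → K k))
    (hT : W ≤ T) (hD : ∀ v ∈ W, dV D v ∈ T) :
    ∃ W₀ W₁ : Submodule (K k) (ι → K k), (∀ v, v ∈ W₀ ↔ v ∈ W ∧ dV D v ∈ W) ∧ W ≤ W₁ ∧ W₁ ≤ T ∧
      (∀ v ∈ W, dV D v ∈ W₁) ∧ rk W - rk W₀ = rk W₁ - rk W := by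
  refine ⟨(LinearMap.ker (sff D W)).map W.subtype, (LinearMap.range (sff D W)).comap W.mkQ,
    fun v => ⟨?_, fun h => ⟨⟨v, h.1⟩, (Submodule.Quotient.mk_eq_zero _).mpr h.2, rfl⟩⟩,
    fun v hv => ?_, ?_, fun v hv => ⟨⟨v, hv⟩, rfl⟩, ?_⟩
  · rintro ⟨x, hx, rfl⟩
    exact ⟨x.2, (Submodule.Quotient.mk_eq_zero _).mp hx⟩
  · rw [Submodule.mem_comap, show W.mkQ v = 0 from (Submodule.Quotient.mk_eq_zero _).mpr hv]
    exact zero_mem _
  · rintro v ⟨x, hx⟩
    have h1 : dV D x - v ∈ W := (Submodule.Quotient.eq _).mp hx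
    have := sub_mem (hD x x.2) (hT h1)
    rwa [sub_sub_cancel] at this
  · have h1 := LinearMap.finrank_range_add_finrank_ker (sff D W)
    have h2 := GoodA.fr_step (U := (LinearMap.range (sff D W)).comap W.mkQ) (U' := W)
      (fun v hv => by
        rw [Submodule.mem_comap, show W.mkQ v = 0 from (Submodule.Quotient.mk_eq_zero _).mpr hv]
        exact zero_mem _) W.mkQ (fun f _ => Submodule.Quotient.mk_eq_zero _)
    rw [Submodule.map_comap_eq_of_surjective W.mkQ_surjective] at h2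
    simp only [rk, Submodule.finrank_map_subtype_eq]
    omega

theorem EE_le [Fintype ι] (lam : ι → Dv) {W W' : Submodule (K k) (ι → K k)} (h : W ≤ W')
    (a : Dv) : EE lam W a ≤ EE lam W' a := fun _ hv =>
  mem_EE.mpr ⟨h (mem_EE.mp hv).1, (mem_EE.mp hv).2⟩

theorem deg_sff [Fintype ι] [Infinite k] (lam : ι → Dv) (D : Derivation k (K k) (K k))
    (hD : ∀ a, ∀ f ∈ LL k a, D f ∈ LL k (a + (11 : ℤ) • (1 : Dv)))
    {W W₀ W₁ : Submodule (K k) (ι → K k)} (h0 : ∀ v, v ∈ W₀ ↔ v ∈ W ∧ dV D v ∈ W) (h1 : W ≤ W₁)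
    (h2 : ∀ v ∈ W, dV D v ∈ W₁) (hr : rk W - rk W₀ = rk W₁ - rk W) :
    deg lam W - deg lam W₀ ≤ deg lam W₁ - deg lam W + 146410 * (rk W - rk W₀) := by
  have key : ∀ a, (finrank k (EE lam W a) : ℚ) - finrank k (EE lam W₀ a) ≤
      (finrank k (EE lam W₁ (a + (11 : ℤ) • (1 : Dv))) : ℚ) -
        finrank k (EE lam W (a + (11 : ℤ) • (1 : Dv))) := by
    intro a
    have hL : ∀ v ∈ EE lam W a, ∀ j, dV D v j ∈ LL k (lam j + (a + (11 : ℤ) • (1 : Dv))) := by
      intro v hv j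
      rw [← add_assoc]
      exact hD _ _ ((mem_EE.mp hv).2 j)
    have e1 := GoodA.fr_step (EE_le lam (fun v hv => ((h0 v).mp hv).1) a)
      ((EE lam W (a + (11 : ℤ) • (1 : Dv))).mkQ ∘ₗ dV D) (fun v hv => by
        refine (Submodule.Quotient.mk_eq_zero _).trans ?_
        rw [mem_EE, mem_EE, h0]
        exact ⟨fun h => ⟨⟨(mem_EE.mp hv).1, h.1⟩, (mem_EE.mp hv).2⟩, fun h => ⟨h.1.2, hL v hv⟩⟩)
    have e2 := GoodA.fr_step (EE_le lam h1 (a + (11 : ℤ) • (1 : Dv)))
      (EE lam W (a + (11 : ℤ) • (1 : Dv))).mkQ (fun f _ => Submodule.Quotient.mk_eq_zero _)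
    have e3 : (EE lam W a).map ((EE lam W (a + (11 : ℤ) • (1 : Dv))).mkQ ∘ₗ dV D) ≤
        (EE lam W₁ (a + (11 : ℤ) • (1 : Dv))).map (EE lam W (a + (11 : ℤ) • (1 : Dv))).mkQ := by
      rintro _ ⟨v, hv, rfl⟩
      exact ⟨dV D v, mem_EE.mpr ⟨h2 v (mem_EE.mp hv).1, hL v hv⟩, rfl⟩
    have e4 := Submodule.finrank_mono e3
    rw [e1, e2]
    push_cast
    have : (finrank k ((EE lam W a).map ((EE lam W (a + (11 : ℤ) • (1 : Dv))).mkQ ∘ₗ dV D)) : ℚ) ≤
        finrank k ((EE lam W₁ (a + (11 : ℤ) • (1 : Dv))).map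
          (EE lam W (a + (11 : ℤ) • (1 : Dv))).mkQ) := by exact_mod_cast e4
    linarith
  have sh : ∀ (U : Submodule (K k) (ι → K k)) (t : ℤ), hh lam U (t + 22) =
      ∑ c, (finrank k (EE lam U (0 + t • C0 + gam c + (11 : ℤ) • (1 : Dv))) : ℚ) := by
    intro U t
    rw [hh, ← sumS_C0, ← sumS_shift (per_EE lam U) _ (zsmul_mem one_sub_mem 11), sumS]
    refine Finset.sum_congr rfl fun c _ => ?_
    have : 0 + (22 : ℤ) • C0 + (11 : ℤ) • ((1 : Dv) - (2 : ℤ) • C0) + t • C0 + gam c =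
        0 + t • C0 + gam c + (11 : ℤ) • (1 : Dv) := by module
    rw [this]
  have a1 := (hasD_hh lam W).sub (hasD_hh lam W₀)
  have a2 := ((hasD_hh lam W₁).sub (hasD_hh lam W)).shift 22
  have a3 := a1.le a2 0 (Eventually.of_forall fun t => by
    rw [add_zero, sh, sh, hh, hh, sumS, sumS, ← Finset.sum_sub_distrib, ← Finset.sum_sub_distrib]
    exact Finset.sum_le_sum fun c _ => key _)
  rcases a3 with a3 | a3
  · omega
  · have := a3.2
    rw [← hr] at this
    omega

end GapA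

open GapA

theorem exists_der : ∃ δ : Fin 2 → Derivation k (K k) (K k),
    (∀ i (P : P2 k), δ i (algebraMap (P2 k) (K k) P) = algebraMap (P2 k) (K k) (pderiv i P)) ∧
    ∀ i a, ∀ f ∈ LL k a, δ i f ∈ LL k (a + (11 : ℤ) • (1 : Dv)) :=
  ⟨der, der_poly, fun i a _ hf => der_mem i a hf⟩

theorem pow_of_der (p : ℕ) [Fact p.Prime] [CharP k p] [PerfectRing k p]
    (δ : Fin 2 → Derivation k (K k) (K k))
    (hδ : ∀ i (P : P2 k), δ i (algebraMap (P2 k) (K k) P) = algebraMap (P2 k) (K k) (pderiv i P))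
    {f : K k} (hf : ∀ i, δ i f = 0) : ∃ g : K k, f = g ^ p := by
  obtain ⟨a, b, hb, rfl⟩ := IsFractionRing.div_surjective (A := P2 k) f
  have hb' : algebraMap (P2 k) (K k) b ≠ 0 := by simpa using nonZeroDivisors.ne_zero hb
  have hp : p - 1 + 1 = p := Nat.succ_pred_eq_of_pos (Fact.out : p.Prime).pos
  have e : algebraMap (P2 k) (K k) (a * b ^ (p - 1)) =
      algebraMap (P2 k) (K k) a / algebraMap (P2 k) (K k) b * algebraMap (P2 k) (K k) b ^ p := by
    conv_rhs => rw [← hp, pow_succ]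
    rw [map_mul, map_pow]
    field_simp
  obtain ⟨Q, hQ⟩ := poly_pow p (P := a * b ^ (p - 1)) fun i => by
    apply IsFractionRing.injective (P2 k) (K k)
    rw [← hδ, e, Derivation.leibniz, hf, der_pow]
    simp
  refine ⟨algebraMap (P2 k) (K k) Q / algebraMap (P2 k) (K k) b, ?_⟩
  rw [div_pow, ← map_pow, ← hQ, e, mul_div_cancel_right₀ _ (pow_ne_zero _ hb')]

variable {ι : Type} [Fintype ι]

theorem cartier (p : ℕ) [Fact p.Prime] [CharP k p] [PerfectRing k p]
    (δ : Fin 2 → Derivation k (K k) (K k))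
    (hδ : ∀ i (P : P2 k), δ i (algebraMap (P2 k) (K k) P) = algebraMap (P2 k) (K k) (pderiv i P))
    {V W : Submodule (K k) (ι → K k)} (hW : W ≤ frobS p V)
    (hst : ∀ i, ∀ v ∈ W, (fun j => δ i (v j)) ∈ W) : ∃ U, U ≤ V ∧ W = frobS p U := by
  classical
  obtain ⟨J, hJ, hinj⟩ := exists_proj W
  let π : W →ₗ[K k] (J → K k) := LinearMap.funLeft (K k) (K k) Subtype.val ∘ₗ W.subtype
  have hπ : Function.Injective π := by
    rw [injective_iff_map_eq_zero]
    intro v hv
    exact Subtype.ext (hinj v v.2 fun j hj => congrFun hv ⟨j, hj⟩)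
  have hs : Function.Surjective π := by
    refine (LinearMap.injective_iff_surjective_of_finrank_eq_finrank ?_).mp hπ
    rw [finrank_fintype_fun_eq_card, Fintype.card_coe]
    unfold rk at hJ
    omega
  choose w hw using fun j : J => hs (Pi.single j 1)
  have hw' : ∀ j l : J, (w j : ι → K k) l = if l = j then 1 else 0 := fun j l => by
    rw [← Pi.single_apply]; exact congrFun (hw j) l
  have hd : ∀ j l, ∃ g : K k, (w j : ι → K k) l = g ^ p := by
    intro j l
    refine pow_of_der p δ hδ fun i => ?_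
    refine congrFun (hinj _ (hst i _ (w j).2) fun l hl => ?_) l
    rw [hw' j ⟨l, hl⟩]
    split_ifs <;> simp
  choose u hu using hd
  have hfu : ∀ j, frV p (u j) = w j := fun j => funext fun l => (hu j l).symm
  have h1 : W = frobS p (Submodule.span (K k) (Set.range u)) := by
    refine le_antisymm (fun v hv => ?_) ?_
    · have e : v = ∑ j : J, v j • (w j : ι → K k) := by
        rw [← sub_eq_zero]
        refine hinj _ (sub_mem hv (sum_mem fun j _ => W.smul_mem _ (w j).2)) fun l hl => ?_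
        simp [Finset.sum_apply, hw' _ ⟨l, hl⟩]
      rw [e]
      refine sum_mem fun j _ => Submodule.smul_mem _ _ (Submodule.subset_span ?_)
      exact ⟨u j, Submodule.subset_span ⟨j, rfl⟩, hfu j⟩
    · rw [frobS_le, Submodule.span_le]
      rintro _ ⟨j, rfl⟩
      show frV p (u j) ∈ W
      rw [hfu]
      exact (w j).2
  refine ⟨_, ?_, h1⟩
  have h2 : frobS p (V ⊔ Submodule.span (K k) (Set.range u)) ≤ frobS p V := by
    rw [frobS_le, sup_le_iff, ← frobS_le, ← frobS_le, ← h1]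
    exact ⟨le_rfl, hW⟩
  have h3 := rk_mono h2
  rw [rk_frobS, rk_frobS] at h3
  by_contra hn
  have := rk_lt (left_lt_sup.mpr hn)
  omega

theorem gap [IsAlgClosed k] (p : ℕ) [Fact p.Prime] [CharP k p] (lam : ι → Dv)
    {V : Submodule (K k) (ι → K k)} (hV : SS lam ⊥ V) {W : Submodule (K k) (ι → K k)}
    (hW : W ≤ frobS p V) :
    rk V * deg (fun j => (p : ℤ) • lam j) W ≤ rk W * (p * deg lam V) + 146411 * rk V ^ 3 := by
  obtain ⟨δ, hδ, hL⟩ := exists_der (k := k)
  obtain ⟨lam', hlam⟩ : ∃ lam' : ι → Dv, lam' = fun j => (p : ℤ) • lam j := ⟨_, rfl⟩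
  obtain ⟨r, hr⟩ : ∃ r, r = rk V := ⟨_, rfl⟩
  obtain ⟨d, hd⟩ : ∃ d, d = p * deg lam V := ⟨_, rfl⟩
  rw [← hlam, ← hr, ← hd]
  have hr0 : 0 ≤ r := hr ▸ rk_nonneg V
  have hrk : ∀ U, U ≤ frobS p V → 0 ≤ rk U ∧ rk U ≤ r := fun U hU =>
    ⟨rk_nonneg U, by have := rk_mono hU; rwa [rk_frobS, ← hr] at this⟩
  let Φ : Submodule (K k) (ι → K k) → ℤ := fun U =>
    2 * r * deg lam' U - 2 * rk U * d - 146411 * r * (rk U * (r - rk U))
  obtain ⟨_, ⟨M, hM, rfl⟩, hmax⟩ := Int.exists_greatest_of_bdd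
    (P := fun z => ∃ U, U ≤ frobS p V ∧ Φ U = z)
    ⟨2 * r * ∑ j, |dd (lam' j)| + 2 * r * |d|, by
      rintro _ ⟨U, hU, rfl⟩
      obtain ⟨h1, h2⟩ := hrk U hU
      have h3 := mul_le_mul_of_nonneg_left (deg_le_sum lam' U) hr0
      have h4 : 0 ≤ r * (rk U * (r - rk U)) := mul_nonneg hr0 (mul_nonneg h1 (by omega))
      have h5 := mul_le_mul_of_nonneg_left (neg_le_abs d) h1
      have h6 := mul_le_mul_of_nonneg_right h2 (abs_nonneg d)
      simp only [Φ]
      linarith⟩ ⟨_, W, hW, rfl⟩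
  have hst : ∀ i, ∀ v ∈ M, (fun j => δ i (v j)) ∈ M := by
    intro i
    by_contra hn
    push Not at hn
    obtain ⟨v, hv, hn⟩ := hn
    obtain ⟨W₀, W₁, h0, h1, h2, h3, h4⟩ := exists_sff (δ i) M _ hM fun v hv =>
      dV_frobS p (δ i) (hM hv)
    have h5 := deg_sff lam' (δ i) (hL i) h0 h1 h3 h4
    have hle : W₀ ≤ M := fun v hv => ((h0 v).mp hv).1
    have h6 := rk_lt (lt_of_le_of_ne hle (by
      rintro rfl
      exact hn ((h0 v).mp hv).2))
    have h7 := hmax _ ⟨W₀, hle.trans hM, rfl⟩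
    have h8 := hmax _ ⟨W₁, h2, rfl⟩
    obtain ⟨ρ, hρ⟩ : ∃ ρ, ρ = rk M - rk W₀ := ⟨_, rfl⟩
    have e0 : rk W₀ = rk M - ρ := by omega
    have e1 : rk W₁ = rk M + ρ := by omega
    have b0 := hrk W₁ h2
    have b1 := rk_nonneg M
    simp only [Φ] at h7 h8
    rw [← hρ] at h5
    rw [e0] at h7
    rw [e1] at h8
    have h9 := mul_le_mul_of_nonneg_left h5 hr0
    have h10 : 0 < r * ρ := mul_pos (by omega) (by omega)
    have h11 : r * ρ * 1 ≤ r * ρ * ρ := mul_le_mul_of_nonneg_left (by omega) h10.le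
    linarith
  obtain ⟨U, hU, rfl⟩ := cartier p δ hδ hM hst
  have h1 := hmax _ ⟨W, hW, rfl⟩
  have h2 := hV U bot_le hU
  rw [rk_bot, deg_bot, sub_zero, sub_zero, sub_zero, sub_zero, ← hr] at h2
  have h3 : deg lam' (frobS p U) = p * deg lam U := hlam ▸ deg_frobS p lam U
  obtain ⟨b0, b1⟩ := hrk _ hM
  obtain ⟨c0, c1⟩ := hrk _ hW
  simp only [Φ] at h1
  rw [h3] at h1
  rw [rk_frobS] at h1 b0 b1
  have h4 := mul_le_mul_of_nonneg_left h2 (Int.natCast_nonneg p)
  have h5 : 0 ≤ r * (rk U * (r - rk U)) := mul_nonneg hr0 (mul_nonneg b0 (by omega))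
  have h6 : r * (rk W * (r - rk W)) ≤ r * (r * r) :=
    mul_le_mul_of_nonneg_left (mul_le_mul c1 (by omega) (by omega) hr0) hr0
  have h7 : 0 ≤ r * (r * r) := by positivity
  rw [hd] at h1 ⊢
  linarith

end Vale.Agent.P190
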