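import Vale.Agent.P190.GoodA

/-! P190 job Good: restriction to a line, Hilbert function, generation. -/

namespace Vale.Agent.P190
open MvPolynomial Module Filter

variable {k : Type} [Field k]

variable (k) in
/-- span of the units in LL a -/
noncomputable def USp (a : Dv) : Submodule k (K k) :=
  Submodule.span k {x | ∃ g ∈ Gam, (∀ e, 0 ≤ 11 * g e + a e) ∧ x = gu k g}

namespace GoodA

theorem exists_dv (s : Pm) (x02 x03 x04 x12 x13 x14 x23 x24 : ℤ) : ∃ b : Dv,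
    b (E s 0 1) = 0 ∧ b (E s 0 2) = x02 ∧ b (E s 0 3) = x03 ∧ b (E s 0 4) = x04 ∧
    b (E s 1 2) = x12 ∧ b (E s 1 3) = x13 ∧ b (E s 1 4) = x14 ∧ b (E s 2 3) = x23 ∧
    b (E s 2 4) = x24 ∧ b (E s 3 4) = 0 := by
  refine ⟨x02 • sgl (E s 0 2) + x03 • sgl (E s 0 3) + x04 • sgl (E s 0 4) + x12 • sgl (E s 1 2) +
    x13 • sgl (E s 1 3) + x14 • sgl (E s 1 4) + x23 • sgl (E s 2 3) + x24 • sgl (E s 2 4), ?_⟩
  simp [sgl_E]

theorem bint_tot (s : Pm) (a : Dv) :
    bint a (E s 0 1) = tot a - vdeg a (s 0) - vdeg a (s 1) := by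
  have := two_bint s a
  omega

theorem bint_any (s : Pm) (a : Dv) {i j : Fin 5} (h : i ≠ j) :
    bint a (E s i j) = tot a - vdeg a (s i) - vdeg a (s j) := by
  obtain ⟨r, h0, h1⟩ : ∃ r : Pm, r 0 = i ∧ r 1 = j := by
    revert i j
    decide +kernel
  have := bint_tot (s * r) a
  rwa [E_mul, Equiv.Perm.mul_apply, Equiv.Perm.mul_apply, h0, h1] at this

/-- the transport table -/
theorem table (s : Pm) (a : Dv) (δ i : ℤ) (hδ : 0 ≤ δ)
    (h : ∀ e, e ≠ E s 0 1 → 2 * δ ≤ bint a e) (h0 : 0 ≤ i) (h1 : i ≤ bint a (E s 0 1)) :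
    ∃ g ∈ Gam, (g + a) (E s 0 1) = 0 ∧ δ ≤ (g + a) (E s 0 2) ∧ δ ≤ (g + a) (E s 0 3) ∧
      δ ≤ (g + a) (E s 0 4) ∧ δ ≤ (g + a) (E s 1 2) ∧ δ ≤ (g + a) (E s 1 3) ∧
      δ ≤ (g + a) (E s 1 4) ∧ (g + a) (E s 2 3) = i ∧
      (g + a) (E s 2 4) = bint a (E s 0 1) - i ∧ (g + a) (E s 3 4) = 0 := by
  have hb : ∀ i j : Fin 5, i < j → ¬ (i = 0 ∧ j = 1) →
      2 * δ ≤ tot a - vdeg a (s i) - vdeg a (s j) := by
    intro i j hij hne
    rw [← bint_any s a hij.ne]
    exact h _ fun he => hne ((E_inj s hij (by decide)).mp he)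
  have b12 := hb 1 2 (by decide) (by decide)
  have b02 := hb 0 2 (by decide) (by decide)
  have b34 := hb 3 4 (by decide) (by decide)
  have b24 := hb 2 4 (by decide) (by decide)
  have b23 := hb 2 3 (by decide) (by decide)
  have b01 := bint_tot s a
  have hs := sum_vdeg a
  rw [← Equiv.sum_comp s, Fin.sum_univ_five] at hs
  obtain ⟨x2, x3, x4, hx⟩ : ∃ x2 x3 x4 : ℤ, δ ≤ x2 ∧ δ ≤ x3 ∧ δ ≤ x4 ∧
      x2 + x3 + x4 = vdeg a (s 0) ∧ x2 + δ ≤ vdeg a (s 2) - bint a (E s 0 1) ∧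
      x3 + δ ≤ vdeg a (s 3) - i ∧ x4 + δ ≤ vdeg a (s 4) - (bint a (E s 0 1) - i) := by
    refine ⟨min (vdeg a (s 2) - bint a (E s 0 1) - δ) (vdeg a (s 0) - 2 * δ),
      min (vdeg a (s 3) - i - δ) (vdeg a (s 0) - δ -
        min (vdeg a (s 2) - bint a (E s 0 1) - δ) (vdeg a (s 0) - 2 * δ)),
      vdeg a (s 0) - min (vdeg a (s 2) - bint a (E s 0 1) - δ) (vdeg a (s 0) - 2 * δ) -
      min (vdeg a (s 3) - i - δ) (vdeg a (s 0) - δ -
        min (vdeg a (s 2) - bint a (E s 0 1) - δ) (vdeg a (s 0) - 2 * δ)), ?_⟩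
    omega
  obtain ⟨b, c01, c02, c03, c04, c12, c13, c14, c23, c24, c34⟩ := exists_dv s x2 x3 x4
    (vdeg a (s 2) - bint a (E s 0 1) - x2) (vdeg a (s 3) - i - x3)
    (vdeg a (s 4) - (bint a (E s 0 1) - i) - x4) i (bint a (E s 0 1) - i)
  refine ⟨b - a, ?_, ?_⟩
  · rw [mem_Gam, forall_vertex s]
    obtain ⟨v0, v1, v2, v3, v4⟩ := vdeg_E s b
    simp only [vdeg_sub]
    omega
  · rw [sub_add_cancel]
    omega

theorem USp_le (a : Dv) : USp k a ≤ LL k a :=
  Submodule.span_le.mpr (by rintro _ ⟨g, hg, h, rfl⟩; exact (gu_mem_LL hg).mpr h)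

theorem USp_mono {a a' : Dv} (h : a ≤ a') : USp k a ≤ USp k a' := by
  refine Submodule.span_mono ?_
  rintro _ ⟨g, hg, h1, rfl⟩
  refine ⟨g, hg, fun e => ?_, rfl⟩
  have := h1 e
  have : a e ≤ a' e := h e
  omega

theorem USp_fl (a : Dv) : USp k a = USp k ((11 : ℤ) • fl a) := by
  unfold USp
  congr 1
  ext x
  refine exists_congr fun g => and_congr_right fun _ => and_congr_left fun _ =>
    forall_congr' fun e => ?_
  simp only [fl, Pi.smul_apply, smul_eq_mul]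
  omega

theorem stepU (a : Dv) (e : Edge) (h : ∀ e', e' ≠ e → 0 ≤ bint a e') :
    LL k ((11 : ℤ) • a) ≤ LL k ((11 : ℤ) • (a - sgl e)) ⊔ USp k ((11 : ℤ) • a) ∧
    finrank k (LL k ((11 : ℤ) • a)) =
      finrank k (LL k ((11 : ℤ) • (a - sgl e))) + (bint a e + 1).toNat := by
  obtain ⟨s, rfl⟩ := exists_E e
  refine step s a _ (USp_le _) fun i h0 h1 => ?_
  obtain ⟨g, hg, c⟩ := table s a 0 i le_rfl (by simpa using h) h0 h1
  simp only [Pi.add_apply] at c
  refine ⟨g, hg, Submodule.subset_span ⟨g, hg, ?_, rfl⟩, by omega, by omega, by omega⟩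
  rw [forall_edge s]
  simp only [Pi.smul_apply, smul_eq_mul]
  omega

variable (k) in
/-- good integral divisors -/
def Gd (a : Dv) : Prop :=
  LL k ((11 : ℤ) • a) ≤ USp k ((11 : ℤ) • a) ∧ (finrank k (LL k ((11 : ℤ) • a)) : ℚ) = Qi a

theorem Gd.step {a : Dv} {e : Edge} (hG : Gd k (a - sgl e)) (h : ∀ e', e' ≠ e → 0 ≤ bint a e')
    (h1 : -1 ≤ bint a e) : Gd k a := by
  obtain ⟨h2, h3⟩ := stepU (k := k) a e h
  refine ⟨h2.trans (sup_le (hG.1.trans (USp_mono ?_)) le_rfl), ?_⟩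
  · exact smul_le_smul_of_nonneg_left (sub_le_self _ (sgl_nonneg _)) (by norm_num)
  · rw [h3, Qi_step a e, ← hG.2]
    have : (((bint a e + 1).toNat : ℤ) : ℚ) = ((bint a e + 1 : ℤ) : ℚ) := by
      rw [Int.toNat_of_nonneg (by omega)]
    push_cast at this ⊢
    rw [this]
    ring

theorem Gd.step' {a : Dv} (hG : Gd k a) (e : Edge)
    (h : (∀ e', e' ≠ e → 0 ≤ bint (a + sgl e) e') ∧ -1 ≤ bint (a + sgl e) e) :
    Gd k (a + sgl e) :=
  Gd.step (by rwa [add_sub_cancel_right]) h.1 h.2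

theorem Gd_zero : Gd k 0 := by
  have h1 : LL k ((11 : ℤ) • (0 : Dv)) = Submodule.span k {1} := by
    rw [smul_zero]
    refine le_antisymm (fun f hf => ?_) (Submodule.span_le.mpr ?_)
    · obtain ⟨c, rfl⟩ := LL_zero hf
      rw [Algebra.algebraMap_eq_smul_one]
      exact Submodule.smul_mem _ _ (Submodule.subset_span rfl)
    · rintro _ rfl
      exact one_mem_LL.mpr le_rfl
  refine ⟨?_, ?_⟩
  · rw [h1]
    refine Submodule.span_mono ?_
    rintro _ rfl
    exact ⟨0, zero_mem _, by simp, gu_zero.symm⟩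
  · rw [h1, finrank_span_singleton one_ne_zero, Qi_zero, Nat.cast_one]

theorem Gd_C0 : Gd k C0 := by
  have h := (((((Gd_zero (k := k)).step' (E 1 0 1) (by decide +kernel)).step' (E 1 2 3)
    (by decide +kernel)).step' (E 1 0 4) (by decide +kernel)).step' (E 1 3 4)
    (by decide +kernel)).step' (E 1 1 2) (by decide +kernel)
  have e : 0 + sgl (E 1 0 1) + sgl (E 1 2 3) + sgl (E 1 0 4) + sgl (E 1 3 4) + sgl (E 1 1 2) =
      C0 := by
    unfold C0 Cp
    abel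
  rwa [e] at h

theorem bint_ge_of_nonneg {y : Dv} (hy : 0 ≤ y) (e : Edge) : -y e ≤ bint y e := by
  obtain ⟨s, rfl⟩ := exists_E e
  have h1 : 0 ≤ y (E s 2 3) := hy _
  have h2 : 0 ≤ y (E s 2 4) := hy _
  have h3 : 0 ≤ y (E s 3 4) := hy _
  rw [bint_E]
  omega

theorem Gd.add {t : ℤ} (hG : Gd k (t • C0)) (n : ℕ) :
    ∀ y : Dv, 0 ≤ y → (∀ e, y e ≤ t) → tot y = n → Gd k (t • C0 + y) := by
  induction n with
  | zero =>
    intro y hy _ h0
    have : y = 0 := by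
      funext e
      exact (Finset.sum_eq_zero_iff_of_nonneg fun e _ => hy e).mp h0 e (Finset.mem_univ _)
    rwa [this, add_zero]
  | succ n ih =>
    intro y hy ht h0
    obtain ⟨e, he⟩ : ∃ e, 0 < y e := by
      by_contra hn
      push Not at hn
      have : tot y ≤ 0 := Finset.sum_nonpos fun e _ => hn e
      omega
    have hb : ∀ e', 0 ≤ bint (t • C0 + y) e' := by
      intro e'
      rw [bint_add, bint_smul, C0, bint_Cp]
      have := bint_ge_of_nonneg hy e'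
      have := ht e'
      omega
    refine Gd.step (e := e) ?_ (fun e' _ => hb e') (by have := hb e; omega)
    rw [add_sub_assoc]
    refine ih _ (fun e' => ?_) (fun e' => ?_) ?_
    · have : 0 ≤ y e' := hy e'
      by_cases h : e' = e
      · subst h; simp [sgl]; omega
      · simp [sgl, h, this]
    · have := ht e'
      have h2 : 0 ≤ sgl e e' := sgl_nonneg e e'
      simp only [Pi.sub_apply]
      omega
    · have : tot (sgl e) = 1 := by simp [tot, sgl]
      have h2 := tot_add (y - sgl e) (sgl e)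
      rw [sub_add_cancel] at h2
      push_cast at h0
      omega

theorem Gd.add' {t : ℤ} (hG : Gd k (t • C0)) {y : Dv} (hy : 0 ≤ y) (h : ∀ e, y e ≤ t) :
    Gd k (t • C0 + y) :=
  hG.add (tot y).toNat y hy h
    (Int.toNat_of_nonneg (Finset.sum_nonneg fun e _ => hy e)).symm

theorem Gd_mul (n : ℕ) : Gd k (((n + 1 : ℕ) : ℤ) • C0) := by
  induction n with
  | zero => simpa using Gd_C0
  | succ n ih =>
    have := ih.add' (y := C0) (fun e => by rcases Cp_cases 1 e with h | h <;> simp [C0, h])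
      (fun e => by rcases Cp_cases 1 e with h | h <;> simp [C0, h]; omega)
    rw [← add_one_zsmul] at this
    exact_mod_cast this

theorem Gd.per {a g : Dv} (hg : g ∈ Gam) (hG : Gd k (a + g)) : Gd k a := by
  refine ⟨fun f hf => ?_, ?_⟩
  · have h1 : gu k (-g) * f ∈ LL k ((11 : ℤ) • (a + g)) := by
      rw [← LL_per (neg_mem hg)]
      simpa using hf
    have h2 := Submodule.mem_map_of_mem (f := LinearMap.mulLeft k (gu k g)) (hG.1 h1)
    rw [USp, Submodule.map_span, LinearMap.mulLeft_apply, ← mul_assoc, ← gu_add, add_neg_cancel,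
      gu_zero, one_mul] at h2
    refine Submodule.span_mono ?_ h2
    rintro _ ⟨_, ⟨g', hg', h3, rfl⟩, rfl⟩
    refine ⟨g + g', add_mem hg hg', fun e => ?_, (gu_add _ _).symm⟩
    have := h3 e
    simp only [Pi.add_apply, Pi.smul_apply, smul_eq_mul] at this ⊢
    omega
  · have := per_LL (k := k) ((11 : ℤ) • a) g hg
    simp only at this
    rw [← this, ← smul_add, hG.2, Qi_add_Gam a hg]

theorem Gd_deep {a : Dv} (h : DeepI a) : Gd k a := by
  obtain ⟨g, hg, h0⟩ := normal_form 1 a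
  obtain ⟨T, hT, -, h1⟩ := deep_normal 1 h hg h0
  refine Gd.per hg ?_
  have h2 : Gd k (T • C0) := by
    have := Gd_mul (k := k) (T - 1).toNat
    rwa [show (((T - 1).toNat + 1 : ℕ) : ℤ) = T by omega] at this
  have h3 : ∀ e, 0 ≤ (a + g - T • C0) e ∧ (a + g - T • C0) e ≤ T := by
    intro e
    rcases Cp_cases 1 e with h3 | h3
    · rw [Pi.sub_apply, h0 e h3]
      simp [C0, h3]
      omega
    · have := h1 e (by omega)
      rw [Pi.sub_apply]
      simp only [C0, h3, Pi.smul_apply, smul_eq_mul]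
      omega
  have := h2.add' (y := a + g - T • C0) (fun e => (h3 e).1) fun e => (h3 e).2
  rwa [add_sub_cancel] at this

theorem pent1 (s : Pm) : ∃ r : Pm,
    Cp r = sgl (E s 0 2) + sgl (E s 2 3) + sgl (E s 1 3) + sgl (E s 1 4) + sgl (E s 0 4) := by
  obtain ⟨r, h0, h1, h2, h3, h4⟩ : ∃ r : Pm, r 0 = 0 ∧ r 1 = 2 ∧ r 2 = 3 ∧ r 3 = 1 ∧ r 4 = 4 := by
    decide +kernel
  refine ⟨s * r, ?_⟩
  simp only [Cp, E_mul, h0, h1, h2, h3, h4, E_symm s 3 1]

theorem pent2 (s : Pm) : ∃ r : Pm,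
    Cp r = sgl (E s 0 2) + sgl (E s 2 4) + sgl (E s 1 4) + sgl (E s 1 3) + sgl (E s 0 3) := by
  obtain ⟨r, h0, h1, h2, h3, h4⟩ : ∃ r : Pm, r 0 = 0 ∧ r 1 = 2 ∧ r 2 = 4 ∧ r 3 = 1 ∧ r 4 = 3 := by
    decide +kernel
  refine ⟨s * r, ?_⟩
  simp only [Cp, E_mul, h0, h1, h2, h3, h4, E_symm s 4 1]

theorem Cp_nonneg (r : Pm) : 0 ≤ Cp r := fun e => by
  rcases Cp_cases r e with h | h <;> simp [h]

theorem stepP (a : Dv) (e : Edge) (h : ∀ e', 2 ≤ bint a e') :
    LL k ((11 : ℤ) • a) ≤ LL k ((11 : ℤ) • (a - sgl e)) ⊔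
      ⨆ r : Pm, LL k ((11 : ℤ) • (a - Cp r)) := by
  obtain ⟨s, rfl⟩ := exists_E e
  refine (step s a _ (iSup_le fun r => LI_mono (sub_le_self _ (Cp_nonneg r)))
    fun i h0 h1 => ?_).1
  obtain ⟨g, hg, c⟩ := table s a 1 i zero_le_one (fun e _ => by simpa using h e) h0 h1
  simp only [Pi.add_apply] at c
  refine ⟨g, hg, ?_, by omega, by omega, by omega⟩
  have h2 := h (E s 0 1)
  by_cases hi : 1 ≤ i
  · obtain ⟨r, hr⟩ := pent1 s
    refine Submodule.mem_iSup_of_mem r ((gu_mem_LL hg).mpr ?_)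
    rw [forall_edge s, hr]
    simp [sgl_E]
    omega
  · obtain ⟨r, hr⟩ := pent2 s
    refine Submodule.mem_iSup_of_mem r ((gu_mem_LL hg).mpr ?_)
    rw [forall_edge s, hr]
    simp [sgl_E]
    omega

theorem bint_sub (a b : Dv) (e : Edge) : bint (a - b) e = bint a e - bint b e := by
  have := bint_add (a - b) b e
  rw [sub_add_cancel] at this
  omega

theorem genI {a : Dv} (h : DeepI a) :
    LL k ((11 : ℤ) • a) ≤ ⨆ r : Pm, LL k ((11 : ℤ) • (a - Cp r)) := by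
  have st : ∀ (y : Dv) (e : Edge), ((∀ e, 0 ≤ y e) ∧ ∀ e, bint y e ≤ 100) →
      LL k ((11 : ℤ) • (a - (y + sgl e))) ≤ ⨆ r : Pm, LL k ((11 : ℤ) • (a - Cp r)) →
      LL k ((11 : ℤ) • (a - y)) ≤ ⨆ r : Pm, LL k ((11 : ℤ) • (a - Cp r)) := by
    intro y e hy h1
    refine (stepP (a - y) e fun e' => ?_).trans (sup_le (by rwa [sub_sub]) (iSup_mono fun r =>
      LI_mono (sub_le_sub_right (sub_le_self _ hy.1) _)))
    have := h.bint_ge e'
    have := h.1
    have := hy.2 e'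
    rw [bint_sub]
    omega
  have := st 0 (E 1 0 1) (by decide +kernel) <| st _ (E 1 1 2) (by decide +kernel) <|
    st _ (E 1 2 3) (by decide +kernel) <| st _ (E 1 3 4) (by decide +kernel) <|
    st _ (E 1 0 4) (by decide +kernel) (by
      rw [zero_add]
      exact le_iSup (fun r : Pm => LL k ((11 : ℤ) • (a - Cp r))) 1)
  rwa [sub_zero] at this

theorem fl_sub_dvd {a : Dv} {e : Edge} (he : (11 : ℤ) ∣ a e) : fl (a - sgl e) = fl a - sgl e := by
  funext e'
  by_cases h : e' = e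
  · subst h
    simp only [fl, sgl, Pi.sub_apply, Pi.single_eq_same]
    omega
  · simp [fl, sgl, h]

theorem fl_sub_ndvd {a : Dv} {e : Edge} (he : ¬ (11 : ℤ) ∣ a e) : fl (a - sgl e) = fl a := by
  funext e'
  by_cases h : e' = e
  · subst h
    simp only [fl, sgl, Pi.sub_apply, Pi.single_eq_same]
    omega
  · simp [fl, sgl, h]

end GoodA

open GoodA

theorem good {a : Dv} (h : DeepI (fl a)) :
    LL k a = USp k a ∧ (finrank k (LL k a) : ℚ) = Qi (fl a) := by
  have hG := Gd_deep (k := k) h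
  rw [USp_fl, LL_fl]
  exact ⟨le_antisymm hG.1 (USp_le _), hG.2⟩

theorem gen11 {a : Dv} (h : DeepI (fl a)) : LL k a ≤ ⨆ s : Pm, LL k (a - (11 : ℤ) • Cp s) := by
  rw [LL_fl]
  refine (genI h).trans (iSup_mono fun s => le_of_eq ?_)
  rw [LL_fl (a - _), sub_eq_add_neg a, ← smul_neg, fl_add_smul, sub_eq_add_neg]

theorem incr_le (a : Dv) (e : Edge) :
    (finrank k (LL k a) : ℤ) ≤ finrank k (LL k (a - sgl e)) + nrm a + 5 := by
  have hn : 0 ≤ nrm a := Finset.sum_nonneg fun _ _ => abs_nonneg _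
  rw [LL_fl a, LL_fl (a - sgl e)]
  by_cases he : (11 : ℤ) ∣ a e
  · obtain ⟨s, rfl⟩ := exists_E e
    have h1 := step_le (k := k) s (fl a)
    have h2 : bint (fl a) (E s 0 1) ≤ nrm a := by
      have h3 : ∀ e, fl a e ≤ |a e| ∧ -fl a e ≤ |a e| ∧ 0 ≤ |a e| := fun e => by
        simp only [fl, abs_eq_max_neg]
        omega
      rw [forall_edge s] at h3
      rw [bint_E, nrm, sum_edge s]
      omega
    rw [fl_sub_dvd he]
    omega
  · rw [fl_sub_ndvd he]
    omega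

theorem incr_eq {a : Dv} (h : DeepI (fl a)) {e : Edge} (he : (11 : ℤ) ∣ a e) :
    (finrank k (LL k a) : ℤ) = finrank k (LL k (a - sgl e)) + bint (fl a) e + 1 := by
  have hb : ∀ e', 0 ≤ bint (fl a) e' := fun e' => by
    have := h.bint_ge e'
    have := h.1
    omega
  have h1 := (stepU (k := k) (fl a) e fun e' _ => hb e').2
  have := hb e
  rw [LL_fl a, LL_fl (a - sgl e), fl_sub_dvd he]
  omega

theorem ev_hilb (b : Dv) : ∀ᶠ t : ℤ in atTop,
    sumS (fun a => (finrank k (LL k a) : ℚ)) b t = PP t + dd b * ((t : ℚ) - 9 / 2) + ee b := by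
  filter_upwards [ev_deep' b] with t ht
  rw [← qbar]
  exact Finset.sum_congr rfl fun c _ => (good (ht c)).2

/-- the set of units in a space LL is finite -/
theorem finite_units (a : Dv) : {g : Dv | g ∈ Gam ∧ ∀ e, 0 ≤ 11 * g e + a e}.Finite := by
  refine (Set.finite_Icc (fun _ => -nrm a) (fun _ => 9 * nrm a : Dv)).subset ?_
  rintro g ⟨hg, h⟩
  have h1 : ∀ e, -nrm a ≤ g e := by
    intro e
    have h2 : |a e| ≤ nrm a :=
      Finset.single_le_sum (f := fun e => |a e|) (fun _ _ => abs_nonneg _) (Finset.mem_univ e)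
    have := h e
    have := le_abs_self (a e)
    have := abs_nonneg (a e)
    omega
  refine ⟨h1, fun e => ?_⟩
  obtain ⟨s, rfl⟩ := exists_E e
  have h2 := tot_Gam hg
  rw [tot, sum_edge s] at h2
  rw [forall_edge s] at h1
  show g (E s 0 1) ≤ 9 * nrm a
  omega

end Vale.Agent.P190
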