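import Vale.Agent.P190.Val

/-! P190 job Good, part A: restriction of sections to a line. -/

namespace Vale.Agent.P190.GoodA
open Module Filter Polynomial

variable {k : Type} [Field k]

/-! ### rational functions in one variable -/

/-- rational functions with denominators powers of q -/
noncomputable def AD (q : k[X]) : Submodule k (RatFunc k) where
  carrier := {r | ∃ (N : ℕ) (P : k[X]), algebraMap k[X] (RatFunc k) (q ^ N) * r = algebraMap _ _ P}
  zero_mem' := ⟨0, 0, by simp⟩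
  add_mem' := by
    rintro x y ⟨N, P, h⟩ ⟨M, Q, h'⟩
    refine ⟨N + M, q ^ M * P + q ^ N * Q, ?_⟩
    rw [map_add, map_mul, map_mul, ← h, ← h', pow_add, map_mul]
    ring
  smul_mem' := by
    rintro c x ⟨N, P, h⟩
    refine ⟨N, C c * P, ?_⟩
    rw [map_mul, ← h, RatFunc.algebraMap_C, RatFunc.smul_eq_C_mul]
    ring

/-- rational functions of bounded degree -/
noncomputable def AI (d : ℤ) : Submodule k (RatFunc k) where
  carrier := {r | r = 0 ∨ r.intDegree ≤ d}
  zero_mem' := Or.inl rfl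
  add_mem' := by
    rintro x y hx hy
    by_cases h0 : x = 0
    · simpa [h0] using hy
    by_cases h1 : y = 0
    · simpa [h1] using hx
    by_cases h2 : x + y = 0
    · exact Or.inl h2
    have := RatFunc.intDegree_add_le h1 h2
    have := hx.resolve_left h0
    have := hy.resolve_left h1
    right
    omega
  smul_mem' := by
    rintro c x hx
    by_cases h0 : x = 0
    · simp [h0]
    by_cases h1 : c = 0
    · simp [h1]
    right
    rw [RatFunc.smul_eq_C_mul, RatFunc.intDegree_mul (by simpa using h1) h0, RatFunc.intDegree_C,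
      zero_add]
    exact hx.resolve_left h0

/-- the monomials in X and 1 + X -/
noncomputable def mo (k : Type) [Field k] (i j : ℤ) : RatFunc k :=
  algebraMap k[X] (RatFunc k) X ^ i * algebraMap k[X] (RatFunc k) (1 + X) ^ j

theorem one_add_X_ne : (1 + X : k[X]) ≠ 0 := by
  rw [add_comm, ← C_1]; exact X_add_C_ne_zero 1

theorem natDegree_one_add_X : (1 + X : k[X]).natDegree = 1 := by
  rw [add_comm, ← C_1]; exact natDegree_X_add_C 1

theorem am_ne {q : k[X]} (h : q ≠ 0) : algebraMap k[X] (RatFunc k) q ≠ 0 := by simpa using h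

theorem mem_AD {q q' : k[X]} (hq : q ≠ 0) {i : ℤ} (hi : 0 ≤ i) (j : ℤ) :
    algebraMap k[X] (RatFunc k) q' ^ i * algebraMap k[X] (RatFunc k) q ^ j ∈ AD q := by
  refine ⟨(-j).toNat, q' ^ i.toNat * q ^ j.toNat, ?_⟩
  simp only [map_mul, map_pow, ← zpow_natCast]
  rw [Int.toNat_of_nonneg hi, mul_left_comm, ← zpow_add₀ (am_ne hq)]
  congr 2
  omega

theorem intDegree_pow {x : RatFunc k} (hx : x ≠ 0) (n : ℕ) :
    (x ^ n).intDegree = n * x.intDegree := by
  induction n with
  | zero => simp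
  | succ n ih => rw [pow_succ, RatFunc.intDegree_mul (pow_ne_zero _ hx) hx, ih]; push_cast; ring

theorem intDegree_zpow {x : RatFunc k} (hx : x ≠ 0) (n : ℤ) :
    (x ^ n).intDegree = n * x.intDegree := by
  cases n with
  | ofNat n => simpa using intDegree_pow hx n
  | negSucc n =>
    rw [zpow_negSucc, RatFunc.intDegree_inv, intDegree_pow hx, Int.negSucc_eq]
    push_cast; ring

theorem mo_mem_AI {i j d : ℤ} (h : i + j ≤ d) : mo k i j ∈ AI d := by
  right
  rw [mo, RatFunc.intDegree_mul (zpow_ne_zero _ (am_ne X_ne_zero))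
    (zpow_ne_zero _ (am_ne one_add_X_ne)), intDegree_zpow (am_ne X_ne_zero),
    intDegree_zpow (am_ne one_add_X_ne), RatFunc.intDegree_polynomial,
    RatFunc.intDegree_polynomial, natDegree_X, natDegree_one_add_X]
  simpa using h

theorem poly_of_three {r : RatFunc k} {d : ℤ} (h1 : r ∈ AD (1 + X)) (h2 : r ∈ AD X)
    (h3 : r ∈ AI d) : ∃ P ∈ degreeLT k (d + 1).toNat, r = algebraMap k[X] (RatFunc k) P := by
  obtain ⟨N, P, hP⟩ := h1
  obtain ⟨M, Q, hQ⟩ := h2
  have hc : IsCoprime (1 + X : k[X]) X := ⟨1, -1, by ring⟩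
  obtain ⟨a, b, hab⟩ := (hc.pow (m := N) (n := M))
  have hr : r = algebraMap k[X] (RatFunc k) (a * P + b * Q) := by
    rw [map_add, map_mul, map_mul, ← hP, ← hQ, ← mul_assoc, ← mul_assoc, ← add_mul, ← map_mul,
      ← map_mul, ← map_add, hab, map_one, one_mul]
  refine ⟨_, ?_, hr⟩
  generalize a * P + b * Q = R at hr
  by_cases h0 : R = 0
  · rw [h0]; exact zero_mem _
  rcases h3 with h3 | h3
  · exact absurd (hr ▸ h3) (am_ne h0)
  rw [hr, RatFunc.intDegree_polynomial] at h3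
  rw [mem_degreeLT, degree_eq_natDegree h0]
  exact_mod_cast (by omega : R.natDegree < (d + 1).toNat)

theorem span_mono (d : ℕ) : degreeLT k (d + 1) ≤
    Submodule.span k {P : k[X] | ∃ i ≤ d, P = X ^ i * (1 + X) ^ (d - i)} := by
  have key : ∀ d : ℕ, ∀ P : k[X], P.natDegree ≤ d →
      P ∈ Submodule.span k {P : k[X] | ∃ i ≤ d, P = X ^ i * (1 + X) ^ (d - i)} := by
    intro d
    induction d with
    | zero =>
      intro P hP
      rw [eq_C_of_natDegree_le_zero hP, ← mul_one (C _), ← smul_eq_C_mul]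
      exact Submodule.smul_mem _ _ (Submodule.subset_span ⟨0, le_rfl, by simp⟩)
    | succ d ih =>
      intro P hP
      set Q := P - P.coeff 0 • (1 + X) ^ (d + 1) with hQ
      have h0 : Q.coeff 0 = 0 := by simp [hQ, coeff_zero_eq_eval_zero]
      have h1 : Q.natDegree ≤ d + 1 := by
        refine (natDegree_sub_le _ _).trans (max_le hP ((natDegree_smul_le _ _).trans ?_))
        rw [natDegree_pow, natDegree_one_add_X, mul_one]
      have h2 : Q.divX.natDegree ≤ d := by
        rw [natDegree_divX_eq_natDegree_tsub_one]; omega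
      have h3 : P = X * Q.divX + P.coeff 0 • (1 + X) ^ (d + 1) := by
        have := X_mul_divX_add Q
        rw [h0, C_0, add_zero] at this
        rw [this, hQ]; ring
      rw [h3]
      refine add_mem ?_ (Submodule.smul_mem _ _ (Submodule.subset_span ⟨0, by omega, by simp⟩))
      have h4 := Submodule.mem_map_of_mem (f := LinearMap.mulLeft k (X : k[X])) (ih _ h2)
      rw [Submodule.map_span] at h4
      refine Submodule.span_mono ?_ h4
      rintro _ ⟨_, ⟨i, hi, rfl⟩, rfl⟩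
      refine ⟨i + 1, by omega, ?_⟩
      simp only [LinearMap.mulLeft_apply, Nat.add_sub_add_right]
      ring
  intro P hP
  refine key d P ?_
  rw [mem_degreeLT] at hP
  by_cases h0 : P = 0
  · simp [h0]
  rw [degree_eq_natDegree h0] at hP
  have : P.natDegree < d + 1 := by exact_mod_cast hP
  omega

theorem finrank_degreeLT (n : ℕ) : finrank k (degreeLT k n) = n := by
  rw [(degreeLTEquiv k n).finrank_eq, finrank_fin_fun]

theorem fr_step {V Q : Type*} [AddCommGroup V] [Module k V] [AddCommGroup Q] [Module k Q]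
    {U U' : Submodule k V} [FiniteDimensional k U] (h : U' ≤ U) (S : V →ₗ[k] Q)
    (hker : ∀ f ∈ U, S f = 0 ↔ f ∈ U') : finrank k U = finrank k U' + finrank k (U.map S) := by
  have h1 := LinearMap.finrank_range_add_finrank_ker (S.domRestrict U)
  have h2 : LinearMap.ker (S.domRestrict U) = U'.comap U.subtype := by
    ext ⟨f, hf⟩
    simpa using hker f hf
  rw [LinearMap.range_domRestrict, h2, (Submodule.comapSubtypeEquivOfLe h).finrank_eq] at h1
  omega

/-! ### the filtration by order along a line -/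

/-- functions of order at least m -/
noncomputable def FN (e : Edge) (m : ℤ) : Submodule k (K k) where
  carrier := {f | f = 0 ∨ m ≤ nu e f}
  zero_mem' := Or.inl rfl
  add_mem' := by
    rintro f g hf hg
    by_cases h0 : f = 0
    · simpa [h0] using hg
    by_cases h1 : g = 0
    · simpa [h1] using hf
    by_cases h2 : f + g = 0
    · exact Or.inl h2
    have := nu_add e h0 h1 h2
    have := hf.resolve_left h0
    have := hg.resolve_left h1
    right
    omega
  smul_mem' := by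
    rintro c f hf
    by_cases h0 : f = 0
    · simp [h0]
    by_cases h1 : c = 0
    · simp [h1]
    right
    rw [Algebra.smul_def, nu_mul e (by simpa using h1) h0, nu_const e h1, zero_add]
    exact hf.resolve_left h0

theorem mem_FN {e : Edge} {m : ℤ} {f : K k} : f ∈ FN e m ↔ f = 0 ∨ m ≤ nu e f := Iff.rfl

theorem FN_mul {e : Edge} {m n l : ℤ} {f g : K k} (hf : f ∈ FN e m) (hg : g ∈ FN e n)
    (h : l ≤ m + n) : f * g ∈ FN e l := by
  by_cases h0 : f = 0
  · simp [h0]
  by_cases h1 : g = 0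
  · simp [h1]
  right
  have := hf.resolve_left h0
  have := hg.resolve_left h1
  rw [nu_mul e h0 h1]
  omega

/-- congruent to one along the line -/
def On (e : Edge) (x : K k) : Prop := x - 1 ∈ FN e 1

theorem On.mul {e : Edge} {x y : K k} (hx : On e x) (hy : On e y) : On e (x * y) := by
  unfold On at *
  rw [show x * y - 1 = (x - 1) * (y - 1) + (x - 1) + (y - 1) by ring]
  exact add_mem (add_mem (FN_mul hx hy (by norm_num)) hx) hy

theorem one_not_mem (e : Edge) : (1 : K k) ∉ FN e 1 := by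
  simp [mem_FN, nu_one]

theorem On.inv {e : Edge} {x : K k} (hx : On e x) : On e x⁻¹ := by
  have h1 : x ∉ FN e 1 := fun h => one_not_mem e (by simpa using sub_mem h hx)
  have h0 : x ≠ 0 := by rintro rfl; exact h1 (zero_mem _)
  have h2 : x⁻¹ ∈ FN e 0 := by
    right
    rw [nu_inv e h0]
    have : ¬ 1 ≤ nu e x := fun h => h1 (Or.inr h)
    omega
  unfold On
  rw [show x⁻¹ - 1 = -(x⁻¹ * (x - 1)) by field_simp; ring]
  exact neg_mem (FN_mul h2 hx (by norm_num))

theorem On.pow {e : Edge} {x : K k} (hx : On e x) (n : ℕ) : On e (x ^ n) := by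
  induction n with
  | zero => simp [On]
  | succ n ih => rw [pow_succ]; exact ih.mul hx

theorem On.zpow {e : Edge} {x : K k} (hx : On e x) (n : ℤ) : On e (x ^ n) := by
  cases n with
  | ofNat n => simpa using hx.pow n
  | negSucc n => rw [zpow_negSucc]; exact (hx.pow _).inv

theorem aeval_v (s : Pm) {P : k[X]} (hP : P ≠ 0) :
    aeval (uv k s 1) P ≠ 0 ∧ nu (E s 0 1) (aeval (uv k s 1) P) = 0 := by
  have h1 : ¬ MvPolynomial.X 0 ∣ aeval (MvPolynomial.X 1 : P2 k) P := by
    intro h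
    have := map_dvd (MvPolynomial.aeval (![0, X] : Fin 2 → k[X])) h
    rw [← aeval_algHom_apply] at this
    simp [hP] at this
  have := ch_v0 s h1
  rwa [← aeval_algHom_apply, MvPolynomial.aeval_X] at this

theorem aeval_inj (s : Pm) : Function.Injective (aeval (uv k s 1) : k[X] →ₐ[k] K k) :=
  (injective_iff_map_eq_zero _).mpr fun P h => by
    by_contra h0
    exact (aeval_v s h0).1 h

/-- rational functions of the second chart coordinate -/
noncomputable def ph (s : Pm) : RatFunc k →ₐ[k] K k := IsFractionRing.liftAlgHom (aeval_inj s)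

theorem ph_poly (s : Pm) (P : k[X]) :
    ph s (algebraMap k[X] (RatFunc k) P) = aeval (uv k s 1) P := by
  simp [ph]

theorem ph_nu (s : Pm) {r : RatFunc k} (hr : r ≠ 0) :
    ph s r ≠ 0 ∧ nu (E s 0 1) (ph s r) = 0 := by
  have h1 := aeval_v s (RatFunc.num_ne_zero hr)
  have h2 := aeval_v s (RatFunc.denom_ne_zero r)
  refine ⟨by simpa using hr, ?_⟩
  rw [← RatFunc.num_div_denom r, map_div₀, ph_poly, ph_poly, div_eq_mul_inv,
    nu_mul _ h1.1 (inv_ne_zero h2.1), nu_inv _ h2.1, h1.2, h2.2]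
  simp

theorem ph_mo (s : Pm) (i j : ℤ) : ph s (mo k i j) = uv k s 1 ^ i * (1 + uv k s 1) ^ j := by
  simp only [mo, map_mul, map_zpow₀, ph_poly]
  simp

theorem mo_ne (i j : ℤ) : mo k i j ≠ 0 :=
  mul_ne_zero (zpow_ne_zero _ (am_ne X_ne_zero)) (zpow_ne_zero _ (am_ne one_add_X_ne))

theorem u_ne (s : Pm) : uv k s 0 ≠ 0 := cu_zero (k := k) s ▸ cu_ne_zero s 0

theorem nu_u (s : Pm) : nu (E s 0 1) (uv k s 0) = 1 := by
  rw [← cu_zero, (cu_Sg s 0).nu_eq, nu_gu (gb_mem s 0)]
  simpa [ce] using gb_ce s 0 0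

/-- the map to the residue space -/
noncomputable def TT (s : Pm) : RatFunc k →ₗ[k] K k ⧸ FN (k := k) (E s 0 1) 1 :=
  (FN (E s 0 1) 1).mkQ ∘ₗ (ph s).toLinearMap

theorem TT_inj (s : Pm) : Function.Injective (TT (k := k) s) := by
  rw [injective_iff_map_eq_zero]
  intro r h
  by_contra h0
  have h1 : ph s r ∈ FN (E s 0 1) 1 := (Submodule.Quotient.mk_eq_zero _).mp h
  have h2 := ph_nu s h0
  rcases h1 with h1 | h1
  · exact h2.1 h1
  · omega

/-- the normalising factor -/
noncomputable def ww (s : Pm) (a : Dv) : K k :=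
  uv k s 0 ^ a (E s 0 1) * ph s (mo k (a (E s 2 3)) (a (E s 2 4) - a (E s 0 1)))

theorem ww_ne (s : Pm) (a : Dv) : ww (k := k) s a ≠ 0 :=
  mul_ne_zero (zpow_ne_zero _ (u_ne s)) (ph_nu s (mo_ne _ _)).1

theorem nu_ww (s : Pm) (a : Dv) : nu (E s 0 1) (ww (k := k) s a) = a (E s 0 1) := by
  rw [ww, nu_mul _ (zpow_ne_zero _ (u_ne s)) (ph_nu s (mo_ne _ _)).1, (ph_nu s (mo_ne _ _)).2,
    nu_zpow _ (u_ne s), nu_u]
  simp

/-- restriction to the line -/
noncomputable def SR (s : Pm) (a : Dv) : K k →ₗ[k] K k ⧸ FN (k := k) (E s 0 1) 1 :=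
  (FN (E s 0 1) 1).mkQ ∘ₗ LinearMap.mulLeft k (ww s a)

theorem SR_eq_zero (s : Pm) (a : Dv) (f : K k) :
    SR s a f = 0 ↔ f = 0 ∨ 1 ≤ nu (E s 0 1) f + a (E s 0 1) := by
  have : SR s a f = 0 ↔ ww s a * f ∈ FN (E s 0 1) 1 := Submodule.Quotient.mk_eq_zero _
  rw [this, mem_FN]
  by_cases h0 : f = 0
  · simp [h0]
  rw [nu_mul _ (ww_ne s a) h0, nu_ww]
  simp [h0, ww_ne, add_comm]

theorem SR_unit (s : Pm) (a : Dv) {g : Dv} (hg : g ∈ Gam) (h : g (E s 0 1) + a (E s 0 1) = 0) :
    SR s a (gu k g) = TT s (mo k (g (E s 2 3) + a (E s 2 3)) (g (E s 2 4) + a (E s 2 4))) ∨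
    SR s a (gu k g) = -TT s (mo k (g (E s 2 3) + a (E s 2 3)) (g (E s 2 4) + a (E s 2 4))) := by
  have hv : uv k s 1 ≠ 0 := cu_one (k := k) s ▸ cu_ne_zero s 1
  have hv1 : 1 + uv k s 1 ≠ 0 := cu_two (k := k) s ▸ cu_ne_zero s 2
  have hu : uv k s 0 ∈ FN (E s 0 1) 1 := Or.inr (nu_u s).ge
  have o1 : On (E s 0 1) (1 - uv k s 0) := by
    unfold On
    simpa using hu
  have o2 : On (E s 0 1) ((1 + uv k s 1 - uv k s 0) / (1 + uv k s 1)) := by
    unfold On
    rw [show (1 + uv k s 1 - uv k s 0) / (1 + uv k s 1) - 1 =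
      -(uv k s 0 * ph s (mo k 0 (-1))) by rw [ph_mo]; field_simp; ring]
    exact neg_mem (FN_mul hu (Or.inr (ph_nu s (mo_ne _ _)).2.ge) (by norm_num))
  have o3 := (o1.zpow (g (E s 1 2))).mul (o2.zpow (g (E s 1 3)))
  have hrel : g (E s 0 3) + g (E s 1 3) = g (E s 2 4) + a (E s 0 1) := by
    obtain ⟨h0, h1, h2, h3, h4⟩ := vdeg_E s g
    rw [hg] at h0 h1 h2 h3 h4
    omega
  have key : ww s a * ∏ i, cu k s i ^ (g (ce s i)) =
      ph s (mo k (g (E s 2 3) + a (E s 2 3)) (g (E s 2 4) + a (E s 2 4))) *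
        ((1 - uv k s 0) ^ g (E s 1 2) *
          ((1 + uv k s 1 - uv k s 0) / (1 + uv k s 1)) ^ g (E s 1 3)) := by
    have e1 : g (E s 0 1) = -a (E s 0 1) := by omega
    have e2 : g (E s 2 4) + a (E s 2 4) =
        (a (E s 2 4) - a (E s 0 1)) + g (E s 0 3) + g (E s 1 3) := by omega
    rw [Fin.prod_univ_five, cu_zero, cu_one, cu_two, cu_three, cu_four, ww, ph_mo, ph_mo, e2]
    simp only [ce, Matrix.cons_val]
    rw [e1, zpow_add₀ hv, zpow_add₀ hv1, zpow_add₀ hv1, div_zpow, zpow_neg]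
    have := zpow_ne_zero (a (E s 0 1)) (u_ne (k := k) s)
    have := zpow_ne_zero (g (E s 1 3)) hv1
    field_simp
  have key2 : SR s a (∏ i, cu k s i ^ (g (ce s i))) =
      TT s (mo k (g (E s 2 3) + a (E s 2 3)) (g (E s 2 4) + a (E s 2 4))) := by
    refine (Submodule.Quotient.eq _).mpr ?_
    show ww s a * _ - ph s _ ∈ _
    rw [key, ← mul_sub_one]
    exact FN_mul (Or.inr (ph_nu s (mo_ne _ _)).2.ge) o3 (by norm_num)
  rcases gu_Sg (k := k) s hg with h1 | h1
  · left; rw [h1, key2]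
  · right; rw [h1, map_neg, key2]

theorem SR_mem (s s' : Pm) (h01 : E s' 0 1 = E s 0 1) (a : Dv) (A : Submodule k (RatFunc k))
    (hA : ∀ g ∈ Gam, g (E s 0 1) + a (E s 0 1) = 0 → 0 ≤ g (E s' 2 3) + a (E s' 2 3) →
      mo k (g (E s 2 3) + a (E s 2 3)) (g (E s 2 4) + a (E s 2 4)) ∈ A)
    {f : K k} (hf : f ∈ LL k ((11 : ℤ) • a)) : SR s a f ∈ A.map (TT s) := by
  have h1 := pair_chart s' hf.1 (a := -a (E s' 0 1)) (b := -a (E s' 2 3))
    (hf.2.imp_right fun h => by
      have h1 := h (E s' 0 1)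
      have h2 := h (E s' 2 3)
      simp only [Pi.smul_apply, smul_eq_mul] at h1 h2
      omega)
  refine (Submodule.span_le (p := (A.map (TT s)).comap (SR s a))).mpr ?_ h1
  rintro _ ⟨g, hg, h2, h3, rfl⟩
  rw [h01] at h2
  show SR s a (gu k g) ∈ A.map (TT s)
  by_cases h4 : g (E s 0 1) + a (E s 0 1) = 0
  · have h5 := Submodule.mem_map_of_mem (f := TT s) (hA g hg h4 (by omega))
    rcases SR_unit (k := k) s a hg h4 with h6 | h6 <;> rw [h6]
    · exact h5
    · exact neg_mem h5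
  · rw [(SR_eq_zero s a _).mpr (Or.inr (by rw [nu_gu hg]; omega))]
    exact zero_mem _

/-- polynomials in the residue space -/
noncomputable def TP (s : Pm) : k[X] →ₗ[k] K k ⧸ FN (k := k) (E s 0 1) 1 :=
  TT s ∘ₗ (IsScalarTower.toAlgHom k k[X] (RatFunc k)).toLinearMap

theorem TP_inj (s : Pm) : Function.Injective (TP (k := k) s) :=
  (TT_inj s).comp (IsFractionRing.injective k[X] (RatFunc k))

theorem SR_le (s : Pm) (a : Dv) : (LL k ((11 : ℤ) • a)).map (SR s a) ≤
    (degreeLT k (bint a (E s 0 1) + 1).toNat).map (TP s) := by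
  rintro _ ⟨f, hf, rfl⟩
  obtain ⟨r1, h1, e1⟩ := SR_mem s s rfl a (AD (1 + X)) (fun g _ _ h => mem_AD one_add_X_ne h _) hf
  obtain ⟨r2, h2, e2⟩ := SR_mem s (s * Equiv.swap 3 4) rfl a (AD X)
    (fun g _ _ h => by rw [mo, mul_comm]; exact mem_AD X_ne_zero h _) hf
  obtain ⟨r3, h3, e3⟩ := SR_mem s (s * Equiv.swap 2 4) rfl a (AI (bint a (E s 0 1)))
    (fun g hg h0 h => mo_mem_AI (by
      have e : E (s * Equiv.swap 2 4) 2 3 = E s 3 4 := E_symm s 4 3
      rw [e] at h
      have := bint_E s a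
      have h1 := bint_E s g
      rw [bint_Gam hg] at h1
      omega)) hf
  have e12 : r2 = r1 := TT_inj s (e2.trans e1.symm)
  have e13 : r3 = r1 := TT_inj s (e3.trans e1.symm)
  obtain ⟨P, hP, hr⟩ := poly_of_three h1 (e12 ▸ h2) (e13 ▸ h3)
  exact ⟨P, hP, by rw [← e1, hr]; rfl⟩

theorem SR_ker (s : Pm) (a : Dv) : ∀ f ∈ LL k ((11 : ℤ) • a),
    SR s a f = 0 ↔ f ∈ LL k ((11 : ℤ) • (a - sgl (E s 0 1))) := by
  intro f hf
  rw [SR_eq_zero, mem_LL]
  by_cases h0 : f = 0
  · simp [h0]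
  have h1 := hf.2.resolve_left h0
  simp only [h0, false_or, hf.1, true_and, Pi.smul_apply, Pi.sub_apply, smul_eq_mul, sgl] at h1 ⊢
  constructor
  · intro h e
    have := h1 e
    by_cases he : e = E s 0 1
    · subst he; simp; omega
    · simp [he]; omega
  · intro h
    have := h (E s 0 1)
    simp at this
    omega

theorem sgl_nonneg (e : Edge) : 0 ≤ sgl e := Pi.single_nonneg.mpr zero_le_one

theorem LI_mono {a a' : Dv} (h : a ≤ a') : LL k ((11 : ℤ) • a) ≤ LL k ((11 : ℤ) • a') :=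
  LL_mono (smul_le_smul_of_nonneg_left h (by norm_num))

theorem fr_eq (s : Pm) (a : Dv) : finrank k (LL k ((11 : ℤ) • a)) =
    finrank k (LL k ((11 : ℤ) • (a - sgl (E s 0 1)))) +
      finrank k ((LL k ((11 : ℤ) • a)).map (SR s a)) :=
  fr_step (LI_mono (sub_le_self _ (sgl_nonneg _))) _ (SR_ker s a)

theorem fr_TP (s : Pm) (n : ℕ) : finrank k ((degreeLT k n).map (TP s)) = n := by
  rw [← (Submodule.equivMapOfInjective _ (TP_inj s) _).finrank_eq, finrank_degreeLT]

instance (n : ℕ) : FiniteDimensional k (degreeLT k n) :=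
  (degreeLTEquiv k n).symm.finiteDimensional

theorem step_le (s : Pm) (a : Dv) : finrank k (LL k ((11 : ℤ) • a)) ≤
    finrank k (LL k ((11 : ℤ) • (a - sgl (E s 0 1)))) + (bint a (E s 0 1) + 1).toNat := by
  rw [fr_eq s a]
  have := Submodule.finrank_mono (SR_le (k := k) s a)
  rw [fr_TP] at this
  omega

theorem step (s : Pm) (a : Dv) (V : Submodule k (K k)) (hV : V ≤ LL k ((11 : ℤ) • a))
    (hu : ∀ i : ℤ, 0 ≤ i → i ≤ bint a (E s 0 1) → ∃ g ∈ Gam, gu k g ∈ V ∧
      g (E s 0 1) + a (E s 0 1) = 0 ∧ g (E s 2 3) + a (E s 2 3) = i ∧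
      g (E s 2 4) + a (E s 2 4) = bint a (E s 0 1) - i) :
    LL k ((11 : ℤ) • a) ≤ LL k ((11 : ℤ) • (a - sgl (E s 0 1))) ⊔ V ∧
    finrank k (LL k ((11 : ℤ) • a)) =
      finrank k (LL k ((11 : ℤ) • (a - sgl (E s 0 1)))) + (bint a (E s 0 1) + 1).toNat := by
  have h1 : (degreeLT k (bint a (E s 0 1) + 1).toNat).map (TP s) ≤ V.map (SR s a) := by
    by_cases hd : bint a (E s 0 1) < 0
    · rw [show (bint a (E s 0 1) + 1).toNat = 0 by omega]
      rintro _ ⟨P, hP, rfl⟩
      have h0 : P = 0 := by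
        by_contra h0
        have hP' : P ∈ degreeLT k 0 := hP
        rw [mem_degreeLT, degree_eq_natDegree h0] at hP'
        exact absurd (show P.natDegree < 0 by exact_mod_cast hP') (Nat.not_lt_zero _)
      rw [h0, map_zero]
      exact zero_mem _
    obtain ⟨d, hd⟩ := Int.eq_ofNat_of_zero_le (not_lt.mp hd)
    rw [show (bint a (E s 0 1) + 1).toNat = d + 1 by omega]
    refine (Submodule.map_mono (span_mono d)).trans ?_
    rw [Submodule.map_span, Submodule.span_le]
    rintro _ ⟨_, ⟨i, hi, rfl⟩, rfl⟩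
    obtain ⟨g, hg, hgV, e0, e1, e2⟩ := hu i (by omega) (by omega)
    have e3 : TP s (X ^ i * (1 + X) ^ (d - i) : k[X]) =
        TT s (mo k (g (E s 2 3) + a (E s 2 3)) (g (E s 2 4) + a (E s 2 4))) := by
      rw [e1, e2, hd, show (d : ℤ) - i = ((d - i : ℕ) : ℤ) by omega, mo, zpow_natCast,
        zpow_natCast, ← map_pow, ← map_pow, ← map_mul]
      rfl
    rw [e3]
    rcases SR_unit (k := k) s a hg e0 with h6 | h6
    · exact ⟨_, hgV, h6⟩
    · exact ⟨_, neg_mem hgV, by rw [map_neg, h6, neg_neg]⟩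
  constructor
  · intro f hf
    obtain ⟨x, hx, e⟩ := h1 (SR_le s a (Submodule.mem_map_of_mem hf))
    have h2 : f - x ∈ LL k ((11 : ℤ) • (a - sgl (E s 0 1))) :=
      (SR_ker s a _ (sub_mem hf (hV hx))).mp (by rw [map_sub, e, sub_self])
    rw [show f = (f - x) + x by ring]
    exact Submodule.add_mem_sup h2 hx
  · rw [fr_eq s a, le_antisymm (SR_le s a) (h1.trans (Submodule.map_mono hV)), fr_TP]

end Vale.Agent.P190.GoodA
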