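import Mathlib

/-! P190 job Local: parameters on a maximal Cohen-Macaulay module are (quasi) regular. -/

namespace Vale.Agent.P190
open RingTheory.Sequence IsLocalRing Pointwise

universe u

namespace LocH

theorem davis {S : Type*} [CommRing S] {T : Set (Ideal S)} (hT : T.Finite)
    (hp : ∀ Q ∈ T, Q.IsPrime) (y : S) (J : Ideal S) (h : ∀ Q ∈ T, y ∈ Q → ¬J ≤ Q) :
    ∃ j ∈ J, ∀ Q ∈ T, y + j ∉ Q := by
  classical
  let A := hT.toFinset.filter fun Q => y ∉ Q ∧ ∀ Q' ∈ T, y ∈ Q' → ¬Q ≤ Q'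
  have h1 : ¬((J ⊓ A.inf id : Ideal S) : Set S) ⊆ ⋃ Q ∈ {Q ∈ T | y ∈ Q}, (id Q : Ideal S) := by
    rw [Ideal.subset_union_prime_finite (hT.subset (Set.sep_subset _ _)) (f := id) ⊤ ⊤
      fun Q hQ _ _ => hp Q hQ.1]
    rintro ⟨Q, ⟨hQ, hy⟩, hle⟩
    rcases (hp Q hQ).inf_le.1 hle with h2 | h2
    · exact h Q hQ hy h2
    · obtain ⟨Q', h3, h4⟩ := (hp Q hQ).inf_le'.1 h2
      exact (Finset.mem_filter.1 h3).2.2 Q hQ hy h4
  obtain ⟨j, ⟨hj, hj'⟩, h2⟩ := Set.not_subset.1 h1
  have h3 : ∀ Q ∈ T, y ∈ Q → y + j ∉ Q := fun Q hQ hy h4 =>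
    h2 (Set.mem_biUnion (show Q ∈ {Q ∈ T | y ∈ Q} from ⟨hQ, hy⟩) ((Q.add_mem_iff_right hy).1 h4))
  refine ⟨j, hj, fun Q hQ h4 => ?_⟩
  by_cases hA : Q ∈ A
  · exact (Finset.mem_filter.1 hA).2.1
      ((Q.add_mem_iff_left ((Finset.inf_le hA : A.inf id ≤ id Q) hj')).1 h4)
  · simp only [A, Finset.mem_filter, Set.Finite.mem_toFinset, hQ, true_and, not_and, not_forall,
      not_not] at hA
    obtain ⟨Q', h5, h6, h7⟩ := hA fun hy => h3 Q hQ hy h4
    exact h3 Q' h5 h6 (h7 h4)

section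
variable {S : Type u} [CommRing S] [IsNoetherianRing S]

theorem reg_iff {M : Type*} [AddCommGroup M] [Module S M] {r : S} :
    IsSMulRegular M r ↔ ∀ Q ∈ associatedPrimes S M, r ∉ Q := by
  have := Set.ext_iff.1 (biUnion_associatedPrimes_eq_compl_regular S M) r
  simp only [Set.mem_iUnion, SetLike.mem_coe, exists_prop, Set.mem_compl_iff,
    Set.mem_ofPred_eq] at this
  rw [← not_iff_not, ← this]
  simp

theorem dich {M : Type*} [AddCommGroup M] [Module S M] [Module.Finite S M] (I : Ideal S) :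
    (∃ r ∈ I, IsSMulRegular M r) ∨ ∃ u : M, u ≠ 0 ∧ ∀ a ∈ I, a • u = 0 := by
  refine or_iff_not_imp_left.2 fun h => ?_
  obtain ⟨P, hP, hle⟩ := (Ideal.subset_union_prime_finite (associatedPrimes.finite S M) (f := id)
    ⊤ ⊤ (fun Q hQ _ _ => hQ.isPrime) (I := I)).1 fun r hr => by
      have : ¬IsSMulRegular M r := fun h' => h ⟨r, hr, h'⟩
      simpa [reg_iff] using this
  obtain ⟨hP, u, rfl⟩ := isAssociatedPrime_iff.1 hP
  exact ⟨u, fun h0 => hP.ne_top (by simp [h0]), fun a ha => by simpa using hle ha⟩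

omit [IsNoetherianRing S] in
theorem exch {M : Type*} [AddCommGroup M] [Module S M] {I : Ideal S} {r x : S} (hr : r ∈ I)
    (h1 : IsSMulRegular M x) (h3 : IsSMulRegular M r)
    (h2 : ∀ v : QuotSMulTop r M, (∀ a ∈ I, a • v = 0) → v = 0)
    (u : QuotSMulTop x M) (hu : ∀ a ∈ I, a • u = 0) : u = 0 := by
  obtain ⟨u, rfl⟩ := Submodule.Quotient.mk_surjective _ u
  simp only [← Submodule.Quotient.mk_smul, Submodule.Quotient.mk_eq_zero,
    Submodule.mem_smul_pointwise_iff_exists, Submodule.mem_top, true_and] at hu ⊢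
  obtain ⟨v, hv⟩ := hu r hr
  have := h2 (Submodule.Quotient.mk v) fun a ha => by
    obtain ⟨w, hw⟩ := hu a ha
    rw [← Submodule.Quotient.mk_smul, Submodule.Quotient.mk_eq_zero,
      Submodule.mem_smul_pointwise_iff_exists]
    refine ⟨w, trivial, h1 ?_⟩
    show x • r • w = x • a • v
    rw [smul_comm, hw, smul_comm x, hv, smul_comm]
  rw [Submodule.Quotient.mk_eq_zero, Submodule.mem_smul_pointwise_iff_exists] at this
  obtain ⟨w, -, rfl⟩ := this
  exact ⟨w, h3 (by show r • x • w = r • u; rw [smul_comm, hv])⟩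

variable [IsLocalRing S]

theorem ext_reg (n : ℕ) : ∀ (M : Type u) [AddCommGroup M] [Module S M] [Module.Finite S M]
    (rs : List S), rs.length = n + 1 → (∀ r ∈ rs, r ∈ maximalIdeal S) → IsWeaklyRegular M rs →
    ∀ x ∈ maximalIdeal S, IsSMulRegular M x → ∃ l : List S, l.length = n ∧
      (∀ r ∈ l, r ∈ maximalIdeal S) ∧ IsWeaklyRegular (QuotSMulTop x M) l := by
  induction n with
  | zero => exact fun M _ _ _ _ _ _ _ _ _ _ => ⟨[], rfl, by simp, .nil _ _⟩
  | succ n ih =>
    intro M _ _ _ rs hl hm hreg x hx hxr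
    obtain _ | ⟨r, _ | ⟨r2, rs⟩⟩ := rs
    · simp at hl
    · simp at hl
    obtain ⟨h1, h2⟩ := (isWeaklyRegular_cons_iff _ _ _).1 hreg
    have hr := hm r (by simp)
    have h3 : ∀ v : QuotSMulTop r M, (∀ a ∈ maximalIdeal S, a • v = 0) → v = 0 := fun v hv =>
      ((isWeaklyRegular_cons_iff _ _ _).1 h2).1.right_eq_zero_of_smul (hv r2 (hm r2 (by simp)))
    obtain ⟨z, hz, h4⟩ | ⟨u, h4, h5⟩ := dich (M := QuotSMulTop x M × QuotSMulTop r M)
      (maximalIdeal S)
    swap
    · exact absurd (Prod.ext (exch hr hxr h1 h3 _ fun a ha => congrArg Prod.fst (h5 a ha))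
        (h3 _ fun a ha => congrArg Prod.snd (h5 a ha))) h4
    have h5 : IsSMulRegular (QuotSMulTop x M) z := h4.of_injective (LinearMap.inl S _ _)
      LinearMap.inl_injective
    have h6 : IsSMulRegular (QuotSMulTop r M) z := h4.of_injective (LinearMap.inr S _ _)
      LinearMap.inr_injective
    obtain ⟨l, l1, l2, l3⟩ := ih _ (r2 :: rs) (by simpa using hl)
      (fun a ha => hm a (List.mem_cons_of_mem _ ha)) h2 z hz h6
    have h7 := isWeaklyRegular_of_perm_of_subset_maximalIdeal (.cons h1 (.cons h6 l3))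
      (List.Perm.swap z r l) (List.forall_mem_cons.2 ⟨hr, List.forall_mem_cons.2 ⟨hz, l2⟩⟩)
    have h8 := isWeaklyRegular_of_perm_of_subset_maximalIdeal (.cons hxr (.cons h5 (.nil _ _)))
      (List.Perm.swap z x []) (List.forall_mem_cons.2 ⟨hx, List.forall_mem_cons.2 ⟨hz, by simp⟩⟩)
    obtain ⟨h9, h10⟩ := (isWeaklyRegular_cons_iff _ _ _).1 h7
    have h11 := ((isWeaklyRegular_cons_iff _ _ _).1 ((isWeaklyRegular_cons_iff _ _ _).1 h8).2).1
    obtain ⟨l', k1, k2, k3⟩ := ih _ (r :: l) (by simp [l1]) (List.forall_mem_cons.2 ⟨hr, l2⟩) h10 x hx h11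
    have h12 := isWeaklyRegular_of_perm_of_subset_maximalIdeal (.cons h9 (.cons h11 k3))
      (List.Perm.swap x z l') (List.forall_mem_cons.2 ⟨hz, List.forall_mem_cons.2 ⟨hx, k2⟩⟩)
    exact ⟨z :: l', by simp [k1], List.forall_mem_cons.2 ⟨hz, k2⟩,
      ((isWeaklyRegular_cons_iff _ _ _).1 h12).2⟩

theorem no_ann (ys : List S) : ∀ (M : Type u) [AddCommGroup M] [Module S M] [Module.Finite S M]
    (rs : List S), rs.length = ys.length + 1 → (∀ r ∈ rs, r ∈ maximalIdeal S) →
    IsWeaklyRegular M rs → (∀ y ∈ ys, y ∈ maximalIdeal S) → ∀ (J : Ideal S) (u : M),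
    (∀ a ∈ J, a • u = 0) → (∀ P : Ideal S, P.IsPrime → J ≤ P → (∀ y ∈ ys, y ∈ P) →
      maximalIdeal S ≤ P) → u = 0 := by
  induction ys with
  | nil =>
    intro M _ _ _ rs hl hm hreg _ J u hu hP
    obtain _ | ⟨r, rs⟩ := rs
    · simp at hl
    by_contra h0
    obtain ⟨P, h1, h2⟩ := exists_le_isAssociatedPrime_of_isNoetherianRing S u h0
    exact reg_iff.1 ((isWeaklyRegular_cons_iff _ _ _).1 hreg).1 P h1
      (hP P h1.isPrime (fun a ha => h2 (by simpa using hu a ha)) (by simp) (hm r (by simp)))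
  | cons y ys ih =>
    intro M _ _ _ rs hl hm hreg hy J u hu hP
    by_contra h0
    have hJ : J ≤ maximalIdeal S := le_maximalIdeal fun h => h0 (by simpa using hu 1 (by simp [h]))
    obtain _ | ⟨r, rs⟩ := rs
    · simp at hl
    obtain ⟨j, hj, h1⟩ := davis (associatedPrimes.finite S M) (fun Q hQ => hQ.isPrime) y
      (J ⊔ Ideal.ofList ys) fun Q hQ hyQ hle =>
        reg_iff.1 ((isWeaklyRegular_cons_iff _ _ _).1 hreg).1 Q hQ (hP Q hQ.isPrime
          (le_sup_left.trans hle) (List.forall_mem_cons.2 ⟨hyQ, fun a ha =>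
            hle (Ideal.mem_sup_right (Ideal.subset_span ha))⟩) (hm r (by simp)))
    have h2 : IsSMulRegular M (y + j) := reg_iff.2 h1
    have hy' := List.forall_mem_cons.1 hy
    have h3 : y + j ∈ maximalIdeal S :=
      add_mem hy'.1 ((sup_le hJ (Ideal.span_le.2 hy'.2) : J ⊔ Ideal.ofList ys ≤ _) hj)
    obtain ⟨l, l1, l2, l3⟩ := ext_reg _ M _ hl hm hreg _ h3 h2
    let N : Submodule S M := Submodule.torsionBySet S M J
    have hN : ∀ v, v ∈ N ↔ ∀ a ∈ J, a • v = 0 := fun v => by simp [N]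
    have h4 : N = ⊥ := Submodule.eq_bot_of_le_smul_of_le_jacobson_bot (maximalIdeal S) N
      (IsNoetherian.noetherian _) (fun v hv => by
        have := ih _ l l1 l2 l3 hy'.2 (J ⊔ Ideal.span {y + j}) (Submodule.Quotient.mk v)
          (fun a ha => by
            obtain ⟨b, hb, c, hc, rfl⟩ := Submodule.mem_sup.1 ha
            obtain ⟨c, rfl⟩ := Ideal.mem_span_singleton'.1 hc
            rw [← Submodule.Quotient.mk_smul, Submodule.Quotient.mk_eq_zero, add_smul,
              (hN v).1 hv b hb, zero_add, mul_comm, mul_smul]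
            exact Submodule.smul_mem_pointwise_smul _ _ _ trivial)
          fun P h5 h6 h7 => hP P h5 (le_sup_left.trans h6) (List.forall_mem_cons.2
            ⟨(P.add_mem_iff_left ((sup_le (le_sup_left.trans h6) (Ideal.span_le.2 h7) :
              J ⊔ Ideal.ofList ys ≤ _) hj)).1
              (h6 (Ideal.mem_sup_right (Ideal.mem_span_singleton_self _))), h7⟩)
        rw [Submodule.Quotient.mk_eq_zero, Submodule.mem_smul_pointwise_iff_exists] at this
        obtain ⟨w, -, rfl⟩ := this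
        exact Submodule.smul_mem_smul h3 ((hN w).2 fun a ha => h2.right_eq_zero_of_smul
          (by rw [smul_comm, (hN _).1 hv a ha]))) (maximalIdeal_le_jacobson _)
    exact h0 ((Submodule.eq_bot_iff _).1 h4 u ((hN u).2 hu))

theorem wreg (xs : List S) : ∀ (M : Type u) [AddCommGroup M] [Module S M] [Module.Finite S M]
    (rs : List S), rs.length = xs.length → (∀ r ∈ rs, r ∈ maximalIdeal S) →
    IsWeaklyRegular M rs → (∀ x ∈ xs, x ∈ maximalIdeal S) →
    (∀ P : Ideal S, P.IsPrime → Module.annihilator S M ≤ P → (∀ y ∈ xs, y ∈ P) →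
      maximalIdeal S ≤ P) → IsWeaklyRegular M xs := by
  induction xs with
  | nil => exact fun M _ _ _ _ _ _ _ _ _ => .nil _ _
  | cons x xs ih =>
    intro M _ _ _ rs hl hm hreg hx hP
    have hx' := List.forall_mem_cons.1 hx
    have h1 : IsSMulRegular M x := isSMulRegular_iff_right_eq_zero_of_smul.2 fun u hu =>
      no_ann xs M rs hl hm hreg hx'.2 ((⊥ : Submodule S M).colon {u}) u (by simp)
        fun P h1 h2 h3 => hP P h1 (fun a ha => h2 (by simp [Module.mem_annihilator.1 ha u]))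
          (List.forall_mem_cons.2 ⟨h2 (by simpa using hu), h3⟩)
    obtain ⟨l, l1, l2, l3⟩ := ext_reg _ M _ hl hm hreg _ hx'.1 h1
    refine .cons h1 (ih _ l l1 l2 l3 hx'.2 fun P h2 h3 h4 => hP P h2 (fun a ha => h3 ?_)
      (List.forall_mem_cons.2 ⟨h3 ?_, h4⟩))
    all_goals
      refine Module.mem_annihilator.2 fun v => ?_
      obtain ⟨v, rfl⟩ := Submodule.Quotient.mk_surjective _ v
      rw [← Submodule.Quotient.mk_smul, Submodule.Quotient.mk_eq_zero]
    · rw [Module.mem_annihilator.1 ha]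
      exact zero_mem _
    · exact Submodule.smul_mem_pointwise_smul _ _ _ trivial

end

section
open Finset
variable {S : Type*} [CommRing S] {M : Type*} [AddCommGroup M] [Module S M] {σ : Type*}
  [Fintype σ] [DecidableEq σ] (x : σ → S)

omit [DecidableEq σ] in
theorem mon_add (a : σ →₀ ℕ) (j : σ) :
    ∏ i, x i ^ (a + Finsupp.single j 1 : σ →₀ ℕ) i = x j * ∏ i, x i ^ a i := by
  simp only [Finsupp.add_apply, pow_add, prod_mul_distrib]
  rw [mul_comm, Finset.prod_eq_single j (fun i _ hi => by simp [hi]) (by simp)]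
  simp

omit [Fintype σ] in
theorem add_mem_fa {t : Finset σ} {s : ℕ} {a : σ →₀ ℕ} {j : σ} (hj : j ∈ t) :
    a + Finsupp.single j 1 ∈ t.finsuppAntidiag (s + 1) ↔ a ∈ t.finsuppAntidiag s := by
  simp only [mem_finsuppAntidiag, Finsupp.coe_add, Pi.add_apply, sum_add_distrib]
  rw [Finset.sum_eq_single_of_mem j hj (f := fun i => Finsupp.single j 1 i)
    (fun i _ hi => by simp [hi]), Finsupp.single_eq_same, add_left_inj]
  refine and_congr_right fun _ => ⟨fun h i hi => h ?_, fun h => Finsupp.support_add.trans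
    (union_subset h (Finsupp.support_single_subset.trans (singleton_subset_iff.2 hj)))⟩
  simp only [Finsupp.mem_support_iff, Finsupp.coe_add, Pi.add_apply] at hi ⊢
  omega

theorem mon_mem (t : Finset σ) (s : ℕ) : ∀ a ∈ t.finsuppAntidiag s,
    ∏ i, x i ^ a i ∈ Ideal.span (x '' t) ^ s := fun a ha => by
  obtain ⟨rfl, h2⟩ := mem_finsuppAntidiag.1 ha
  rw [← Finset.prod_subset (subset_univ t) fun i _ hi => by
    rw [Finsupp.notMem_support_iff.1 fun h => hi (h2 h), pow_zero], ← Finset.prod_pow_eq_pow_sum]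
  exact Ideal.prod_mem_prod fun i hi => Ideal.pow_mem_pow (Ideal.subset_span (Set.mem_image_of_mem x hi)) _

theorem exists_rep (t : Finset σ) (N : Submodule S M) (s : ℕ) :
    ∀ v ∈ Ideal.span (x '' t) ^ s • N, ∃ m : (σ →₀ ℕ) → M, (∀ a, m a ∈ N) ∧
      v = ∑ a ∈ t.finsuppAntidiag s, (∏ i, x i ^ a i) • m a := by
  have : Ideal.span (x '' t) ^ s • N ≤ ⨆ a ∈ t.finsuppAntidiag s, (∏ i, x i ^ a i) • N := by
    induction s with
    | zero => simp
    | succ s ih =>
      rw [pow_succ', mul_smul]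
      refine (Submodule.smul_mono le_rfl ih).trans ?_
      simp only [Submodule.smul_iSup, iSup_le_iff, Submodule.span_smul_eq, Ideal.span,
        Submodule.set_smul_le_iff]
      rintro a ha _ _ ⟨j, hj, rfl⟩ ⟨w, hw, rfl⟩
      refine Submodule.mem_iSup_of_mem (a + Finsupp.single j 1) (Submodule.mem_iSup_of_mem
        ((add_mem_fa hj).2 ha) ⟨w, hw, ?_⟩)
      rw [mon_add]
      exact mul_smul _ _ _
  intro v hv
  obtain ⟨μ, hμ⟩ := (Submodule.mem_iSup_finset_iff_exists_sum _ _).1 (this hv)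
  choose m h1 h2 using fun a => (Submodule.mem_smul_pointwise_iff_exists _ _ _).1 (μ a).2
  exact ⟨m, h1, by simp only [h2, hμ]⟩

omit [Fintype σ] in
theorem split_fa {t : Finset σ} {j : σ} (hj : j ∉ t) (s : ℕ) :
    (insert j t).finsuppAntidiag (s + 1) = t.finsuppAntidiag (s + 1) ∪
      ((insert j t).finsuppAntidiag s).map (addRightEmbedding (Finsupp.single j 1)) ∧
    Disjoint (t.finsuppAntidiag (s + 1))
      (((insert j t).finsuppAntidiag s).map (addRightEmbedding (Finsupp.single j 1))) := by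
  constructor
  · refine subset_antisymm (fun a ha => ?_) (union_subset
      (finsuppAntidiag_mono (subset_insert _ _) _) fun a ha => ?_)
    · by_cases h : a j = 0
      · refine mem_union_left _ ?_
        simp only [mem_finsuppAntidiag, sum_insert hj, h, zero_add] at ha ⊢
        refine ⟨ha.1, fun i hi => (mem_insert.1 (ha.2 hi)).resolve_left ?_⟩
        rintro rfl
        exact Finsupp.mem_support_iff.1 hi h
      · have e : a - Finsupp.single j 1 + Finsupp.single j 1 = a :=
          tsub_add_cancel_of_le (Finsupp.single_le_iff.2 (by omega))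
        exact mem_union_right _ (mem_map.2 ⟨a - Finsupp.single j 1,
          (add_mem_fa (mem_insert_self _ _)).1 (e.symm ▸ ha), e⟩)
    · obtain ⟨b, hb, rfl⟩ := mem_map.1 ha
      exact (add_mem_fa (mem_insert_self _ _)).2 hb
  · refine disjoint_left.2 fun a ha hb => ?_
    obtain ⟨b, -, rfl⟩ := mem_map.1 hb
    exact hj ((mem_finsuppAntidiag.1 ha).2 (by simp))

/-- quasi regularity for a set of indices -/
def QR (M : Type*) [AddCommGroup M] [Module S M] (t : Finset σ) : Prop :=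
  ∀ (s : ℕ) (m : (σ →₀ ℕ) → M), ∑ a ∈ t.finsuppAntidiag s, (∏ i, x i ^ a i) • m a ∈
    Ideal.span (x '' t) ^ (s + 1) • (⊤ : Submodule S M) →
    ∀ a ∈ t.finsuppAntidiag s, m a ∈ Ideal.span (x '' t) • (⊤ : Submodule S M)

theorem QR_empty : QR x M ∅ := by
  rintro (_ | s) m hm a ha
  · simp_all
  · simp at ha

theorem QR.colon {t : Finset σ} (h : QR x M t) {y : S}
    (hy : ∀ v : M, y • v ∈ Ideal.span (x '' t) • (⊤ : Submodule S M) →
      v ∈ Ideal.span (x '' t) • (⊤ : Submodule S M)) (s : ℕ) (v : M)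
    (hv : y • v ∈ Ideal.span (x '' t) ^ s • (⊤ : Submodule S M)) :
    v ∈ Ideal.span (x '' t) ^ s • (⊤ : Submodule S M) := by
  induction s with
  | zero => simp
  | succ s ih =>
    obtain ⟨m, -, rfl⟩ := exists_rep x t ⊤ s v
      (ih (Submodule.smul_mono_left (Ideal.pow_le_pow_right (Nat.le_succ s)) hv))
    simp only [Finset.smul_sum, smul_comm y] at hv
    rw [pow_succ, mul_smul]
    exact Submodule.sum_mem _ fun a ha =>
      Submodule.smul_mem_smul (mon_mem x t s a ha) (hy _ (h s _ hv a ha))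

theorem QR.insert {t : Finset σ} (h : QR x M t) {j : σ} (hj : j ∉ t)
    (hy : ∀ v : M, x j • v ∈ Ideal.span (x '' t) • (⊤ : Submodule S M) →
      v ∈ Ideal.span (x '' t) • (⊤ : Submodule S M)) : QR x M (insert j t) := by
  have hle : Ideal.span (x '' t) ≤ Ideal.span (x '' (Insert.insert j t : Finset σ)) :=
    Ideal.span_mono (Set.image_mono (coe_subset.2 (subset_insert _ _)))
  intro s
  induction s with
  | zero => intro m hm a ha; simp_all
  | succ s ih =>
    suffices H : ∀ m : (σ →₀ ℕ) → M, ∑ a ∈ (Insert.insert j t).finsuppAntidiag (s + 1),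
        (∏ i, x i ^ a i) • m a = 0 → ∀ a ∈ (Insert.insert j t).finsuppAntidiag (s + 1),
        m a ∈ Ideal.span (x '' (Insert.insert j t : Finset σ)) • (⊤ : Submodule S M) by
      intro m hm a ha
      rw [pow_succ, mul_smul] at hm
      obtain ⟨m', h1, h2⟩ := exists_rep x _ _ _ _ hm
      simpa using add_mem (H (fun a => m a - m' a)
        (by simp only [smul_sub, sum_sub_distrib, h2, sub_self]) a ha) (h1 a)
    intro m hm a ha
    obtain ⟨e1, e2⟩ := split_fa hj s
    rw [e1] at ha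
    rw [e1, sum_union e2, sum_map] at hm
    simp only [addRightEmbedding_apply, mon_add, mul_smul, ← Finset.smul_sum] at hm
    have h1 := h.colon x hy (s + 1) _ (by
      rw [eq_neg_of_add_eq_zero_right hm]
      exact neg_mem (Submodule.sum_mem _ fun a ha =>
        Submodule.smul_mem_smul (mon_mem x t _ a ha) trivial))
    rcases mem_union.1 ha with ha | ha
    · obtain ⟨m', -, h2⟩ := exists_rep x _ _ _ _ h1
      have := h (s + 1) (fun a => m a + x j • m' a) (by
        simp only [smul_add, sum_add_distrib, smul_comm _ (x j), ← Finset.smul_sum, ← h2, hm]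
        exact zero_mem _) a ha
      simpa using sub_mem (Submodule.smul_mono_left hle this) (Submodule.smul_mem_smul
        (Ideal.subset_span ⟨j, mem_insert_self _ _, rfl⟩) (Submodule.mem_top (x := m' a)))
    · obtain ⟨b, hb, rfl⟩ := mem_map.1 ha
      exact ih _ (Submodule.smul_mono_left (Ideal.pow_right_mono hle _) h1) b hb

end
end LocH

theorem weaklyRegular_of_depth {S : Type u} [CommRing S] [IsNoetherianRing S] [IsLocalRing S]
    {M : Type u} [AddCommGroup M] [Module S M] [Module.Finite S M] (rs xs : List S)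
    (hlen : rs.length = xs.length) (hrs : ∀ r ∈ rs, r ∈ maximalIdeal S) (hreg : IsRegular M rs)
    (hxs : ∀ x ∈ xs, x ∈ maximalIdeal S)
    (hpr : ∃ n : ℕ, maximalIdeal S ^ n • (⊤ : Submodule S M) ≤ Ideal.ofList xs • ⊤) :
    IsWeaklyRegular M xs := by
  obtain ⟨n, hn⟩ := hpr
  refine LocH.wreg xs M rs hlen hrs hreg.1 hxs fun P h1 h2 h3 => h1.le_of_pow_le (n := n) ?_
  have : (⟨P, h1⟩ : PrimeSpectrum S) ∈
      Module.support S (M ⧸ (Ideal.ofList xs • ⊤ : Submodule S M)) := by
    rw [Module.support_quotient]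
    exact ⟨Module.mem_support_iff_of_finite.2 h2, Ideal.span_le.2 h3⟩
  refine le_trans (fun a ha => Module.mem_annihilator.2 fun v => ?_)
    (Module.mem_support_iff_of_finite.1 this)
  obtain ⟨v, rfl⟩ := Submodule.Quotient.mk_surjective _ v
  rw [← Submodule.Quotient.mk_smul, Submodule.Quotient.mk_eq_zero]
  exact hn (Submodule.smul_mem_smul ha trivial)

/-- a regular sequence is quasi regular -/
theorem quasi_regular {S : Type*} [CommRing S] {M : Type*} [AddCommGroup M] [Module S M]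
    (x : Fin 3 → S) (h : IsWeaklyRegular M [x 0, x 1, x 2]) (s : ℕ) (m : (Fin 3 →₀ ℕ) → M)
    (hm : ∑ a ∈ Finset.finsuppAntidiag (Finset.univ : Finset (Fin 3)) s, (∏ i, x i ^ a i) • m a ∈
      Ideal.span (Set.range x) ^ (s + 1) • (⊤ : Submodule S M)) :
    ∀ a ∈ Finset.finsuppAntidiag (Finset.univ : Finset (Fin 3)) s,
      m a ∈ Ideal.span (Set.range x) • (⊤ : Submodule S M) := by
  have k : ∀ (i : ℕ) (hi : i < 3) (t : Finset (Fin 3)),
      x '' t = {r | r ∈ [x 0, x 1, x 2].take i} → ∀ v : M,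
      [x 0, x 1, x 2][i] • v ∈ Ideal.span (x '' t) • (⊤ : Submodule S M) →
      v ∈ Ideal.span (x '' t) • (⊤ : Submodule S M) := fun i hi t e => by
    rw [e]
    exact (isSMulRegular_quotient_iff_mem_of_smul_mem _ _).1 (h.regular_mod_prev i hi)
  have h0 := (LocH.QR_empty x (M := M)).insert x (j := 0) (by simp) (k 0 (by simp) _ (by simp))
  have h1 := h0.insert x (j := 1) (by simp) (k 1 (by simp) _ (by ext; simp))
  have h2 := h1.insert x (j := 2) (by simp) (k 2 (by simp) _ (by ext; simp [eq_comm, or_comm]))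
  have e : (insert 2 (insert 1 (insert 0 ∅)) : Finset (Fin 3)) = Finset.univ := by decide
  rw [e, LocH.QR, Finset.coe_univ, Set.image_univ] at h2
  exact h2 s m hm

end Vale.Agent.P190
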