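import Vale.Agent.P190.Seq
import Vale.Agent.P190.Local

/-! P190 job LemA: Hilbert polynomials of filtrations on a free module are nonnegative. -/

namespace Vale.Agent.P190
open Module Filter RingTheory.Sequence

variable {k S M : Type*} [Field k] [CommRing S] [Algebra k S] [AddCommGroup M] [Module S M]
  [Module k M] [IsScalarTower k S M]

/-- powers of the parameter ideal acting on the module -/
def qM (x : Fin 3 → S) (M : Type*) [AddCommGroup M] [Module S M] (s : ℕ) : Submodule S M :=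
  Ideal.span (Set.range x) ^ s • ⊤

namespace LAH
open MvPolynomial

/-- vectors of forms -/
noncomputable def Fm (k : Type*) [Field k] (N : ℕ) (u : ℤ) : Submodule k (Fin N → A3 k) :=
  Submodule.pi Set.univ fun _ => Hom3 k u

theorem mem_Fm {N : ℕ} {u : ℤ} {a : Fin N → A3 k} : a ∈ Fm k N u ↔ ∀ j, a j ∈ Hom3 k u := by
  simp [Fm, Submodule.mem_pi]

instance (N : ℕ) (u : ℤ) : FiniteDimensional k (Fm k N u) :=
  SeqH.fd_of_forall_mem _ u fun _ => mem_Fm.1

theorem finrank_Fm (N u : ℕ) : (finrank k (Fm k N u) : ℚ) = N * Bq u := by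
  have : Fm k N u = LinearMap.range ((Hom3 k u).subtype.compLeft (Fin N)) := by
    ext a
    rw [mem_Fm]
    exact ⟨fun h => ⟨fun j => ⟨a j, h j⟩, rfl⟩, fun ⟨b, hb⟩ j => hb ▸ (b j).2⟩
  have hi : Function.Injective ((Hom3 k u).subtype.compLeft (Fin N)) :=
    fun a b h => _root_.funext fun j => Subtype.ext (congrFun h j)
  rw [this, LinearMap.finrank_range_of_inj hi,
    Module.finrank_pi_fintype, Finset.sum_const, Finset.card_univ, Fintype.card_fin, smul_eq_mul,
    Nat.cast_mul, finrank_Hom3, if_pos (Int.natCast_nonneg u), Int.cast_natCast]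

theorem coeff_zero {u : ℕ} {a : A3 k} (ha : a ∈ Hom3 k u) {d : Fin 3 →₀ ℕ}
    (hd : d ∉ Finset.univ.finsuppAntidiag u) : coeff d a = 0 := by
  rw [SeqH.Hom3_nat] at ha
  refine IsHomogeneous.coeff_eq_zero ha fun h => hd ?_
  simpa [Finsupp.degree_eq_sum] using h

theorem aeval_eq (x : Fin 3 → S) {u : ℕ} {a : A3 k} (ha : a ∈ Hom3 k u) :
    aeval x a = ∑ d ∈ Finset.univ.finsuppAntidiag u, coeff d a • ∏ i, x i ^ d i := by
  rw [aeval_def, eval₂_eq']
  simp only [Algebra.smul_def]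
  exact Finset.sum_subset (fun d hd => by_contra fun h => mem_support_iff.1 hd (coeff_zero ha h))
    fun d _ hd => by rw [notMem_support_iff.1 hd, map_zero, zero_mul]

theorem aeval_mem (x : Fin 3 → S) {u : ℕ} {a : A3 k} (ha : a ∈ Hom3 k u) :
    aeval x a ∈ Ideal.span (Set.range x) ^ u := by
  rw [aeval_eq x ha]
  refine Submodule.sum_mem _ fun d hd => ?_
  rw [Algebra.smul_def]
  simpa using Ideal.mul_mem_left _ _ (LocH.mon_mem x Finset.univ u d hd)

theorem qM_zero (x : Fin 3 → S) : qM x M 0 = ⊤ := by simp [qM]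

theorem qM_anti (x : Fin 3 → S) {s t : ℕ} (h : s ≤ t) : qM x M t ≤ qM x M s :=
  Submodule.smul_mono_left (Ideal.pow_le_pow_right h)

theorem smul_qM (x : Fin 3 → S) {s u : ℕ} {r : S} (hr : r ∈ Ideal.span (Set.range x) ^ u) {m : M}
    (hm : m ∈ qM x M s) : r • m ∈ qM x M (s + u) := by
  rw [qM, add_comm, pow_add, mul_smul]
  exact Submodule.smul_mem_smul hr hm

theorem x_smul_qM (x : Fin 3 → S) {s : ℕ} (i : Fin 3) {m : M} (hm : m ∈ qM x M s) :
    x i • m ∈ qM x M (s + 1) :=
  smul_qM x (by rw [pow_one]; exact Ideal.subset_span ⟨i, rfl⟩) hm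

theorem qM_succ_le (x : Fin 3 → S) (s : ℕ) {T : Submodule k M}
    (h : ∀ i, ∀ m ∈ qM x M s, x i • m ∈ T) : (qM x M (s + 1)).restrictScalars k ≤ T := by
  intro v hv
  rw [Submodule.restrictScalars_mem, qM, pow_succ', mul_smul] at hv
  refine Submodule.smul_induction_on hv (fun r hr w hw => ?_) fun _ _ => add_mem
  obtain ⟨c, rfl⟩ := Ideal.mem_span_range_iff_exists_fun.1 hr
  rw [Finset.sum_smul]
  exact Submodule.sum_mem _ fun i _ => by
    rw [mul_comm, mul_smul]
    exact h i _ (Submodule.smul_mem _ _ hw)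

/-- the comparison with a free graded module -/
structure IsXi (x : Fin 3 → S) {N : ℕ} (Ξ : (Fin N → A3 k) →ₗ[k] M) : Prop where
  smul : ∀ (p : A3 k) a, Ξ (p • a) = aeval x p • Ξ a
  mem : ∀ u : ℕ, ∀ a ∈ Fm k N u, Ξ a ∈ qM x M u
  surj : ∀ u : ℕ, (qM x M u).restrictScalars k ≤
    (qM x M (u + 1)).restrictScalars k ⊔ (Fm k N u).map Ξ
  inj : ∀ u : ℕ, ∀ a ∈ Fm k N u, Ξ a ∈ qM x M (u + 1) → a = 0

theorem exists_Xi (x : Fin 3 → S) (h : IsWeaklyRegular M [x 0, x 1, x 2])
    (hf : FinCod ((qM x M 1).restrictScalars k) ⊤) :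
    ∃ Ξ : (Fin (cod ((qM x M 1).restrictScalars k) ⊤) → A3 k) →ₗ[k] M, IsXi x Ξ := by
  set Q := (qM x M 1).restrictScalars k
  have e : (⊤ : Submodule k M).map Q.mkQ = ⊤ := by rw [Submodule.map_top, Submodule.range_mkQ]
  have e1 : cod Q ⊤ = finrank k (M ⧸ Q) := by rw [cod, e, finrank_top]
  have : FiniteDimensional k (M ⧸ Q) := by
    rw [FinCod, e] at hf
    exact Module.Finite.equiv Submodule.topEquiv
  rw [e1]
  let b := Module.finBasis k (M ⧸ Q)
  choose m hm using fun i => Q.mkQ_surjective (b i)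
  let Ξ : (Fin (finrank k (M ⧸ Q)) → A3 k) →ₗ[k] M :=
    { toFun := fun a => ∑ i, aeval x (a i) • m i
      map_add' := fun a a' => by simp [add_smul, Finset.sum_add_distrib]
      map_smul' := fun c a => by simp [Finset.smul_sum] }
  have hΞ : ∀ a, Ξ a = ∑ i, aeval x (a i) • m i := fun _ => rfl
  have h1 : ∀ (p : A3 k) a, Ξ (p • a) = aeval x p • Ξ a := fun p a => by
    simp [hΞ, Finset.smul_sum, mul_smul]
  refine ⟨Ξ, h1, fun u a ha => hΞ a ▸ (qM x M u).sum_mem fun i _ =>
    Submodule.smul_mem_smul (aeval_mem x (mem_Fm.1 ha i)) Submodule.mem_top, fun u => ?_,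
      fun u a ha h2 => ?_⟩
  · induction u with
    | zero =>
      intro v _
      refine Submodule.mem_sup.2 ⟨v - Ξ fun i => C (b.repr (Q.mkQ v) i), ?_, _, ⟨_, mem_Fm.2 fun i => ?_, rfl⟩,
        sub_add_cancel _ _⟩
      · show _ ∈ Q
        rw [← Submodule.Quotient.mk_eq_zero, ← Submodule.mkQ_apply, map_sub, sub_eq_zero, hΞ,
          map_sum]
        simp only [aeval_C, algebraMap_smul, map_smul, hm, Basis.sum_repr]
      · rw [SeqH.Hom3_nat]
        exact isHomogeneous_C _ _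
    | succ u ih =>
      refine qM_succ_le x u fun i v hv => ?_
      obtain ⟨w, hw, _, ⟨a, ha, rfl⟩, rfl⟩ := Submodule.mem_sup.1 (ih hv)
      rw [smul_add]
      refine Submodule.add_mem_sup (x_smul_qM x i hw) ⟨(X i : A3 k) • a, mem_Fm.2 fun j => ?_, ?_⟩
      · exact_mod_cast X_mul_Hom3 i (mem_Fm.1 ha j)
      · rw [h1, aeval_X]
  · have h3 : Ξ a = ∑ d ∈ Finset.univ.finsuppAntidiag u,
        (∏ i, x i ^ d i) • ∑ j, coeff d (a j) • m j := by
      rw [hΞ]
      simp only [Finset.smul_sum]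
      rw [Finset.sum_comm]
      refine Finset.sum_congr rfl fun j _ => ?_
      rw [aeval_eq x (mem_Fm.1 ha j), Finset.sum_smul]
      exact Finset.sum_congr rfl fun d _ => by rw [smul_assoc, smul_comm]
    rw [h3] at h2
    refine _root_.funext fun j => MvPolynomial.ext _ _ fun d => ?_
    by_cases hd : d ∈ Finset.univ.finsuppAntidiag u
    · have h4 : ∑ j, coeff d (a j) • m j ∈ Q := by
        simpa [Q, qM] using quasi_regular x h u _ h2 d hd
      rw [← Submodule.Quotient.mk_eq_zero, ← Submodule.mkQ_apply, map_sum] at h4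
      simp only [map_smul, hm] at h4
      exact Fintype.linearIndependent_iff.1 b.linearIndependent _ h4 j
    · exact coeff_zero (mem_Fm.1 ha j) hd

variable {x : Fin 3 → S} {N : ℕ} {Ξ : (Fin N → A3 k) →ₗ[k] M}

theorem IsXi.step (h : IsXi x Ξ) (A : Submodule k M) (u : ℕ) :
    FinCod (A ⊔ (qM x M (u + 1)).restrictScalars k) (A ⊔ (qM x M u).restrictScalars k) ∧
    (cod (A ⊔ (qM x M (u + 1)).restrictScalars k) (A ⊔ (qM x M u).restrictScalars k) : ℚ) =
      N * Bq u - finrank k ↥(Fm k N u ⊓ (A ⊔ (qM x M (u + 1)).restrictScalars k).comap Ξ) := by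
  have e : A ⊔ (qM x M u).restrictScalars k =
      (A ⊔ (qM x M (u + 1)).restrictScalars k) ⊔ (Fm k N u).map Ξ := by
    rw [sup_assoc]
    refine congrArg _ (le_antisymm (h.surj u) (sup_le (qM_anti x u.le_succ) ?_))
    rintro _ ⟨a, ha, rfl⟩
    exact h.mem u a ha
  obtain ⟨h1, h2⟩ := cod_map Ξ (A ⊔ (qM x M (u + 1)).restrictScalars k) (Fm k N u)
  rw [e, cod_sup, ← finrank_Fm (k := k), ← h2]
  refine ⟨?_, by push_cast; ring⟩
  rwa [FinCod, Submodule.map_sup, SeqH.map_mkQ_self, bot_sup_eq]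

theorem IsXi.step0 (h : IsXi x Ξ) (u : ℕ) :
    FinCod ((qM x M (u + 1)).restrictScalars k) ((qM x M u).restrictScalars k) ∧
    (cod ((qM x M (u + 1)).restrictScalars k) ((qM x M u).restrictScalars k) : ℚ) = N * Bq u := by
  have := h.step ⊥ u
  have e : Fm k N u ⊓ ((qM x M (u + 1)).restrictScalars k).comap Ξ = ⊥ :=
    (Submodule.eq_bot_iff _).2 fun a ha => h.inj u a ha.1 ha.2
  rwa [bot_sup_eq, bot_sup_eq, e, finrank_bot, Nat.cast_zero, sub_zero] at this

theorem IsXi.fin (h : IsXi x Ξ) (u : ℕ) : FinCod ((qM x M u).restrictScalars k) ⊤ := by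
  induction u with
  | zero => rw [qM_zero]; exact SeqH.finCod_self _
  | succ u ih => exact (h.step0 u).1.trans ih (qM_anti x u.le_succ)

theorem IsXi.chain (h : IsXi x Ξ) (A : Submodule k M) (s n : ℕ) :
    (cod (A ⊔ (qM x M (s + n)).restrictScalars k) (A ⊔ (qM x M s).restrictScalars k) : ℚ) =
      ∑ j ∈ Finset.range n, (N * Bq (s + j) - finrank k ↥(Fm k N (s + j : ℕ) ⊓
        (A ⊔ (qM x M (s + j + 1)).restrictScalars k).comap Ξ)) := by
  induction n with
  | zero => simp [cod_self]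
  | succ n ih =>
    rw [Finset.sum_range_succ, ← ih, ← Nat.cast_add, ← (h.step A (s + n)).2, ← add_assoc,
      cod_add (B := A ⊔ (qM x M (s + n)).restrictScalars k)
        (sup_le_sup_left (qM_anti x (by omega)) _) (sup_le_sup_left (qM_anti x (by omega)) _)
        ((h.fin _).mono le_sup_right le_top), Nat.cast_add, add_comm]

theorem Bq_nonneg (t : ℤ) : 0 ≤ Bq t := by
  rw [Bq]
  rcases le_or_gt (-1) t with h | h
  · have : (-1 : ℚ) ≤ t := by exact_mod_cast h
    exact div_nonneg (mul_nonneg (by linarith) (by linarith)) (by norm_num)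
  · have : (t : ℚ) ≤ -2 := by exact_mod_cast (show t ≤ -2 by omega)
    exact div_nonneg (mul_nonneg_of_nonpos_of_nonpos (by linarith) (by linarith)) (by norm_num)

theorem abel_le {N : ℚ} {q : ℕ → ℚ} (h0 : q 0 ≤ N) (hq : ∀ j, q (j + 1) ≤ q j) (s : ℤ) (n : ℕ) :
    q n * Bq (s + n) ≤ N * Bq s + ∑ j ∈ Finset.range n, q j * (s + j + 2) := by
  induction n with
  | zero => simpa using mul_le_mul_of_nonneg_right h0 (Bq_nonneg s)
  | succ n ih =>
    have h1 := mul_le_mul_of_nonneg_right (hq n) (Bq_nonneg (s + n + 1))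
    have h2 : Bq (s + n + 1) = Bq (s + n) + (s + n + 2) := by simp only [Bq]; ring
    rw [Finset.sum_range_succ]
    push_cast at h1 ⊢
    rw [← add_assoc (s : ℚ)]
    rw [h2] at h1 ⊢
    linarith

end LAH
open LAH

/-- forms act injectively on the associated graded module -/
theorem form_reg (x : Fin 3 → S) (h : IsWeaklyRegular M [x 0, x 1, x 2])
    (hf : FinCod ((qM x M 1).restrictScalars k) ⊤) {u : ℕ} {a : A3 k} (ha : a ∈ Hom3 k u)
    (h0 : a ≠ 0) (s : ℕ) {m : M} (hm : MvPolynomial.aeval x a • m ∈ qM x M (s + u)) :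
    m ∈ qM x M s := by
  obtain ⟨Ξ, hΞ⟩ := exists_Xi x h hf
  induction s with
  | zero => rw [qM_zero]; trivial
  | succ s ih =>
    obtain ⟨w, hw, _, ⟨b, hb, rfl⟩, rfl⟩ :=
      Submodule.mem_sup.1 (hΞ.surj s (ih (qM_anti x (by omega) hm)))
    rw [smul_add, add_mem_cancel_left (smul_qM x (aeval_mem x ha) hw), ← hΞ.smul,
      add_right_comm, add_comm s] at hm
    have := hΞ.inj (u + s) _ (mem_Fm.2 fun j => by exact_mod_cast mul_Hom3 ha (mem_Fm.1 hb j)) hm
    rw [(smul_eq_zero.1 this).resolve_left h0, map_zero, add_zero]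
    exact hw

theorem lemA (x : Fin 3 → S) (h : IsWeaklyRegular M [x 0, x 1, x 2])
    (hf : FinCod ((qM x M 1).restrictScalars k) ⊤) (F : ℤ → Submodule S M)
    (hanti : ∀ t, F (t + 1) ≤ F t) (hcl : ∀ i t, ∀ m ∈ F t, x i • m ∈ F (t + 1))
    (htop : ∃ t₀, F t₀ = ⊤) (hup : ∃ c : ℤ, ∀ s : ℕ, F (s + c) ≤ qM x M s) :
    (∀ t, FinCod ((F t).restrictScalars k) ⊤) ∧ ∃ β γ : ℚ,
      EvQ (fun t => (cod ((F (t + 1)).restrictScalars k) ((F t).restrictScalars k) : ℚ))
        ((cod ((qM x M 1).restrictScalars k) ⊤ : ℚ) / 2) β γ ∧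
      ∀ t : ℤ, 0 ≤ (cod ((qM x M 1).restrictScalars k) ⊤ : ℚ) / 2 * (t : ℚ) ^ 2 + β * t + γ := by
  obtain ⟨Ξ, hΞ⟩ := exists_Xi x h hf
  generalize cod ((qM x M 1).restrictScalars k) ⊤ = N at Ξ hΞ ⊢
  obtain ⟨t₀, ht₀⟩ := htop
  obtain ⟨c, hc⟩ := hup
  have anti : Antitone F := antitone_int_of_succ_le hanti
  have low : ∀ j : ℕ, (qM x M j).restrictScalars k ≤ (F (t₀ + j)).restrictScalars k := fun j => by
    induction j with
    | zero => simp [ht₀]
    | succ j ih =>
      exact qM_succ_le x j fun i m hm => by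
        rw [Nat.cast_succ, ← add_assoc]; exact hcl i _ m (ih hm)
  have fin : ∀ t, FinCod ((F t).restrictScalars k) ⊤ := fun t =>
    (hΞ.fin (t - t₀).toNat).mono ((low _).trans (anti (by omega))) le_rfl
  refine ⟨fin, ?_⟩
  let U : ℕ → ℤ → Submodule k (Fin N → A3 k) := fun j u => Fm k N u ⊓
    ((F (u - j + c)).restrictScalars k ⊔ (qM x M (u + 1).toNat).restrictScalars k).comap Ξ
  choose r b e hr hb he using fun j => sub_free_poly N (U j) (fun t u hu => mem_Fm.1 hu.1)
    fun i t u hu => ⟨mem_Fm.2 fun l => X_mul_Hom3 i (mem_Fm.1 hu.1 l), by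
      obtain ⟨v, hv, w, hw, h1⟩ := Submodule.mem_sup.1 hu.2
      rw [SetLike.mem_coe, Submodule.mem_comap, hΞ.smul, MvPolynomial.aeval_X, ← h1, smul_add]
      refine Submodule.add_mem_sup ?_ (qM_anti x (by omega) (x_smul_qM x i hw))
      rw [show t + 1 - j + c = t - j + c + 1 by ring]
      exact hcl i _ v hv⟩
  have mono : ∀ j, (r j : ℚ) ≤ r (j + 1) := fun j => by
    have := SeqH.ev_nonneg_quad (a := (r (j + 1) - r j) / 2)
      (b := (r (j + 1) - r j) * 3 / 2 + b (j + 1) - b j) (c := r (j + 1) - r j + e (j + 1) - e j) (by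
        filter_upwards [he j, he (j + 1)] with t h1 h2
        have h3 : U j t ≤ U (j + 1) t := inf_le_inf_left _ (Submodule.comap_mono
          (sup_le_sup_right (fun v hv => anti (show t - (j + 1 : ℕ) + c ≤ t - j + c by omega) hv) _))
        have : FiniteDimensional k (U (j + 1) t) := Submodule.finiteDimensional_of_le inf_le_left
        have h4 : (finrank k (U j t) : ℚ) ≤ finrank k (U (j + 1) t) := by
          exact_mod_cast Submodule.finrank_mono h3
        rw [h1, h2, Bq] at h4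
        linarith)
    linarith
  set n := (c - t₀).toNat
  have key : ∀ s : ℕ, (cod ((F (s + c)).restrictScalars k) ⊤ : ℚ) =
      ∑ j ∈ Finset.range n, (N * Bq (s + j) - finrank k (U j (s + j))) +
        cod ((qM x M s).restrictScalars k) ⊤ := fun s => by
    have h1 := hΞ.chain ((F (s + c)).restrictScalars k) s n
    have h2 : (F (s + c)).restrictScalars k ≤ (qM x M s).restrictScalars k := hc s
    rw [sup_eq_left.2 ((low _).trans (anti (by omega))), sup_eq_right.2 h2] at h1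
    rw [cod_add h2 le_top (fin _), Nat.cast_add, h1]
    refine congrArg (· + _) (Finset.sum_congr rfl fun j _ => ?_)
    have : U j (s + j) = Fm k N (s + j : ℕ) ⊓ ((F (s + c)).restrictScalars k ⊔
        (qM x M (s + j + 1)).restrictScalars k).comap Ξ := by
      simp only [U, add_sub_cancel_right]
      rw [show ((s : ℤ) + j + 1).toNat = s + j + 1 by omega, Nat.cast_add]
    rw [this]
  have hP : ∀ t : ℚ, (N : ℚ) / 2 * t ^ 2 + (N * (3 / 2 - c) + ∑ j ∈ Finset.range n, (N - r j : ℚ)) * t +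
      (N * Bq (-c) + ∑ j ∈ Finset.range n, ((N - r j : ℚ) * (j + 2 - c) - b j)) =
      N * Bq (t - c) + ∑ j ∈ Finset.range n, ((N - r j : ℚ) * (t - c + j + 2) - b j) := fun t => by
    have : ∑ j ∈ Finset.range n, ((N - r j : ℚ) * (t - c + j + 2) - b j) =
        (∑ j ∈ Finset.range n, (N - r j : ℚ)) * t +
          ∑ j ∈ Finset.range n, ((N - r j : ℚ) * (j + 2 - c) - b j) := by
      rw [Finset.sum_mul, ← Finset.sum_add_distrib]
      exact Finset.sum_congr rfl fun j _ => by ring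
    rw [this, Bq, Bq]
    ring
  refine ⟨_, _, ?_, fun t => le_of_le_of_eq ?_ (hP t).symm⟩
  · obtain ⟨T, hT⟩ := eventually_atTop.1
      ((eventually_all_finset (Finset.range n)).2 fun j _ => he j)
    filter_upwards [eventually_ge_atTop (c + T), eventually_ge_atTop c] with t h1 h2
    obtain ⟨s, rfl⟩ : ∃ s : ℕ, t = s + c := ⟨(t - c).toNat, by omega⟩
    have h3 := key (s + 1)
    have h5 := congrArg (Nat.cast (R := ℚ)) (cod_add (B := (qM x M s).restrictScalars k)
      (qM_anti x s.le_succ) le_top (hΞ.fin (s + 1)))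
    have h6 := congrArg (Nat.cast (R := ℚ)) (cod_add (A := (F (s + c + 1)).restrictScalars k)
      (B := (F (s + c)).restrictScalars k) (hanti _) le_top (fin _))
    have h7 := (hΞ.step0 s).2
    rw [Nat.cast_add] at h5 h6
    rw [show ((s + 1 : ℕ) : ℤ) + c = s + c + 1 by push_cast; ring, h5, h6, key, h7] at h3
    have h4 : ∑ j ∈ Finset.range n, ((N - r j : ℚ) * (s + j + 2) - b j) =
        ∑ j ∈ Finset.range n, (N * Bq ((s + 1 : ℕ) + j) - finrank k (U j ((s + 1 : ℕ) + j))) -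
          ∑ j ∈ Finset.range n, (N * Bq (s + j) - finrank k (U j (s + j))) := by
      rw [← Finset.sum_sub_distrib]
      refine Finset.sum_congr rfl fun j hj => ?_
      rw [hT _ (by omega) j hj, hT _ (by omega) j hj]
      simp only [Bq]
      push_cast
      ring
    rw [hP, Int.cast_add, add_sub_cancel_right, Int.cast_natCast, h4]
    linarith
  · have h1 := abel_le (N := N) (q := fun j => N - r j) (by simp)
      (fun j => by linarith [mono j]) (t - c) n
    have h2 : (0 : ℚ) ≤ (N - r n) * Bq ((t - c + n : ℤ)) :=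
      mul_nonneg (sub_nonneg.2 (by exact_mod_cast hr n)) (Bq_nonneg _)
    have h3 : ∑ j ∈ Finset.range n, b j ≤ 0 := Finset.sum_nonpos fun j _ => hb j
    rw [Finset.sum_sub_distrib]
    push_cast at h1 h2
    linarith

end Vale.Agent.P190
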