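import Vale.Agent.P190.SRing
import Vale.Agent.P190.LemA

/-! P190 job MinF: an almost semistable filtration. -/

namespace Vale.Agent.P190
open Module Filter RingTheory.Sequence

variable {k L : Type} [Field k] [Field L] [Algebra k L] (G : GR k L)
  {M : Type*} [AddCommGroup M] [Module G.S M] [Module k M] [IsScalarTower k G.S M]

/-- the output of the minimisation -/
structure MinF (F : ℤ → Submodule G.S M) (N : ℕ) (β γ : ℚ) : Prop where
  pos : 0 < N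
  anti : ∀ t, F (t + 1) ≤ F t
  mul : ∀ (j : ℕ) t, ∀ s ∈ G.ge j, ∀ m ∈ F t, s • m ∈ F (t + j)
  top : ∃ t₀, ∀ t ≤ t₀, F t = ⊤
  sat : ∀ (j : ℕ) t, ∀ a ∈ G.R j, a ≠ 0 → ∀ m ∈ F t, G.mono j a • m ∈ F (t + j + 1) →
    m ∈ F (t + 1)
  fin : ∀ t, FinCod ((F t).restrictScalars k) ⊤
  gen : ∃ t₀ : ℤ, ∀ t, t₀ ≤ t → ∀ m ∈ F (t + 1),
    ∃ b : Fin 3 → M, (∀ i, b i ∈ F t) ∧ m = ∑ i, G.xs i • b i
  poly : EvQ (fun t => (cod ((F (t + 1)).restrictScalars k) ((F t).restrictScalars k) : ℚ))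
    ((N : ℚ) / 2) β γ
  nonneg : ∀ t : ℤ, 0 ≤ (N : ℚ) / 2 * (t : ℚ) ^ 2 + β * t + γ
  near : ∀ D : ℤ → Submodule k M, (∀ t, (F (t + 1)).restrictScalars k ≤ D t) →
    (∀ t, D t ≤ (F t).restrictScalars k) →
    (∀ (j : ℕ) t, ∀ a ∈ G.R j, ∀ m ∈ D t, G.mono j a • m ∈ D (t + j)) →
    ∃ N' β' C : ℚ, 0 ≤ N' ∧ N' ≤ N ∧ β' ≤ β * N' / N + N' * (N - N') / (2 * N) ∧
      ∀ᶠ t : ℤ in atTop,
        N' / 2 * (t : ℚ) ^ 2 - C * t ≤ cod ((F (t + 1)).restrictScalars k) (D t) ∧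
        (cod ((F (t + 1)).restrictScalars k) (D t) : ℚ) ≤ N' / 2 * (t : ℚ) ^ 2 + β' * t + C

namespace MFH

/-- filtrations comparable with the adic one -/
structure Pre (F : ℤ → Submodule G.S M) : Prop where
  anti : ∀ t, F (t + 1) ≤ F t
  mul : ∀ (j : ℕ) t, ∀ s ∈ G.ge j, ∀ m ∈ F t, s • m ∈ F (t + j)
  top : ∃ t₀, F t₀ = ⊤
  up : ∃ c : ℤ, ∀ s : ℕ, F (s + c) ≤ qM G.xs M s

/-- saturated filtrations -/
def Sat (F : ℤ → Submodule G.S M) : Prop :=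
  ∀ (j : ℕ) t, ∀ a ∈ G.R j, a ≠ 0 → ∀ m, G.mono j a • m ∈ F (t + j) → m ∈ F t

variable {G}

omit [Module k M] [IsScalarTower k G.S M] in
theorem Pre.two {F : ℤ → Submodule G.S M} (h : Pre G F) {i j : ℕ} {a b : L} (ha : a ∈ G.R i)
    (hb : b ∈ G.R j) {t : ℤ} {m : M} (hm : G.mono i a • m ∈ F (t + i)) :
    G.mono (i + j) (a * b) • m ∈ F (t + (i + j : ℕ)) := by
  rw [G.mono_mul ha hb, mul_comm, mul_smul, Nat.cast_add, ← add_assoc]
  exact h.mul j _ _ (G.mono_mem_ge j b) _ hm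

/-- the saturation -/
def Pre.sat {F : ℤ → Submodule G.S M} (h : Pre G F) (t : ℤ) : Submodule G.S M where
  carrier := {m | ∃ j : ℕ, ∃ a ∈ G.R j, a ≠ 0 ∧ G.mono j a • m ∈ F (t + j)}
  zero_mem' := ⟨0, 1, by rw [G.zero]; exact Submodule.one_le.1 le_rfl, one_ne_zero, by simp⟩
  add_mem' := by
    rintro m m' ⟨i, a, ha, ha0, h1⟩ ⟨j, b, hb, hb0, h2⟩
    refine ⟨i + j, a * b, G.mul _ _ a ha b hb, mul_ne_zero ha0 hb0, ?_⟩
    rw [smul_add]
    refine add_mem (h.two ha hb h1) ?_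
    rw [add_comm i, mul_comm]
    exact h.two hb ha h2
  smul_mem' := by
    rintro s m ⟨i, a, ha, ha0, h1⟩
    exact ⟨i, a, ha, ha0, by rw [smul_comm]; exact Submodule.smul_mem _ _ h1⟩

omit [Module k M] [IsScalarTower k G.S M] in
theorem Pre.le_sat {F : ℤ → Submodule G.S M} (h : Pre G F) (t : ℤ) : F t ≤ h.sat t := fun m hm =>
  ⟨0, 1, by rw [G.zero]; exact Submodule.one_le.1 le_rfl, one_ne_zero, by simpa [G.mono_one]⟩

omit [Module k M] [IsScalarTower k G.S M] in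
theorem Pre.sat_sat {F : ℤ → Submodule G.S M} (h : Pre G F) : Sat G h.sat := by
  rintro j t a ha ha0 m ⟨i, b, hb, hb0, h1⟩
  refine ⟨i + j, b * a, G.mul _ _ b hb a ha, mul_ne_zero hb0 ha0, ?_⟩
  rwa [G.mono_mul hb ha, mul_smul, add_comm i, Nat.cast_add, ← add_assoc]

theorem Pre.sat_pre {F : ℤ → Submodule G.S M} (h : Pre G F)
    (hr : IsWeaklyRegular M [G.xs 0, G.xs 1, G.xs 2])
    (hf : FinCod ((qM G.xs M 1).restrictScalars k) ⊤) : Pre G h.sat where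
  anti := by
    rintro t m ⟨i, a, ha, ha0, h1⟩
    exact ⟨i, a, ha, ha0, h.anti _ (by rwa [add_right_comm] at h1)⟩
  mul := by
    rintro j t s hs m ⟨i, a, ha, ha0, h1⟩
    exact ⟨i, a, ha, ha0, by rw [smul_comm, add_right_comm]; exact h.mul j _ s hs _ h1⟩
  top := h.top.imp fun t ht => top_le_iff.1 (ht.ge.trans (h.le_sat t))
  up := h.up.imp fun c hc s => by
    rintro m ⟨j, a, ha, ha0, h1⟩
    obtain ⟨t, P, hP, h2, b, hb, h3⟩ := G.norm ha ha0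
    refine form_reg G.xs hr hf h2 hP s (hc _ ?_)
    rw [(G.aeval_xs h2).2, h3, mul_comm, add_comm t,
      show ((s + (j + t) : ℕ) : ℤ) + c = s + c + (j + t : ℕ) by push_cast; ring]
    exact h.two ha hb h1

omit [Module k M] [IsScalarTower k G.S M] in
theorem pre_ge : Pre G fun t : ℤ => G.ge t.toNat • (⊤ : Submodule G.S M) where
  anti t := Submodule.smul_mono_left (G.ge_anti (by omega))
  mul j t s hs m hm := by
    refine Submodule.smul_induction_on hm (fun r hr w _ => ?_) fun _ _ h1 h2 => ?_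
    · rw [← mul_smul]
      exact Submodule.smul_mem_smul (G.ge_anti (by omega) (G.ge_mul hs hr)) trivial
    · rw [smul_add]
      exact add_mem h1 h2
  top := ⟨0, by simp [G.ge_zero]⟩
  up := ⟨G.t1, fun s => Submodule.smul_mono_left ((G.ge_anti (by omega)).trans (G.ge_le_pow s))⟩

omit [Module k M] [IsScalarTower k G.S M] in
theorem Pre.cl {F : ℤ → Submodule G.S M} (h : Pre G F) (i : Fin 3) (t : ℤ) :
    ∀ m ∈ F t, G.xs i • m ∈ F (t + 1) := h.mul 1 t _ (G.mono_mem_ge 1 _)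

theorem Pre.gen [Module.Finite G.S M] {F : ℤ → Submodule G.S M} (h : Pre G F) :
    ∃ t₀ : ℤ, ∀ t, t₀ ≤ t → ∀ m ∈ F (t + 1),
      ∃ b : Fin 3 → M, (∀ i, b i ∈ F t) ∧ m = ∑ i, G.xs i • b i := by
  obtain ⟨c, hc⟩ := h.up
  obtain ⟨t₀, h0⟩ := noeth (y := fun i => LinearMap.lsmul G.S M (G.xs i))
    (fun i j => LinearMap.ext fun m => smul_comm _ _ m)
    (E := fun t => qM G.xs M (t - c).toNat) (D := F)
    (fun i t m hm => LAH.qM_anti _ (by omega) (LAH.x_smul_qM _ i hm))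
    ⟨c, fun t ht m hm => LAH.qM_succ_le (k := k) G.xs (t - c).toNat
      (T := (⨆ i, (qM G.xs M (t - c).toNat).map (LinearMap.lsmul G.S M (G.xs i))).restrictScalars k)
      (fun i m hm => Submodule.mem_iSup_of_mem i ⟨m, hm, rfl⟩) (LAH.qM_anti _ (by omega) hm)⟩
    (fun _ => IsNoetherian.noetherian _) h.cl fun t => by
      rcases le_or_gt c t with h1 | h1
      · simpa only [show ((t - c).toNat : ℤ) + c = t by omega] using hc (t - c).toNat
      · rw [show (t - c).toNat = 0 by omega, LAH.qM_zero]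
        exact le_top
  refine ⟨t₀, fun t ht m hm => ?_⟩
  obtain ⟨μ, hμ⟩ := (Submodule.mem_iSup_finset_iff_exists_sum (s := Finset.univ)
    (fun i => (F t).map (LinearMap.lsmul G.S M (G.xs i))) m).1
    (by simpa only [Finset.mem_univ, iSup_pos] using h0 t ht hm)
  choose b h1 h2 using fun i => (μ i).2
  exact ⟨b, h1, hμ.symm.trans (Finset.sum_congr rfl fun i _ => (h2 i).symm)⟩

theorem Pre.single [Module.Finite G.S M] {F : ℤ → Submodule G.S M} (h : Pre G F)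
    (h' : Pre G h.sat) : ∃ j : ℕ, ∃ a ∈ G.R j, a ≠ 0 ∧ ∀ᶠ t in atTop,
      ∀ m ∈ h.sat t, G.mono j a • m ∈ F (t + j) := by
  obtain ⟨t₀, h0⟩ := h'.gen
  obtain ⟨j, a, ha, ha0, h1⟩ := Submodule.fg_induction (motive := fun W _ => W ≤ h.sat t₀ →
    ∃ j : ℕ, ∃ a ∈ G.R j, a ≠ 0 ∧ ∀ m ∈ W, G.mono j a • m ∈ F (t₀ + j)) (fun m hm => by
      obtain ⟨j, a, ha, ha0, h1⟩ := hm (Submodule.mem_span_singleton_self m)
      refine ⟨j, a, ha, ha0, fun m' hm' => ?_⟩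
      obtain ⟨s, rfl⟩ := Submodule.mem_span_singleton.1 hm'
      rw [smul_comm]
      exact Submodule.smul_mem _ _ h1) (fun W W' _ _ ih ih' hW => by
      obtain ⟨i, a, ha, ha0, h1⟩ := ih (le_sup_left.trans hW)
      obtain ⟨j, b, hb, hb0, h2⟩ := ih' (le_sup_right.trans hW)
      refine ⟨i + j, a * b, G.mul _ _ a ha b hb, mul_ne_zero ha0 hb0, fun m hm => ?_⟩
      obtain ⟨m, hm1, m', hm', rfl⟩ := Submodule.mem_sup.1 hm
      rw [smul_add]
      refine add_mem (h.two ha hb (h1 m hm1)) ?_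
      rw [add_comm i, mul_comm]
      exact h.two hb ha (h2 m' hm')) _ (IsNoetherian.noetherian _) le_rfl
  refine ⟨j, a, ha, ha0, eventually_atTop.2 ⟨t₀, fun t ht => ?_⟩⟩
  induction t, ht using Int.leInduction with
  | base => exact h1
  | succ t ht ih =>
    intro m hm
    obtain ⟨b, hb, rfl⟩ := h0 t ht m hm
    rw [Finset.smul_sum, add_right_comm]
    exact Submodule.sum_mem _ fun i _ => by rw [smul_comm]; exact h.cl i _ _ (ih _ (hb i))

theorem disc {N : ℕ} (hN : 0 < N) {h : ℤ → ℕ} {β γ : ℚ} (hq : EvQ (fun t => h t) (N / 2) β γ)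
    (h0 : ∀ t : ℤ, 0 ≤ (N : ℚ) / 2 * (t : ℚ) ^ 2 + β * t + γ) :
    ∃ z : ℤ, -(N : ℤ) ^ 2 ≤ z ∧ (z : ℚ) = 8 * N * γ - 4 * β ^ 2 := by
  obtain ⟨T, hT⟩ := eventually_atTop.1 hq
  have h1 := hT (2 * |T|) (by have := le_abs_self T; have := abs_nonneg T; omega)
  have h2 := hT (2 * |T| + 1) (by have := le_abs_self T; have := abs_nonneg T; omega)
  obtain ⟨B, hB⟩ : ∃ B : ℤ, (B : ℚ) = 2 * β :=
    ⟨2 * h (2 * |T| + 1) - 2 * h (2 * |T|) - N * (4 * |T| + 1), by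
      push_cast at h1 h2 ⊢; rw [h1, h2]; ring⟩
  obtain ⟨C, hC⟩ : ∃ C : ℤ, (C : ℚ) = γ :=
    ⟨h (2 * |T|) - 2 * N * |T| ^ 2 - B * |T|, by push_cast at h1 ⊢; rw [h1, hB]; ring⟩
  have e : ((8 * N * C - B ^ 2 : ℤ) : ℚ) = 8 * N * γ - 4 * β ^ 2 := by
    push_cast; rw [hB, hC]; ring
  refine ⟨_, ?_, e⟩
  have hN' : (0 : ℚ) < N := by exact_mod_cast hN
  obtain ⟨y, rfl⟩ : ∃ y, β = -(y * N) := ⟨-β / N, by field_simp⟩
  have h3 := abs_le.1 (abs_sub_round y)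
  have h4 := h0 (round y)
  have h5 : (y - round y) ^ 2 ≤ 1 / 4 := by nlinarith [h3.1, h3.2]
  have : (-(N : ℚ) ^ 2) ≤ ((8 * N * C - (B : ℤ) ^ 2 : ℤ) : ℚ) := by
    rw [e]
    nlinarith [mul_nonneg hN'.le h4, mul_le_mul_of_nonneg_left h5 (sq_nonneg (N : ℚ))]
  exact_mod_cast this

/-- an intermediate family as a family of submodules -/
theorem mid {F : ℤ → Submodule G.S M} (h : Pre G F) (D : ℤ → Submodule k M)
    (h1 : ∀ t, (F (t + 1)).restrictScalars k ≤ D t) (h2 : ∀ t, D t ≤ (F t).restrictScalars k)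
    (h3 : ∀ (j : ℕ) t, ∀ a ∈ G.R j, ∀ m ∈ D t, G.mono j a • m ∈ D (t + j)) :
    ∃ E : ℤ → Submodule G.S M, Pre G E ∧ ∀ t, (E t).restrictScalars k = D t := by
  have key : ∀ (j : ℕ) t, ∀ s ∈ G.ge j, ∀ m ∈ D t, s • m ∈ D (t + j) := fun j t s hs m hm => by
    have := h.mul (j + 1) t _ (G.sub_mono_mem_ge hs) m (h2 t hm)
    rw [Nat.cast_succ, ← add_assoc] at this
    simpa [sub_smul] using add_mem (h1 _ this) (h3 j t _ (s.2 j) m hm)
  obtain ⟨t₀, h0⟩ := h.top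
  obtain ⟨c, hc⟩ := h.up
  exact ⟨fun t => ⟨(D t).toAddSubmonoid, fun s m hm => by
      simpa using key 0 t s (by simp [G.ge_zero]) m hm⟩,
    ⟨fun t m hm => h1 t (h2 _ hm), key, ⟨t₀ - 1, top_le_iff.1 fun m _ => h1 _ (by simp [h0])⟩,
      c, fun s m hm => hc s (h2 _ hm)⟩, fun _ => rfl⟩

end MFH
open MFH

theorem exists_minF [Module.Finite G.S M] [Nontrivial M]
    (h : IsWeaklyRegular M [G.xs 0, G.xs 1, G.xs 2]) :
    ∃ (F : ℤ → Submodule G.S M) (N : ℕ) (β γ : ℚ), MinF G F N β γ := by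
  have hf : FinCod ((qM G.xs M 1).restrictScalars k) ⊤ :=
    (G.finCod_ge (G.t1 + 1)).mono (fun _ hm => Submodule.smul_mono_left (G.ge_le_pow 1) hm) le_rfl
  have hL := fun F (hF : Pre G F) => lemA G.xs h hf F hF.anti hF.cl hF.top hF.up
  have hN : 0 < cod ((qM G.xs M 1).restrictScalars k) ⊤ := Nat.pos_of_ne_zero fun h0 =>
    Submodule.top_ne_ideal_smul_of_le_jacobson_annihilator (R := G.S) (M := M)
      ((G.pow_le_ge 1).trans (G.max_eq.ge.trans (IsLocalRing.maximalIdeal_le_jacobson _)))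
      (top_le_iff.1 fun _ _ => le_of_cod_eq_zero hf h0 trivial).symm
  generalize cod ((qM G.xs M 1).restrictScalars k) ⊤ = N at hL hN
  have hN' : (0 : ℚ) < N := by exact_mod_cast hN
  let P : (ℤ → Submodule G.S M) → ℚ → ℚ → Prop := fun F β γ => Pre G F ∧ Sat G F ∧
    EvQ (fun t => (cod ((F (t + 1)).restrictScalars k) ((F t).restrictScalars k) : ℚ)) (N / 2) β γ ∧
      ∀ t : ℤ, 0 ≤ (N : ℚ) / 2 * (t : ℚ) ^ 2 + β * t + γ
  have hP : ∀ F (hF : Pre G F), ∃ β γ, P hF.sat β γ := fun F hF =>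
    (hL _ (hF.sat_pre h hf)).2.imp fun β => Exists.imp fun γ h1 => ⟨hF.sat_pre h hf, hF.sat_sat, h1⟩
  obtain ⟨z, ⟨F, β, γ, ⟨hF, hS, h1, h2⟩, hz⟩, hmin⟩ := Int.exists_least_of_bdd
    (P := fun z : ℤ => ∃ F β γ, P F β γ ∧ (z : ℚ) = 8 * N * γ - 4 * β ^ 2)
    ⟨-(N : ℤ) ^ 2, fun z ⟨F, β, γ, h1, h2⟩ => by
      obtain ⟨z', h3, h4⟩ := disc hN h1.2.2.1 h1.2.2.2
      rwa [show z = z' by exact_mod_cast h2.trans h4.symm]⟩ (by
      obtain ⟨β, γ, h1⟩ := hP _ pre_ge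
      obtain ⟨z, -, h2⟩ := disc hN h1.2.2.1 h1.2.2.2
      exact ⟨z, _, β, γ, h1, h2⟩)
  have fin := (hL F hF).1
  refine ⟨F, N, β, γ, hN, hF.anti, hF.mul, hF.top.imp fun t₀ h0 t ht =>
    top_le_iff.1 (h0.ge.trans (antitone_int_of_succ_le hF.anti ht)), fun j t a ha ha0 m _ hm =>
    hS j _ a ha ha0 m (by rwa [add_right_comm]), fin, hF.gen, h1, h2, fun D d1 d2 d3 => ?_⟩
  obtain ⟨E, hE, hED⟩ := mid hF D d1 d2 d3
  obtain ⟨β₁, γ₁, h3⟩ := hP E hE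
  obtain ⟨z₁, -, h4⟩ := disc hN h3.2.2.1 h3.2.2.2
  have h5 : 8 * N * γ - 4 * β ^ 2 ≤ 8 * N * γ₁ - 4 * β₁ ^ 2 := by
    rw [← hz, ← h4]
    exact_mod_cast hmin z₁ ⟨_, _, _, h3, h4⟩
  have s1 : ∀ t, D t ≤ (hE.sat t).restrictScalars k := fun t m hm => hE.le_sat t (by
    rwa [← hED] at hm)
  have s2 : ∀ t, (hE.sat t).restrictScalars k ≤ (F t).restrictScalars k := by
    rintro t m ⟨j, a, ha, ha0, hm⟩
    exact hS j t a ha ha0 m (d2 _ (hED _ ▸ hm))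
  set g : ℤ → ℚ := fun t => cod ((F (t + 1)).restrictScalars k) ((hE.sat t).restrictScalars k)
  set N' := N + β - β₁
  set β' := N / 2 + β + γ - γ₁ - N' / 2
  obtain ⟨c, hc⟩ := SeqH.PD.const (g := fun t => g t - (N' / 2 * (t : ℚ) ^ 2 + β' * t)) (by
    change ∀ᶠ t : ℤ in atTop, _
    filter_upwards [SeqH.ev_shift h1, h3.2.2.1] with t e1 e2
    rw [cod_add ((d1 _).trans (s1 _)) (s2 _) ((fin _).mono le_rfl le_top)] at e1
    rw [cod_add (s2 _) ((d1 _).trans (s1 _)) (((hL _ h3.1).1 _).mono le_rfl le_top)] at e2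
    simp only [g, N', β']
    push_cast at e1 e2 ⊢
    linarith)
  have n0 : 0 ≤ N' / 2 := SeqH.ev_nonneg_quad (b := β') (c := c) (hc.mono fun t ht => by
    have : 0 ≤ g t := Nat.cast_nonneg _
    linarith)
  have n1 : 0 ≤ N / 2 - N' / 2 := SeqH.ev_nonneg_quad (b := β - β') (c := γ - c) (by
    filter_upwards [hc, h1] with t ht e1
    have : g t ≤ cod ((F (t + 1)).restrictScalars k) ((F t).restrictScalars k) :=
      Nat.cast_le.2 (cod_mono ((fin _).mono le_rfl le_top) le_rfl (s2 t))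
    linarith)
  obtain ⟨j, a, ha, ha0, h6⟩ := hE.single h3.1
  refine ⟨N', β', N' * j + |β'| * (j + 1) + |c|, by linarith, by linarith, ?_, ?_⟩
  · rw [← sub_nonneg, show β * N' / N + N' * (N - N') / (2 * N) - β' =
      (8 * N * γ₁ - 4 * β₁ ^ 2 - (8 * N * γ - 4 * β ^ 2)) / (8 * N) by
        simp only [N', β']; field_simp; ring]
    exact div_nonneg (sub_nonneg.2 h5) (by positivity)
  filter_upwards [hc, (tendsto_atTop_add_const_right atTop (-(j : ℤ)) tendsto_id).eventually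
    (hc.and h6), eventually_ge_atTop (1 : ℤ)] with t e1 ⟨e2, e3⟩ e4
  have e5 : (1 : ℚ) ≤ t := by exact_mod_cast e4
  have e6 : (0 : ℚ) ≤ j := Nat.cast_nonneg j
  have b1 := abs_le.1 (le_refl |β'|)
  have b2 := abs_le.1 (le_refl |c|)
  constructor
  · have : g (t + -j) ≤ cod ((F (t + 1)).restrictScalars k) (D t) := Nat.cast_le.2
      (cod_le_of_map ((LinearMap.lsmul G.S M (G.mono j a)).restrictScalars k)
        ((fin _).mono le_rfl le_top) (fun y hy => by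
          simpa [← hED] using e3 y hy) fun y _ hy => hS j _ a ha ha0 y (by
          rwa [show t + -j + 1 + j = t + 1 by ring])).2
    simp only [id] at e2
    push_cast at e2
    linarith [mul_nonneg n0 (sq_nonneg (j : ℚ)), mul_nonneg (sub_nonneg.2 e5) (abs_nonneg c),
      mul_nonneg (sub_nonneg.2 b1.1) (zero_le_one.trans e5), mul_nonneg (sub_nonneg.2 b1.2) e6,
      mul_nonneg (mul_nonneg (abs_nonneg β') e6) (sub_nonneg.2 e5)]
  · have : (cod ((F (t + 1)).restrictScalars k) (D t) : ℚ) ≤ g t :=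
      Nat.cast_le.2 (cod_mono ((fin _).mono le_rfl le_top) le_rfl (s1 t))
    linarith [mul_nonneg n0 e6, mul_nonneg (abs_nonneg β') e6, abs_nonneg β']

end Vale.Agent.P190
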