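import Vale.Agent.P190.PointA

/-! P190 job Point: Frobenius power of the ideal of a point. -/

namespace Vale.Agent.P190
open MvPolynomial Module Filter

variable {k : Type} [Field k]

/-- Frobenius power of a family -/
noncomputable def frobF (p : ℕ) (N : Dv → Submodule k (K k)) (a : Dv) : Submodule k (K k) :=
  Submodule.span k {x | ∃ a' : Dv, ∃ f ∈ N a', ∃ c ∈ LL k (a - (p : ℤ) • a'), x = c * f ^ p}

/-- colength of a family of ideals along a slice -/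
noncomputable def col (N : Dv → Submodule k (K k)) (b : Dv) (t : ℤ) : ℚ :=
  sumS (fun a => (finrank k (LL k a) : ℚ) - finrank k (N a)) b t

theorem frobF_tcl (p : ℕ) (N : Dv → Submodule k (K k)) : TCl (frobF p N) := by
  intro a a' f x hf hx
  induction hf using Submodule.span_induction with
  | mem f hf =>
    obtain ⟨b, g, hg, c, hc, rfl⟩ := hf
    refine Submodule.subset_span ⟨b, g, hg, c * x, ?_, by ring⟩
    rw [show a + a' - (p : ℤ) • b = a - (p : ℤ) • b + a' by abel]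
    exact LL_mul hc hx
  | zero => simp
  | add f g _ _ hf hg => rw [mul_add]; exact add_mem hf hg
  | smul c f _ hf => rw [mul_smul_comm]; exact Submodule.smul_mem _ c hf

theorem frobF_le (p : ℕ) {N : Dv → Submodule k (K k)} (hle : ∀ a, N a ≤ LL k a) (a : Dv) :
    frobF p N a ≤ LL k a := by
  rw [frobF, Submodule.span_le]
  rintro _ ⟨b, g, hg, c, hc, rfl⟩
  simpa using LL_mul hc (LL_pow (hle b hg) p)

variable {N : Dv → Submodule k (K k)} {y : Dv}

theorem pow_mem_frobF (p : ℕ) {a : Dv} {f : K k} (hf : f ∈ N a) :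
    f ^ p ∈ frobF p N ((p : ℤ) • a) :=
  Submodule.subset_span ⟨a, f, hf, 1, one_mem_LL.mpr (by simp), by simp⟩

theorem col_eq (hle : ∀ a, N a ≤ LL k a) (b : Dv) (t : ℤ) :
    col N b t = ∑ c, (cod (N (b + t • C0 + gam c)) (LL k (b + t • C0 + gam c)) : ℚ) := by
  simp only [col, sumS, cod_eq hle]

theorem PrimeF.bound (h : PrimeF N) {r : Pm} (hr : ∀ e, (1 : K k) ∈ N (sgl e) → Cp r e = 0)
    (hbd : ∃ (b : Dv) (C : ℚ), ∀ᶠ t : ℤ in atTop, col N b t ≤ C) :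
    ∃ B : ℕ, ∀ a, cod (N a) (LL k a) ≤ B := by
  obtain ⟨b, C, hC⟩ := hbd
  refine ⟨⌈C⌉₊, fun a => ?_⟩
  obtain ⟨t, h1, x, c, d, hd, hx, hx', e⟩ := (hC.and (reach r a b)).exists
  have h2 := h.cod_mono a hx fun e he => hx' e (hr e he)
  have h3 := per_cod h.tcl h.le (b + t • C0 + gam c) d hd
  rw [col_eq h.le] at h1
  have h4 := (Finset.single_le_sum (f := fun c =>
    (cod (N (b + t • C0 + gam c)) (LL k (b + t • C0 + gam c)) : ℚ))
    (fun _ _ => Nat.cast_nonneg _) (Finset.mem_univ c)).trans (h1.trans (Nat.le_ceil C))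
  simp only [← e] at h3
  rw [← h3] at h4
  exact h2.trans (by exact_mod_cast h4)

theorem PrimeF.ev_prime (h : PrimeF N) (hy : 0 ≤ y) {φ ψ : K k} (h1 : φ ∈ Ev (LL k) y 0)
    (h2 : ψ ∈ Ev (LL k) y 0) (h3 : φ * ψ ∈ Ev N y 0) : φ ∈ Ev N y 0 ∨ ψ ∈ Ev N y 0 := by
  obtain ⟨M, ⟨a1, a2⟩, a3⟩ := (((mem_Ev.mp h1).and (mem_Ev.mp h2)).and (mem_Ev.mp h3)).exists
  have : 0 + (M : ℤ) • y ≤ 0 + (M : ℤ) • y + (0 + (M : ℤ) • y) :=
    le_add_of_nonneg_right (by rw [zero_add]; exact smul_nonneg (by positivity) hy)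
  exact (h.prime _ _ _ _ a1 a2 (h.tcl.mono this a3)).imp (Ev_of h.tcl hy) (Ev_of h.tcl hy)

theorem PrimeF.ev_down (h : PrimeF N) (hy : 0 ≤ y) (hZ : ∀ e, (1 : K k) ∈ N (sgl e) → y e = 0)
    {a : Dv} {φ : K k} (h1 : φ ∈ LL k a) (h2 : φ ∈ Ev N y a) : φ ∈ N a := by
  obtain ⟨M, hM⟩ := (mem_Ev.mp h2).exists
  exact h.down (smul_nonneg (by positivity) hy) (fun e he => by simp [hZ e he]) h1 hM

theorem PrimeF.ev_one (h : PrimeF N) (hy : 0 ≤ y) (hZ : ∀ e, (1 : K k) ∈ N (sgl e) → y e = 0) :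
    (1 : K k) ∉ Ev N y 0 := fun h1 => h.one (h.ev_down hy hZ (one_mem_LL.mpr le_rfl) h1)

theorem const_mem_Ev (hy : 0 ≤ y) (c : k) : algebraMap k (K k) c ∈ Ev (LL k) y 0 := by
  rw [Algebra.algebraMap_eq_smul_one]
  exact Submodule.smul_mem _ _ (Ev_of' LL_tcl hy (one_mem_LL.mpr le_rfl))

theorem PrimeF.exists_val [IsAlgClosed k] (h : PrimeF N) (hy : 0 ≤ y)
    (hZ : ∀ e, (1 : K k) ∈ N (sgl e) → y e = 0) {B : ℕ} (hB : ∀ a, cod (N a) (LL k a) ≤ B)
    {φ : K k} (hφ : φ ∈ Ev (LL k) y 0) : ∃ c : k, φ - algebraMap k (K k) c ∈ Ev N y 0 := by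
  have hpow : ∀ n : ℕ, φ ^ n ∈ Ev (LL k) y 0 := by
    intro n
    induction n with
    | zero => simpa using const_mem_Ev hy (1 : k)
    | succ n ih => rw [pow_succ]; exact Ev_mul0 LL_tcl hy hφ ih
  obtain ⟨P, hP, hP0⟩ : ∃ P : Polynomial k, Polynomial.aeval φ P ∈ Ev N y 0 ∧ P ≠ 0 := by
    obtain ⟨M, hM⟩ := (Filter.eventually_all.mpr fun i : Fin (B + 1) => mem_Ev.mp (hpow i)).exists
    set a := 0 + (M : ℤ) • y
    let T : (Fin (B + 1) → k) →ₗ[k] K k := Fintype.linearCombination k fun i => φ ^ (i : ℕ)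
    have h1 := cod_map T (N a) ⊤
    have h2 : cod (N a) ((⊤ : Submodule k _).map T) ≤ B := by
      refine (Vale.Agent.P190.cod_mono (finCod_fd _ (LL k a)).1 le_rfl ?_).trans (hB a)
      rintro _ ⟨c, -, rfl⟩
      rw [Fintype.linearCombination_apply]
      exact sum_mem fun i _ => Submodule.smul_mem _ _ (hM i)
    rw [finrank_top, finrank_fin_fun] at h1
    obtain ⟨c, hc, hc0⟩ : ∃ c ∈ (⊤ : Submodule k _) ⊓ (N a).comap T, c ≠ 0 := by
      refine Submodule.exists_mem_ne_zero_of_ne_bot fun h0 => ?_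
      rw [h0, finrank_bot] at h1
      omega
    refine ⟨∑ i : Fin (B + 1), Polynomial.monomial (i : ℕ) (c i), Ev_of h.tcl hy (M := M) ?_, fun h0 => hc0 ?_⟩
    · have : T c ∈ N a := hc.2
      rw [Fintype.linearCombination_apply] at this
      simpa only [map_sum, Polynomial.aeval_monomial, ← Algebra.smul_def] using this
    · funext i
      have := congrArg (fun P => Polynomial.coeff P i) h0
      simpa [Polynomial.coeff_monomial, Fin.val_inj] using this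
  have key : ∀ s : Multiset k, (s.map fun c => φ - algebraMap k (K k) c).prod ∈ Ev (LL k) y 0 ∧
      ((s.map fun c => φ - algebraMap k (K k) c).prod ∈ Ev N y 0 →
        ∃ c : k, φ - algebraMap k (K k) c ∈ Ev N y 0) := by
    intro s
    induction s using Multiset.induction_on with
    | empty => exact ⟨by simpa using hpow 0, fun h1 => (h.ev_one hy hZ (by simpa using h1)).elim⟩
    | cons c s ih =>
      have h1 := sub_mem hφ (const_mem_Ev hy c)
      rw [Multiset.map_cons, Multiset.prod_cons]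
      exact ⟨Ev_mul0 LL_tcl hy ih.1 h1, fun h2 =>
        (h.ev_prime hy h1 ih.1 h2).elim (fun h3 => ⟨c, h3⟩) ih.2⟩
  refine (key P.roots).2 ?_
  rw [(IsAlgClosed.splits P).eq_prod_roots, map_mul, Polynomial.aeval_C, ← Algebra.smul_def,
    Submodule.smul_mem_iff _ (Polynomial.leadingCoeff_ne_zero.mpr hP0), map_multiset_prod,
    Multiset.map_map] at hP
  simpa using hP

theorem PrimeF.local (h : PrimeF N) (s : Pm) (hy : 0 ≤ y) (he : y (E s 0 1) = 0)
    (hf : y (E s 2 3) = 0) (hy' : ∀ e, e ≠ E s 0 1 → e ≠ E s 2 3 → 1 ≤ y e)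
    (hZ : ∀ e, (1 : K k) ∈ N (sgl e) → y e = 0) {a b : k}
    (ha : uv k s 0 - algebraMap k (K k) a ∈ Ev N y 0)
    (hb : uv k s 1 - algebraMap k (K k) b ∈ Ev N y 0) :
    ∀ φ ∈ Ev (LL k) y 0, ∃ c : k, ∃ φ₁ ∈ Ev (LL k) y 0, ∃ φ₂ ∈ Ev (LL k) y 0,
      φ = algebraMap k (K k) c + (uv k s 0 - algebraMap k (K k) a) * φ₁ +
        (uv k s 1 - algebraMap k (K k) b) * φ₂ := by
  set Y := uv k s 0 - algebraMap k (K k) a with hY
  set Y' := uv k s 1 - algebraMap k (K k) b with hY'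
  set O := Ev (LL k) y 0
  have hm : ∀ {x z}, x ∈ O → z ∈ O → x * z ∈ O := fun hx hz => Ev_mul0 LL_tcl hy hz hx
  have hc : ∀ c, algebraMap k (K k) c ∈ O := const_mem_Ev hy
  have h1 : (1 : K k) ∈ O := by simpa using hc 1
  have hu : ∀ g ∈ Gam, 0 ≤ g (E s 0 1) → 0 ≤ g (E s 2 3) → gu k g ∈ O := fun g hg h1 h2 =>
    (mem_Ev_LL he hf hy').mpr ⟨gu_mem hg, Or.inr (by simp [nu_gu hg, h1, h2])⟩
  let V : Subalgebra k (K k) :=
    { carrier := {φ | φ ∈ O ∧ ∃ c : k, ∃ φ₁ ∈ O, ∃ φ₂ ∈ O,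
        φ = algebraMap k (K k) c + Y * φ₁ + Y' * φ₂}
      mul_mem' := by
        rintro x z ⟨hx, c, x₁, hx₁, x₂, hx₂, ex⟩ ⟨hz, d, z₁, hz₁, z₂, hz₂, ez⟩
        refine ⟨hm hx hz, c * d, _, add_mem (hm (hc c) hz₁) (hm hx₁ hz), _,
          add_mem (hm (hc c) hz₂) (hm hx₂ hz), ?_⟩
        rw [map_mul]
        linear_combination z * ex + algebraMap k (K k) c * ez
      add_mem' := by
        rintro x z ⟨hx, c, x₁, hx₁, x₂, hx₂, ex⟩ ⟨hz, d, z₁, hz₁, z₂, hz₂, ez⟩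
        refine ⟨add_mem hx hz, c + d, _, add_mem hx₁ hz₁, _, add_mem hx₂ hz₂, ?_⟩
        rw [map_add]
        linear_combination ex + ez
      algebraMap_mem' := fun c => ⟨hc c, c, 0, zero_mem _, 0, zero_mem _, by simp⟩ }
  have g0 := fun i => gb_ce s i 0
  have g1 := fun i => gb_ce s i 1
  simp only [ce, Matrix.cons_val_zero, Matrix.cons_val_one] at g0 g1
  have hO : ∀ i, cu k s i ∈ O := fun i => (cu_Sg s i).mem (hu _ (gb_mem s i)
    (by rw [g0]; split_ifs <;> simp) (by rw [g1]; split_ifs <;> simp))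
  have v0 : uv k s 0 ∈ V := ⟨cu_zero (k := k) s ▸ hO 0, a, 1, h1, 0, zero_mem _, by simp [hY]⟩
  have v1 : uv k s 1 ∈ V := ⟨cu_one (k := k) s ▸ hO 1, b, 0, zero_mem _, 1, h1, by simp [hY']⟩
  have hV : ∀ i, cu k s i ∈ V := by
    intro i
    fin_cases i
    · exact cu_zero (k := k) s ▸ v0
    · exact cu_one (k := k) s ▸ v1
    · exact cu_two (k := k) s ▸ add_mem V.one_mem v1
    · exact cu_three (k := k) s ▸ sub_mem V.one_mem v0
    · exact cu_four (k := k) s ▸ sub_mem (add_mem V.one_mem v1) v0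
  have hinv : ∀ i, i ≠ 0 → i ≠ 1 → (cu k s i)⁻¹ ∈ V := by
    intro i h0 h1'
    have hi : (cu k s i)⁻¹ ∈ O := by
      have := ((cu_Sg (k := k) s i).zpow (-1)).mem (U := O) (by
        rw [← gu_zsmul]
        exact hu _ (zsmul_mem (gb_mem s i) _) (by simp [g0, h0]) (by simp [g1, h1']))
      simpa using this
    obtain ⟨-, c, x₁, hx₁, x₂, hx₂, ex⟩ := hV i
    have hne := cu_ne_zero (k := k) s i
    have hc0 : c ≠ 0 := by
      rintro rfl
      refine h.ev_one hy hZ ?_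
      have := Ev_mul0 h.tcl hy (add_mem (Ev_mul0 h.tcl hy ha hx₁) (Ev_mul0 h.tcl hy hb hx₂)) hi
      rwa [show x₁ * Y + x₂ * Y' = cu k s i by rw [ex, map_zero]; ring, inv_mul_cancel₀ hne] at this
    have hc1 : algebraMap k (K k) c ≠ 0 := by simpa using hc0
    refine ⟨hi, c⁻¹, _, neg_mem (hm (hm (hc c⁻¹) hi) hx₁), _, neg_mem (hm (hm (hc c⁻¹) hi) hx₂), ?_⟩
    rw [map_inv₀]
    field_simp
    linear_combination -ex
  intro φ hφ
  obtain ⟨hB, hφ'⟩ := (mem_Ev_LL he hf hy').mp hφ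
  have := pair_chart s hB (a := 0) (b := 0) (hφ'.imp_right fun h => by
    simp only [Pi.zero_apply] at h; omega)
  suffices φ ∈ Subalgebra.toSubmodule V from this.2
  refine Submodule.span_le.mpr ?_ this
  rintro _ ⟨g, hg, h2, h3, rfl⟩
  refine (gu_Sg s hg).mem (U := Subalgebra.toSubmodule V) (prod_mem (S := V) fun i _ => ?_)
  rcases le_or_gt 0 (g (ce s i)) with h4 | h4
  · rw [← Int.toNat_of_nonneg h4, zpow_natCast]; exact pow_mem (hV i) _
  · have : g (ce s i) = -((-g (ce s i)).toNat : ℤ) := by omega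
    rw [this, zpow_neg, zpow_natCast, ← inv_pow]
    refine pow_mem (hinv i ?_ ?_) _
    · rintro rfl; exact absurd h2 (not_le.mpr h4)
    · rintro rfl; exact absurd h3 (not_le.mpr h4)

open Classical in
/-- the local exponent -/
noncomputable def cc (p : ℕ) (Z : Prop) (x : ZMod 11) : ℕ :=
  if Z then (p + 10 - x.val) / 11 else p

theorem box_side (p : ℕ) (hy : 0 ≤ y) {e f : Edge} (hef : e ≠ f)
    (hEv : ∀ a φ, φ ∈ Ev (LL k) y a ↔
      φ ∈ BB k ∧ (φ = 0 ∨ (0 ≤ 11 * nu e φ + a e ∧ 0 ≤ 11 * nu f φ + a f)))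
    {Y w : K k} (hY : Y ∈ Ev N y 0)
    (hY' : (1 : K k) ∈ N (sgl e) → Y ∈ BB k ∧ Y ≠ 0 ∧ nu e Y = 1 ∧ nu f Y = 0) {a : Dv}
    (hw : w ∈ BB k) (hw0 : w ≠ 0) (h1 : nu e w = -(a e / 11)) (h2 : nu f w = -(a f / 11)) :
    ∀ φ ∈ Ev (LL k) y 0,
      w * Y ^ cc p ((1 : K k) ∈ N (sgl e)) (a e) * φ ∈ Ev (frobF p N) y a := by
  intro φ hφ
  unfold cc
  split_ifs with hZ
  · obtain ⟨b1, b2, b3, b4⟩ := hY' hZ
    set c := (p + 10 - ((a e : ℤ) : ZMod 11).val) / 11 with hc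
    have e1 : w * Y ^ c ∈ Ev (LL k) y (a - (p : ℤ) • sgl e) := by
      refine (hEv _ _).mpr ⟨mul_mem hw (pow_mem b1 _), Or.inr ?_⟩
      have := ZMod.val_intCast (n := 11) (a e)
      simp only [nu_mul _ hw0 (pow_ne_zero c b2), nu_pow _ b2, h1, h2, b3, b4, Pi.sub_apply,
        Pi.smul_apply, sgl, Pi.single_eq_same, Pi.single_eq_of_ne hef.symm, smul_eq_mul]
      omega
    have := Ev_mul (frobF_tcl p N) hy (Ev_of' (frobF_tcl p N) hy (pow_mem_frobF p hZ))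
      (Ev_mul0 LL_tcl hy e1 hφ)
    rwa [add_sub_cancel, one_pow, mul_one, mul_comm] at this
  · have e1 : w ∈ Ev (LL k) y a := (hEv _ _).mpr ⟨hw, Or.inr (by rw [h1, h2]; omega)⟩
    obtain ⟨M, hM⟩ := (mem_Ev.mp hY).exists
    have e2 : Y ^ p ∈ Ev (frobF p N) y 0 := Ev_of (frobF_tcl p N) hy (M := p * M) (by
      have := pow_mem_frobF p hM
      rwa [zero_add, smul_smul, ← Nat.cast_mul, ← zero_add (_ • y)] at this)
    have := Ev_mul (frobF_tcl p N) hy e2 (Ev_mul0 LL_tcl hy e1 hφ)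
    rwa [zero_add, show φ * w * Y ^ p = w * Y ^ p * φ by ring] at this

theorem PrimeF.ev_sat (p : ℕ) [Fact p.Prime] [CharP k p] (h : PrimeF N) (hy : 0 ≤ y)
    (hZ : ∀ e, (1 : K k) ∈ N (sgl e) → y e = 0) (hG : ∀ r, y - (4 : ℤ) • Cp r ∈ Gam)
    (hval : ∀ φ ∈ Ev (LL k) y 0, ∃ c : k, φ - algebraMap k (K k) c ∈ Ev N y 0)
    {a : Dv} {φ : K k} (h1 : φ ∈ LL k a) (h2 : φ ∈ Ev (frobF p N) y a) :
    φ ∈ sat (frobF p N) a := by
  have hp : 1 ≤ p := (Fact.out : p.Prime).one_le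
  haveI : CharP (K k) p := charP_of_injective_algebraMap (algebraMap k (K k)).injective p
  refine (mem_sat (frobF_tcl p N)).mpr ⟨h1, fun r => ?_⟩
  obtain ⟨M, hM⟩ := (mem_Ev.mp h2).exists
  have hC : ∀ e, 0 ≤ Cp r e := fun e => by rcases Cp_cases r e with h | h <;> simp [h]
  set g := (M : ℤ) • (y - (4 : ℤ) • Cp r) with hg
  have hgm : g ∈ Gam := zsmul_mem (hG r) M
  have e1 : gu k (-g) ∈ LL k (0 + ((11 * M : ℕ) : ℤ) • y) := by
    refine (gu_mem_LL (neg_mem hgm)).mpr fun e => ?_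
    have := mul_nonneg (Int.natCast_nonneg M) (hC e)
    simp only [hg, Pi.neg_apply, Pi.smul_apply, Pi.sub_apply, smul_eq_mul, Pi.add_apply,
      Pi.zero_apply]
    push_cast; linarith
  obtain ⟨c, hc⟩ := hval _ (Ev_of LL_tcl hy e1)
  have e2 : gu k (-g) - algebraMap k (K k) c ∈ N (0 + ((11 * M : ℕ) : ℤ) • y) := by
    refine h.ev_down hy hZ (sub_mem e1 ?_) ?_
    · rw [Algebra.algebraMap_eq_smul_one]
      exact Submodule.smul_mem _ _ (one_mem_LL.mpr (by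
        rw [zero_add]; exact smul_nonneg (by positivity) hy))
    · have := Ev_mul h.tcl hy hc (Ev_of' LL_tcl hy (one_mem_LL.mpr
        (smul_nonneg (a := ((11 * M : ℕ) : ℤ)) (by positivity) hy)))
      rwa [one_mul] at this
  have e3 := h.tcl _ _ _ _ e2 ((gu_mem_LL hgm (a := (11 : ℤ) • (-g))).mpr fun e => by simp)
  rw [mul_sub, ← gu_add, add_neg_cancel, gu_zero] at e3
  have e4 := frobF_tcl p N _ _ _ _ (pow_mem_frobF p e3) h1
  have e5 : gu k g ^ p ∈ LL k (((44 * M * p : ℕ) : ℤ) • Cp r - (M : ℤ) • y) := by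
    rw [← zpow_natCast, ← gu_zsmul]
    refine (gu_mem_LL (zsmul_mem hgm _)).mpr fun e => ?_
    have h3 := mul_nonneg (Int.natCast_nonneg M) (hy e)
    have h4 : (1 : ℤ) ≤ p := by exact_mod_cast hp
    simp only [hg, Pi.smul_apply, Pi.sub_apply, smul_eq_mul]
    push_cast; nlinarith
  have e6 := Submodule.smul_mem _ (c ^ p) (frobF_tcl p N _ _ _ _ hM e5)
  refine ⟨44 * M * p, ?_⟩
  rw [show (p : ℤ) • (0 + ((11 * M : ℕ) : ℤ) • y + (11 : ℤ) • -g) + a =
    a + ((44 * M * p : ℕ) : ℤ) • Cp r by rw [hg]; push_cast; module] at e4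
  rw [show a + (M : ℤ) • y + (((44 * M * p : ℕ) : ℤ) • Cp r - (M : ℤ) • y) =
    a + ((44 * M * p : ℕ) : ℤ) • Cp r by abel] at e6
  have := add_mem e4 e6
  rwa [sub_pow_char, Algebra.smul_def (c ^ p), map_pow, show φ * (1 ^ p - (gu k g * algebraMap k (K k) c) ^ p)
    + algebraMap k (K k) c ^ p * (gu k g ^ p * φ) = φ by ring] at this

theorem sum_cc (p : ℕ) (Z : Prop) [Decidable Z] :
    ∑ x, (cc p Z x : ℚ) = p * (if Z then 1 else 11 : ℕ) := by
  unfold cc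
  split_ifs
  · have h1 : ∀ r : Fin 11, ∑ x : Fin 11, (r.val + 10 - x.val) / 11 = r := by decide
    have h2 : ∀ x : Fin 11, (p + 10 - x.val) / 11 = p / 11 + (p % 11 + 10 - x.val) / 11 := by
      intro x; omega
    have : ∑ x : Fin 11, (p + 10 - x.val) / 11 = p := by
      have h3 := h1 ⟨p % 11, Nat.mod_lt _ (by norm_num)⟩
      simp only [h2, Finset.sum_add_distrib, h3, Finset.sum_const, Finset.card_univ,
        Fintype.card_fin, smul_eq_mul]
      omega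
    rw [← Nat.cast_sum, Nat.cast_one, mul_one]
    exact congrArg _ this
  · simp [mul_comm]

theorem point [IsAlgClosed k] (p : ℕ) [Fact p.Prime] [CharP k p] {N : Dv → Submodule k (K k)}
    (hN : TCl N) (hle : ∀ a, N a ≤ LL k a)
    (hprime : ∀ a a' f f', f ∈ LL k a → f' ∈ LL k a' → f * f' ∈ N (a + a') → f ∈ N a ∨ f' ∈ N a')
    (hprop : ∃ s : Pm, ∀ j : ℕ, (1 : K k) ∉ N ((j : ℤ) • Cp s))
    (hbd : ∃ (b : Dv) (C : ℚ), ∀ᶠ t : ℤ in atTop, col N b t ≤ C) :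
    ∃ c : ℕ, 1 ≤ c ∧ ∀ b : Dv, (∀ᶠ t : ℤ in atTop, (c : ℚ) ≤ col N b t) ∧
      ∀ᶠ t : ℤ in atTop, col (frobF p N) b t ≤ (p : ℚ) ^ 2 * c := by
  classical
  obtain ⟨r₀, hr₀⟩ := hprop
  have h : PrimeF N := ⟨hN, hle, hprime, by simpa using hr₀ 0⟩
  obtain ⟨s, hs⟩ := h.pair (r := r₀) (by simpa using hr₀ 1)
  obtain ⟨y, he, hf, hy', hG⟩ := exists_off s
  obtain ⟨r, hr1, hr2⟩ := exists_pent_avoid s
  have hy : 0 ≤ y := fun e => by
    by_cases h1 : e = E s 0 1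
    · simp [h1, he]
    by_cases h2 : e = E s 2 3
    · simp [h2, hf]
    exact zero_le_one.trans (hy' e h1 h2)
  have hZ : ∀ e, (1 : K k) ∈ N (sgl e) → y e = 0 := fun e h1 => by
    rcases hs e h1 with rfl | rfl <;> assumption
  have hr : ∀ e, (1 : K k) ∈ N (sgl e) → Cp r e = 0 := fun e h1 => by
    rcases hs e h1 with rfl | rfl <;> assumption
  obtain ⟨B, hB⟩ := h.bound hr hbd
  have hval := fun φ => h.exists_val hy hZ hB (φ := φ)
  have hEv := fun a φ => mem_Ev_LL (k := k) he hf hy' (a := a) (φ := φ)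
  have hEv' := fun a φ => mem_Ev_LL (k := k) hf he (fun e h1 h2 => hy' e h2 h1) (a := a) (φ := φ)
  have hef : E s 0 1 ≠ E s 2 3 := by rw [Ne, E_inj s (by decide) (by decide)]; decide
  have g0 := fun i => gb_ce s i 0
  have g1 := fun i => gb_ce s i 1
  simp only [ce, Matrix.cons_val_zero, Matrix.cons_val_one] at g0 g1
  have hu : ∀ i e, cu k s i ∈ BB k ∧ cu k s i ≠ 0 ∧ nu e (cu k s i) = gb s i e := fun i e =>
    ⟨(cu_Sg s i).mem (U := Subalgebra.toSubmodule (BB k)) (gu_mem (gb_mem s i)), cu_ne_zero s i,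
      by rw [(cu_Sg s i).nu_eq, nu_gu (gb_mem s i)]⟩
  have hY : ∀ (e f : Edge) (u : K k), e ≠ f → (∀ a φ, φ ∈ Ev (LL k) y a ↔
      φ ∈ BB k ∧ (φ = 0 ∨ (0 ≤ 11 * nu e φ + a e ∧ 0 ≤ 11 * nu f φ + a f))) →
      u ∈ BB k ∧ u ≠ 0 ∧ nu e u = 1 ∧ nu f u = 0 → ∃ a : k,
        u - algebraMap k (K k) a ∈ Ev N y 0 ∧ u - algebraMap k (K k) a ∈ Ev (LL k) y 0 ∧
        ((1 : K k) ∈ N (sgl e) → u - algebraMap k (K k) a ∈ BB k ∧ u - algebraMap k (K k) a ≠ 0 ∧
          nu e (u - algebraMap k (K k) a) = 1 ∧ nu f (u - algebraMap k (K k) a) = 0) := by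
    intro e f u hef hE hu
    have h0 : u ∈ Ev (LL k) y 0 := (hE _ _).mpr ⟨hu.1, Or.inr (by simp [hu.2.2.1, hu.2.2.2])⟩
    by_cases h1 : (1 : K k) ∈ N (sgl e)
    · refine ⟨0, ?_, by simpa using h0, fun _ => by simpa using hu⟩
      have := Ev_mul hN hy (Ev_of' hN hy h1) ((hE (-sgl e) u).mpr ⟨hu.1, Or.inr (by
        simp [hu.2.2.1, hu.2.2.2, sgl, Pi.single_eq_of_ne hef.symm])⟩)
      simpa using this
    · obtain ⟨a, ha⟩ := hval u h0
      exact ⟨a, ha, sub_mem h0 (const_mem_Ev hy a), fun h2 => (h1 h2).elim⟩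
  obtain ⟨a₀, a1, a2, a3⟩ := hY _ _ (uv k s 0) hef hEv (by
    rw [← cu_zero]; exact ⟨(hu 0 (E s 0 1)).1, (hu 0 (E s 0 1)).2.1, by simp [hu, g0], by simp [hu, g1]⟩)
  obtain ⟨b₀, b1, b2, b3⟩ := hY _ _ (uv k s 1) hef.symm hEv' (by
    rw [← cu_one]; exact ⟨(hu 1 (E s 0 1)).1, (hu 1 (E s 0 1)).2.1, by simp [hu, g1], by simp [hu, g0]⟩)
  have hloc := h.local s hy he hf hy' hZ a1 b1
  have hup : ∀ a, cod (sat (frobF p N) a) (LL k a) ≤ cc p ((1 : K k) ∈ N (sgl (E s 0 1)))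
      (a (E s 0 1)) * cc p ((1 : K k) ∈ N (sgl (E s 2 3))) (a (E s 2 3)) := by
    intro a
    set g := (-(a (E s 0 1) / 11)) • gb s 0 + (-(a (E s 2 3) / 11)) • gb s 1 with hg
    have hgm : g ∈ Gam := add_mem (zsmul_mem (gb_mem s 0) _) (zsmul_mem (gb_mem s 1) _)
    have n0 : g (E s 0 1) = -(a (E s 0 1) / 11) := by simp [hg, g0]
    have n1 : g (E s 2 3) = -(a (E s 2 3) / 11) := by simp [hg, g1]
    have m0 : nu (E s 0 1) (gu k g) = -(a (E s 0 1) / 11) := by rw [nu_gu hgm, n0]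
    have m1 : nu (E s 2 3) (gu k g) = -(a (E s 2 3) / 11) := by rw [nu_gu hgm, n1]
    have := box (Ev (LL k) y 0) (Ev (frobF p N) y a) hloc
      (fun φ hφ => Ev_mul0 LL_tcl hy hφ a2) (fun φ hφ => Ev_mul0 LL_tcl hy hφ b2) _ _
      (box_side p hy hef hEv a1 a3 (gu_mem hgm) (gu_ne_zero g) m0 m1)
      (box_side p hy hef.symm hEv' b1 b3 (gu_mem hgm) (gu_ne_zero g) m1 m0) (B := LL k a) (by
        intro ψ hψ
        refine ⟨gu k (-g) * ψ, (hEv _ _).mpr ⟨mul_mem (gu_mem (neg_mem hgm)) hψ.1, ?_⟩,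
          by rw [← mul_assoc, ← gu_add, add_neg_cancel, gu_zero, one_mul]⟩
        by_cases h0 : ψ = 0
        · simp [h0]
        have q := hψ.2.resolve_left h0
        have q0 := q (E s 0 1)
        have q1 := q (E s 2 3)
        simp only [nu_mul _ (gu_ne_zero _) h0, nu_gu (neg_mem hgm), Pi.neg_apply, n0, n1,
          Pi.zero_apply]
        right; omega)
    exact (cod_le_of_map LinearMap.id this.1 (fun _ h => h)
      fun φ h1 h2 => h.ev_sat p hy hZ hG hval h1 h2).2.trans this.2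
  have hlow : ∀ a, DeepI (fl a) → (∀ e, (1 : K k) ∈ N (sgl e) → ((a e : ℤ) : ZMod 11) = 0) →
      1 ≤ cod (N a) (LL k a) := by
    intro a ha h1
    obtain ⟨g, hg, h2, h3⟩ := unit_pent r ha
    refine Nat.one_le_iff_ne_zero.mpr fun h0 => ?_
    have h4 := le_of_cod_eq_zero (finCod_fd _ _).1 h0 ((gu_mem_LL hg).mpr h2)
    have h5 := hN _ _ _ _ h4 ((gu_mem_LL (neg_mem hg) (a := (11 : ℤ) • g)).mpr fun e => by simp)
    rw [← gu_add, neg_add_cancel, gu_zero] at h5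
    obtain ⟨e, h6, h7⟩ := h.one_mem (fun e => by simpa [add_comm] using h2 e) h5
    have h8 := h3 e (hr e h7)
    have h9 := (ZMod.intCast_zmod_eq_zero_iff_dvd _ 11).mp (h1 e h7)
    simp only [Pi.add_apply, Pi.smul_apply, smul_eq_mul] at h6
    omega
  set z₀ : ℕ := if (1 : K k) ∈ N (sgl (E s 0 1)) then 1 else 11 with hz₀
  set z₁ : ℕ := if (1 : K k) ∈ N (sgl (E s 2 3)) then 1 else 11 with hz₁
  refine ⟨1331 * (z₀ * z₁), ?_, fun b => ⟨?_, ?_⟩⟩
  · rw [hz₀, hz₁]; split_ifs <;> norm_num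
  · filter_upwards [ev_deep' b] with t ht
    have e := equid s (b + t • C0) fun x x' =>
      (if (1 : K k) ∈ N (sgl (E s 0 1)) then (if x = 0 then 1 else 0) else 1) *
      (if (1 : K k) ∈ N (sgl (E s 2 3)) then (if x' = 0 then 1 else 0) else 1)
    rw [← Finset.sum_mul_sum] at e
    rw [col_eq hle]
    refine le_trans (le_of_eq ?_) (e.symm.le.trans (Finset.sum_le_sum fun c _ => ?_))
    · rw [hz₀, hz₁]; split_ifs <;> simp <;> norm_num
    · by_cases h1 : ∀ e, (1 : K k) ∈ N (sgl e) → (((b + t • C0 + gam c) e : ℤ) : ZMod 11) = 0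
      · have : (1 : ℚ) ≤ cod (N (b + t • C0 + gam c)) (LL k (b + t • C0 + gam c)) := by
          exact_mod_cast hlow _ (ht c) h1
        refine le_trans ?_ this
        split_ifs <;> norm_num
      · push Not at h1
        obtain ⟨e, h2, h3⟩ := h1
        rcases hs e h2 with rfl | rfl
        · rw [if_pos h2, if_neg h3, zero_mul]; positivity
        · rw [if_pos h2, if_neg h3, mul_zero]; positivity
  · have hs' := Filter.eventually_all.mpr fun c : Fin 5 → Fin 11 =>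
      ev_sat_eq (frobF_tcl p N) (frobF_le p hle) (b + gam c)
    filter_upwards [hs'] with t ht
    have e := equid s (b + t • C0) fun x x' => (cc p ((1 : K k) ∈ N (sgl (E s 0 1))) x : ℚ) *
      cc p ((1 : K k) ∈ N (sgl (E s 2 3))) x'
    rw [← Finset.sum_mul_sum, sum_cc, sum_cc] at e
    rw [col_eq (frobF_le p hle)]
    refine le_trans (Finset.sum_le_sum fun c _ => ?_) (e.le.trans (le_of_eq ?_))
    · have := hup (b + t • C0 + gam c)
      rw [add_right_comm, ht c, add_right_comm] at this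
      exact_mod_cast this
    · rw [← hz₀, ← hz₁]; push_cast; ring

end Vale.Agent.P190
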