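import Vale.Agent.P190.Sop

/-! P190: tools for the point lemma. -/

namespace Vale.Agent.P190
open MvPolynomial Module Filter

variable {k : Type} [Field k]

theorem cod_fd {X : Type*} [AddCommGroup X] [Module k X] {A B : Submodule k X} (h : A ≤ B)
    [FiniteDimensional k B] : FinCod A B ∧ cod A B + finrank k A = finrank k B := by
  have := cod_map (LinearMap.id : X →ₗ[k] X) A B
  rwa [Submodule.map_id, Submodule.comap_id, inf_eq_right.mpr h] at this

theorem finCod_fd {X : Type*} [AddCommGroup X] [Module k X] (A B : Submodule k X)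
    [FiniteDimensional k B] : FinCod A B ∧ cod A B ≤ finrank k B := by
  have := cod_map (LinearMap.id : X →ₗ[k] X) A B
  rw [Submodule.map_id] at this
  exact ⟨this.1, by omega⟩

theorem LL_tcl : TCl (LL k) := fun _ _ _ _ hf hx => by
  rw [mul_comm]; exact LL_mul hf hx

theorem box {L : Type*} [Field L] [Algebra k L] (O A : Submodule k L) {Y Y' w : L}
    (h : ∀ φ ∈ O, ∃ c : k, ∃ φ₁ ∈ O, ∃ φ₂ ∈ O, φ = algebraMap k L c + Y * φ₁ + Y' * φ₂)
    (hY : ∀ φ ∈ O, Y * φ ∈ O) (hY' : ∀ φ ∈ O, Y' * φ ∈ O)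
    (c c' : ℕ) (hA : ∀ φ ∈ O, w * Y ^ c * φ ∈ A) (hA' : ∀ φ ∈ O, w * Y' ^ c' * φ ∈ A)
    {B : Submodule k L} (hB : ∀ ψ ∈ B, ∃ φ ∈ O, ψ = w * φ) :
    FinCod A B ∧ cod A B ≤ c * c' := by
  set S := Submodule.span k (Set.range fun ij : Fin c × Fin c' => w * Y ^ (ij.1 : ℕ) * Y' ^ (ij.2 : ℕ))
  have hp : ∀ (Z : L), (∀ φ ∈ O, Z * φ ∈ O) → ∀ n : ℕ, ∀ φ ∈ O, Z ^ n * φ ∈ O := by
    intro Z hZ n
    induction n with
    | zero => simp
    | succ n ih => intro φ hφ; rw [pow_succ', mul_assoc]; exact hZ _ (ih φ hφ)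
  have key : ∀ n i j : ℕ, c + c' ≤ i + j + n → ∀ φ ∈ O, w * Y ^ i * Y' ^ j * φ ∈ A ⊔ S := by
    have far : ∀ i j : ℕ, c ≤ i ∨ c' ≤ j → ∀ φ ∈ O, w * Y ^ i * Y' ^ j * φ ∈ A ⊔ S := by
      rintro i j (hi | hj) φ hφ
      · obtain ⟨i, rfl⟩ := Nat.exists_eq_add_of_le hi
        have := hA _ (hp Y hY i _ (hp Y' hY' j φ hφ))
        rw [show w * Y ^ (c + i) * Y' ^ j * φ = w * Y ^ c * (Y ^ i * (Y' ^ j * φ)) by ring]
        exact Submodule.mem_sup_left this
      · obtain ⟨j, rfl⟩ := Nat.exists_eq_add_of_le hj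
        have := hA' _ (hp Y hY i _ (hp Y' hY' j φ hφ))
        rw [show w * Y ^ i * Y' ^ (c' + j) * φ = w * Y' ^ c' * (Y ^ i * (Y' ^ j * φ)) by ring]
        exact Submodule.mem_sup_left this
    intro n
    induction n with
    | zero => intro i j hij; exact far i j (by omega)
    | succ n ih =>
      intro i j hij φ hφ
      by_cases hf : c ≤ i ∨ c' ≤ j
      · exact far i j hf φ hφ
      obtain ⟨c₀, φ₁, h1, φ₂, h2, rfl⟩ := h φ hφ
      rw [show w * Y ^ i * Y' ^ j * (algebraMap k L c₀ + Y * φ₁ + Y' * φ₂) =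
        c₀ • (w * Y ^ i * Y' ^ j) + w * Y ^ (i + 1) * Y' ^ j * φ₁ + w * Y ^ i * Y' ^ (j + 1) * φ₂ by
          rw [Algebra.smul_def]; ring]
      refine add_mem (add_mem (Submodule.smul_mem _ _ (Submodule.mem_sup_right ?_))
        (ih _ _ (by omega) _ h1)) (ih _ _ (by omega) _ h2)
      exact Submodule.subset_span ⟨⟨⟨i, by omega⟩, ⟨j, by omega⟩⟩, rfl⟩
  have hBS : B ≤ A ⊔ S := by
    intro ψ hψ
    obtain ⟨φ, hφ, rfl⟩ := hB ψ hψ
    simpa using key (c + c') 0 0 (by omega) φ hφ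
  haveI : FiniteDimensional k S := FiniteDimensional.span_of_finite k (Set.finite_range _)
  have h1 := finCod_fd A S
  have h2 : FinCod A (A ⊔ S) := by
    unfold FinCod at *
    rw [Submodule.map_sup, Submodule.mkQ_map_self, bot_sup_eq]
    exact h1.1
  refine ⟨h2.mono le_rfl hBS, (cod_mono h2 le_rfl hBS).trans ?_⟩
  rw [cod_sup]
  refine h1.2.trans ((finrank_range_le_card _).trans ?_)
  simp

/-- elements lying in the family after adding large multiples of y -/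
def Ev (N : Dv → Submodule k (K k)) (y a : Dv) : Submodule k (K k) where
  carrier := {φ | ∀ᶠ M : ℕ in atTop, φ ∈ N (a + (M : ℤ) • y)}
  zero_mem' := Eventually.of_forall fun _ => zero_mem _
  add_mem' := fun h h' => (h.and h').mono fun _ h => add_mem h.1 h.2
  smul_mem' := fun c _ h => h.mono fun _ h => Submodule.smul_mem _ c h

variable {N : Dv → Submodule k (K k)} {y : Dv}

theorem mem_Ev {a : Dv} {φ : K k} :
    φ ∈ Ev N y a ↔ ∀ᶠ M : ℕ in atTop, φ ∈ N (a + (M : ℤ) • y) := Iff.rfl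

theorem Ev_of (hN : TCl N) (hy : 0 ≤ y) {a : Dv} {φ : K k} {M : ℕ}
    (h : φ ∈ N (a + (M : ℤ) • y)) : φ ∈ Ev N y a := by
  filter_upwards [eventually_ge_atTop M] with M' hM
  refine hN.mono (add_le_add_right (smul_le_smul_of_nonneg_right ?_ hy) a) h
  exact_mod_cast hM

theorem Ev_of' (hN : TCl N) (hy : 0 ≤ y) {a : Dv} {φ : K k} (h : φ ∈ N a) : φ ∈ Ev N y a :=
  Ev_of hN hy (M := 0) (by simpa using h)

theorem Ev_mul (hN : TCl N) (hy : 0 ≤ y) {a b : Dv} {φ x : K k} (h : φ ∈ Ev N y a)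
    (hx : x ∈ Ev (LL k) y b) : x * φ ∈ Ev N y (a + b) := by
  obtain ⟨M, h1, h2⟩ := ((mem_Ev.mp h).and (mem_Ev.mp hx)).exists
  refine Ev_of hN hy (M := M + M) ?_
  have := hN _ _ _ _ h1 h2
  rwa [show a + (M : ℤ) • y + (b + (M : ℤ) • y) = a + b + ((M + M : ℕ) : ℤ) • y by
    push_cast; rw [add_smul]; abel] at this

theorem Ev_mul0 (hN : TCl N) (hy : 0 ≤ y) {a : Dv} {φ x : K k} (h : φ ∈ Ev N y a)
    (hx : x ∈ Ev (LL k) y 0) : x * φ ∈ Ev N y a := by
  simpa using Ev_mul hN hy h hx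

theorem mem_Ev_LL {e f : Edge} (he : y e = 0) (hf : y f = 0)
    (hy : ∀ e', e' ≠ e → e' ≠ f → 1 ≤ y e') {a : Dv} {φ : K k} :
    φ ∈ Ev (LL k) y a ↔
      φ ∈ BB k ∧ (φ = 0 ∨ (0 ≤ 11 * nu e φ + a e ∧ 0 ≤ 11 * nu f φ + a f)) := by
  constructor
  · intro h
    obtain ⟨M, h1, h2⟩ := (mem_Ev.mp h).exists
    refine ⟨h1, h2.imp_right fun h2 => ⟨?_, ?_⟩⟩
    · simpa [he] using h2 e
    · simpa [hf] using h2 f
  · rintro ⟨h1, h2 | h2⟩
    · rw [h2]; exact zero_mem _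
    have : ∀ᶠ M : ℕ in atTop, ∀ e', (-(11 * nu e' φ + a e')).toNat ≤ M :=
      Filter.eventually_all.mpr fun e => eventually_ge_atTop _
    filter_upwards [this] with M hM
    refine ⟨h1, Or.inr fun e' => ?_⟩
    simp only [Pi.add_apply, Pi.smul_apply, smul_eq_mul]
    by_cases h3 : e' = e
    · rw [h3, he]; simpa using h2.1
    by_cases h4 : e' = f
    · rw [h4, hf]; simpa using h2.2
    have h5 := hy e' h3 h4
    have h6 := hM e'
    have : (M : ℤ) ≤ M * y e' := le_mul_of_one_le_right (by positivity) h5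
    omega

theorem exists_off (s : Pm) : ∃ y : Dv, y (E s 0 1) = 0 ∧ y (E s 2 3) = 0 ∧
    (∀ e, e ≠ E s 0 1 → e ≠ E s 2 3 → 1 ≤ y e) ∧ ∀ r, y - (4 : ℤ) • Cp r ∈ Gam := by
  refine ⟨(3 : ℤ) • (sgl (E s 0 2) + sgl (E s 0 3) + sgl (E s 1 2) + sgl (E s 1 3)) +
    (2 : ℤ) • (sgl (E s 0 4) + sgl (E s 1 4) + sgl (E s 2 4) + sgl (E s 3 4)), ?_, ?_, ?_, ?_⟩
  · simp [sgl_E]
  · simp [sgl_E]
  · rw [forall_edge s]; simp [sgl_E]
  · intro r
    rw [mem_Gam]
    simp only [vdeg_sub, vdeg_smul, vdeg_Cp]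
    rw [forall_vertex s]
    simp only [vdeg_E]
    simp [sgl_E]

/-- homogeneous prime ideals -/
structure PrimeF (N : Dv → Submodule k (K k)) : Prop where
  tcl : TCl N
  le : ∀ a, N a ≤ LL k a
  prime : ∀ a a' f f', f ∈ LL k a → f' ∈ LL k a' → f * f' ∈ N (a + a') → f ∈ N a ∨ f' ∈ N a'
  one : (1 : K k) ∉ N 0

theorem PrimeF.one_mem (h : PrimeF N) {x : Dv} (hx : 0 ≤ x) (h1 : (1 : K k) ∈ N x) :
    ∃ e, x e ≠ 0 ∧ (1 : K k) ∈ N (sgl e) := by
  have key : ∀ n : ℕ, ∀ x : Dv, 0 ≤ x → tot x ≤ n → (1 : K k) ∈ N x →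
      ∃ e, x e ≠ 0 ∧ (1 : K k) ∈ N (sgl e) := by
    have hz : ∀ x : Dv, (1 : K k) ∈ N x → ∃ e, x e ≠ 0 := by
      intro x h1
      by_contra h0
      push Not at h0
      rw [show x = 0 from funext h0] at h1
      exact h.one h1
    intro n
    induction n with
    | zero =>
      intro x hx ht h1
      obtain ⟨e, he⟩ := hz x h1
      have h2 : x e ≤ tot x := Finset.single_le_sum (fun e _ => hx e) (Finset.mem_univ e)
      have := hx e
      simp only [Pi.zero_apply] at this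
      omega
    | succ n ih =>
      intro x hx ht h1
      obtain ⟨e, he⟩ := hz x h1
      have hx' : 0 ≤ x - sgl e := fun e' => by
        have := hx e'
        by_cases h2 : e' = e
        · subst h2; simp only [Pi.zero_apply, Pi.sub_apply, sgl, Pi.single_eq_same] at *; omega
        · simpa [sgl, Pi.single_eq_of_ne h2] using this
      have hs : 0 ≤ sgl e := fun e' => by
        by_cases h2 : e' = e
        · subst h2; simp [sgl]
        · simp [sgl, Pi.single_eq_of_ne h2]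
      have ht' : tot x = tot (x - sgl e) + 1 := by
        rw [show (1 : ℤ) = tot (sgl e) by simp [tot, sgl], ← tot_add, sub_add_cancel]
      rcases h.prime (x - sgl e) (sgl e) 1 1 (one_mem_LL.mpr hx') (one_mem_LL.mpr hs)
        (by simpa using h1) with h2 | h2
      · obtain ⟨e', h3, h4⟩ := ih _ hx' (by omega) h2
        refine ⟨e', fun h5 => h3 ?_, h4⟩
        have h6 := hx' e'
        have h7 := hs e'
        simp only [Pi.zero_apply, Pi.sub_apply] at *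
        omega
      · exact ⟨e, he, h2⟩
  exact key (tot x).toNat x hx (Int.self_le_toNat _) h1

theorem PrimeF.down (h : PrimeF N) {a x : Dv} (hx : 0 ≤ x)
    (hZ : ∀ e, (1 : K k) ∈ N (sgl e) → x e = 0) {φ : K k} (hφ : φ ∈ LL k a)
    (h1 : φ ∈ N (a + x)) : φ ∈ N a := by
  rcases h.prime a x φ 1 hφ (one_mem_LL.mpr hx) (by simpa using h1) with h2 | h2
  · exact h2
  · obtain ⟨e, h3, h4⟩ := h.one_mem hx h2
    exact (h3 (hZ e h4)).elim

theorem PrimeF.pair (h : PrimeF N) {r : Pm} (hr : (1 : K k) ∉ N (Cp r)) :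
    ∃ s : Pm, ∀ e, (1 : K k) ∈ N (sgl e) → e = E s 0 1 ∨ e = E s 2 3 := by
  refine pair_of_closed _ r (fun e he h1 => hr (h.tcl.mono (fun e' => ?_) h1)) fun s h1 h2 => ?_
  · by_cases h2 : e' = e
    · subst h2
      rcases Cp_cases r e' with h3 | h3
      · exact (he h3).elim
      · simp [sgl, h3]
    · rcases Cp_cases r e' with h3 | h3 <;> simp [sgl, Pi.single_eq_of_ne h2, h3]
  · set a : Dv := (11 : ℤ) • (sgl (E s 0 2) + sgl (E s 3 4)) with ha
    have e1 : cu k s 1 ∈ LL k (a - sgl (E s 2 3)) := by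
      refine (cu_Sg s 1).mem ((gu_mem_LL (gb_mem s 1)).mpr ?_)
      rw [forall_edge s]; simp [ha, gb, sgl_E]
    have e2 : cu k s 2 ∈ LL k (a - sgl (E s 0 3)) := by
      refine (cu_Sg s 2).mem ((gu_mem_LL (gb_mem s 2)).mpr ?_)
      rw [forall_edge s]; simp [ha, gb, sgl_E]
    have e3 := sub_mem (h.tcl _ _ _ _ h2 e2) (by
      simpa only [add_sub_cancel] using h.tcl _ _ _ _ h1 e1)
    rw [add_sub_cancel, cu_two, cu_one, mul_one, mul_one, add_sub_cancel_right] at e3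
    obtain ⟨e, h3, h4⟩ := h.one_mem (by intro e; revert e; rw [forall_edge s]; simp [ha, sgl_E]) e3
    by_cases h5 : e = E s 0 2
    · exact Or.inl (h5 ▸ h4)
    by_cases h6 : e = E s 3 4
    · exact Or.inr (h6 ▸ h4)
    exact (h3 (by simp [ha, sgl, Pi.single_eq_of_ne h5, Pi.single_eq_of_ne h6])).elim

theorem PrimeF.cod_mono (h : PrimeF N) (a : Dv) {x : Dv} (hx : 0 ≤ x)
    (hZ : ∀ e, (1 : K k) ∈ N (sgl e) → x e = 0) :
    cod (N a) (LL k a) ≤ cod (N (a + x)) (LL k (a + x)) :=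
  (cod_le_of_map LinearMap.id (finCod_fd _ _).1
    (fun _ hy => LL_mono (le_add_of_nonneg_right hx) hy) fun _ hy h1 => h.down hx hZ hy h1).2

theorem cod_eq (hle : ∀ a, N a ≤ LL k a) (a : Dv) :
    (cod (N a) (LL k a) : ℚ) = (finrank k (LL k a) : ℚ) - finrank k (N a) := by
  rw [← (cod_fd (hle a)).2]; push_cast; ring

theorem per_cod (hN : TCl N) (hle : ∀ a, N a ≤ LL k a) :
    Per (fun a => (cod (N a) (LL k a) : ℚ)) := by
  intro a g hg
  have h1 := per_LL (k := k) a g hg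
  have h2 := hN.per a g hg
  simp only [cod_eq hle] at *
  rw [h1, h2]

end Vale.Agent.P190
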