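import Vale.Agent.P190.Val

/-! P190 job RankOne, part A: divisibility in the polynomial ring and in BB. -/

namespace Vale.Agent.P190
open Module Filter

section poly
open Polynomial

theorem exists_C_mem {R : Type} [CommRing R] [IsDomain R] [UniqueFactorizationMonoid R]
    (J : Ideal R[X]) (hJ : J ≠ ⊥) (h : ∀ π, Prime π → ∃ f ∈ J, ¬ π ∣ f) :
    ∃ c, c ≠ 0 ∧ C c ∈ J := by
  by_contra hc
  push Not at hc
  have hd : Disjoint (J : Set R[X]) ((nonZeroDivisors R).map (C : R →+* R[X])) := by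
    rw [Set.disjoint_left]
    rintro _ hf ⟨c, hc0, rfl⟩
    exact hc c (nonZeroDivisors.ne_zero hc0) hf
  obtain ⟨q, hq, hJq, hqd⟩ := Ideal.exists_le_prime_disjoint J _ hd
  have hq' : ∀ c, c ≠ 0 → C c ∉ q := fun c hc0 hcq =>
    Set.disjoint_left.1 hqd hcq ⟨c, mem_nonZeroDivisors_of_ne_zero hc0, rfl⟩
  obtain ⟨π, hπq, hπ⟩ := hq.exists_mem_prime_of_ne_bot (fun h0 => hJ (le_bot_iff.1 (h0 ▸ hJq)))
  obtain ⟨f, hf, hπf⟩ := h π hπ
  have hdeg : π.natDegree ≠ 0 := by
    intro h0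
    rw [eq_C_of_natDegree_eq_zero h0] at hπq hπ
    exact hq' _ (fun h1 => hπ.ne_zero (by rw [h1, C_0])) hπq
  have hprim := hπ.irreducible.isPrimitive hdeg
  have hirr := (hprim.irreducible_iff_irreducible_map_fraction_map (K := FractionRing R)).1
    hπ.irreducible
  have hnd : ¬ π.map (algebraMap R (FractionRing R)) ∣ f.map (algebraMap R (FractionRing R)) :=
    fun h1 => hπf (hprim.dvd_of_fraction_map_dvd_fraction_map h1)
  obtain ⟨a, b, hab⟩ := hirr.coprime_iff_not_dvd.2 hnd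
  obtain ⟨c, c0, hc1⟩ := IsLocalization.integerNormalization_spec (nonZeroDivisors R) a
  obtain ⟨d, d0, hd1⟩ := IsLocalization.integerNormalization_spec (nonZeroDivisors R) b
  rw [Algebra.smul_def, Polynomial.algebraMap_apply] at hc1 hd1
  have key : C (c * d) = C d * IsLocalization.integerNormalization (nonZeroDivisors R) a * π +
      C c * IsLocalization.integerNormalization (nonZeroDivisors R) b * f := by
    apply map_injective (algebraMap R (FractionRing R)) (IsFractionRing.injective _ _)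
    simp only [Polynomial.map_add, Polynomial.map_mul, hc1, hd1, map_C, map_mul]
    linear_combination (-(C (algebraMap R (FractionRing R) c) *
      C (algebraMap R (FractionRing R) d))) * hab
  refine hq' (c * d) (mul_ne_zero (nonZeroDivisors.ne_zero c0) (nonZeroDivisors.ne_zero d0)) ?_
  rw [key]
  exact q.add_mem (q.mul_mem_left _ hπq) (q.mul_mem_left _ (hJq hf))

variable {k : Type} [Field k]

theorem eq0_C (P : k[X]) : Bivariate.equivMvPolynomial k (C P) =
    aeval (MvPolynomial.X 0 : P2 k) P :=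
  aevalAeval_C _ _ P

theorem eq0_map (P : k[X]) : Bivariate.equivMvPolynomial k (P.map C) =
    aeval (MvPolynomial.X 1 : P2 k) P := by
  have : (Bivariate.equivMvPolynomial k : k[X][X] →ₐ[k] P2 k).comp (aeval (X : k[X][X])) =
      aeval (MvPolynomial.X 1 : P2 k) := by
    ext; simp
  have h1 := DFunLike.congr_fun this P
  rw [← h1, AlgHom.comp_apply, aeval_X_left_eq_map]
  rfl

theorem exists_equiv (j : Fin 2) : ∃ e : k[X][X] ≃+* P2 k, ∀ P : k[X],
    e (C P) = aeval (MvPolynomial.X j : P2 k) P := by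
  fin_cases j
  · exact ⟨(Bivariate.equivMvPolynomial k).toRingEquiv, eq0_C⟩
  · refine ⟨(Bivariate.swap.trans (Bivariate.equivMvPolynomial k)).toRingEquiv, fun P => ?_⟩
    have := eq0_map P
    rw [← Bivariate.swap_C] at this
    exact this

theorem exists_aeval_mem (J : Ideal (P2 k)) (hJ : J ≠ ⊥) (h : ∀ π, Prime π → ∃ f ∈ J, ¬ π ∣ f)
    (j : Fin 2) : ∃ P : k[X], P ≠ 0 ∧ aeval (MvPolynomial.X j : P2 k) P ∈ J := by
  obtain ⟨e, he⟩ := exists_equiv (k := k) j
  have h1 : J.comap e ≠ ⊥ := by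
    obtain ⟨f, hf, hf0⟩ := Submodule.exists_mem_ne_zero_of_ne_bot hJ
    intro h0
    have : e.symm f ∈ J.comap e := by rwa [Ideal.mem_comap, RingEquiv.apply_symm_apply]
    rw [h0] at this
    exact hf0 (by simpa using this)
  have h2 : ∀ π, Prime π → ∃ f ∈ J.comap e, ¬ π ∣ f := by
    intro π hπ
    obtain ⟨f, hf, hπf⟩ := h (e π) ((MulEquiv.prime_iff e).2 hπ)
    refine ⟨e.symm f, by rwa [Ideal.mem_comap, RingEquiv.apply_symm_apply], fun h1 => hπf ?_⟩
    simpa using map_dvd e h1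
  obtain ⟨P, hP, hm⟩ := exists_C_mem (J.comap e) h1 h2
  exact ⟨P, hP, by rw [← he]; exact hm⟩

theorem relPrime_aeval {P Q : k[X]} (hP : P ≠ 0) (hQ : Q ≠ 0) :
    IsRelPrime (aeval (MvPolynomial.X 0 : P2 k) P) (aeval (MvPolynomial.X 1 : P2 k) Q) := by
  intro d h1 h2
  obtain ⟨d, rfl⟩ := (Bivariate.equivMvPolynomial k).surjective d
  rw [← eq0_C, map_dvd_iff] at h1
  rw [← eq0_map, map_dvd_iff] at h2
  refine IsUnit.map _ ?_
  have h3 : d.natDegree = 0 := by
    have := natDegree_le_of_dvd h1 (by simpa using hP)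
    simpa using this
  rw [eq_C_of_natDegree_eq_zero h3] at h2 ⊢
  have h4 := (C_dvd_iff_dvd_coeff _ _).1 h2 Q.natDegree
  rw [coeff_map] at h4
  exact (isUnit_of_dvd_unit h4 (isUnit_C.2 (IsUnit.mk0 _ (by simpa using hQ)))).map C

theorem aeval_ne_zero_X {P : k[X]} (hP : P ≠ 0) (j : Fin 2) :
    aeval (MvPolynomial.X j : P2 k) P ≠ 0 := by
  obtain ⟨e, he⟩ := exists_equiv (k := k) j
  rw [← he]
  simpa using hP

theorem aeval_uv_poly (j : Fin 2) (P : k[X]) : aeval (uv k 1 j) P =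
    algebraMap (P2 k) (K k) (aeval (MvPolynomial.X j : P2 k) P) := by
  rw [uv_one, aeval_algebraMap_apply]

end poly

variable {k : Type} [Field k]

theorem aP_ne {P : P2 k} (h : P ≠ 0) : algebraMap (P2 k) (K k) P ≠ 0 := by simpa using h

theorem aP_inj : Function.Injective (algebraMap (P2 k) (K k)) := IsFractionRing.injective _ _

theorem BB_form {f : K k} (hf : f ∈ BB k) :
    ∃ g ∈ Gam, ∃ P : P2 k, f = gu k g * algebraMap (P2 k) (K k) P := by
  simpa only [aeval_uv_one] using ch_B' 1 hf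

theorem gu_inv_mem {g : Dv} (hg : g ∈ Gam) : (gu k g)⁻¹ ∈ BB k := by
  rw [← gu_neg]; exact gu_mem (Gam.neg_mem hg)

theorem gu_mul_mem {g : Dv} (hg : g ∈ Gam) {x : K k} : gu k g * x ∈ BB k ↔ x ∈ BB k := by
  refine ⟨fun h => ?_, fun h => mul_mem (gu_mem hg) h⟩
  have := mul_mem (gu_inv_mem (k := k) hg) h
  rwa [inv_mul_cancel_left₀ (gu_ne_zero g)] at this

theorem mem_of_relPrime {p q : P2 k} (hpq : IsRelPrime p q) (hp : p ≠ 0) {x : K k}
    (h1 : algebraMap (P2 k) (K k) p * x ∈ BB k) (h2 : algebraMap (P2 k) (K k) q * x ∈ BB k) :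
    x ∈ BB k := by
  obtain ⟨g, hg, A, hA⟩ := BB_form h1
  obtain ⟨g', hg', A', hA'⟩ := BB_form h2
  obtain ⟨d, hd, hd1, hd2⟩ := exists_low 1 g g'
  obtain ⟨U, hU⟩ := poly_of_nonneg (k := k) 1 (Gam.sub_mem hg hd) hd1
  obtain ⟨U', hU'⟩ := poly_of_nonneg (k := k) 1 (Gam.sub_mem hg' hd) hd2
  rw [aeval_uv_one, gu_sub, div_eq_iff (gu_ne_zero d)] at hU hU'
  have hd0 := gu_ne_zero (k := k) d
  have e : q * (U * A) = p * (U' * A') := by
    apply aP_inj
    apply mul_left_cancel₀ hd0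
    simp only [map_mul]
    rw [hU] at hA
    rw [hU'] at hA'
    linear_combination (-algebraMap (P2 k) (K k) q) * hA + algebraMap (P2 k) (K k) p * hA'
  obtain ⟨B, hB⟩ := hpq.dvd_of_dvd_mul_left (e ▸ dvd_mul_right p (U' * A'))
  have : x = gu k d * algebraMap (P2 k) (K k) B := by
    apply mul_left_cancel₀ (aP_ne hp)
    have h3 := congrArg (algebraMap (P2 k) (K k)) hB
    simp only [map_mul] at h3
    rw [hA, hU]
    linear_combination gu k d * h3
  rw [this]
  exact mul_mem (gu_mem hd) (poly_mem_BB B)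

theorem mem_of_uv {P Q : Polynomial k} (hP : P ≠ 0) (hQ : Q ≠ 0) {x : K k}
    (h1 : Polynomial.aeval (uv k 1 0) P * x ∈ BB k) (h2 : Polynomial.aeval (uv k 1 1) Q * x ∈ BB k) :
    x ∈ BB k := by
  rw [aeval_uv_poly] at h1 h2
  exact mem_of_relPrime (relPrime_aeval hP hQ) (aeval_ne_zero_X hP 0) h1 h2

/-- a prime of the polynomial ring stays prime or becomes a unit -/
theorem prime_BB {π : P2 k} (hπ : Prime π) {s t : K k} (hs : s ∈ BB k) (ht : t ∈ BB k)
    (hst : (algebraMap (P2 k) (K k) π)⁻¹ * s * t ∈ BB k)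
    (hn : (algebraMap (P2 k) (K k) π)⁻¹ * t ∉ BB k) : (algebraMap (P2 k) (K k) π)⁻¹ * s ∈ BB k := by
  obtain ⟨g, hg, T, rfl⟩ := BB_form ht
  have h0 := aP_ne hπ.ne_zero
  have hT : ¬ π ∣ T := by
    rintro ⟨T, rfl⟩
    apply hn
    rw [map_mul, mul_left_comm, inv_mul_cancel_left₀ h0]
    exact mul_mem (gu_mem hg) (poly_mem_BB T)
  refine mem_of_relPrime (hπ.irreducible.isRelPrime_iff_not_dvd.2 hT) hπ.ne_zero ?_ ?_
  · rwa [mul_inv_cancel_left₀ h0]
  · rw [← gu_mul_mem hg, ← mul_assoc, mul_comm]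
    exact hst

theorem mem_of_no_prime (A : P2 k) (hA : A ≠ 0) {y x : K k} (hy : y ∈ BB k)
    (h : ∀ π, Prime π → π ∣ A → (algebraMap (P2 k) (K k) π)⁻¹ * y ∈ BB k →
      (algebraMap (P2 k) (K k) π)⁻¹ ∈ BB k)
    (h1 : algebraMap (P2 k) (K k) A * x ∈ BB k) (h2 : y * x ∈ BB k) : x ∈ BB k := by
  induction A using UniqueFactorizationMonoid.induction_on_prime with
  | h₁ => exact absurd rfl hA
  | h₂ A hu =>
    obtain ⟨B, hB⟩ := hu.exists_left_inv
    have := mul_mem (poly_mem_BB B) h1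
    rwa [← mul_assoc, ← map_mul, hB, map_one, one_mul] at this
  | h₃ A π hA0 hπ ih =>
    refine ih hA0 (fun ρ hρ hd => h ρ hρ (hd.mul_left π)) ?_
    have h0 := aP_ne hπ.ne_zero
    have e : algebraMap (P2 k) (K k) A * x =
        (algebraMap (P2 k) (K k) π)⁻¹ * (algebraMap (P2 k) (K k) (π * A) * x) := by
      rw [map_mul, mul_assoc, inv_mul_cancel_left₀ h0]
    rw [e]
    by_cases hn : (algebraMap (P2 k) (K k) π)⁻¹ * y ∈ BB k
    · exact mul_mem (h π hπ (dvd_mul_right _ _) hn) h1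
    · refine prime_BB hπ h1 hy ?_ hn
      rw [← e, mul_assoc, mul_comm x]
      exact mul_mem (poly_mem_BB A) h2

theorem exists_avoid [Infinite k] {V : Type*} [AddCommGroup V] [Module k V] {ι : Type*} [Finite ι]
    (U : Submodule k V) (p : ι → Submodule k V) (h : ∀ i, ∃ f ∈ U, f ∉ p i) :
    ∃ f ∈ U, ∀ i, f ∉ p i := by
  obtain ⟨x, hx⟩ := Submodule.exists_forall_notMem_of_forall_ne_top
    (fun i => (p i).comap U.subtype) (fun i h0 => by
      obtain ⟨f, hf, hf'⟩ := h i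
      have : (⟨f, hf⟩ : U) ∈ (p i).comap U.subtype := h0 ▸ Submodule.mem_top
      exact hf' this)
  exact ⟨x, x.2, hx⟩

end Vale.Agent.P190
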