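import Vale.Agent.P190.Good
import Vale.Agent.P190.RankA

/-! P190 job RankOne: rank one families. -/

namespace Vale.Agent.P190
open MvPolynomial Module Filter

variable {k : Type} [Field k]

/-- families closed under multiplication by sections -/
def TCl (N : Dv → Submodule k (K k)) : Prop :=
  ∀ a a' f x, f ∈ N a → x ∈ LL k a' → x * f ∈ N (a + a')

/-- finitely many sections without a common prime divisor -/
structure Wit (b : Dv) {κ : Type} [Fintype κ] (al : κ → Dv) (w : κ → K k) : Prop where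
  mem : ∀ i, w i ∈ LL k (b + al i)
  sharp : ∀ e, ∃ i, w i ≠ 0 ∧ 11 * nu e (w i) + b e + al i e = 0
  cop : ∀ j : Fin 2, ∃ P : Polynomial k, P ≠ 0 ∧ ∃ c : κ → K k, (∀ i, c i ∈ BB k) ∧
    ∑ i, c i * w i = Polynomial.aeval (uv k 1 j) P

theorem finrank_map_mul {y : K k} (hy : y ≠ 0) (U : Submodule k (K k)) :
    finrank k (U.map (LinearMap.mulLeft k y)) = finrank k U :=
  (Submodule.equivMapOfInjective _ (fun _ _ h => mul_left_cancel₀ hy h) U).finrank_eq.symm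

theorem TCl.unit {N : Dv → Submodule k (K k)} (h : TCl N) {g : Dv} (hg : g ∈ Gam) {a : Dv}
    {f : K k} (hf : f ∈ N a) : gu k g * f ∈ N (a - (11 : ℤ) • g) := by
  rw [sub_eq_add_neg]
  refine h _ _ _ _ hf ((gu_mem_LL hg).2 fun e => ?_)
  simp

theorem TCl.per {N : Dv → Submodule k (K k)} (h : TCl N) :
    Per (fun a => (finrank k (N a) : ℚ)) := by
  intro a g hg
  have : (N (a + (11 : ℤ) • g)).map (LinearMap.mulLeft k (gu k g)) = N a := by
    ext f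
    constructor
    · rintro ⟨x, hx, rfl⟩
      simpa using h.unit hg hx
    · intro hf
      refine ⟨gu k (-g) * f, by simpa using h.unit (Gam.neg_mem hg) hf, ?_⟩
      show gu k g * _ = f
      rw [gu_neg, mul_inv_cancel_left₀ (gu_ne_zero g)]
  show ((finrank k (N (a + (11 : ℤ) • g)) : ℕ) : ℚ) = finrank k (N a)
  rw [← this, finrank_map_mul (gu_ne_zero g)]

/-- the gcd step of rank_one -/
theorem rank_gcd {N : Dv → Submodule k (K k)} (hN : TCl N) (hne : ∃ a, ∃ f ∈ N a, f ≠ 0)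
    {x₀ : K k} (hx₀ : x₀ ≠ 0) (hb : ∀ a, ∀ f ∈ N a, x₀ * f ∈ BB k) :
    ∃ x : K k, x ≠ 0 ∧ (∀ a, ∀ f ∈ N a, x * f ∈ BB k) ∧
      ∃ (κ : Type) (_ : Fintype κ) (al : κ → Dv) (w : κ → K k), (∀ i, w i ∈ N (al i)) ∧
        ∀ j : Fin 2, ∃ P : Polynomial k, P ≠ 0 ∧ ∃ c : κ → K k, (∀ i, c i ∈ BB k) ∧
          ∑ i, c i * (x * w i) = Polynomial.aeval (uv k 1 j) P := by
  classical
  set T : Set (P2 k) := {P | ∃ a, ∃ f ∈ N a, x₀ * f = algebraMap (P2 k) (K k) P} with hT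
  have hform : ∀ a, ∀ f ∈ N a, ∃ g ∈ Gam, ∃ P ∈ T, x₀ * f = gu k g * algebraMap (P2 k) (K k) P := by
    intro a f hf
    obtain ⟨g, hg, P, hP⟩ := BB_form (hb a f hf)
    refine ⟨g, hg, P, ⟨_, _, hN.unit (Gam.neg_mem hg) hf, ?_⟩, hP⟩
    rw [mul_left_comm, hP, gu_neg, inv_mul_cancel_left₀ (gu_ne_zero g)]
  obtain ⟨s, hsT, hs⟩ := (Submodule.fg_span_iff_fg_span_finset_subset (R := P2 k) T).1
    (IsNoetherian.noetherian _)
  obtain ⟨P₀, hP₀, hP₀0⟩ : ∃ P ∈ s, P ≠ 0 := by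
    by_contra hc
    push Not at hc
    obtain ⟨a, f, hf, hf0⟩ := hne
    obtain ⟨g, hg, P, hP, he⟩ := hform a f hf
    have h1 : P ∈ Submodule.span (P2 k) (s : Set (P2 k)) := hs ▸ Submodule.subset_span hP
    rw [Submodule.span_eq_bot.2 hc, Submodule.mem_bot] at h1
    rw [h1, map_zero, mul_zero] at he
    exact mul_ne_zero hx₀ hf0 he
  letI : NormalizedGCDMonoid (P2 k) := Classical.arbitrary _
  obtain ⟨Q, hQ, hQ1⟩ := Finset.extract_gcd (s := s) id ⟨P₀, hP₀⟩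
  set d := s.gcd id with hd
  simp only [id] at hQ
  have hd0 : d ≠ 0 := fun h0 => hP₀0 (by rw [hQ P₀ hP₀, h0, zero_mul])
  have hd1 := aP_ne hd0
  have hdT : ∀ P ∈ T, d ∣ P := by
    intro P hP
    have h1 : P ∈ Submodule.span (P2 k) (s : Set (P2 k)) := hs ▸ Submodule.subset_span hP
    have h2 : Submodule.span (P2 k) (s : Set (P2 k)) ≤ Ideal.span {d} :=
      Submodule.span_le.2 fun p hp => Ideal.mem_span_singleton.2 ⟨Q p, hQ p hp⟩
    exact Ideal.mem_span_singleton.1 (h2 h1)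
  choose al w hw hxw using fun p : s => hsT p.2
  refine ⟨x₀ * (algebraMap (P2 k) (K k) d)⁻¹, mul_ne_zero hx₀ (inv_ne_zero hd1), ?_, s,
    inferInstance, al, w, hw, fun j => ?_⟩
  · intro a f hf
    obtain ⟨g, hg, P, hP, he⟩ := hform a f hf
    obtain ⟨P', rfl⟩ := hdT P hP
    rw [mul_right_comm, he, map_mul, mul_assoc, mul_right_comm, mul_inv_cancel₀ hd1, one_mul]
    exact mul_mem (gu_mem hg) (poly_mem_BB P')
  · have h1 : Ideal.span (Set.range fun p : s => Q p) ≠ ⊥ := by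
      intro h0
      have : Q P₀ ∈ Ideal.span (Set.range fun p : s => Q p) := Ideal.subset_span ⟨⟨P₀, hP₀⟩, rfl⟩
      rw [h0, Ideal.mem_bot] at this
      exact hP₀0 (by rw [hQ P₀ hP₀, this, mul_zero])
    have h2 : ∀ π, Prime π → ∃ f ∈ Ideal.span (Set.range fun p : s => Q p), ¬ π ∣ f := by
      intro π hπ
      by_contra hc
      push Not at hc
      have : π ∣ s.gcd Q := Finset.dvd_gcd fun p hp => hc _ (Ideal.subset_span ⟨⟨p, hp⟩, rfl⟩)
      rw [hQ1] at this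
      exact hπ.not_dvd_one this
    obtain ⟨P, hP, hm⟩ := exists_aeval_mem _ h1 h2 j
    obtain ⟨c, hc⟩ := Ideal.mem_span_range_iff_exists_fun.1 hm
    refine ⟨P, hP, fun i => algebraMap (P2 k) (K k) (c i), fun i => poly_mem_BB _, ?_⟩
    rw [aeval_uv_poly, ← hc, map_sum]
    refine Finset.sum_congr rfl fun i _ => ?_
    have h3 := congrArg (algebraMap (P2 k) (K k)) (hQ i i.2)
    rw [map_mul] at h3
    rw [mul_right_comm x₀, hxw i, h3, map_mul, mul_right_comm, mul_inv_cancel₀ hd1, one_mul]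

theorem rank_one {N : Dv → Submodule k (K k)} (hN : TCl N) (hne : ∃ a, ∃ f ∈ N a, f ≠ 0)
    (hb : ∃ x : K k, x ≠ 0 ∧ ∃ b : Dv, ∀ a, ∀ f ∈ N a, x * f ∈ LL k (b + a)) :
    ∃ x : K k, x ≠ 0 ∧ ∃ b : Dv, (∀ a, ∀ f ∈ N a, x * f ∈ LL k (b + a)) ∧
      ∃ (m : ℕ) (al : Fin m → Dv) (w : Fin m → K k), (∀ i, w i ∈ N (al i)) ∧
        Wit b al (fun i => x * w i) := by
  classical
  obtain ⟨x₀, hx₀, b₀, hb⟩ := hb
  obtain ⟨x, hx, hxB, κ, _, al, w, hw, hcop⟩ := rank_gcd hN hne hx₀ fun a f hf => (hb a f hf).1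
  have hmin : ∀ e : Edge, ∃ z : ℤ, (∃ a, ∃ f ∈ N a, f ≠ 0 ∧ 11 * nu e (x * f) + a e = z) ∧
      ∀ z', (∃ a, ∃ f ∈ N a, f ≠ 0 ∧ 11 * nu e (x * f) + a e = z') → z ≤ z' := by
    intro e
    refine Int.exists_least_of_bdd ⟨11 * nu e x - 11 * nu e x₀ - b₀ e, ?_⟩ ?_
    · rintro _ ⟨a, f, hf, hf0, rfl⟩
      have h1 := ((hb a f hf).2.resolve_left (mul_ne_zero hx₀ hf0)) e
      rw [nu_mul e hx₀ hf0, Pi.add_apply] at h1
      rw [nu_mul e hx hf0]
      omega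
    · obtain ⟨a, f, hf, hf0⟩ := hne
      exact ⟨_, a, f, hf, hf0, rfl⟩
  choose z hz hzmin using hmin
  choose ae fe hfe hfe0 hze using hz
  have hmem : ∀ a, ∀ f ∈ N a, x * f ∈ LL k (-z + a) := by
    intro a f hf
    refine ⟨hxB a f hf, ?_⟩
    by_cases hf0 : f = 0
    · exact Or.inl (by rw [hf0, mul_zero])
    · refine Or.inr fun e => ?_
      have := hzmin e _ ⟨a, f, hf, hf0, rfl⟩
      simp only [Pi.add_apply, Pi.neg_apply]
      omega
  let σ := (Fintype.equivFin (κ ⊕ Edge)).symm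
  have hw' : ∀ i : κ ⊕ Edge, Sum.elim w fe i ∈ N (Sum.elim al ae i) := by
    rintro (i | e)
    · exact hw i
    · exact hfe e
  refine ⟨x, hx, -z, hmem, _, fun i => Sum.elim al ae (σ i), fun i => Sum.elim w fe (σ i),
    fun i => hw' _, fun i => hmem _ _ (hw' _), fun e => ⟨σ.symm (Sum.inr e), ?_⟩, fun j => ?_⟩
  · simp only [Equiv.apply_symm_apply, Sum.elim_inr, Pi.neg_apply]
    have := hze e
    exact ⟨mul_ne_zero hx (hfe0 e), by omega⟩
  · obtain ⟨P, hP, c, hc, he⟩ := hcop j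
    refine ⟨P, hP, fun i => Sum.elim c (fun _ => 0) (σ i), fun i => ?_, ?_⟩
    · show Sum.elim c (fun _ => 0) (σ i) ∈ BB k
      rcases σ i with i | e
      · exact hc i
      · exact zero_mem _
    · rw [Equiv.sum_comp σ (fun i => Sum.elim c (fun _ => 0) i * (x * Sum.elim w fe i)),
        Fintype.sum_sum_type, ← he]
      simp

theorem Wit.mem_BB {b : Dv} {κ : Type} [Fintype κ] {al : κ → Dv} {w : κ → K k} (h : Wit b al w)
    {x : K k} (hx : ∀ i, w i * x ∈ BB k) : x ∈ BB k := by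
  obtain ⟨P, hP, c, hc, he⟩ := h.cop 0
  obtain ⟨Q, hQ, c', hc', he'⟩ := h.cop 1
  refine mem_of_uv hP hQ ?_ ?_
  · rw [← he, Finset.sum_mul]
    exact sum_mem fun i _ => by rw [mul_assoc]; exact mul_mem (hc i) (hx i)
  · rw [← he', Finset.sum_mul]
    exact sum_mem fun i _ => by rw [mul_assoc]; exact mul_mem (hc' i) (hx i)

theorem Wit.gp {b : Dv} {κ : Type} [Fintype κ] {al : κ → Dv} {w : κ → K k} (h : Wit b al w)
    {x : K k} {d : Dv} (hx : ∀ i, w i * x ∈ LL k (d + b + al i)) : x ∈ LL k d := by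
  refine ⟨h.mem_BB fun i => (hx i).1, ?_⟩
  by_cases h0 : x = 0
  · exact Or.inl h0
  refine Or.inr fun e => ?_
  obtain ⟨i, hi, hs⟩ := h.sharp e
  have := (hx i).2.resolve_left (mul_ne_zero hi h0) e
  rw [nu_mul e hi h0] at this
  simp only [Pi.add_apply] at this
  omega

theorem exists_pent_zero (e : Edge) : ∃ r : Pm, Cp r e = 0 := by
  obtain ⟨s, rfl⟩ := exists_E e
  obtain ⟨r, hr, -⟩ := exists_pent_avoid s
  exact ⟨r, hr⟩

/-- a degree in which all witnesses can be placed by units -/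
theorem exists_deep_deg (b : Dv) {κ : Type} [Fintype κ] (al : κ → Dv) :
    ∃ a : Dv, (∀ e, (11 : ℤ) ∣ b e + a e) ∧ ∀ i, DeepI (fl (a - al i)) := by
  have h : ∀ᶠ t : ℤ in atTop, ∀ i, DeepI (fl (-b - al i + t • C0)) :=
    eventually_all.2 fun i => ev_deep _
  obtain ⟨T, hT⟩ := eventually_atTop.1 h
  refine ⟨-b + (11 * |T|) • C0, fun e => ⟨|T| * C0 e, ?_⟩, fun i => ?_⟩
  · simp only [Pi.add_apply, Pi.neg_apply, Pi.smul_apply, smul_eq_mul]
    ring
  · have := hT (11 * |T|) (by have := le_abs_self T; have := abs_nonneg T; omega) i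
    rwa [add_sub_right_comm]

/-- a section sharp along every line and a second one prime to it -/
theorem Wit.pair [Infinite k] {b : Dv} {κ : Type} [Fintype κ] {al : κ → Dv} {w : κ → K k}
    (h : Wit b al w) {N : Dv → Submodule k (K k)} (hN : TCl N) (hw : ∀ i, w i ∈ N (al i))
    (hle : ∀ a, N a ≤ LL k (b + a)) :
    ∃ a, ∃ f₁ ∈ N a, ∃ f₂ ∈ N a, f₁ ≠ 0 ∧ f₂ ≠ 0 ∧ (∀ e, 11 * nu e f₁ + b e + a e = 0) ∧
      ∀ x, f₁ * x ∈ BB k → f₂ * x ∈ BB k → x ∈ BB k := by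
  classical
  obtain ⟨a, ha, hd⟩ := exists_deep_deg b al
  have hu : ∀ i {g : Dv}, g ∈ Gam → (∀ e, 0 ≤ 11 * g e + (a - al i) e) → gu k g * w i ∈ N a := by
    intro i g hg hge
    simpa using hN _ _ _ _ (hw i) ((gu_mem_LL hg).2 hge)
  obtain ⟨f₁, hf₁, hs⟩ := exists_avoid (N a) (fun e : Edge => LL k (b + a - sgl e)) fun e => by
    obtain ⟨i, hi, hs⟩ := h.sharp e
    obtain ⟨r, hr⟩ := exists_pent_zero e
    obtain ⟨g, hg, hge, hg0⟩ := unit_pent r (hd i)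
    refine ⟨_, hu i hg hge, fun hm => ?_⟩
    have h1 := hm.2.resolve_left (mul_ne_zero (gu_ne_zero g) hi) e
    rw [nu_mul e (gu_ne_zero g) hi, nu_gu hg] at h1
    have h2 := hg0 e hr
    have h3 := ha e
    simp only [Pi.add_apply, Pi.sub_apply, sgl, Pi.single_eq_same] at h1 h2
    omega
  have hf0 : f₁ ≠ 0 := fun h0 => hs (ed 0 1) (h0 ▸ zero_mem _)
  have hsharp : ∀ e, 11 * nu e f₁ + b e + a e = 0 := by
    intro e
    have h1 := (hle a hf₁).2.resolve_left hf0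
    by_contra hc
    refine hs e ⟨(hle a hf₁).1, Or.inr fun e' => ?_⟩
    have h2 := h1 e'
    simp only [Pi.add_apply, Pi.sub_apply, sgl, Pi.single_apply] at h2 ⊢
    split_ifs with h3
    · subst h3; omega
    · omega
  obtain ⟨g, hg, A, hA⟩ := BB_form (hle a hf₁).1
  have hA0 : A ≠ 0 := by rintro rfl; exact hf0 (by simpa using hA)
  let S := {π : P2 k // π ∈ (UniqueFactorizationMonoid.factors A).toFinset ∧
    (algebraMap (P2 k) (K k) π)⁻¹ ∉ BB k}
  haveI : Finite S := Set.Finite.to_subtype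
    ((UniqueFactorizationMonoid.factors A).toFinset.finite_toSet.subset fun _ h => h.1)
  obtain ⟨f₂, hf₂, hc⟩ := exists_avoid (N a) (ι := Option S)
    (fun o => o.elim ⊥ fun π => (BB k).toSubmodule.comap
      (LinearMap.mulLeft k (algebraMap (P2 k) (K k) π.1)⁻¹)) fun o => by
    rcases o with _ | π
    · exact ⟨f₁, hf₁, hf0⟩
    · obtain ⟨i, hi⟩ : ∃ i, w i * (algebraMap (P2 k) (K k) π.1)⁻¹ ∉ BB k := by
        by_contra hc
        push Not at hc
        exact π.2.2 (h.mem_BB hc)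
      obtain ⟨g, hg, hge, -⟩ := unit_pent 1 (hd i)
      refine ⟨_, hu i hg hge, fun hm => hi ?_⟩
      have hm' : (algebraMap (P2 k) (K k) π.1)⁻¹ * (gu k g * w i) ∈ BB k := hm
      rwa [mul_left_comm, gu_mul_mem hg, mul_comm] at hm'
  refine ⟨a, f₁, hf₁, f₂, hf₂, hf0, hc none, hsharp, fun x h1 h2 => ?_⟩
  rw [hA, mul_assoc, gu_mul_mem hg] at h1
  refine mem_of_no_prime A hA0 (hle a hf₂).1 (fun π hπ hd hm => ?_) h1 h2
  obtain ⟨ρ, hρ, u, hu⟩ := UniqueFactorizationMonoid.exists_mem_factors_of_dvd hA0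
    hπ.irreducible hd
  have hπ0 := aP_ne hπ.ne_zero
  have hu0 := aP_ne u.ne_zero
  have hui : (algebraMap (P2 k) (K k) u)⁻¹ ∈ BB k := by
    have := poly_mem_BB (k := k) (u⁻¹ : (P2 k)ˣ)
    rwa [map_units_inv] at this
  by_cases hρB : (algebraMap (P2 k) (K k) ρ)⁻¹ ∈ BB k
  · have := mul_mem (poly_mem_BB (u : P2 k)) hρB
    rwa [← hu, map_mul, mul_inv, mul_left_comm, mul_inv_cancel₀ hu0, mul_one] at this
  · refine absurd ?_ (hc (some ⟨ρ, Multiset.mem_toFinset.2 hρ, hρB⟩))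
    show (algebraMap (P2 k) (K k) ρ)⁻¹ * f₂ ∈ BB k
    rw [← hu, map_mul, mul_inv, mul_right_comm]
    exact mul_mem hm hui

theorem count_pair {b a : Dv} {N : Dv → Submodule k (K k)} (hN : TCl N)
    (hle : ∀ a, N a ≤ LL k (b + a)) {f₁ f₂ : K k} (hf₁ : f₁ ∈ N a) (hf₂ : f₂ ∈ N a) (h1 : f₁ ≠ 0)
    (h2 : f₂ ≠ 0) (hs : ∀ e, 11 * nu e f₁ + b e + a e = 0)
    (hc : ∀ x, f₁ * x ∈ BB k → f₂ * x ∈ BB k → x ∈ BB k) (c : Dv) :
    2 * finrank k (LL k (c - a)) ≤ finrank k (N c) + finrank k (LL k (c - a - a - b)) := by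
  haveI : FiniteDimensional k (N c) := Submodule.finiteDimensional_of_le (hle c)
  have hU : ∀ f ∈ N a, (LL k (c - a)).map (LinearMap.mulLeft k f) ≤ N c := by
    rintro f hf _ ⟨y, hy, rfl⟩
    have := hN _ _ _ _ hf hy
    rwa [add_sub_cancel, mul_comm] at this
  have e := Submodule.finrank_sup_add_finrank_inf_eq
    ((LL k (c - a)).map (LinearMap.mulLeft k f₁)) ((LL k (c - a)).map (LinearMap.mulLeft k f₂))
  rw [finrank_map_mul h1, finrank_map_mul h2] at e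
  have e1 := Submodule.finrank_mono (sup_le (hU _ hf₁) (hU _ hf₂))
  have e2 : (LL k (c - a)).map (LinearMap.mulLeft k f₁) ⊓ (LL k (c - a)).map (LinearMap.mulLeft k f₂)
      ≤ (LL k (c - a - a - b)).map (LinearMap.mulLeft k (f₁ * f₂)) := by
    rintro y ⟨⟨y₁, hy₁, e₁⟩, ⟨y₂, hy₂, e₂⟩⟩
    simp only [LinearMap.mulLeft_apply] at e₁ e₂
    have z1 : f₁ * (f₁⁻¹ * y₂) = y₂ := mul_inv_cancel_left₀ h1 _
    have z2 : f₂ * (f₁⁻¹ * y₂) = y₁ := by
      rw [mul_left_comm, e₂, ← e₁, inv_mul_cancel_left₀ h1]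
    refine ⟨f₁⁻¹ * y₂, ⟨hc _ (z1.symm ▸ hy₂.1) (z2.symm ▸ hy₁.1), ?_⟩, ?_⟩
    · by_cases h0 : y₂ = 0
      · exact Or.inl (by rw [h0, mul_zero])
      refine Or.inr fun e => ?_
      have h3 := hy₂.2.resolve_left h0 e
      have h4 := hs e
      rw [nu_mul e (inv_ne_zero h1) h0, nu_inv e h1]
      simp only [Pi.sub_apply] at h3 ⊢
      omega
    · rw [LinearMap.mulLeft_apply, mul_assoc, z2, e₁]
  have e3 := Submodule.finrank_mono e2
  rw [finrank_map_mul (mul_ne_zero h1 h2)] at e3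
  omega

theorem dd_add (a b : Dv) : dd (a + b) = dd a + dd b := by
  rw [dd, dd, dd, tot_add]; ring

theorem dd_sub (a b : Dv) : dd (a - b) = dd a - dd b := by
  have := dd_add (a - b) b
  rw [sub_add_cancel] at this
  omega

theorem Wit.bc [Infinite k] {b : Dv} {κ : Type} [Fintype κ] {al : κ → Dv} {w : κ → K k}
    (h : Wit b al w) {N : Dv → Submodule k (K k)} (hN : TCl N) (hw : ∀ i, w i ∈ N (al i))
    (hle : ∀ a, N a ≤ LL k (b + a)) (b' : Dv) :
    ∃ C : ℚ, ∀ᶠ t : ℤ in atTop, sumS (fun a => (finrank k (LL k a) : ℚ)) (b + b') t - C ≤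
      sumS (fun a => (finrank k (N a) : ℚ)) b' t := by
  obtain ⟨a, f₁, hf₁, f₂, hf₂, h1, h2, hs, hc⟩ := h.pair hN hw hle
  refine ⟨ee (b + b') - 2 * ee (b' - a) + ee (b' - a - a - b), ?_⟩
  filter_upwards [ev_hilb (k := k) (b + b'), ev_hilb (k := k) (b' - a),
    ev_hilb (k := k) (b' - a - a - b)] with t e1 e2 e3
  have key : 2 * sumS (fun a => (finrank k (LL k a) : ℚ)) (b' - a) t ≤
      sumS (fun a => (finrank k (N a) : ℚ)) b' t +
        sumS (fun a => (finrank k (LL k a) : ℚ)) (b' - a - a - b) t := by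
    simp only [sumS]
    rw [Finset.mul_sum, ← Finset.sum_add_distrib]
    refine Finset.sum_le_sum fun c _ => ?_
    have := count_pair hN hle hf₁ hf₂ h1 h2 hs hc (b' + t • C0 + gam c)
    rw [show b' + t • C0 + gam c - a - a - b = b' - a - a - b + t • C0 + gam c by abel,
      show b' + t • C0 + gam c - a = b' - a + t • C0 + gam c by abel] at this
    exact_mod_cast this
  rw [e2, e3] at key
  rw [e1]
  simp only [dd_add, dd_sub] at key ⊢
  push_cast at key ⊢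
  linarith

/-- two elements of BB without common prime factor; used for the parameters -/
theorem cop_of_no_common {y₀ y₁ : K k} (h₀ : y₀ ∈ BB k) (h₁ : y₁ ∈ BB k) (hne : y₀ ≠ 0)
    (h : ∀ π ∈ BB k, π ≠ 0 → π⁻¹ * y₀ ∈ BB k → π⁻¹ * y₁ ∈ BB k → π⁻¹ ∈ BB k)
    {x : K k} (hx₀ : y₀ * x ∈ BB k) (hx₁ : y₁ * x ∈ BB k) : x ∈ BB k := by
  obtain ⟨g, hg, A, rfl⟩ := BB_form h₀
  have hA : A ≠ 0 := by rintro rfl; simp at hne
  rw [mul_assoc, gu_mul_mem hg] at hx₀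
  refine mem_of_no_prime A hA h₁ (fun π hπ hd hm => ?_) hx₀ hx₁
  obtain ⟨A, rfl⟩ := hd
  refine h _ (poly_mem_BB π) (aP_ne hπ.ne_zero) ?_ hm
  rw [map_mul, mul_left_comm, inv_mul_cancel_left₀ (aP_ne hπ.ne_zero)]
  exact mul_mem (gu_mem hg) (poly_mem_BB A)

theorem uv_mem (j : Fin 2) : uv k 1 j ∈ BB k := by
  rw [uv_one]; exact poly_mem_BB _

/-- a nonzero nonunit of BB has infinite dimensional quotient -/
theorem quot_unbounded {π : K k} (hπ : π ∈ BB k) (h0 : π ≠ 0) (hu : π⁻¹ ∉ BB k) (m : ℕ) :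
    ∃ f : Fin m → K k, (∀ i, f i ∈ BB k) ∧
      ∀ c : Fin m → k, π⁻¹ * (∑ i, c i • f i) ∈ BB k → c = 0 := by
  by_contra hc
  push Not at hc
  have key : ∀ j : Fin 2, ∃ P : Polynomial k, P ≠ 0 ∧
      Polynomial.aeval (uv k 1 j) P * π⁻¹ ∈ BB k := by
    intro j
    obtain ⟨c, h1, h2⟩ := hc (fun i => uv k 1 j ^ (i : ℕ)) fun i => pow_mem (uv_mem j) _
    refine ⟨∑ i : Fin m, Polynomial.monomial i (c i), fun h3 => h2 (funext fun i => ?_), ?_⟩
    · have := congrArg (fun P => Polynomial.coeff P i) h3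
      simpa [Polynomial.finset_sum_coeff, Polynomial.coeff_monomial, Fin.val_inj] using this
    · rw [mul_comm]
      simpa only [map_sum, Polynomial.aeval_monomial, ← Algebra.smul_def] using h1
  obtain ⟨P, hP, h1⟩ := key 0
  obtain ⟨Q, hQ, h2⟩ := key 1
  exact hu (mem_of_uv hP hQ h1 h2)

end Vale.Agent.P190
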