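import Vale.Agent.P190.Seq

/-! P190 job Resol, part A: forms, generators, third differences. -/

namespace Vale.Agent.P190.ResH
open Module Filter MvPolynomial SeqH

variable {k : Type*} [Field k]

theorem mem_Hom3 {t : ℤ} {u : A3 k} :
    u ∈ Hom3 k t ↔ ∀ d : Fin 3 →₀ ℕ, coeff d u ≠ 0 → ((d.degree : ℕ) : ℤ) = t := by
  rcases lt_or_ge t 0 with h | h
  · rw [Hom3_neg h, Submodule.mem_bot]
    constructor
    · rintro rfl d hd
      simp at hd
    · intro hd
      ext d
      by_contra h1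
      have := hd d (by simpa using h1)
      omega
  · obtain ⟨n, rfl⟩ := Int.eq_ofNat_of_zero_le h
    rw [Hom3_nat, mem_homogeneousSubmodule]
    constructor
    · intro hu d hd
      have := hu hd
      rw [Finsupp.degree_eq_weight_one]
      exact_mod_cast this
    · intro hu d hd
      have := hu d hd
      rw [Finsupp.degree_eq_weight_one] at this
      exact_mod_cast this

theorem div_mem {t : ℤ} {u : A3 k} (i : Fin 3) (hu : u ∈ Hom3 k t) :
    u.divMonomial (Finsupp.single i 1) ∈ Hom3 k (t - 1) := by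
  rw [mem_Hom3] at hu ⊢
  intro d hd
  rw [coeff_divMonomial] at hd
  have := hu _ hd
  rw [map_add, Finsupp.degree_single] at this
  push_cast at this
  omega

theorem coeff_mod_ne {u : A3 k} {i : Fin 3} {d : Fin 3 →₀ ℕ}
    (h : coeff d (u.modMonomial (Finsupp.single i 1)) ≠ 0) : d i = 0 ∧ coeff d u ≠ 0 := by
  by_cases hle : Finsupp.single i 1 ≤ d
  · exact absurd (coeff_modMonomial_of_le u hle) h
  · rw [coeff_modMonomial_of_not_le u hle] at h
    rw [Finsupp.single_le_iff] at hle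
    exact ⟨by omega, h⟩

theorem coeff_X_mul_zero {i : Fin 3} {d : Fin 3 →₀ ℕ} (h : d i = 0) (v : A3 k) :
    coeff d (X i * v) = 0 := by
  rw [coeff_X_mul', if_neg (by simp [h])]

theorem reg1 {t : ℤ} {u v : A3 k} (hu : u ∈ Hom3 k t) (h : X 1 * u = X 0 * v) :
    ∃ w ∈ Hom3 k (t - 1), u = X 0 * w := by
  refine ⟨_, div_mem 0 hu, ?_⟩
  have h1 := divMonomial_add_modMonomial_single u 0
  have h2 : u.modMonomial (Finsupp.single 0 1) = 0 := by
    ext d
    by_contra hd
    obtain ⟨h3, h4⟩ := coeff_mod_ne (by simpa using hd)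
    apply h4
    rw [← coeff_X_mul d 1 u, h]
    exact coeff_X_mul_zero (by simp [h3]) v
  rw [h2, add_zero] at h1
  exact h1.symm

theorem reg2 {t : ℤ} {u v₀ v₁ : A3 k} (hu : u ∈ Hom3 k t) (h : X 2 * u = X 0 * v₀ + X 1 * v₁) :
    ∃ w₀ ∈ Hom3 k (t - 1), ∃ w₁ ∈ Hom3 k (t - 1), u = X 0 * w₀ + X 1 * w₁ := by
  have h1 := divMonomial_add_modMonomial_single u 0
  have hr : u.modMonomial (Finsupp.single 0 1) ∈ Hom3 k t := by
    rw [mem_Hom3] at hu ⊢
    exact fun d hd => hu d (coeff_mod_ne hd).2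
  refine ⟨_, div_mem 0 hu, _, div_mem 1 hr, ?_⟩
  have h2 := divMonomial_add_modMonomial_single (u.modMonomial (Finsupp.single 0 1)) 1
  have h3 : (u.modMonomial (Finsupp.single 0 1)).modMonomial (Finsupp.single 1 1) = 0 := by
    ext d
    by_contra hd
    obtain ⟨h4, h5⟩ := coeff_mod_ne (by simpa using hd)
    obtain ⟨h6, h7⟩ := coeff_mod_ne h5
    apply h7
    rw [← coeff_X_mul d 2 u, h, coeff_add, coeff_X_mul_zero (by simp [h6]),
      coeff_X_mul_zero (by simp [h4]), add_zero]
  rw [h3, add_zero] at h2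
  rw [h2]
  exact h1.symm

/-- truncated binomial -/
def Bp (s : ℤ) : ℚ := if 0 ≤ s then Bq s else 0

theorem Bq_eq (s : ℤ) : Bq s = Bp s + Bp (-s - 3) := by
  unfold Bp
  by_cases h : 0 ≤ s
  · rw [if_pos h, if_neg (by omega), add_zero]
  · rw [if_neg h, zero_add]
    by_cases h2 : 0 ≤ -s - 3
    · rw [if_pos h2]
      simp only [Bq]
      push_cast
      ring
    · rw [if_neg h2]
      have : s = -1 ∨ s = -2 := by omega
      rcases this with rfl | rfl <;> norm_num [Bq]

theorem Bp_diff (s : ℤ) :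
    Bp s - 3 * Bp (s - 1) + 3 * Bp (s - 2) - Bp (s - 3) = if s = 0 then 1 else 0 := by
  unfold Bp
  by_cases h3 : 3 ≤ s
  · rw [if_pos (by omega), if_pos (by omega), if_pos (by omega), if_pos (by omega),
      if_neg (by omega)]
    simp only [Bq]
    push_cast
    ring
  by_cases h0 : s < 0
  · rw [if_neg (by omega), if_neg (by omega), if_neg (by omega), if_neg (by omega),
      if_neg (by omega)]
    ring
  have : s = 0 ∨ s = 1 ∨ s = 2 := by omega
  rcases this with rfl | rfl | rfl <;> norm_num [Bq]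

theorem zero_of_diff {u : ℤ → ℚ} {t₀ : ℤ} (h0 : ∀ t ≤ t₀, u t = 0)
    (h : ∀ t, u t - 3 * u (t - 1) + 3 * u (t - 2) - u (t - 3) = 0) (t : ℤ) : u t = 0 := by
  have key : ∀ s, t₀ ≤ s → ∀ t ≤ s, u t = 0 := by
    intro s hs
    induction s, hs using Int.leInduction with
    | base => exact h0
    | succ s hs ih =>
      intro t ht
      by_cases h1 : t ≤ s
      · exact ih t h1
      · have := h t
        rw [ih (t - 1) (by omega), ih (t - 2) (by omega), ih (t - 3) (by omega)] at this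
        linarith
  exact key (max t₀ t) (le_max_left _ _) t (le_max_right _ _)

/-- the free module with shifts -/
noncomputable def FF (k : Type*) [Field k] {I : Type} (a : I → ℤ) (t : ℤ) : Submodule k (I → A3 k) :=
  Submodule.pi Set.univ fun i => Hom3 k (t - a i)

theorem mem_FF {I : Type} {a : I → ℤ} {t : ℤ} {p : I → A3 k} :
    p ∈ FF k a t ↔ ∀ i, p i ∈ Hom3 k (t - a i) := by
  simp [FF, Submodule.mem_pi]

theorem FF_fin {I : Type} [Fintype I] (a : I → ℤ) (t : ℤ) :
    FiniteDimensional k (FF k a t) ∧ (finrank k (FF k a t) : ℚ) = ∑ i, Bp (t - a i) := by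
  let φ : (∀ i, Hom3 k (t - a i)) →ₗ[k] (I → A3 k) :=
    LinearMap.pi fun i => (Hom3 k (t - a i)).subtype.comp (LinearMap.proj i)
  have hφ : Function.Injective φ := by
    intro x z h
    exact funext fun i => Subtype.ext (congrFun h i)
  have hr : LinearMap.range φ = FF k a t := by
    ext p
    rw [mem_FF]
    constructor
    · rintro ⟨x, rfl⟩ i
      exact (x i).2
    · intro hp
      exact ⟨fun i => ⟨p i, hp i⟩, rfl⟩
  rw [← hr]
  refine ⟨inferInstance, ?_⟩
  rw [LinearMap.finrank_range_of_inj hφ, finrank_pi_fintype]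
  push_cast
  exact Finset.sum_congr rfl fun i _ => finrank_Hom3 _

variable {Y : Type*} [AddCommGroup Y] [Module k Y]

theorem ev_mem (ev : A3 k →ₐ[k] Module.End k Y) {D : ℤ → Submodule k Y}
    (hD : Closed (fun i => ev (X i)) D) {a : ℤ} {e : Y} (he : e ∈ D a) {s : ℤ} {p : A3 k}
    (hp : p ∈ Hom3 k s) : ev p e ∈ D (a + s) := by
  rcases lt_or_ge s 0 with h | h
  · rw [Hom3_neg h, Submodule.mem_bot] at hp
    rw [hp, map_zero]
    exact Submodule.zero_mem _
  induction s, h using Int.leInduction generalizing p with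
  | base =>
    have e0 := Hom3_nat (k := k) 0
    rw [Nat.cast_zero, homogeneousSubmodule_zero] at e0
    rw [e0, Submodule.mem_one] at hp
    obtain ⟨c, rfl⟩ := hp
    rw [add_zero, AlgHom.commutes, Module.algebraMap_end_apply]
    exact (D a).smul_mem c he
  | succ s hs ih =>
    obtain ⟨b, hb, rfl⟩ := Hom3_gen hs hp
    rw [map_sum, LinearMap.sum_apply]
    refine Submodule.sum_mem _ fun i _ => ?_
    rw [map_mul, Module.End.mul_apply, ← add_assoc]
    exact hD i _ _ (ih (hb i))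

theorem exists_compl {A B : Submodule k Y} (h : FinCod A B) :
    ∃ f : Fin (cod A B) → Y, (∀ i, f i ∈ B) ∧ B ≤ A ⊔ Submodule.span k (Set.range f) := by
  have hfd : FiniteDimensional k (B.map A.mkQ) := h
  let β := Module.finBasis k (B.map A.mkQ)
  have : ∀ i, ∃ y ∈ B, A.mkQ y = β i := fun i => (β i).2
  choose f hf hf' using this
  refine ⟨f, hf, fun x hx => ?_⟩
  let x' : B.map A.mkQ := ⟨A.mkQ x, x, hx, rfl⟩
  have h1 := congrArg (B.map A.mkQ).subtype (β.sum_repr x')
  rw [map_sum] at h1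
  have h2 : A.mkQ (x - ∑ i, β.repr x' i • f i) = 0 := by
    rw [map_sub, map_sum, sub_eq_zero]
    refine h1.symm.trans (Finset.sum_congr rfl fun i _ => ?_)
    rw [map_smul, map_smul, hf']
    rfl
  have h3 : x - ∑ i, β.repr x' i • f i ∈ A := (Submodule.Quotient.mk_eq_zero A).1 h2
  have h4 : ∑ i, β.repr x' i • f i ∈ Submodule.span k (Set.range f) :=
    Submodule.sum_mem _ fun i _ => Submodule.smul_mem _ _ (Submodule.subset_span ⟨i, rfl⟩)
  have := Submodule.add_mem_sup h3 h4
  rwa [sub_add_cancel] at this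

/-- the evaluation map from the free module -/
noncomputable def piE (ev : A3 k →ₐ[k] Module.End k Y) {L : Type} [Fintype L] (e : L → Y) :
    (L → A3 k) →ₗ[k] Y :=
  ∑ l, ((LinearMap.applyₗ (e l)).comp ev.toLinearMap).comp (LinearMap.proj l)

theorem piE_apply (ev : A3 k →ₐ[k] Module.End k Y) {L : Type} [Fintype L] (e : L → Y)
    (p : L → A3 k) : piE ev e p = ∑ l, ev (p l) (e l) := by
  simp [piE, LinearMap.sum_apply]

theorem piE_smul (ev : A3 k →ₐ[k] Module.End k Y) {L : Type} [Fintype L] (e : L → Y)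
    (q : A3 k) (p : L → A3 k) : piE ev e (q • p) = ev q (piE ev e p) := by
  rw [piE_apply, piE_apply, map_sum]
  exact Finset.sum_congr rfl fun l _ => by simp

theorem smul_FF {I : Type} {a : I → ℤ} {t : ℤ} {p : I → A3 k} (i : Fin 3) (hp : p ∈ FF k a t) :
    (X i : A3 k) • p ∈ FF k a (t + 1) := by
  rw [mem_FF] at hp ⊢
  intro j
  have := X_mul_Hom3 i (hp j)
  rwa [show t - a j + 1 = t + 1 - a j by ring] at this

/-- the part generated in lower degree -/
def low (z : Fin 3 → Module.End k Y) (D : ℤ → Submodule k Y) (t : ℤ) : Submodule k Y :=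
  ⨆ i, (D (t - 1)).map (z i)

theorem generators (ev : A3 k →ₐ[k] Module.End k Y) {D : ℤ → Submodule k Y}
    (hD : Closed (fun i => ev (X i)) D) (hg : Gen (fun i => ev (X i)) D)
    (hf : ∀ t, FiniteDimensional k (D t)) {t₀ : ℤ} (hb : ∀ t ≤ t₀, D t = ⊥) :
    ∃ (L : Type) (_ : Fintype L) (a : L → ℤ) (e : L → Y), (∀ l, e l ∈ D (a l)) ∧ (∀ l, t₀ < a l) ∧
      (∀ t, D t = (FF k a t).map (piE ev e)) ∧
      ∀ t, ∑ l, (if t - a l = 0 then (1 : ℚ) else 0) = cod (low (fun i => ev (X i)) D t) (D t) := by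
  classical
  obtain ⟨t₁, ht₁⟩ := hg
  have hfc : ∀ t, FinCod (low (fun i => ev (X i)) D t) (D t) := by
    intro t
    have := hf t
    unfold FinCod
    infer_instance
  choose f hf1 hf2 using fun t => exists_compl (hfc t)
  let T : Finset ℤ := Finset.Ioc t₀ t₁
  have hn : ∀ t, t ∉ T → D t ≤ low (fun i => ev (X i)) D t := by
    intro t ht
    simp only [T, Finset.mem_Ioc, not_and_or, not_lt, not_le] at ht
    rcases ht with ht | ht
    · rw [hb t ht]; exact bot_le
    · have := ht₁ (t - 1) (by omega)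
      rwa [sub_add_cancel] at this
  let L : Type := Σ t : T, Fin (cod (low (fun i => ev (X i)) D t) (D t))
  let a : L → ℤ := fun l => l.1
  let e : L → Y := fun l => f l.1 l.2
  have he : ∀ l, e l ∈ D (a l) := fun l => hf1 _ _
  refine ⟨L, inferInstance, a, e, he, fun l => (Finset.mem_Ioc.1 l.1.2).1, ?_, ?_⟩
  · have hle : ∀ s, t₀ ≤ s → D s ≤ (FF k a s).map (piE ev e) := by
      intro s hs
      induction s, hs using Int.leInduction with
      | base => rw [hb t₀ le_rfl]; exact bot_le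
      | succ s hs ih =>
        have hlow : low (fun i => ev (X i)) D (s + 1) ≤ (FF k a (s + 1)).map (piE ev e) := by
          refine iSup_le fun i => ?_
          rw [add_sub_cancel_right]
          rintro _ ⟨x, hx, rfl⟩
          obtain ⟨p, hp, rfl⟩ := ih hx
          exact ⟨_, smul_FF i hp, piE_smul ev e _ p⟩
        by_cases hT : s + 1 ∈ T
        · refine (hf2 (s + 1)).trans (sup_le hlow ?_)
          rw [Submodule.span_le]
          rintro _ ⟨i, rfl⟩
          refine ⟨Pi.single (⟨⟨s + 1, hT⟩, i⟩ : L) 1, ?_, ?_⟩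
          · change _ ∈ FF k a (s + 1)
            rw [mem_FF]
            intro l
            by_cases hl : l = ⟨⟨s + 1, hT⟩, i⟩
            · subst hl
              rw [Pi.single_eq_same]
              simp only [a, sub_self]
              have e0 := Hom3_nat (k := k) 0
              rw [Nat.cast_zero] at e0
              rw [e0]
              exact isHomogeneous_one _ _
            · rw [Pi.single_eq_of_ne hl]
              exact Submodule.zero_mem _
          · rw [piE_apply, Finset.sum_eq_single (⟨⟨s + 1, hT⟩, i⟩ : L)]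
            · simp [e]
            · intro l _ hl
              rw [Pi.single_eq_of_ne hl]
              simp
            · simp
        · exact (hn _ hT).trans hlow
    intro t
    apply le_antisymm
    · rcases le_or_gt t₀ t with h | h
      · exact hle t h
      · rw [hb t h.le]; exact bot_le
    · rintro _ ⟨p, hp, rfl⟩
      rw [piE_apply]
      refine Submodule.sum_mem _ fun l _ => ?_
      have := ev_mem ev hD (he l) (mem_FF.1 hp l)
      rwa [add_sub_cancel] at this
  · intro t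
    rw [Fintype.sum_sigma]
    simp only [a]
    by_cases hT : t ∈ T
    · rw [Finset.sum_eq_single (⟨t, hT⟩ : T)]
      · simp
      · intro s _ hs
        refine Finset.sum_eq_zero fun _ _ => if_neg fun h => ?_
        exact hs (Subtype.ext (by simp only; omega))
      · simp
    · have h1 : cod (low (fun i => ev (X i)) D t) (D t) = 0 := by
        have := cod_mono (finCod_self (low (fun i => ev (X i)) D t)) le_rfl (hn t hT)
        rw [cod_self] at this
        omega
      rw [h1, Nat.cast_zero]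
      refine Finset.sum_eq_zero fun s _ => Finset.sum_eq_zero fun _ _ => if_neg fun h => ?_
      apply hT
      have : t = s := by omega
      rw [this]
      exact s.2

theorem step_dim (z : Module.End k Y) {K A A' : Submodule k Y} [FiniteDimensional k K]
    [FiniteDimensional k A'] (hA : A ≤ K) (h : ∀ u ∈ K, z u ∈ A' ↔ u ∈ A) :
    (finrank k ↥(A' ⊔ K.map z) : ℚ) = finrank k A' + finrank k K - finrank k A := by
  have e1 := (cod_fd (A := A') (B := A' ⊔ K.map z) le_sup_left).2
  have e2 := (cod_map z A' K).2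
  have e3 : K ⊓ A'.comap z = A := by
    ext u
    constructor
    · rintro ⟨h1, h2⟩
      exact (h u h1).1 h2
    · intro hu
      exact ⟨hA hu, (h u (hA hu)).2 hu⟩
  rw [cod_sup] at e1
  rw [e3] at e2
  have e1' : (cod A' (K.map z) : ℚ) + finrank k A' = finrank k ↥(A' ⊔ K.map z) := by
    exact_mod_cast e1
  have e2' : (cod A' (K.map z) : ℚ) + finrank k A = finrank k K := by exact_mod_cast e2
  linarith

theorem third_diff {z : Fin 3 → Module.End k Y} (hc : ∀ i j, Commute (z i) (z j))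
    {K : ℤ → Submodule k Y} (hK : Closed z K) (hf : ∀ t, FiniteDimensional k (K t))
    (r0 : ∀ t, ∀ u ∈ K t, z 0 u = 0 → u = 0)
    (r1 : ∀ t, ∀ u ∈ K t, ∀ v ∈ K t, z 1 u = z 0 v → ∃ w ∈ K (t - 1), u = z 0 w)
    (r2 : ∀ t, ∀ u ∈ K t, ∀ v₀ ∈ K t, ∀ v₁ ∈ K t, z 2 u = z 0 v₀ + z 1 v₁ →
      ∃ w₀ ∈ K (t - 1), ∃ w₁ ∈ K (t - 1), u = z 0 w₀ + z 1 w₁) (t : ℤ) :
    (cod (low z K t) (K t) : ℚ) = finrank k (K t) - 3 * finrank k (K (t - 1)) +
      3 * finrank k (K (t - 2)) - finrank k (K (t - 3)) := by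
  have hcm : ∀ i j x, z i (z j x) = z j (z i x) := fun i j x => LinearMap.congr_fun (hc i j).eq x
  have hm : ∀ i t, (K (t - 1)).map (z i) ≤ K t := by
    rintro i t _ ⟨x, hx, rfl⟩
    have := hK i _ x hx
    rwa [sub_add_cancel] at this
  let K1 : ℤ → Submodule k Y := fun t => ⊥ ⊔ (K (t - 1)).map (z 0)
  let K2 : ℤ → Submodule k Y := fun t => K1 t ⊔ (K (t - 1)).map (z 1)
  have h1le : ∀ t, K1 t ≤ K t := fun t => sup_le bot_le (hm 0 t)
  have h2le : ∀ t, K2 t ≤ K t := fun t => sup_le (h1le t) (hm 1 t)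
  have m1 : ∀ t u, u ∈ K1 t ↔ ∃ w ∈ K (t - 1), u = z 0 w := by
    intro t u
    simp only [K1, bot_sup_eq, Submodule.mem_map]
    exact ⟨fun ⟨w, h1, h2⟩ => ⟨w, h1, h2.symm⟩, fun ⟨w, h1, h2⟩ => ⟨w, h1, h2.symm⟩⟩
  have m2 : ∀ t u, u ∈ K2 t ↔ ∃ w₀ ∈ K (t - 1), ∃ w₁ ∈ K (t - 1), u = z 0 w₀ + z 1 w₁ := by
    intro t u
    simp only [K2, Submodule.mem_sup]
    constructor
    · rintro ⟨a, ha, _, ⟨w₁, hw₁, rfl⟩, rfl⟩
      obtain ⟨w₀, hw₀, rfl⟩ := (m1 t a).1 ha
      exact ⟨w₀, hw₀, w₁, hw₁, rfl⟩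
    · rintro ⟨w₀, hw₀, w₁, hw₁, rfl⟩
      exact ⟨_, (m1 t _).2 ⟨w₀, hw₀, rfl⟩, _, ⟨w₁, hw₁, rfl⟩, rfl⟩
  have d1 : ∀ t, (finrank k (K1 t) : ℚ) = finrank k (K (t - 1)) := by
    intro t
    have := hf (t - 1)
    have h := step_dim (z 0) (K := K (t - 1)) (A := ⊥) (A' := ⊥) bot_le (by
      intro u hu
      rw [Submodule.mem_bot, Submodule.mem_bot]
      exact ⟨r0 _ u hu, fun h => by rw [h, map_zero]⟩)
    rw [finrank_bot] at h
    simpa [K1] using h
  have d2 : ∀ t, (finrank k (K2 t) : ℚ) = 2 * finrank k (K (t - 1)) - finrank k (K (t - 2)) := by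
    intro t
    have := hf (t - 1)
    have := hf t
    have : FiniteDimensional k (K1 t) := Submodule.finiteDimensional_of_le (h1le t)
    have h := step_dim (z 1) (K := K (t - 1)) (A := K1 (t - 1)) (A' := K1 t) (h1le _) (by
      intro u hu
      rw [m1, m1]
      constructor
      · rintro ⟨v, hv, h⟩
        exact r1 _ u hu v hv h
      · rintro ⟨w, hw, rfl⟩
        refine ⟨z 1 w, ?_, hcm 1 0 w⟩
        exact hm 1 _ ⟨w, hw, rfl⟩)
    rw [d1, d1, show t - 1 - 1 = t - 2 by ring] at h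
    simp only [K2]
    linarith
  have := hf (t - 1)
  have := hf t
  have : FiniteDimensional k (K2 t) := Submodule.finiteDimensional_of_le (h2le t)
  have h := step_dim (z 2) (K := K (t - 1)) (A := K2 (t - 1)) (A' := K2 t) (h2le _) (by
    intro u hu
    rw [m2, m2]
    constructor
    · rintro ⟨v₀, hv₀, v₁, hv₁, h⟩
      exact r2 _ u hu v₀ hv₀ v₁ hv₁ h
    · rintro ⟨w₀, hw₀, w₁, hw₁, rfl⟩
      refine ⟨z 2 w₀, hm 2 _ ⟨w₀, hw₀, rfl⟩, z 2 w₁, hm 2 _ ⟨w₁, hw₁, rfl⟩, ?_⟩
      rw [map_add, hcm 2 0, hcm 2 1])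
  rw [d2, d2, show t - 1 - 1 = t - 2 by ring, show t - 1 - 2 = t - 3 by ring] at h
  have hlow : low z K t = K2 t ⊔ (K (t - 1)).map (z 2) := by
    apply le_antisymm
    · refine iSup_le fun i => ?_
      fin_cases i
      · exact le_sup_of_le_left (le_sup_of_le_left le_sup_right)
      · exact le_sup_of_le_left le_sup_right
      · exact le_sup_right
    · refine sup_le (sup_le (sup_le bot_le ?_) ?_) ?_
      · exact le_iSup (fun i => (K (t - 1)).map (z i)) 0
      · exact le_iSup (fun i => (K (t - 1)).map (z i)) 1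
      · exact le_iSup (fun i => (K (t - 1)).map (z i)) 2
  have e1 := (cod_fd (A := low z K t) (B := K t) (iSup_le fun i => hm i t)).2
  have e1' : (cod (low z K t) (K t) : ℚ) + finrank k (low z K t) = finrank k (K t) := by
    exact_mod_cast e1
  rw [hlow] at e1' ⊢
  linarith

theorem exists_ev {y : Fin 3 → Module.End k Y} (hc : ∀ i j, Commute (y i) (y j)) :
    ∃ ev : A3 k →ₐ[k] Module.End k Y, ∀ i, ev (X i) = y i := by
  have h := Algebra.isMulCommutative_adjoin k (s := Set.range y) (by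
    rintro _ ⟨i, rfl⟩ _ ⟨j, rfl⟩
    exact (hc i j).eq)
  let _ : CommRing (Algebra.adjoin k (Set.range y)) :=
    { (inferInstance : Ring (Algebra.adjoin k (Set.range y))) with mul_comm := h.is_comm.comm }
  refine ⟨(Algebra.adjoin k (Set.range y)).val.comp
    (aeval fun i => (⟨y i, Algebra.subset_adjoin ⟨i, rfl⟩⟩ : Algebra.adjoin k (Set.range y))), ?_⟩
  intro i
  rw [AlgHom.comp_apply, aeval_X]
  rfl

theorem exists_desc {V W : Type*} [AddCommGroup V] [Module k V] [AddCommGroup W] [Module k W]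
    (U : Submodule k V) (π : V →ₗ[k] Y) (ψ : V →ₗ[k] W) (h : ∀ p ∈ U, π p = 0 → ψ p = 0) :
    ∃ φ : Y →ₗ[k] W, ∀ p ∈ U, φ (π p) = ψ p := by
  have hk : LinearMap.ker (π.domRestrict U) ≤ LinearMap.ker (ψ.domRestrict U) :=
    fun p hp => h p p.2 hp
  obtain ⟨φ, hφ⟩ := LinearMap.exists_extend
    (((LinearMap.ker (π.domRestrict U)).liftQ (ψ.domRestrict U) hk).comp
      (π.domRestrict U).quotKerEquivRange.symm.toLinearMap)
  refine ⟨φ, fun p hp => ?_⟩
  have h1 := LinearMap.congr_fun hφ ⟨π p, ⟨p, hp⟩, rfl⟩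
  rw [LinearMap.comp_apply, Submodule.subtype_apply] at h1
  rw [h1, LinearMap.comp_apply]
  have h2 := LinearMap.quotKerEquivRange_symm_apply_image (π.domRestrict U) ⟨p, hp⟩ ⟨⟨p, hp⟩, rfl⟩
  erw [h2]
  rfl

end Vale.Agent.P190.ResH
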