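import Vale.Agent.P190.Seq

/-! P190 job SRing: the completion of a graded domain. -/

namespace Vale.Agent.P190
open Module Filter

/-- a graded domain inside a field with linear parameters -/
structure GR (k L : Type) [Field k] [Field L] [Algebra k L] where
  R : ℕ → Submodule k L
  zero : R 0 = 1
  mul : ∀ s t, ∀ a ∈ R s, ∀ b ∈ R t, a * b ∈ R (s + t)
  fd : ∀ t, FiniteDimensional k (R t)
  x : Fin 3 → L
  xmem : ∀ i, x i ∈ R 1
  t1 : ℕ
  gen : ∀ t, t1 ≤ t → ∀ a ∈ R (t + 1), ∃ b : Fin 3 → L, (∀ i, b i ∈ R t) ∧ a = ∑ i, x i * b i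
  grow : ∀ᶠ t : ℕ in atTop, t ^ 2 ≤ finrank k (R t)
  diff : ∀ j : ℕ, ∃ C : ℕ, ∀ᶠ t : ℕ in atTop, finrank k (R (t + j)) ≤ finrank k (R t) + C * t

variable {k L : Type} [Field k] [Field L] [Algebra k L] (G : GR k L)

namespace GR

/-- the completed ring -/
noncomputable def S : Subalgebra k (PowerSeries L) where
  carrier := {s | ∀ t, PowerSeries.coeff t s ∈ G.R t}
  add_mem' := fun ha hb t => by simpa using add_mem (ha t) (hb t)
  mul_mem' := by
    intro a b ha hb t
    rw [PowerSeries.coeff_mul]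
    refine Submodule.sum_mem _ fun p hp => ?_
    rw [← Finset.HasAntidiagonal.mem_antidiagonal.1 hp]
    exact G.mul _ _ _ (ha _) _ (hb _)
  algebraMap_mem' := by
    intro c t
    rw [PowerSeries.algebraMap_apply, PowerSeries.coeff_C]
    split_ifs with h
    · rw [h, G.zero]
      exact Submodule.algebraMap_mem c
    · exact zero_mem _

theorem mem_S {s : PowerSeries L} : s ∈ G.S ↔ ∀ t, PowerSeries.coeff t s ∈ G.R t := Iff.rfl

/-- series of order at least j -/
noncomputable def ge (j : ℕ) : Ideal G.S where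
  carrier := {s | ∀ t < j, PowerSeries.coeff t (s : PowerSeries L) = 0}
  zero_mem' := fun t _ => by simp
  add_mem' := fun ha hb t ht => by simp [ha t ht, hb t ht]
  smul_mem' := by
    intro c s hs t ht
    rw [smul_eq_mul, Subalgebra.coe_mul, PowerSeries.coeff_mul]
    refine Finset.sum_eq_zero fun p hp => ?_
    have := Finset.HasAntidiagonal.mem_antidiagonal.1 hp
    rw [hs p.2 (by omega), mul_zero]

theorem mem_ge {j : ℕ} {s : G.S} :
    s ∈ G.ge j ↔ ∀ t < j, PowerSeries.coeff t (s : PowerSeries L) = 0 := Iff.rfl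

open Classical in
/-- a homogeneous element as a series (zero if it has the wrong degree) -/
noncomputable def mono (j : ℕ) (a : L) : G.S :=
  if h : a ∈ G.R j then ⟨PowerSeries.monomial j a, fun t => by
    rw [PowerSeries.coeff_monomial]; split_ifs with h'
    · rw [h']; exact h
    · exact zero_mem _⟩ else 0

/-- the parameters -/
noncomputable def xs (i : Fin 3) : G.S := G.mono 1 (G.x i)

theorem mono_coe {j : ℕ} {a : L} (h : a ∈ G.R j) :
    (G.mono j a : PowerSeries L) = PowerSeries.monomial j a := by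
  simp [mono, h]

theorem mono_add {j : ℕ} {a b : L} (ha : a ∈ G.R j) (hb : b ∈ G.R j) :
    G.mono j (a + b) = G.mono j a + G.mono j b := by
  apply Subtype.ext
  rw [Subalgebra.coe_add, G.mono_coe ha, G.mono_coe hb, G.mono_coe (add_mem ha hb), map_add]

theorem mono_smul {j : ℕ} (c : k) {a : L} (ha : a ∈ G.R j) :
    G.mono j (c • a) = c • G.mono j a := by
  apply Subtype.ext
  rw [Subalgebra.coe_smul, G.mono_coe ha, G.mono_coe (Submodule.smul_mem _ c ha)]
  exact LinearMap.map_smul_of_tower _ c a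

theorem mono_zero (j : ℕ) : G.mono j 0 = 0 := by
  apply Subtype.ext
  rw [G.mono_coe (zero_mem _), map_zero]
  rfl

theorem mono_mul {i j : ℕ} {a b : L} (ha : a ∈ G.R i) (hb : b ∈ G.R j) :
    G.mono (i + j) (a * b) = G.mono i a * G.mono j b := by
  apply Subtype.ext
  rw [Subalgebra.coe_mul, G.mono_coe ha, G.mono_coe hb, G.mono_coe (G.mul _ _ _ ha _ hb),
    PowerSeries.monomial_mul_monomial]

theorem one_mem_R : (1 : L) ∈ G.R 0 := by
  rw [G.zero]
  exact Submodule.one_le.1 le_rfl

theorem mono_one : G.mono 0 1 = 1 := by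
  apply Subtype.ext
  rw [G.mono_coe G.one_mem_R, PowerSeries.monomial_zero_eq_C_apply, map_one]
  rfl

theorem mono_mem_ge (j : ℕ) (a : L) : G.mono j a ∈ G.ge j := by
  by_cases h : a ∈ G.R j
  · intro t ht
    rw [G.mono_coe h, PowerSeries.coeff_monomial, if_neg (by omega)]
  · have : G.mono j a = 0 := by simp [mono, h]
    rw [this]
    exact zero_mem _

theorem sub_mono_mem_ge {j : ℕ} {s : G.S} (hs : s ∈ G.ge j) :
    s - G.mono j (PowerSeries.coeff j (s : PowerSeries L)) ∈ G.ge (j + 1) := by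
  intro t ht
  rw [Subalgebra.coe_sub, map_sub, G.mono_coe (s.2 j), PowerSeries.coeff_monomial]
  split_ifs with h
  · rw [h, sub_self]
  · rw [hs t (by omega), sub_zero]

theorem ge_zero : G.ge 0 = ⊤ := by
  rw [eq_top_iff]
  intro s _ t ht
  omega

theorem ge_anti {i j : ℕ} (h : i ≤ j) : G.ge j ≤ G.ge i :=
  fun _ hs t ht => hs t (by omega)

theorem ge_mul {i j : ℕ} {a b : G.S} (ha : a ∈ G.ge i) (hb : b ∈ G.ge j) :
    a * b ∈ G.ge (i + j) := by
  intro t ht
  rw [Subalgebra.coe_mul, PowerSeries.coeff_mul]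
  refine Finset.sum_eq_zero fun p hp => ?_
  have := Finset.HasAntidiagonal.mem_antidiagonal.1 hp
  by_cases h : p.1 < i
  · rw [ha _ h, zero_mul]
  · rw [hb p.2 (by omega), mul_zero]

theorem mono_sum {ι : Type*} {j : ℕ} (s : Finset ι) {a : ι → L} (ha : ∀ i, a i ∈ G.R j) :
    G.mono j (∑ i ∈ s, a i) = ∑ i ∈ s, G.mono j (a i) := by
  classical
  induction s using Finset.induction_on with
  | empty => simp [G.mono_zero]
  | insert i s hi ih =>
    rw [Finset.sum_insert hi, Finset.sum_insert hi,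
      G.mono_add (ha i) (Submodule.sum_mem _ fun i _ => ha i), ih]

theorem coeff_mono_mul {j : ℕ} {a : L} (ha : a ∈ G.R j) (s : G.S) (t : ℕ) :
    PowerSeries.coeff (t + j) ((G.mono j a * s : G.S) : PowerSeries L) =
      a * PowerSeries.coeff t (s : PowerSeries L) := by
  rw [Subalgebra.coe_mul, G.mono_coe ha, PowerSeries.monomial_eq_C_mul_X_pow, mul_assoc,
    PowerSeries.coeff_C_mul, PowerSeries.coeff_X_pow_mul]

theorem eq_zero_of_ge {s : G.S} (h : ∀ n, s ∈ G.ge n) : s = 0 := by
  apply Subtype.ext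
  ext t
  exact h (t + 1) t (by omega)

theorem mem_ge_succ {j : ℕ} {s : G.S} (hs : s ∈ G.ge j)
    (h : PowerSeries.coeff j (s : PowerSeries L) = 0) : s ∈ G.ge (j + 1) := by
  intro t ht
  by_cases h1 : t = j
  · rw [h1, h]
  · exact hs t (by omega)

theorem aeval_xs {t : ℕ} {a : A3 k} (ha : a ∈ Hom3 k t) :
    MvPolynomial.aeval G.x a ∈ G.R t ∧
      MvPolynomial.aeval G.xs a = G.mono t (MvPolynomial.aeval G.x a) := by
  induction t generalizing a with
  | zero =>
    rw [SeqH.Hom3_nat, MvPolynomial.homogeneousSubmodule_zero, Submodule.mem_one] at ha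
    obtain ⟨c, rfl⟩ := ha
    rw [AlgHom.commutes, AlgHom.commutes, Algebra.algebraMap_eq_smul_one,
      Algebra.algebraMap_eq_smul_one, G.mono_smul c G.one_mem_R, G.mono_one]
    exact ⟨Submodule.smul_mem _ c G.one_mem_R, rfl⟩
  | succ t ih =>
    obtain ⟨b, hb, rfl⟩ := Hom3_gen (t := t) (by positivity) (by exact_mod_cast ha)
    have h1 : ∀ i, G.x i * MvPolynomial.aeval G.x (b i) ∈ G.R (t + 1) := fun i => by
      rw [add_comm]
      exact G.mul _ _ _ (G.xmem i) _ (ih (hb i)).1
    simp only [map_sum, map_mul, MvPolynomial.aeval_X]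
    refine ⟨Submodule.sum_mem _ fun i _ => h1 i, ?_⟩
    rw [G.mono_sum _ h1]
    refine Finset.sum_congr rfl fun i _ => ?_
    rw [(ih (hb i)).2, add_comm, G.mono_mul (G.xmem i) (ih (hb i)).1]
    rfl

theorem exists_div {j : ℕ} (hj : G.t1 ≤ j) {s : G.S} (hs : s ∈ G.ge (j + 1)) :
    ∃ b : Fin 3 → G.S, (∀ i, b i ∈ G.ge j) ∧ s = ∑ i, G.xs i * b i := by
  have h1 : ∀ t, ∃ b : Fin 3 → L, (∀ i, b i ∈ G.R t) ∧ (t < j → ∀ i, b i = 0) ∧
      PowerSeries.coeff (t + 1) (s : PowerSeries L) = ∑ i, G.x i * b i := by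
    intro t
    by_cases ht : t < j
    · exact ⟨0, fun _ => zero_mem _, fun _ _ => rfl, by simp [hs (t + 1) (by omega)]⟩
    · obtain ⟨b, hb, hb'⟩ := G.gen t (by omega) _ (s.2 (t + 1))
      exact ⟨b, hb, fun h => absurd h ht, hb'⟩
  choose b hb hb0 hb' using h1
  refine ⟨fun i => ⟨PowerSeries.mk fun t => b t i, fun t => by simpa using hb t i⟩,
    fun i t ht => by simpa using hb0 t ht i, ?_⟩
  apply Subtype.ext
  ext t
  rw [AddSubmonoidClass.coe_finsetSum, map_sum]
  cases t with
  | zero =>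
    rw [hs 0 (by omega)]
    refine (Finset.sum_eq_zero fun i _ => ?_).symm
    exact Ideal.mul_mem_right _ _ (G.mono_mem_ge 1 _) 0 (by omega)
  | succ t =>
    rw [hb']
    refine Finset.sum_congr rfl fun i _ => ?_
    rw [xs, G.coeff_mono_mul (G.xmem i)]
    simp

theorem ge_le_pow (j : ℕ) : G.ge (G.t1 + j) ≤ Ideal.span (Set.range G.xs) ^ j := by
  induction j with
  | zero => simp
  | succ j ih =>
    intro s hs
    obtain ⟨b, hb, rfl⟩ := G.exists_div (j := G.t1 + j) (by omega) hs
    rw [pow_succ']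
    exact Submodule.sum_mem _ fun i _ => Ideal.mul_mem_mul (Ideal.subset_span ⟨i, rfl⟩) (ih (hb i))

theorem pow_le_ge' {J : Ideal G.S} (hJ : J ≤ G.ge 1) (j : ℕ) : J ^ j ≤ G.ge j := by
  induction j with
  | zero => rw [G.ge_zero]; exact le_top
  | succ j ih =>
    rw [pow_succ, Ideal.mul_le]
    exact fun a ha b hb => G.ge_mul (ih ha) (hJ hb)

theorem span_le_ge : Ideal.span (Set.range G.xs) ≤ G.ge 1 := by
  rw [Ideal.span_le]
  rintro _ ⟨i, rfl⟩
  exact G.mono_mem_ge 1 _

theorem pow_le_ge (j : ℕ) : Ideal.span (Set.range G.xs) ^ j ≤ G.ge j :=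
  G.pow_le_ge' G.span_le_ge j

/-- every nonzero homogeneous element divides a nonzero form in the parameters -/
theorem norm {j : ℕ} {a : L} (ha : a ∈ G.R j) (h0 : a ≠ 0) :
    ∃ (t : ℕ) (P : A3 k), P ≠ 0 ∧ P ∈ Hom3 k ((t + j : ℕ) : ℤ) ∧
      ∃ b ∈ G.R t, MvPolynomial.aeval G.x P = b * a := by
  obtain ⟨C, hC⟩ := G.diff j
  let R' : ℕ → Submodule k L := fun t =>
    if j ≤ t then (G.R (t - j)).map (LinearMap.mulRight k a) else ⊥
  obtain ⟨t, P, hP0, hP, hPR⟩ := exists_form G.x G.R R' G.fd (by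
    intro t
    simp only [R']
    split_ifs with h
    · rintro _ ⟨b, hb, rfl⟩
      have := G.mul _ _ _ hb _ ha
      rwa [Nat.sub_add_cancel h] at this
    · exact bot_le) (fun t P hP => (G.aeval_xs hP).1) C (by
    obtain ⟨t₀, ht₀⟩ := eventually_atTop.1 hC
    refine eventually_atTop.2 ⟨t₀ + j, fun t ht => ?_⟩
    have h1 := ht₀ (t - j) (by omega)
    rw [Nat.sub_add_cancel (by omega)] at h1
    have h2 : finrank k (R' t) = finrank k (G.R (t - j)) := by
      have h4 : R' t = (G.R (t - j)).map (LinearMap.mulRight k a) := if_pos (by omega)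
      rw [h4]
      exact (Submodule.equivMapOfInjective _ (mul_left_injective₀ h0) _).finrank_eq.symm
    have h3 : C * (t - j) ≤ C * t := Nat.mul_le_mul_left _ (by omega)
    omega)
  simp only [R'] at hPR
  split_ifs at hPR with h
  · obtain ⟨b, hb, hb'⟩ := hPR
    refine ⟨t - j, P, hP0, ?_, b, hb, hb'.symm⟩
    rwa [Nat.sub_add_cancel h]
  · refine ⟨t, P * MvPolynomial.X 0 ^ j, mul_ne_zero hP0 (pow_ne_zero _ (MvPolynomial.X_ne_zero 0)),
      ?_, 0, zero_mem _, ?_⟩
    · push_cast
      refine mul_Hom3 hP ?_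
      rw [SeqH.Hom3_nat]
      exact MvPolynomial.isHomogeneous_X_pow 0 j
    · rw [map_mul, (Submodule.mem_bot k).1 hPR, zero_mul, zero_mul]

theorem isUnit_iff {s : G.S} : IsUnit s ↔ s ∉ G.ge 1 := by
  constructor
  · rintro ⟨u, rfl⟩ h
    have h1 : ((u : G.S) * (u⁻¹ : G.Sˣ) : G.S) ∈ G.ge 1 := Ideal.mul_mem_right _ _ h
    rw [Units.mul_inv] at h1
    have h2 := h1 0 (by omega)
    simp at h2
  · intro h
    have h0 : PowerSeries.constantCoeff (s : PowerSeries L) ≠ 0 := by
      intro h0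
      apply h
      intro t ht
      have : t = 0 := by omega
      rw [this, PowerSeries.coeff_zero_eq_constantCoeff_apply, h0]
    have hc : (PowerSeries.constantCoeff (s : PowerSeries L))⁻¹ ∈ G.R 0 := by
      have := s.2 0
      rw [PowerSeries.coeff_zero_eq_constantCoeff_apply, G.zero, Submodule.mem_one] at this
      obtain ⟨c, hc⟩ := this
      rw [← hc, ← map_inv₀, G.zero]
      exact Submodule.algebraMap_mem _
    have hinv : (s : PowerSeries L)⁻¹ ∈ G.S := by
      intro t
      induction t using Nat.strong_induction_on with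
      | _ t ih =>
        rw [PowerSeries.coeff_inv]
        split_ifs with ht
        · rw [ht]; exact hc
        · have := G.mul 0 t _ (neg_mem hc) (∑ x ∈ Finset.HasAntidiagonal.antidiagonal t,
            if x.2 < t then PowerSeries.coeff x.1 (s : PowerSeries L) *
              PowerSeries.coeff x.2 (s : PowerSeries L)⁻¹ else 0) (by
            refine Submodule.sum_mem _ fun p hp => ?_
            split_ifs with h1
            · rw [← Finset.HasAntidiagonal.mem_antidiagonal.1 hp]
              exact G.mul _ _ _ (s.2 _) _ (ih _ h1)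
            · exact zero_mem _)
          rwa [zero_add] at this
    refine isUnit_iff_exists_inv.2 ⟨⟨_, hinv⟩, Subtype.ext ?_⟩
    exact PowerSeries.mul_inv_cancel _ h0

instance : IsLocalRing G.S := by
  refine IsLocalRing.of_nonunits_add fun a b ha hb => ?_
  rw [mem_nonunits_iff, G.isUnit_iff, not_not] at ha hb ⊢
  exact add_mem ha hb

theorem max_eq : IsLocalRing.maximalIdeal G.S = G.ge 1 := by
  ext s
  rw [IsLocalRing.mem_maximalIdeal, mem_nonunits_iff, G.isUnit_iff, not_not]

theorem sub_trunc_mem (g : G.S) (n : ℕ) :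
    g - ∑ m ∈ Finset.range n, G.mono m (PowerSeries.coeff m (g : PowerSeries L)) ∈ G.ge n := by
  intro t ht
  rw [Subalgebra.coe_sub, map_sub, AddSubmonoidClass.coe_finsetSum, map_sum,
    Finset.sum_eq_single t, G.mono_coe (g.2 t), PowerSeries.coeff_monomial_same, sub_self]
  · intro m _ hm
    rw [G.mono_coe (g.2 m), PowerSeries.coeff_monomial, if_neg (Ne.symm hm)]
  · intro h
    exact absurd (Finset.mem_range.2 ht) h

theorem approx {Λ : Type} [Fintype Λ] (I : Ideal G.S) (T : ℕ) (f : Λ → G.S)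
    (hf : ∀ l, f l ∈ I ⊓ G.ge T)
    (h : ∀ n, ∀ s ∈ I ⊓ G.ge (n + T), ∃ a : Λ → L, (∀ l, a l ∈ G.R n) ∧
      PowerSeries.coeff (n + T) (s : PowerSeries L) =
        ∑ l, a l * PowerSeries.coeff T (f l : PowerSeries L))
    {s : G.S} (hs : s ∈ I ⊓ G.ge T) : ∃ g : Λ → G.S, s = ∑ l, g l * f l := by
  classical
  have h' : ∀ n (s : G.S), ∃ a : Λ → L, (∀ l, a l ∈ G.R n) ∧ (s ∈ I ⊓ G.ge (n + T) →
      s - ∑ l, G.mono n (a l) * f l ∈ I ⊓ G.ge (n + 1 + T)) := by
    intro n s
    by_cases hs : s ∈ I ⊓ G.ge (n + T)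
    · obtain ⟨a, ha, ha'⟩ := h n s hs
      refine ⟨a, ha, fun _ => ⟨sub_mem hs.1 (Submodule.sum_mem _ fun l _ =>
        Ideal.mul_mem_left _ _ (hf l).1), ?_⟩⟩
      rw [show n + 1 + T = n + T + 1 by ring]
      refine G.mem_ge_succ (sub_mem hs.2 (Submodule.sum_mem _ fun l _ =>
        G.ge_mul (G.mono_mem_ge n _) (hf l).2)) ?_
      rw [Subalgebra.coe_sub, map_sub, ha', AddSubmonoidClass.coe_finsetSum, map_sum, sub_eq_zero]
      refine Finset.sum_congr rfl fun l _ => ?_
      rw [add_comm, G.coeff_mono_mul (ha l)]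
    · exact ⟨0, fun _ => zero_mem _, fun h => absurd h hs⟩
  choose a ha ha' using h'
  let r : ℕ → G.S := fun n => Nat.rec s (fun n x => x - ∑ l, G.mono n (a n x l) * f l) n
  have hr : ∀ n, r (n + 1) = r n - ∑ l, G.mono n (a n (r n) l) * f l := fun _ => rfl
  have hrI : ∀ n, r n ∈ I ⊓ G.ge (n + T) := by
    intro n
    induction n with
    | zero => rw [zero_add]; exact hs
    | succ n ih => exact ha' n _ ih
  let g : Λ → G.S := fun l => ⟨PowerSeries.mk fun n => a n (r n) l, fun n => by simpa using ha n _ l⟩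
  have hg : ∀ l n, PowerSeries.coeff n (g l : PowerSeries L) = a n (r n) l := fun l n => by
    simp [g]
  have hsr : ∀ n, s - r n = ∑ l, (∑ m ∈ Finset.range n,
      G.mono m (PowerSeries.coeff m (g l : PowerSeries L))) * f l := by
    intro n
    induction n with
    | zero => simp [r]
    | succ n ih =>
      simp only [Finset.sum_range_succ, add_mul, Finset.sum_add_distrib]
      rw [← ih, hr]
      simp only [hg]
      ring
  refine ⟨g, sub_eq_zero.1 (G.eq_zero_of_ge fun n => ?_)⟩
  have e : s - ∑ l, g l * f l = r n - ∑ l, (g l - ∑ m ∈ Finset.range n,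
      G.mono m (PowerSeries.coeff m (g l : PowerSeries L))) * f l := by
    simp only [sub_mul, Finset.sum_sub_distrib]
    rw [← hsr]
    ring
  rw [e]
  exact sub_mem (G.ge_anti (by omega) (hrI n).2)
    (Submodule.sum_mem _ fun l _ => Ideal.mul_mem_right _ _ (G.sub_trunc_mem _ n))

/-- coefficient as a linear map -/
noncomputable def cf (t : ℕ) : G.S →ₗ[k] L :=
  ((PowerSeries.coeff t).restrictScalars k).comp G.S.val.toLinearMap

theorem cf_apply (t : ℕ) (s : G.S) : G.cf t s = PowerSeries.coeff t (s : PowerSeries L) := rfl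

/-- initial forms of an ideal -/
noncomputable def ini (I : Ideal G.S) (t : ℕ) : Submodule k L :=
  ((I ⊓ G.ge t).restrictScalars k).map (G.cf t)

theorem ini_le (I : Ideal G.S) (t : ℕ) : G.ini I t ≤ G.R t := by
  rintro _ ⟨s, _, rfl⟩
  exact s.2 t

theorem ini_gen (I : Ideal G.S) : ∃ T : ℕ, ∀ t, T ≤ t →
    G.ini I (t + 1) ≤ ⨆ i, (G.ini I t).map (LinearMap.mulLeft k (G.x i)) := by
  let y : Fin 3 → Module.End k L := fun i => LinearMap.mulLeft k (G.x i)
  let E : ℤ → Submodule k L := fun t => if 0 ≤ t then G.R t.toNat else ⊥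
  let D : ℤ → Submodule k L := fun t => if 0 ≤ t then G.ini I t.toNat else ⊥
  have hE : ∀ n : ℕ, E n = G.R n := fun n => by simp [E]
  have hD : ∀ n : ℕ, D n = G.ini I n := fun n => by simp [D]
  have hE' : ∀ t < 0, E t = ⊥ := fun t ht => if_neg (by omega)
  have hD' : ∀ t < 0, D t = ⊥ := fun t ht => if_neg (by omega)
  obtain ⟨t₀, ht₀⟩ := noeth (y := y) (E := E) (D := D) (by
    intro i j
    refine LinearMap.ext fun x => ?_
    simp only [y, Module.End.mul_apply, LinearMap.mulLeft_apply]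
    ring) (by
    intro i t x hx
    rcases lt_or_ge t 0 with h | h
    · rw [hE' t h, Submodule.mem_bot] at hx
      rw [hx, map_zero]; exact zero_mem _
    · obtain ⟨n, rfl⟩ := Int.eq_ofNat_of_zero_le h
      rw [← Nat.cast_add_one, hE] at *
      rw [add_comm]
      exact G.mul _ _ _ (G.xmem i) _ hx) (by
    refine ⟨G.t1, fun t ht x hx => ?_⟩
    obtain ⟨n, rfl⟩ := Int.eq_ofNat_of_zero_le (show 0 ≤ t by omega)
    rw [← Nat.cast_add_one, hE] at hx
    obtain ⟨b, hb, rfl⟩ := G.gen n (by omega) x hx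
    rw [hE]
    exact Submodule.sum_mem _ fun i _ => Submodule.mem_iSup_of_mem i ⟨b i, hb i, rfl⟩) (by
    intro t
    rcases lt_or_ge t 0 with h | h
    · rw [hE' t h]; exact Submodule.fg_bot
    · obtain ⟨n, rfl⟩ := Int.eq_ofNat_of_zero_le h
      rw [hE]
      exact Module.Finite.iff_fg.1 (G.fd n)) (by
    intro i t x hx
    rcases lt_or_ge t 0 with h | h
    · rw [hD' t h, Submodule.mem_bot] at hx
      rw [hx, map_zero]; exact zero_mem _
    · obtain ⟨n, rfl⟩ := Int.eq_ofNat_of_zero_le h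
      rw [← Nat.cast_add_one, hD] at *
      obtain ⟨s, hs, rfl⟩ := hx
      refine ⟨G.xs i * s, ⟨Ideal.mul_mem_left _ _ hs.1, ?_⟩, G.coeff_mono_mul (G.xmem i) s n⟩
      rw [add_comm]
      exact G.ge_mul (G.mono_mem_ge 1 _) hs.2) (by
    intro t
    rcases lt_or_ge t 0 with h | h
    · rw [hD' t h]; exact bot_le
    · obtain ⟨n, rfl⟩ := Int.eq_ofNat_of_zero_le h
      rw [hD, hE]
      exact G.ini_le I n)
  refine ⟨t₀.toNat, fun t ht => ?_⟩
  have := ht₀ t (by omega)
  rwa [← Nat.cast_add_one, hD, hD] at this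

theorem ini_basis (I : Ideal G.S) (t : ℕ) : ∃ (n : ℕ) (f : Fin n → G.S), (∀ l, f l ∈ I ⊓ G.ge t) ∧
    ∀ a ∈ G.ini I t, ∃ c : Fin n → k, a = ∑ l, c l • PowerSeries.coeff t (f l : PowerSeries L) := by
  have := G.fd t
  have hfd : FiniteDimensional k (G.ini I t) := Submodule.finiteDimensional_of_le (G.ini_le I t)
  let β := Module.finBasis k (G.ini I t)
  have h1 : ∀ l, ∃ s ∈ I ⊓ G.ge t, G.cf t s = β l := fun l => (β l).2
  choose f hf hf' using h1
  refine ⟨_, f, hf, fun a ha => ⟨β.repr ⟨a, ha⟩, ?_⟩⟩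
  have h2 := congrArg (G.ini I t).subtype (β.sum_repr ⟨a, ha⟩)
  rw [map_sum] at h2
  refine h2.symm.trans (Finset.sum_congr rfl fun l _ => ?_)
  rw [map_smul, ← G.cf_apply, hf']
  rfl

instance : IsNoetherianRing G.S := by
  refine (isNoetherianRing_iff_ideal_fg _).2 fun I => ?_
  obtain ⟨T, hT⟩ := G.ini_gen I
  have hTfg : (I ⊓ G.ge T).FG := by
    obtain ⟨n, f, hf, hf'⟩ := G.ini_basis I T
    have hin : ∀ m, ∀ b ∈ G.ini I (m + T), ∃ a : Fin n → L, (∀ l, a l ∈ G.R m) ∧
        b = ∑ l, a l * PowerSeries.coeff T (f l : PowerSeries L) := by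
      intro m
      induction m with
      | zero =>
        intro b hb
        rw [zero_add] at hb
        obtain ⟨c, rfl⟩ := hf' b hb
        exact ⟨fun l => c l • (1 : L), fun l => Submodule.smul_mem _ _ G.one_mem_R, by simp⟩
      | succ m ih =>
        intro b hb
        rw [show m + 1 + T = m + T + 1 by ring] at hb
        have hb' := hT _ (by omega) hb
        clear hb
        induction hb' using Submodule.iSup_induction' with
        | mem i b hb =>
          obtain ⟨z, hz, rfl⟩ := hb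
          obtain ⟨a, ha, rfl⟩ := ih z hz
          refine ⟨fun l => G.x i * a l, fun l => ?_, ?_⟩
          · rw [add_comm]
            exact G.mul _ _ _ (G.xmem i) _ (ha l)
          · simp [mul_assoc]
        | zero => exact ⟨0, fun _ => zero_mem _, by simp⟩
        | add b c _ _ hb hc =>
          obtain ⟨a, ha, rfl⟩ := hb
          obtain ⟨a', ha', rfl⟩ := hc
          exact ⟨a + a', fun l => add_mem (ha l) (ha' l), by simp [add_mul, Finset.sum_add_distrib]⟩
    have : I ⊓ G.ge T = Ideal.span (Set.range f) := by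
      apply le_antisymm
      · intro s hs
        obtain ⟨g, rfl⟩ := G.approx I T f hf (fun m s hs => hin m _ ⟨s, hs, rfl⟩) hs
        exact Submodule.sum_mem _ fun l _ => Ideal.mul_mem_left _ _ (Ideal.subset_span ⟨l, rfl⟩)
      · rw [Ideal.span_le]
        rintro _ ⟨l, rfl⟩
        exact hf l
    rw [this]
    exact Submodule.fg_span (Set.finite_range f)
  have hdown : ∀ t, (I ⊓ G.ge (t + 1)).FG → (I ⊓ G.ge t).FG := by
    intro t ht
    obtain ⟨n, f, hf, hf'⟩ := G.ini_basis I t
    have : I ⊓ G.ge t = I ⊓ G.ge (t + 1) ⊔ Ideal.span (Set.range f) := by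
      apply le_antisymm
      · intro s hs
        obtain ⟨c, hc⟩ := hf' _ ⟨s, hs, rfl⟩
        have h1 : ∑ l, c l • f l ∈ Ideal.span (Set.range f) :=
          Submodule.sum_mem _ fun l _ => by
            rw [Algebra.smul_def]
            exact Ideal.mul_mem_left _ _ (Ideal.subset_span ⟨l, rfl⟩)
        have h2 : ∑ l, c l • f l ∈ I ⊓ G.ge t :=
          Submodule.sum_mem _ fun l _ => by
            rw [Algebra.smul_def]
            exact Ideal.mul_mem_left _ _ (hf l)
        have h3 : s - ∑ l, c l • f l ∈ I ⊓ G.ge (t + 1) := by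
          refine ⟨sub_mem hs.1 h2.1, G.mem_ge_succ (sub_mem hs.2 h2.2) ?_⟩
          rw [← G.cf_apply, map_sub, map_sum, hc, sub_eq_zero]
          exact Finset.sum_congr rfl fun l _ => by rw [map_smul, G.cf_apply]
        have := Submodule.add_mem_sup h3 h1
        rwa [sub_add_cancel] at this
      · refine sup_le (inf_le_inf_left _ (G.ge_anti (by omega))) ?_
        rw [Ideal.span_le]
        rintro _ ⟨l, rfl⟩
        exact hf l
    rw [this]
    exact Submodule.FG.sup ht (Submodule.fg_span (Set.finite_range f))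
  have hall : ∀ t, (I ⊓ G.ge t).FG → (I ⊓ G.ge 0).FG := by
    intro t
    induction t with
    | zero => exact id
    | succ t ih => exact fun h => ih (hdown t h)
  have := hall T hTfg
  rwa [G.ge_zero, inf_top_eq] at this

theorem ge_le_max_pow (j : ℕ) : G.ge (G.t1 + j) ≤ IsLocalRing.maximalIdeal G.S ^ j := by
  refine (G.ge_le_pow j).trans (Ideal.pow_right_mono ?_ j)
  rw [G.max_eq]
  exact G.span_le_ge

theorem max_pow_le (j : ℕ) : IsLocalRing.maximalIdeal G.S ^ j ≤ G.ge j :=
  G.pow_le_ge' G.max_eq.le j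

instance : IsAdicComplete (IsLocalRing.maximalIdeal G.S) G.S where
  haus' := by
    intro x hx
    refine G.eq_zero_of_ge fun n => G.max_pow_le n ?_
    have := hx n
    rwa [SModEq.zero, smul_eq_mul, Ideal.mul_top] at this
  prec' := by
    intro f hf
    have hf' : ∀ m n, m ≤ n → f m - f n ∈ IsLocalRing.maximalIdeal G.S ^ m := by
      intro m n h
      have := hf h
      rwa [SModEq.sub_mem, smul_eq_mul, Ideal.mul_top] at this
    let g : G.S := ⟨PowerSeries.mk fun t => PowerSeries.coeff t (f (t + 1) : PowerSeries L),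
      fun t => by simpa using (f (t + 1)).2 t⟩
    have hg : ∀ n, f n - g ∈ G.ge n := by
      intro n t ht
      have := G.max_pow_le _ (hf' (t + 1) n ht) t (by omega)
      rw [Subalgebra.coe_sub, map_sub, sub_eq_zero] at this ⊢
      simp [g, this]
    refine ⟨g, fun n => ?_⟩
    rw [SModEq.sub_mem, smul_eq_mul, Ideal.mul_top]
    have := add_mem (hf' n (G.t1 + n) (by omega)) (G.ge_le_max_pow n (hg _))
    rwa [sub_add_sub_cancel] at this

theorem cod_ge (n : ℕ) : FinCod ((G.ge n).restrictScalars k) ⊤ ∧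
    cod ((G.ge n).restrictScalars k) ⊤ = ∑ t ∈ Finset.range n, finrank k (G.R t) := by
  induction n with
  | zero =>
    rw [G.ge_zero, Submodule.restrictScalars_top, cod_self]
    exact ⟨SeqH.finCod_self _, rfl⟩
  | succ n ih =>
    have := G.fd n
    obtain ⟨h1, h2⟩ := SeqH.cod_fd (A := ⊥) (B := G.R n) bot_le
    rw [finrank_bot, add_zero] at h2
    obtain ⟨h3, h4⟩ := SeqH.cod_eq_of_map (G.cf n) (A' := (G.ge (n + 1)).restrictScalars k)
      (B' := (G.ge n).restrictScalars k) h1 (fun y _ => y.2 n)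
      (fun x hx => ⟨G.mono n x, G.mono_mem_ge n x, by
        rw [G.cf_apply, G.mono_coe hx, PowerSeries.coeff_monomial_same]⟩)
      (fun y hy => ⟨fun h => G.mem_ge_succ hy h, fun h => h n (by omega)⟩)
    have hle : (G.ge (n + 1)).restrictScalars k ≤ (G.ge n).restrictScalars k :=
      fun x hx => G.ge_anti (by omega) hx
    have h5 := h3.trans ih.1 hle
    refine ⟨h5, ?_⟩
    rw [cod_add hle le_top h5, h4, h2, ih.2, Finset.sum_range_succ, add_comm]

theorem cod_le_card {X Y ι : Type*} [AddCommGroup X] [Module k X] [AddCommGroup Y] [Module k Y]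
    {A' : Submodule k Y} (h : FinCod A' ⊤) (A : Submodule k X) (φ : ι → Y →ₗ[k] X)
    (hφ : ∀ i, ∀ y ∈ A', φ i y ∈ A) (s : Finset ι) :
    FinCod A (A ⊔ ⨆ i ∈ s, LinearMap.range (φ i)) ∧
      cod A (A ⊔ ⨆ i ∈ s, LinearMap.range (φ i)) ≤ s.card * cod A' ⊤ := by
  classical
  induction s using Finset.induction_on with
  | empty =>
    simp only [Finset.notMem_empty, iSup_false, iSup_bot, sup_bot_eq, cod_self]
    exact ⟨SeqH.finCod_self _, Nat.zero_le _⟩
  | insert i s hi ih =>
    rw [Finset.iSup_insert, sup_comm (LinearMap.range (φ i)), ← sup_assoc,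
      Finset.card_insert_of_notMem hi]
    set B := A ⊔ ⨆ i ∈ s, LinearMap.range (φ i) with hB
    have hAB : A ≤ B := le_sup_left
    have hk : LinearMap.ker A'.mkQ ≤ LinearMap.ker (B.mkQ.comp (φ i)) := by
      intro y hy
      rw [Submodule.ker_mkQ] at hy
      exact (Submodule.Quotient.mk_eq_zero B).2 (hAB (hφ i y hy))
    have hf : FiniteDimensional k (LinearMap.range A'.mkQ) := by
      rw [← Submodule.map_top]; exact h
    obtain ⟨h1, h2⟩ := SeqH.range_le_of_ker_le _ _ hk hf
    have e1 : LinearMap.range (B.mkQ.comp (φ i)) = (B ⊔ LinearMap.range (φ i)).map B.mkQ := by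
      rw [LinearMap.range_comp, Submodule.map_sup, SeqH.map_mkQ_self, bot_sup_eq]
    rw [e1] at h1 h2
    rw [← Submodule.map_top A'.mkQ] at h2
    have h3 : FinCod A (B ⊔ LinearMap.range (φ i)) := ih.1.trans h1 hAB
    refine ⟨h3, ?_⟩
    rw [cod_add hAB le_sup_left h3, add_mul, one_mul]
    exact add_le_add ih.2 h2

theorem cod_pair_pow {a b : G.S} (h : FinCod ((Ideal.span {a, b}).restrictScalars k) ⊤) (n : ℕ) :
    FinCod ((Ideal.span {a, b} ^ n).restrictScalars k) ⊤ ∧
      cod ((Ideal.span {a, b} ^ n).restrictScalars k) ⊤ ≤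
        n ^ 2 * cod ((Ideal.span {a, b}).restrictScalars k) ⊤ := by
  induction n with
  | zero =>
    rw [pow_zero, Ideal.one_eq_top, Submodule.restrictScalars_top, cod_self]
    exact ⟨SeqH.finCod_self _, Nat.zero_le _⟩
  | succ n ih =>
    have ha : a ∈ Ideal.span ({a, b} : Set G.S) := Ideal.subset_span (by simp)
    have hb : b ∈ Ideal.span ({a, b} : Set G.S) := Ideal.subset_span (by simp)
    let φ : ℕ → G.S →ₗ[k] G.S := fun i => if i ≤ n then LinearMap.mulLeft k (a ^ i * b ^ (n - i))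
      else 0
    obtain ⟨h1, h2⟩ := cod_le_card h ((Ideal.span {a, b} ^ (n + 1)).restrictScalars k) φ (by
      intro i y hy
      simp only [φ]
      split_ifs with hi
      · change a ^ i * b ^ (n - i) * y ∈ Ideal.span {a, b} ^ (n + 1)
        rw [pow_succ]
        refine Ideal.mul_mem_mul ?_ hy
        have := Ideal.mul_mem_mul (Ideal.pow_mem_pow ha i) (Ideal.pow_mem_pow hb (n - i))
        rwa [← pow_add, Nat.add_sub_cancel' hi] at this
      · exact zero_mem _) (Finset.range (n + 1))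
    have hle : (Ideal.span {a, b} ^ n).restrictScalars k ≤
        (Ideal.span {a, b} ^ (n + 1)).restrictScalars k ⊔
          ⨆ i ∈ Finset.range (n + 1), LinearMap.range (φ i) := by
      refine le_sup_of_le_right ?_
      rw [Ideal.span_insert, ← Ideal.add_eq_sup, add_pow]
      refine Finset.sum_induction _ (fun J : Ideal G.S => J.restrictScalars k ≤ _) ?_ ?_ ?_
      · intro J J' hJ hJ' x hx
        obtain ⟨u, hu, v, hv, rfl⟩ := Submodule.mem_sup.1 hx
        exact add_mem (hJ hu) (hJ' hv)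
      · intro x hx
        rw [(Submodule.mem_bot G.S).1 hx]
        exact zero_mem _
      · intro i hi x hx
        have h3 := Ideal.mul_le_left hx
        rw [Ideal.span_singleton_pow, Ideal.span_singleton_pow, Ideal.span_singleton_mul_span_singleton,
          Ideal.mem_span_singleton] at h3
        obtain ⟨c, rfl⟩ := h3
        refine Submodule.mem_iSup_of_mem i (Submodule.mem_iSup_of_mem hi ⟨c, ?_⟩)
        simp only [φ]
        rw [if_pos (Nat.lt_succ_iff.1 (Finset.mem_range.1 hi))]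
        rfl
    have hle' : (Ideal.span {a, b} ^ (n + 1)).restrictScalars k ≤
        (Ideal.span {a, b} ^ n).restrictScalars k :=
      fun x hx => Ideal.pow_le_pow_right (Nat.le_succ n) hx
    have h3 := (h1.mono le_rfl hle).trans ih.1 hle'
    refine ⟨h3, ?_⟩
    rw [cod_add hle' le_top h3]
    have h4 := cod_mono h1 le_rfl hle
    rw [Finset.card_range] at h2
    have h5 := ih.2
    nlinarith

theorem dim_eq : ringKrullDim G.S = 3 := by
  classical
  rw [← IsLocalRing.maximalIdeal_height_eq_ringKrullDim]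
  have hup : (IsLocalRing.maximalIdeal G.S).height ≤ 3 := by
    have hmin : IsLocalRing.maximalIdeal G.S ∈
        (Ideal.span ((Finset.univ.image G.xs : Finset G.S) : Set G.S)).minimalPrimes := by
      rw [Finset.coe_image, Finset.coe_univ, Set.image_univ]
      refine ⟨⟨inferInstance, G.max_eq ▸ G.span_le_ge⟩, ?_⟩
      rintro P ⟨hP, hP'⟩ _
      refine Ideal.IsPrime.le_of_pow_le (n := G.t1 + 1) ?_
      refine (G.max_pow_le _).trans ((G.ge_le_pow 1).trans ?_)
      rwa [pow_one]
    refine (Ideal.height_le_card_of_mem_minimalPrimes_span_finset hmin).trans ?_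
    have := Finset.card_image_le (s := Finset.univ) (f := G.xs)
    rw [Finset.card_univ, Fintype.card_fin] at this
    exact_mod_cast this
  have hlow : ¬ (IsLocalRing.maximalIdeal G.S).height ≤ 2 := by
    intro h2
    obtain ⟨s, hs, hcard⟩ := (IsLocalRing.maximalIdeal G.S).exists_finset_card_eq_height_of_isNoetherianRing
    rw [← hcard] at h2
    have h2' : s.card ≤ 2 := by exact_mod_cast h2
    have hsm : ∀ x ∈ s, x ∈ IsLocalRing.maximalIdeal G.S := fun x hx =>
      hs.1.2 (Ideal.subset_span hx)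
    obtain ⟨a, b, ha, hb, hab⟩ : ∃ a b : G.S, a ∈ IsLocalRing.maximalIdeal G.S ∧
        b ∈ IsLocalRing.maximalIdeal G.S ∧ (s : Set G.S) ⊆ {a, b} := by
      have : s.card = 0 ∨ s.card = 1 ∨ s.card = 2 := by omega
      rcases this with h | h | h
      · rw [Finset.card_eq_zero.1 h]
        exact ⟨0, 0, zero_mem _, zero_mem _, by simp⟩
      · obtain ⟨a, rfl⟩ := Finset.card_eq_one.1 h
        exact ⟨a, a, hsm a (by simp), hsm a (by simp), by simp⟩
      · obtain ⟨a, b, _, rfl⟩ := Finset.card_eq_two.1 h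
        exact ⟨a, b, hsm a (by simp), hsm b (by simp), by simp⟩
    have hrad : IsLocalRing.maximalIdeal G.S ≤ (Ideal.span (s : Set G.S)).radical := by
      rw [Ideal.radical_eq_sInf, le_sInf_iff]
      rintro P ⟨hP, hP'⟩
      exact hs.2 ⟨hP', hP⟩ (IsLocalRing.le_maximalIdeal hP'.ne_top)
    obtain ⟨N, hN⟩ := Ideal.exists_pow_le_of_le_radical_of_fg hrad (IsNoetherian.noetherian _)
    have hJ : G.ge (G.t1 + N) ≤ Ideal.span {a, b} :=
      (G.ge_le_max_pow N).trans (hN.trans (Ideal.span_mono hab))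
    have hfin : FinCod ((Ideal.span {a, b}).restrictScalars k) ⊤ :=
      (G.cod_ge (G.t1 + N)).1.mono (fun x hx => hJ hx) le_rfl
    have hJm : Ideal.span {a, b} ≤ G.ge 1 := by
      rw [← G.max_eq, Ideal.span_le]
      rintro x (rfl | rfl)
      · exact ha
      · exact hb
    obtain ⟨t₀, ht₀⟩ := eventually_atTop.1 G.grow
    set c := cod ((Ideal.span ({a, b} : Set G.S)).restrictScalars k) ⊤ with hc
    obtain ⟨m, hm, hm'⟩ : ∃ m, t₀ ≤ m ∧ 4 * c < m := ⟨t₀ + 4 * c + 1, by omega, by omega⟩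
    obtain ⟨h3, h4⟩ := G.cod_pair_pow hfin (2 * m)
    have h5 := cod_mono h3 (A' := (G.ge (2 * m)).restrictScalars k)
      (fun x hx => G.pow_le_ge' hJm _ hx) le_rfl
    rw [(G.cod_ge _).2] at h5
    have h6 : m * m ^ 2 ≤ ∑ t ∈ Finset.range (2 * m), finrank k (G.R t) := by
      have h7 : ∑ t ∈ Finset.Ico m (2 * m), finrank k (G.R t) ≤
          ∑ t ∈ Finset.range (2 * m), finrank k (G.R t) :=
        Finset.sum_le_sum_of_subset fun t ht => Finset.mem_range.2 (Finset.mem_Ico.1 ht).2
      refine le_trans ?_ h7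
      have h8 := Finset.card_nsmul_le_sum (Finset.Ico m (2 * m)) (fun t => finrank k (G.R t))
        (m ^ 2) (fun t ht => le_trans (Nat.pow_le_pow_left (Finset.mem_Ico.1 ht).1 2)
          (ht₀ t (hm.trans (Finset.mem_Ico.1 ht).1)))
      rwa [Nat.card_Ico, show 2 * m - m = m by omega, smul_eq_mul] at h8
    rw [← hc] at h4
    have h9 : 0 < m ^ 2 := by
      have : 0 < m := by omega
      positivity
    nlinarith
  have h3 : (IsLocalRing.maximalIdeal G.S).height = 3 := by
    refine le_antisymm hup ?_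
    by_contra h
    apply hlow
    have h' : (IsLocalRing.maximalIdeal G.S).height < 2 + 1 := by
      rw [show (2 : ℕ∞) + 1 = 3 by norm_num]
      exact not_le.1 h
    exact (ENat.lt_add_one_iff (by simp)).1 h'
  rw [h3]
  rfl

theorem finCod_smul_top {A M : Type*} [CommRing A] [Algebra k A] [AddCommGroup M] [Module A M]
    [Module k M] [IsScalarTower k A M] [Module.Finite A M] (J : Ideal A)
    (h : FinCod (J.restrictScalars k) ⊤) :
    FinCod ((J • (⊤ : Submodule A M)).restrictScalars k) ⊤ := by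
  obtain ⟨s, hs⟩ := Module.Finite.fg_top (R := A) (M := M)
  let φ : M → A →ₗ[k] M := fun m => (LinearMap.toSpanSingleton A M m).restrictScalars k
  have hφ : ∀ m y, φ m y = y • m := fun _ _ => rfl
  have h0 : ∀ m, ∀ y ∈ J.restrictScalars k, φ m y ∈ (J • (⊤ : Submodule A M)).restrictScalars k := by
    intro m y hy
    rw [hφ, Submodule.restrictScalars_mem]
    exact Submodule.smul_mem_smul hy Submodule.mem_top
  have h1 := (cod_le_card h ((J • (⊤ : Submodule A M)).restrictScalars k) φ h0 s).1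
  refine h1.mono le_rfl (le_sup_of_le_right ?_)
  intro x _
  have hx : x ∈ Submodule.span A (s : Set M) := by
    rw [hs]
    exact Submodule.mem_top
  obtain ⟨c, _, hc⟩ := Submodule.mem_span_finset.1 hx
  rw [← hc]
  refine Submodule.sum_mem _ fun m hm => ?_
  have h2 : c m • m ∈ LinearMap.range (φ m) := ⟨c m, hφ _ _⟩
  exact (le_iSup₂ (f := fun m (_ : m ∈ s) => LinearMap.range (φ m)) m hm) h2

theorem finCod_ge {M : Type*} [AddCommGroup M] [Module G.S M] [Module k M] [IsScalarTower k G.S M]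
    [Module.Finite G.S M] (j : ℕ) :
    FinCod ((G.ge j • (⊤ : Submodule G.S M)).restrictScalars k) ⊤ := by
  exact finCod_smul_top _ (G.cod_ge j).1

end GR

end Vale.Agent.P190
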