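import Mathlib

/-! P190 job Seq, part A: codimension calculus. -/

namespace Vale.Agent.P190
open Module Filter

namespace SeqH
end SeqH
open SeqH

variable {k : Type*} [Field k]

theorem SeqH.range_le_of_ker_le {V W W' : Type*} [AddCommGroup V] [Module k V] [AddCommGroup W]
    [Module k W] [AddCommGroup W'] [Module k W'] (g : V →ₗ[k] W) (h : V →ₗ[k] W')
    (hk : LinearMap.ker g ≤ LinearMap.ker h) (hf : FiniteDimensional k (LinearMap.range g)) :
    FiniteDimensional k (LinearMap.range h) ∧
      finrank k (LinearMap.range h) ≤ finrank k (LinearMap.range g) := by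
  let φ : LinearMap.range g →ₗ[k] LinearMap.range h :=
    (h.quotKerEquivRange.toLinearMap.comp (Submodule.factor hk)).comp
      g.quotKerEquivRange.symm.toLinearMap
  have hs : Function.Surjective φ :=
    (h.quotKerEquivRange.surjective.comp (Submodule.factor_surjective hk)).comp
      g.quotKerEquivRange.symm.surjective
  exact ⟨Module.Finite.of_surjective φ hs, LinearMap.finrank_le_finrank_of_surjective hs⟩

theorem SeqH.finrank_map_add_inf_ker {V W : Type*} [AddCommGroup V] [Module k V] [AddCommGroup W]
    [Module k W] (f : V →ₗ[k] W) (U : Submodule k V) [FiniteDimensional k U] :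
    finrank k (U.map f) + finrank k ↥(U ⊓ LinearMap.ker f) = finrank k U := by
  have h1 := LinearMap.finrank_range_add_finrank_ker (f.domRestrict U)
  rw [LinearMap.range_domRestrict, LinearMap.ker_domRestrict] at h1
  have h2 : (LinearMap.ker f).comap U.subtype = (U ⊓ LinearMap.ker f).comap U.subtype := by
    ext x
    simp
  rw [h2, (Submodule.comapSubtypeEquivOfLe (inf_le_left : U ⊓ LinearMap.ker f ≤ U)).finrank_eq] at h1
  exact h1

section
variable {X : Type*} [AddCommGroup X] [Module k X]

/-- codimension of A in A + B -/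
noncomputable def cod (A B : Submodule k X) : ℕ := finrank k (B.map A.mkQ)

/-- finite codimension -/
def FinCod (A B : Submodule k X) : Prop := FiniteDimensional k (B.map A.mkQ)

/-- comparison of codimensions along a linear map -/
theorem cod_le_of_map {Y : Type*} [AddCommGroup Y] [Module k Y] (f : Y →ₗ[k] X)
    {A B : Submodule k X} {A' B' : Submodule k Y} (h : FinCod A B) (hB : ∀ y ∈ B', f y ∈ B)
    (hA : ∀ y ∈ B', f y ∈ A → y ∈ A') : FinCod A' B' ∧ cod A' B' ≤ cod A B := by
  have hr : LinearMap.range ((A.mkQ.comp f).domRestrict B') ≤ B.map A.mkQ := by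
    rintro _ ⟨y, rfl⟩
    exact ⟨f y, hB y y.2, rfl⟩
  have hfd : FiniteDimensional k (B.map A.mkQ) := h
  have hf : FiniteDimensional k (LinearMap.range ((A.mkQ.comp f).domRestrict B')) :=
    Submodule.finiteDimensional_of_le hr
  have hk : LinearMap.ker ((A.mkQ.comp f).domRestrict B') ≤ LinearMap.ker (A'.mkQ.domRestrict B') := by
    intro y hy
    simp only [LinearMap.mem_ker, LinearMap.domRestrict_apply, LinearMap.comp_apply,
      Submodule.mkQ_apply, Submodule.Quotient.mk_eq_zero] at hy ⊢
    exact hA y y.2 hy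
  obtain ⟨h1, h2⟩ := range_le_of_ker_le _ _ hk hf
  rw [LinearMap.range_domRestrict] at h1
  have h3 : finrank k (LinearMap.range (A'.mkQ.domRestrict B')) = cod A' B' := by
    rw [LinearMap.range_domRestrict]; rfl
  exact ⟨h1, h3 ▸ h2.trans (Submodule.finrank_mono hr)⟩

theorem SeqH.cod_eq_of_map {Y : Type*} [AddCommGroup Y] [Module k Y] (f : Y →ₗ[k] X)
    {A B : Submodule k X} {A' B' : Submodule k Y} (h : FinCod A B) (hB : ∀ y ∈ B', f y ∈ B)
    (hs : ∀ x ∈ B, ∃ y ∈ B', f y = x)
    (hA : ∀ y ∈ B', f y ∈ A ↔ y ∈ A') : FinCod A' B' ∧ cod A' B' = cod A B := by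
  obtain ⟨h1, h2⟩ := cod_le_of_map f h hB fun y hy => (hA y hy).1
  refine ⟨h1, le_antisymm h2 ?_⟩
  have hr : LinearMap.range ((A.mkQ.comp f).domRestrict B') = B.map A.mkQ := by
    apply le_antisymm
    · rintro _ ⟨y, rfl⟩
      exact ⟨f y, hB y y.2, rfl⟩
    · rintro _ ⟨x, hx, rfl⟩
      obtain ⟨y, hy, rfl⟩ := hs x hx
      exact ⟨⟨y, hy⟩, rfl⟩
  have hk : LinearMap.ker (A'.mkQ.domRestrict B') ≤ LinearMap.ker ((A.mkQ.comp f).domRestrict B') := by
    intro y hy
    simp only [LinearMap.mem_ker, LinearMap.domRestrict_apply, LinearMap.comp_apply,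
      Submodule.mkQ_apply, Submodule.Quotient.mk_eq_zero] at hy ⊢
    exact (hA y y.2).2 hy
  have hf : FiniteDimensional k (LinearMap.range (A'.mkQ.domRestrict B')) := by
    rw [LinearMap.range_domRestrict]; exact h1
  obtain ⟨_, h4⟩ := range_le_of_ker_le _ _ hk hf
  rw [hr, LinearMap.range_domRestrict] at h4
  exact h4

theorem FinCod.mono {A A' B B' : Submodule k X} (h : FinCod A B) (hA : A ≤ A') (hB : B' ≤ B) :
    FinCod A' B' :=
  (cod_le_of_map LinearMap.id h (fun _ hy => hB hy) fun _ _ hy => hA hy).1

theorem cod_mono {A A' B B' : Submodule k X} (h : FinCod A B) (hA : A ≤ A') (hB : B' ≤ B) :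
    cod A' B' ≤ cod A B :=
  (cod_le_of_map LinearMap.id h (fun _ hy => hB hy) fun _ _ hy => hA hy).2

theorem SeqH.ker_factor_eq {A B : Submodule k X} (hAB : A ≤ B) :
    LinearMap.ker (Submodule.factor hAB) = B.map A.mkQ := by
  ext x
  obtain ⟨x, rfl⟩ := A.mkQ_surjective x
  rw [LinearMap.mem_ker, Submodule.factor_mk, Submodule.mkQ_apply, Submodule.Quotient.mk_eq_zero]
  constructor
  · intro hx
    exact ⟨x, hx, rfl⟩
  · rintro ⟨y, hy, hxy⟩
    have : y - x ∈ A := (Submodule.Quotient.eq A).1 hxy
    have h2 := B.sub_mem hy (hAB this)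
    simpa using h2

theorem SeqH.map_factor_eq {A B : Submodule k X} (hAB : A ≤ B) (C : Submodule k X) :
    (C.map A.mkQ).map (Submodule.factor hAB) = C.map B.mkQ := by
  rw [← Submodule.map_comp, Submodule.factor_comp_mk]

theorem FinCod.trans {A B C : Submodule k X} (h : FinCod A B) (h' : FinCod B C) (hAB : A ≤ B) :
    FinCod A C := by
  have h1 : FiniteDimensional k (B.map A.mkQ) := h
  have h2 : FiniteDimensional k (C.map B.mkQ) := h'
  have : (C.map A.mkQ).FG := by
    apply Submodule.fg_of_fg_map_of_fg_inf_ker (Submodule.factor hAB)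
    · rw [map_factor_eq]
      exact Module.Finite.iff_fg.1 h2
    · rw [ker_factor_eq]
      have : FiniteDimensional k ↥(C.map A.mkQ ⊓ B.map A.mkQ) :=
        Submodule.finiteDimensional_of_le inf_le_right
      exact Module.Finite.iff_fg.1 this
  exact Module.Finite.iff_fg.2 this

theorem cod_add {A B C : Submodule k X} (hAB : A ≤ B) (hBC : B ≤ C) (h : FinCod A C) :
    cod A C = cod A B + cod B C := by
  have h1 : FiniteDimensional k (C.map A.mkQ) := h
  have h2 := finrank_map_add_inf_ker (Submodule.factor hAB) (C.map A.mkQ)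
  rw [map_factor_eq, ker_factor_eq, inf_eq_right.2 (Submodule.map_mono hBC)] at h2
  unfold cod
  omega

theorem SeqH.map_mkQ_self (A : Submodule k X) : A.map A.mkQ = ⊥ := by
  rw [eq_bot_iff]
  rintro _ ⟨x, hx, rfl⟩
  exact (Submodule.Quotient.mk_eq_zero A).2 hx

theorem cod_self (A : Submodule k X) : cod A A = 0 := by
  unfold cod
  rw [map_mkQ_self, finrank_bot]

theorem SeqH.finCod_self (A : Submodule k X) : FinCod A A := by
  unfold FinCod
  rw [map_mkQ_self]
  infer_instance

theorem cod_sup (A B : Submodule k X) : cod A (A ⊔ B) = cod A B := by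
  unfold cod
  rw [Submodule.map_sup, map_mkQ_self, bot_sup_eq]

theorem le_of_cod_eq_zero {A B : Submodule k X} (h : FinCod A B) (h0 : cod A B = 0) : B ≤ A := by
  have h1 : FiniteDimensional k (B.map A.mkQ) := h
  have h2 : B.map A.mkQ = ⊥ := Submodule.finrank_eq_zero.1 h0
  intro x hx
  have : A.mkQ x ∈ B.map A.mkQ := ⟨x, hx, rfl⟩
  rw [h2] at this
  exact (Submodule.Quotient.mk_eq_zero A).1 this

/-- codimension computed through a linear map from a finite dimensional space -/
theorem cod_map {Y : Type*} [AddCommGroup Y] [Module k Y] (f : Y →ₗ[k] X) (A : Submodule k X)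
    (U : Submodule k Y) [FiniteDimensional k U] :
    FinCod A (U.map f) ∧ cod A (U.map f) + finrank k ↥(U ⊓ A.comap f) = finrank k U := by
  constructor
  · unfold FinCod
    infer_instance
  · have h := finrank_map_add_inf_ker (A.mkQ.comp f) U
    rw [Submodule.map_comp, LinearMap.ker_comp, Submodule.ker_mkQ] at h
    exact h

theorem SeqH.cod_fd {A B : Submodule k X} (hAB : A ≤ B) [FiniteDimensional k B] :
    FinCod A B ∧ cod A B + finrank k A = finrank k B := by
  have h := cod_map LinearMap.id A B
  rw [Submodule.map_id, Submodule.comap_id, inf_eq_right.2 hAB] at h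
  exact h

/-- codimension in a finite power, through the coordinate flag -/
theorem cod_pi {m : ℕ} (A : Submodule k X) (U : Submodule k (Fin m → X))
    (hU : Submodule.pi Set.univ (fun _ => A) ≤ U) (D : Fin m → Submodule k X)
    (hD : ∀ i x, x ∈ D i ↔ ∃ u ∈ U, (∀ j, j < i → u j ∈ A) ∧ u i = x)
    (hf : ∀ i, FinCod A (D i)) :
    cod (Submodule.pi Set.univ (fun _ => A)) U = ∑ i, cod A (D i) := by
  classical
  let F : ℕ → Submodule k (Fin m → X) := fun n =>
    U ⊓ Submodule.pi {j : Fin m | j.val < n} (fun _ => A)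
  have memF : ∀ n u, u ∈ F n ↔ u ∈ U ∧ ∀ j : Fin m, j.val < n → u j ∈ A := by
    intro n u
    simp [F, Submodule.mem_pi]
  have key : ∀ n, n ≤ m → FinCod (F n) U ∧
      cod (F n) U = ∑ i ∈ Finset.univ.filter (fun i : Fin m => i.val < n), cod A (D i) := by
    intro n
    induction n with
    | zero =>
      intro _
      have : F 0 = U := by
        ext u
        rw [memF]
        simp
      rw [this, cod_self]
      exact ⟨finCod_self U, by simp⟩
    | succ n ih =>
      intro hn
      obtain ⟨h1, h2⟩ := ih (by omega)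
      let i : Fin m := ⟨n, by omega⟩
      have hle : F (n + 1) ≤ F n := by
        intro u hu
        rw [memF] at hu ⊢
        exact ⟨hu.1, fun j hj => hu.2 j (by omega)⟩
      have hstep : FinCod (F (n + 1)) (F n) ∧ cod (F (n + 1)) (F n) = cod A (D i) := by
        refine cod_eq_of_map (LinearMap.proj i) (hf i) ?_ ?_ ?_
        · intro u hu
          rw [memF] at hu
          exact (hD i _).2 ⟨u, hu.1, fun j hj => hu.2 j hj, rfl⟩
        · intro x hx
          obtain ⟨u, hu, h3, h4⟩ := (hD i x).1 hx
          exact ⟨u, (memF n u).2 ⟨hu, fun j hj => h3 j hj⟩, h4⟩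
        · intro u hu
          rw [memF] at hu
          rw [memF]
          constructor
          · intro h3
            refine ⟨hu.1, fun j hj => ?_⟩
            by_cases hjn : j.val < n
            · exact hu.2 j hjn
            · have : j = i := Fin.ext (by simp only [i]; omega)
              rw [this]
              exact h3
          · intro h3
            exact h3.2 i (by simp [i])
      have hFU : F n ≤ U := inf_le_left
      have hfin : FinCod (F (n + 1)) U := hstep.1.trans h1 hle
      refine ⟨hfin, ?_⟩
      rw [cod_add hle hFU hfin, hstep.2, h2]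
      have : Finset.univ.filter (fun j : Fin m => j.val < n + 1) =
          insert i (Finset.univ.filter (fun j : Fin m => j.val < n)) := by
        ext j
        simp only [Finset.mem_filter, Finset.mem_univ, true_and, Finset.mem_insert, Fin.ext_iff, i]
        omega
      rw [this, Finset.sum_insert (by simp [i])]
  obtain ⟨_, h2⟩ := key m le_rfl
  have hF : F m = Submodule.pi Set.univ (fun _ => A) := by
    apply le_antisymm
    · intro u hu
      rw [memF] at hu
      exact fun j _ => hu.2 j j.2
    · intro u hu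
      rw [memF]
      exact ⟨hU hu, fun j _ => hu j trivial⟩
  rw [hF] at h2
  rw [h2]
  refine Finset.sum_congr ?_ fun _ _ => rfl
  ext j
  simp

end

end Vale.Agent.P190
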