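import Mathlib

/-! P190 job Seq, part B: Noetherian sequences of submodules. -/

namespace Vale.Agent.P190
open Module Filter

namespace SeqH
end SeqH
open SeqH

section
variable {S X ι : Type*} [CommRing S] [AddCommGroup X] [Module S X]

/-- the operators raise the degree by one -/
def Closed (y : ι → Module.End S X) (E : ℤ → Submodule S X) : Prop :=
  ∀ i t, ∀ x ∈ E t, y i x ∈ E (t + 1)

/-- eventually generated by the operators -/
def Gen (y : ι → Module.End S X) (E : ℤ → Submodule S X) : Prop :=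
  ∃ t₀ : ℤ, ∀ t, t₀ ≤ t → E (t + 1) ≤ ⨆ i, (E t).map (y i)

/-- shifted operator on finitely supported sequences -/
noncomputable def SeqH.shY (f : Module.End S X) : Module.End S (ℤ →₀ X) :=
  (Finsupp.lmapDomain X S (fun t : ℤ => t + 1)).comp (Finsupp.mapRange.linearMap f)

theorem SeqH.shY_single (f : Module.End S X) (t : ℤ) (x : X) :
    shY f (Finsupp.single t x) = Finsupp.single (t + 1) (f x) := by
  simp [shY, Finsupp.mapDomain_single]

theorem SeqH.shY_apply (f : Module.End S X) (m : ℤ →₀ X) (t : ℤ) : shY f m (t + 1) = f (m t) := by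
  have hinj : Function.Injective (fun t : ℤ => t + 1) := fun a b h => by simpa using h
  have := Finsupp.mapDomain_apply hinj (Finsupp.mapRange.linearMap f m) t
  simpa [shY] using this

theorem SeqH.shY_apply' (f : Module.End S X) (m : ℤ →₀ X) (t : ℤ) : shY f m t = f (m (t - 1)) := by
  have := shY_apply f m (t - 1)
  rwa [sub_add_cancel] at this

theorem SeqH.shY_comm {f g : Module.End S X} (h : Commute f g) : shY f * shY g = shY g * shY f := by
  refine LinearMap.ext fun m => Finsupp.ext fun t => ?_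
  simp only [Module.End.mul_apply, shY_apply']
  exact LinearMap.congr_fun h.eq _

/-- a submodule stable under a family of operators is a module over the generated algebra -/
def SeqH.toAdj {M : Type*} [AddCommGroup M] [Module S M] (s : Set (Module.End S M))
    (W : Submodule S M) (h : ∀ f ∈ s, ∀ m ∈ W, f m ∈ W) : Submodule (Algebra.adjoin S s) M where
  carrier := W
  zero_mem' := W.zero_mem
  add_mem' := fun ha hb => W.add_mem ha hb
  smul_mem' := by
    rintro ⟨a, ha⟩ m hm
    change a m ∈ W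
    induction ha using Algebra.adjoin_induction generalizing m with
    | mem f hf => exact h f hf m hm
    | algebraMap r => simpa using W.smul_mem r hm
    | add f g _ _ hf hg => exact W.add_mem (hf hm) (hg hm)
    | mul f g _ _ hf hg => exact hf (hg hm)

theorem SeqH.mem_toAdj {M : Type*} [AddCommGroup M] [Module S M] (s : Set (Module.End S M))
    (W : Submodule S M) (h : ∀ f ∈ s, ∀ m ∈ W, f m ∈ W) (m : M) : m ∈ toAdj s W h ↔ m ∈ W :=
  Iff.rfl

/-- truncated sequences -/
def SeqH.trunc (E : ℤ → Submodule S X) (t₀ : ℤ) : Submodule S (ℤ →₀ X) where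
  carrier := {m | (∀ t, m t ∈ E t) ∧ ∀ t, t < t₀ → m t = 0}
  zero_mem' := ⟨fun t => (E t).zero_mem, fun _ _ => rfl⟩
  add_mem' := by
    rintro a b ⟨ha, ha'⟩ ⟨hb, hb'⟩
    exact ⟨fun t => (E t).add_mem (ha t) (hb t), fun t ht => by simp [ha' t ht, hb' t ht]⟩
  smul_mem' := by
    rintro c a ⟨ha, ha'⟩
    exact ⟨fun t => (E t).smul_mem c (ha t), fun t ht => by simp [ha' t ht]⟩

theorem SeqH.trunc_stable {y : ι → Module.End S X} {E : ℤ → Submodule S X} (hE : Closed y E) (t₀ : ℤ) :
    ∀ f ∈ Set.range (fun i => shY (y i)), ∀ m ∈ trunc E t₀, f m ∈ trunc E t₀ := by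
  rintro _ ⟨i, rfl⟩ m ⟨hm, hm'⟩
  refine ⟨fun t => ?_, fun t ht => ?_⟩
  · rw [shY_apply']
    have := hE i (t - 1) _ (hm (t - 1))
    rwa [sub_add_cancel] at this
  · rw [shY_apply', hm' (t - 1) (by omega), map_zero]

theorem SeqH.single_mem_trunc {E : ℤ → Submodule S X} {t₀ t : ℤ} (ht : t₀ ≤ t) {x : X} (hx : x ∈ E t) :
    Finsupp.single t x ∈ trunc E t₀ := by
  refine ⟨fun u => ?_, fun u hu => ?_⟩
  · by_cases h : t = u
    · subst h
      simpa using hx
    · rw [Finsupp.single_eq_of_ne' h]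
      exact (E u).zero_mem
  · exact Finsupp.single_eq_of_ne' (by omega)

theorem SeqH.noeth_adj [IsNoetherianRing S] {A : Type*} [Ring A] [Algebra S A] {s : Set A}
    (hs : s.Finite) (hcomm : ∀ x ∈ s, ∀ y ∈ s, x * y = y * x) :
    IsNoetherianRing (Algebra.adjoin S s) := by
  have h := Algebra.isMulCommutative_adjoin S hcomm
  let _ : CommRing (Algebra.adjoin S s) :=
    { (inferInstance : Ring (Algebra.adjoin S s)) with mul_comm := h.is_comm.comm }
  have hft : Algebra.FiniteType S (Algebra.adjoin S s) :=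
    (Subalgebra.fg_iff_finiteType _).1 ⟨hs.toFinset, by simp⟩
  exact Algebra.FiniteType.isNoetherianRing S _

theorem SeqH.fg_le_adj [IsNoetherianRing S] {M : Type*} [AddCommGroup M] [Module S M]
    {s : Set (Module.End S M)} (hs : s.Finite) (hcomm : ∀ x ∈ s, ∀ y ∈ s, x * y = y * x)
    {A B : Submodule (Algebra.adjoin S s) M} (hB : B.FG) (h : A ≤ B) : A.FG := by
  have hN : IsNoetherianRing (Algebra.adjoin S s) := noeth_adj hs hcomm
  exact Submodule.FG.of_le hB h

theorem SeqH.smul_mem_adj {M : Type*} [AddCommGroup M] [Module S M] {s : Set (Module.End S M)}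
    (Sp : Submodule (Algebra.adjoin S s) M) (c : S) (m : M) (hm : m ∈ Sp) : c • m ∈ Sp := by
  have := Sp.smul_mem (algebraMap S (Algebra.adjoin S s) c) hm
  have h2 : (algebraMap S (Algebra.adjoin S s) c) • m = c • m := by
    change (algebraMap S (Module.End S M) c) m = c • m
    simp
  rwa [h2] at this

theorem SeqH.trunc_fg {y : ι → Module.End S X} {E : ℤ → Submodule S X} {t₀ : ℤ}
    (ht₀ : ∀ t, t₀ ≤ t → E (t + 1) ≤ ⨆ i, (E t).map (y i)) (hf : (E t₀).FG) :
    ∃ Sp : Submodule (Algebra.adjoin S (Set.range fun i => shY (y i))) (ℤ →₀ X), Sp.FG ∧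
      ∀ m ∈ trunc E t₀, m ∈ Sp := by
  classical
  obtain ⟨g, hgs⟩ := hf
  let Sp : Submodule (Algebra.adjoin S (Set.range fun i => shY (y i))) (ℤ →₀ X) :=
    Submodule.span _ ((fun x => Finsupp.single t₀ x) '' (g : Set X))
  have hsingle : ∀ t, t₀ ≤ t → ∀ x ∈ E t, Finsupp.single t x ∈ Sp := by
    intro t ht
    induction t, ht using Int.leInduction with
    | base =>
      intro x hx
      rw [← hgs] at hx
      induction hx using Submodule.span_induction with
      | mem x hx => exact Submodule.subset_span ⟨x, hx, rfl⟩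
      | zero => rw [Finsupp.single_zero]; exact Sp.zero_mem
      | add a b _ _ ha hb => rw [Finsupp.single_add]; exact Sp.add_mem ha hb
      | smul c a _ ha => rw [← Finsupp.smul_single]; exact smul_mem_adj Sp c _ ha
    | succ t ht ih =>
      intro x hx
      have hx' := ht₀ t ht hx
      clear hx
      induction hx' using Submodule.iSup_induction' with
      | mem i x hx2 =>
        obtain ⟨z, hz, rfl⟩ := hx2
        rw [← shY_single]
        exact Sp.smul_mem (⟨shY (y i), Algebra.subset_adjoin ⟨i, rfl⟩⟩ :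
          Algebra.adjoin S (Set.range fun i => shY (y i))) (ih z hz)
      | zero => rw [Finsupp.single_zero]; exact Sp.zero_mem
      | add a b _ _ iha ihb =>
        rw [Finsupp.single_add]
        exact Sp.add_mem iha ihb
  refine ⟨Sp, Submodule.fg_span ((g.finite_toSet).image _), ?_⟩
  rintro m ⟨hm, hm'⟩
  rw [← Finsupp.sum_single m]
  refine Submodule.sum_mem _ fun t ht => hsingle t ?_ _ (hm t)
  by_contra h
  exact (Finsupp.mem_support_iff.1 ht) (hm' t (by omega))

/-- sequences generated above a level -/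
def SeqH.genAbove (y : ι → Module.End S X) (D : ℤ → Submodule S X) (t₁ : ℤ) : Submodule S (ℤ →₀ X) where
  carrier := {m | ∀ t, t₁ ≤ t → m (t + 1) ∈ ⨆ i, (D t).map (y i)}
  zero_mem' := fun _ _ => Submodule.zero_mem _
  add_mem' := fun ha hb t ht => Submodule.add_mem _ (ha t ht) (hb t ht)
  smul_mem' := fun c _ ha t ht => Submodule.smul_mem _ c (ha t ht)

theorem SeqH.gen_of_fg {y : ι → Module.End S X} {D : ℤ → Submodule S X} (hD : Closed y D) (t₀ : ℤ)
    (hDfg : (toAdj _ (trunc D t₀) (trunc_stable hD t₀)).FG) : Gen y D := by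
  classical
  obtain ⟨G, hG⟩ := hDfg
  obtain ⟨t₁, ht₁⟩ : ∃ t₁ : ℤ, t₀ ≤ t₁ ∧ ∀ m ∈ G, ∀ t, t₁ < t → m t = 0 := by
    obtain ⟨b, hb⟩ := (G.biUnion Finsupp.support).finite_toSet.bddAbove
    refine ⟨max t₀ b, le_max_left _ _, fun m hm t ht => ?_⟩
    by_contra h
    have : t ≤ b := hb (by
      simp only [Finset.coe_biUnion, Set.mem_iUnion]
      exact ⟨m, hm, Finsupp.mem_support_iff.2 h⟩)
    have := le_max_right t₀ b
    omega
  have hP : ∀ f ∈ Set.range (fun i => shY (y i)), ∀ m ∈ trunc D t₀ ⊓ genAbove y D t₁,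
      f m ∈ trunc D t₀ ⊓ genAbove y D t₁ := by
    rintro _ ⟨i, rfl⟩ m ⟨hm, _⟩
    refine ⟨trunc_stable hD t₀ _ ⟨i, rfl⟩ m hm, fun t _ => ?_⟩
    change shY (y i) m (t + 1) ∈ _
    rw [shY_apply]
    exact Submodule.mem_iSup_of_mem i ⟨m t, hm.1 t, rfl⟩
  have hDP : toAdj _ (trunc D t₀) (trunc_stable hD t₀) ≤ toAdj _ _ hP := by
    rw [← hG, Submodule.span_le]
    intro m hm
    have hmD : m ∈ toAdj _ (trunc D t₀) (trunc_stable hD t₀) := by
      rw [← hG]
      exact Submodule.subset_span hm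
    refine ⟨hmD, fun t ht => ?_⟩
    rw [ht₁.2 m hm (t + 1) (by omega)]
    exact Submodule.zero_mem _
  refine ⟨t₁, fun t ht x hx => ?_⟩
  have h1 : Finsupp.single (t + 1) x ∈ toAdj _ (trunc D t₀) (trunc_stable hD t₀) :=
    single_mem_trunc (by omega) hx
  have h2 := (hDP h1).2 t ht
  rwa [Finsupp.single_eq_same] at h2

theorem noeth [IsNoetherianRing S] [Finite ι] {y : ι → Module.End S X}
    (hc : ∀ i j, Commute (y i) (y j)) {E D : ℤ → Submodule S X} (hE : Closed y E) (hg : Gen y E)
    (hf : ∀ t, (E t).FG) (hD : Closed y D) (hle : ∀ t, D t ≤ E t) : Gen y D := by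
  obtain ⟨t₀, ht₀⟩ := hg
  have _ := hE
  obtain ⟨Sp, hSp, hle'⟩ := trunc_fg ht₀ (hf t₀)
  apply gen_of_fg hD t₀
  refine fg_le_adj (Set.finite_range _) ?_ hSp ?_
  · rintro _ ⟨i, rfl⟩ _ ⟨j, rfl⟩
    exact shY_comm (hc i j)
  · rintro m ⟨hm, hm'⟩
    exact hle' m ⟨fun t => hle t (hm t), hm'⟩

end

end Vale.Agent.P190
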