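import Vale.Agent.P190.SeqA
import Vale.Agent.P190.SeqB

/-! P190 job Seq, part C: forms and the Hilbert-Serre theorem. -/

namespace Vale.Agent.P190
open Module Filter

namespace SeqH
end SeqH
open SeqH

abbrev A3 (k : Type*) [Field k] := MvPolynomial (Fin 3) k

/-- forms of degree t -/
noncomputable def Hom3 (k : Type*) [Field k] (t : ℤ) : Submodule k (A3 k) :=
  if 0 ≤ t then MvPolynomial.homogeneousSubmodule (Fin 3) k t.toNat else ⊥

/-- the binomial polynomial -/
def Bq (t : ℚ) : ℚ := (t + 1) * (t + 2) / 2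

/-- eventually a given quadratic polynomial -/
def EvQ (h : ℤ → ℚ) (a b c : ℚ) : Prop := ∀ᶠ t : ℤ in atTop, h t = a * (t : ℚ) ^ 2 + b * t + c

variable {k : Type*} [Field k]

theorem SeqH.finrank_homog (n t : ℕ) :
    finrank k (MvPolynomial.homogeneousSubmodule (Fin n) k t) = (n + t - 1).choose t := by
  classical
  have h : MvPolynomial.homogeneousSubmodule (Fin n) k t =
      MvPolynomial.restrictSupport k (↑((Finset.univ : Finset (Fin n)).finsuppAntidiag t) :
        Set (Fin n →₀ ℕ)) := by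
    rw [MvPolynomial.homogeneousSubmodule_eq_finsupp_supported]
    unfold MvPolynomial.restrictSupport
    congr 1
    ext d
    simp [Finsupp.degree_eq_sum]
  rw [h, finrank_eq_card_basis (MvPolynomial.basisRestrictSupport k _)]
  simp [Finset.card_finsuppAntidiag_nat_eq_choose]

instance SeqH.homog_fd (n t : ℕ) : FiniteDimensional k (MvPolynomial.homogeneousSubmodule (Fin n) k t) :=
  Module.Finite.iff_fg.2 (MvPolynomial.homogeneousSubmodule_fg _ _ _)

theorem SeqH.homog_gen {n t : ℕ} {a : MvPolynomial (Fin n) k} (ha : a.IsHomogeneous (t + 1)) :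
    ∃ b : Fin n → MvPolynomial (Fin n) k, (∀ i, (b i).IsHomogeneous t) ∧
      a = ∑ i, MvPolynomial.X i * b i := by
  classical
  have h1 : a ∈ MvPolynomial.homogeneousSubmodule (Fin n) k 1 *
      MvPolynomial.homogeneousSubmodule (Fin n) k t := by
    have e1 : MvPolynomial.homogeneousSubmodule (Fin n) k 1 ^ t =
      MvPolynomial.homogeneousSubmodule (Fin n) k t := MvPolynomial.homogeneousSubmodule_one_pow k t
    have e2 : MvPolynomial.homogeneousSubmodule (Fin n) k 1 ^ (t + 1) =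
      MvPolynomial.homogeneousSubmodule (Fin n) k (t + 1) :=
      MvPolynomial.homogeneousSubmodule_one_pow k _
    rw [← e1, ← pow_succ', e2]
    exact ha
  clear ha
  refine Submodule.mul_induction_on h1 ?_ ?_
  · intro m hm c hc
    rw [MvPolynomial.homogeneousSubmodule_one_eq_span_X,
      Submodule.mem_span_range_iff_exists_fun] at hm
    obtain ⟨e, rfl⟩ := hm
    refine ⟨fun i => e i • c, fun i => (MvPolynomial.homogeneousSubmodule _ k t).smul_mem _ hc, ?_⟩
    rw [Finset.sum_mul]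
    exact Finset.sum_congr rfl fun i _ => by simp
  · rintro x y ⟨b, hb, rfl⟩ ⟨c, hc, rfl⟩
    refine ⟨fun i => b i + c i, fun i => (hb i).add (hc i), ?_⟩
    rw [← Finset.sum_add_distrib]
    exact Finset.sum_congr rfl fun i _ => by ring

theorem SeqH.Hom3_nat (t : ℕ) : Hom3 k t = MvPolynomial.homogeneousSubmodule (Fin 3) k t := by
  simp [Hom3]

theorem SeqH.Hom3_neg {t : ℤ} (ht : t < 0) : Hom3 k t = ⊥ := by
  simp [Hom3, not_le.2 ht]

instance Hom3_fd (t : ℤ) : FiniteDimensional k (Hom3 k t) := by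
  rcases lt_or_ge t 0 with h | h
  · rw [Hom3_neg h]; infer_instance
  · obtain ⟨n, rfl⟩ := Int.eq_ofNat_of_zero_le h
    rw [Hom3_nat]; infer_instance

theorem SeqH.choose_three (t : ℕ) : (((3 + t - 1).choose t : ℕ) : ℚ) = Bq t := by
  have h : (3 + t - 1).choose t = (t + 2).choose 2 := by
    rw [show 3 + t - 1 = t + 2 by omega, Nat.choose_symm_add]
  rw [h, Nat.cast_choose_two]
  simp only [Bq]
  push_cast
  ring

theorem finrank_Hom3 (t : ℤ) : (finrank k (Hom3 k t) : ℚ) = if 0 ≤ t then Bq t else 0 := by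
  rcases lt_or_ge t 0 with h | h
  · rw [Hom3_neg h, if_neg (not_le.2 h)]; simp
  · obtain ⟨n, rfl⟩ := Int.eq_ofNat_of_zero_le h
    rw [Hom3_nat, if_pos h, finrank_homog, choose_three]
    simp

theorem mul_Hom3 {s t : ℤ} {a b : A3 k} (ha : a ∈ Hom3 k s) (hb : b ∈ Hom3 k t) :
    a * b ∈ Hom3 k (s + t) := by
  rcases lt_or_ge s 0 with h | h
  · rw [Hom3_neg h, Submodule.mem_bot] at ha
    rw [ha, zero_mul]; exact Submodule.zero_mem _
  rcases lt_or_ge t 0 with h' | h'
  · rw [Hom3_neg h', Submodule.mem_bot] at hb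
    rw [hb, mul_zero]; exact Submodule.zero_mem _
  obtain ⟨n, rfl⟩ := Int.eq_ofNat_of_zero_le h
  obtain ⟨m, rfl⟩ := Int.eq_ofNat_of_zero_le h'
  rw [← Nat.cast_add, Hom3_nat] at *
  exact MvPolynomial.IsHomogeneous.mul ha hb

theorem SeqH.X_mem_Hom3 (i : Fin 3) : (MvPolynomial.X i : A3 k) ∈ Hom3 k 1 := by
  have := Hom3_nat (k := k) 1
  rw [Nat.cast_one] at this
  rw [this]
  exact MvPolynomial.isHomogeneous_X k i

theorem X_mul_Hom3 (i : Fin 3) {t : ℤ} {a : A3 k} (ha : a ∈ Hom3 k t) :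
    MvPolynomial.X i * a ∈ Hom3 k (t + 1) := by
  have := mul_Hom3 (X_mem_Hom3 i) ha
  rwa [add_comm] at this

theorem Hom3_gen {t : ℤ} (ht : 0 ≤ t) {a : A3 k} (ha : a ∈ Hom3 k (t + 1)) :
    ∃ b : Fin 3 → A3 k, (∀ i, b i ∈ Hom3 k t) ∧ a = ∑ i, MvPolynomial.X i * b i := by
  obtain ⟨n, rfl⟩ := Int.eq_ofNat_of_zero_le ht
  rw [← Nat.cast_add_one, Hom3_nat] at ha
  rw [Hom3_nat]
  exact homog_gen ha

/-- iterated differences eventually vanish -/
def SeqH.PD : ℕ → (ℤ → ℚ) → Prop
  | 0, h => ∀ᶠ t : ℤ in atTop, h t = 0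
  | n + 1, h => PD n fun t => h (t + 1) - h t

theorem SeqH.ev_shift {P : ℤ → Prop} (h : ∀ᶠ t : ℤ in atTop, P t) : ∀ᶠ t : ℤ in atTop, P (t + 1) :=
  (tendsto_atTop_add_const_right atTop (1 : ℤ) tendsto_id).eventually h

theorem SeqH.PD.congr : ∀ {n : ℕ} {g h : ℤ → ℚ}, PD n g → (∀ᶠ t : ℤ in atTop, g t = h t) → PD n h
  | 0, g, h, hg, he => by
    filter_upwards [hg, he] with t h1 h2
    rw [← h2, h1]
  | n + 1, g, h, hg, he => by
    refine PD.congr (n := n) hg ?_
    filter_upwards [he, ev_shift he] with t h1 h2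
    rw [h1, h2]

theorem SeqH.PD.sub : ∀ {n : ℕ} {g h : ℤ → ℚ}, PD n g → PD n h → PD n fun t => g t - h t
  | 0, g, h, hg, hh => by
    filter_upwards [hg, hh] with t h1 h2
    rw [h1, h2, sub_zero]
  | n + 1, g, h, hg, hh => by
    refine PD.congr (n := n) (PD.sub (n := n) hg hh) (Eventually.of_forall fun t => ?_)
    ring

theorem SeqH.PD.shift : ∀ {n : ℕ} {g : ℤ → ℚ}, PD n g → PD n fun t => g (t + 1)
  | 0, _, hg => ev_shift hg
  | n + 1, _, hg => PD.shift (n := n) hg

theorem SeqH.PD.const {g : ℤ → ℚ} (h : PD 1 g) : ∃ c : ℚ, ∀ᶠ t : ℤ in atTop, g t = c := by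
  have h' : ∀ᶠ t : ℤ in atTop, g (t + 1) - g t = 0 := h
  obtain ⟨t₀, ht₀⟩ := eventually_atTop.1 h'
  refine ⟨g t₀, eventually_atTop.2 ⟨t₀, fun t ht => ?_⟩⟩
  induction t, ht using Int.leInduction with
  | base => rfl
  | succ t ht ih =>
    have := ht₀ t ht
    linarith

theorem SeqH.PD.lin {g : ℤ → ℚ} (h : PD 2 g) : ∃ b c : ℚ, ∀ᶠ t : ℤ in atTop, g t = b * t + c := by
  obtain ⟨b, hb⟩ := PD.const (g := fun t => g (t + 1) - g t) h
  have h1 : PD 1 fun t => g t - b * t := by
    change ∀ᶠ t : ℤ in atTop, _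
    filter_upwards [hb] with t ht
    push_cast
    linarith
  obtain ⟨c, hc⟩ := h1.const
  refine ⟨b, c, ?_⟩
  filter_upwards [hc] with t ht
  linarith

theorem SeqH.PD.quad {g : ℤ → ℚ} (h : PD 3 g) :
    ∃ a b c : ℚ, ∀ᶠ t : ℤ in atTop, g t = a * (t : ℚ) ^ 2 + b * t + c := by
  obtain ⟨b, c, hb⟩ := PD.lin (g := fun t => g (t + 1) - g t) h
  have h1 : PD 1 fun t => g t - (b / 2 * (t : ℚ) ^ 2 + (c - b / 2) * t) := by
    change ∀ᶠ t : ℤ in atTop, _
    filter_upwards [hb] with t ht
    push_cast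
    linarith
  obtain ⟨d, hd⟩ := h1.const
  refine ⟨b / 2, c - b / 2, d, ?_⟩
  filter_upwards [hd] with t ht
  linarith

theorem SeqH.hilbert_serre {X ι : Type*} [AddCommGroup X] [Module k X] [Finite ι] [DecidableEq ι]
    {y : ι → Module.End k X} (hc : ∀ i j, Commute (y i) (y j)) (s : Finset ι) :
    ∀ E' E : ℤ → Submodule k X, Closed y E' → Closed y E → Gen y E →
      (∀ t, FiniteDimensional k (E t)) → (∀ t, E' t ≤ E t) →
      (∀ i, i ∉ s → ∀ t, ∀ x ∈ E t, y i x ∈ E' (t + 1)) →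
      PD s.card fun t => (finrank k (E t) : ℚ) - finrank k (E' t) := by
  induction s using Finset.induction_on with
  | empty =>
    intro E' E _ _ hg _ hle hy
    obtain ⟨t₀, ht₀⟩ := hg
    change ∀ᶠ t : ℤ in atTop, _
    refine eventually_atTop.2 ⟨t₀ + 1, fun t ht => ?_⟩
    have h1 : E t ≤ E' t := by
      have h2 := ht₀ (t - 1) (by omega)
      rw [sub_add_cancel] at h2
      refine h2.trans (iSup_le fun i => ?_)
      rintro _ ⟨x, hx, rfl⟩
      have := hy i (by simp) (t - 1) x hx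
      rwa [sub_add_cancel] at this
    change (finrank k (E t) : ℚ) - finrank k (E' t) = 0
    rw [le_antisymm h1 (hle t), sub_self]
  | insert i s his ih =>
    intro E' E hE' hE hg hfd hle hy
    rw [Finset.card_insert_of_notMem his]
    let K : ℤ → Submodule k X := fun t => E t ⊓ (E' (t + 1)).comap (y i)
    let C : ℤ → Submodule k X := fun t => E' t ⊔ (E (t - 1)).map (y i)
    have hKE : ∀ t, K t ≤ E t := fun t => inf_le_left
    have hKc : Closed y K := by
      rintro j t x ⟨hx, hx'⟩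
      refine ⟨hE j t x hx, ?_⟩
      change y i (y j x) ∈ E' (t + 1 + 1)
      have : y i (y j x) = y j (y i x) := LinearMap.congr_fun (hc i j).eq x
      rw [this]
      exact hE' j _ _ hx'
    have hKg : Gen y K := noeth hc hE hg (fun t => Module.Finite.iff_fg.1 (hfd t)) hKc hKE
    have hKfd : ∀ t, FiniteDimensional k (K t) := fun t =>
      Submodule.finiteDimensional_of_le (hKE t)
    have hE'K : ∀ t, E' t ≤ K t := fun t x hx => ⟨hle t hx, hE' i t x hx⟩
    have hCE : ∀ t, C t ≤ E t := by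
      intro t
      refine sup_le (hle t) ?_
      rintro _ ⟨x, hx, rfl⟩
      have := hE i _ x hx
      rwa [sub_add_cancel] at this
    have hCc : Closed y C := by
      intro j t x hx
      obtain ⟨a, ha, _, ⟨b, hb, rfl⟩, rfl⟩ := Submodule.mem_sup.1 hx
      rw [map_add]
      refine Submodule.add_mem_sup (hE' j t a ha) ⟨y j b, ?_, ?_⟩
      · have := hE j _ b hb
        rwa [show t - 1 + 1 = t + 1 - 1 by ring] at this
      · exact LinearMap.congr_fun (hc i j).eq b
    have h1 := ih E' K hE' hKc hKg hKfd hE'K (by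
      intro j hj t x hx
      by_cases hji : j = i
      · subst hji; exact hx.2
      · exact hy j (by simp [hji, hj]) t x hx.1)
    have h2 := ih C E hCc hE hg hfd hCE (by
      intro j hj t x hx
      by_cases hji : j = i
      · subst hji
        refine Submodule.mem_sup_right ⟨x, ?_, rfl⟩
        rwa [add_sub_cancel_right]
      · exact Submodule.mem_sup_left (hy j (by simp [hji, hj]) t x hx))
    refine (h2.shift.sub h1).congr (Eventually.of_forall fun t => ?_)
    have hfC : FiniteDimensional k (C (t + 1)) := Submodule.finiteDimensional_of_le (hCE _)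
    have e1 := (cod_fd (A := E' (t + 1)) (B := C (t + 1)) le_sup_left).2
    have e2 := (cod_map (y i) (E' (t + 1)) (E t)).2
    have e3 : cod (E' (t + 1)) (C (t + 1)) = cod (E' (t + 1)) ((E t).map (y i)) := by
      simp only [C]
      rw [cod_sup, add_sub_cancel_right]
    have e4 : finrank k ↥(E t ⊓ (E' (t + 1)).comap (y i)) = finrank k (K t) := rfl
    rw [e3] at e1
    rw [e4] at e2
    have e1' : (cod (E' (t + 1)) ((E t).map (y i)) : ℚ) + finrank k (E' (t + 1)) =
      finrank k (C (t + 1)) := by exact_mod_cast e1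
    have e2' : (cod (E' (t + 1)) ((E t).map (y i)) : ℚ) + finrank k (K t) = finrank k (E t) := by
      exact_mod_cast e2
    linarith

end Vale.Agent.P190
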