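import Vale.Agent.P190.Deg
import Vale.Agent.P190.SKH

/-! P190 job Sop: homogeneous parameters and saturation. -/

namespace Vale.Agent.P190
open MvPolynomial Module Filter

variable {k : Type} [Field k]

/-- three anticanonical sections forming a system of parameters -/
structure IsSop (y : Fin 3 → K k) : Prop where
  span : ∀ i, y i ∈ Submodule.span k (Set.range fun s : Pm => gu k (Cp s - C0))
  mem : ∀ i, y i ∈ LL k ((11 : ℤ) • C0)
  ne : y 0 ≠ 0
  gen : ∀ b : Dv, ∀ᶠ t : ℤ in atTop, ∀ f ∈ LL k (b + (11 * (t + 1)) • C0),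
    ∃ g : Fin 3 → K k, (∀ i, g i ∈ LL k (b + (11 * t) • C0)) ∧ f = ∑ i, y i * g i
  s2 : ∀ (a : Dv) (x : K k), y 0 * x ∈ LL k (a + (11 : ℤ) • C0) →
    y 1 * x ∈ LL k (a + (11 : ℤ) • C0) → x ∈ LL k a

namespace SopH

theorem mul_mem {b : Dv} {t : ℤ} {x f : K k} (hx : x ∈ LL k ((11 : ℤ) • C0))
    (hf : f ∈ LL k (b + (11 * t) • C0)) : x * f ∈ LL k (b + (11 * (t + 1)) • C0) := by
  rw [show b + (11 * (t + 1)) • C0 = (11 : ℤ) • C0 + (b + (11 * t) • C0) by module]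
  exact LL_mul hx hf

theorem pow_le (t : ℕ) : LL k ((11 : ℤ) • C0) ^ t ≤ LL k (0 + (11 * (t : ℤ)) • C0) := by
  induction t with
  | zero => simp [one_mem_LL]
  | succ t ih =>
    rw [pow_succ', Nat.cast_succ]
    exact Submodule.mul_le.2 fun _ h1 _ h2 => mul_mem h1 (ih h2)

theorem fl_zero : fl 0 = 0 := funext fun e => by simp [fl]

theorem dim0 : ∀ᶠ t : ℤ in atTop, (finrank k (LL k (0 + (11 * t) • C0)) : ℚ) =
    1 + (5 * t ^ 2 + 5 * t) / 2 := (SKH.ev_dim 0).mono fun t ht => by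
  rw [ht, fl_zero, Qi_zero]
  simp [tot]

theorem finrank_map {x : K k} (hx : x ≠ 0) (U : Submodule k (K k)) :
    finrank k (U.map (LinearMap.mulLeft k x)) = finrank k U :=
  (Submodule.equivMapOfInjective _ (mul_right_injective₀ hx) U).finrank_eq.symm

/-- generation by three elements -/
def GenP (y : Fin 3 → K k) : Prop :=
  ∀ b : Dv, ∀ᶠ t : ℤ in atTop, ∀ f ∈ LL k (b + (11 * (t + 1)) • C0),
    ∃ g : Fin 3 → K k, (∀ i, g i ∈ LL k (b + (11 * t) • C0)) ∧ f = ∑ i, y i * g i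

theorem GenP.step {y : Fin 3 → K k} (_ : GenP y) {t : ℤ}
    (h : ∀ f ∈ LL k (0 + (11 * (t + 1)) • C0),
      ∃ g : Fin 3 → K k, (∀ i, g i ∈ LL k (0 + (11 * t) • C0)) ∧ f = ∑ i, y i * g i)
    {A A' : Submodule k (K k)} (h1 : A ≤ LL k (0 + (11 * (t + 1)) • C0))
    (h2 : A' ≤ LL k (0 + (11 * t) • C0)) (h3 : ∀ f ∈ LL k (0 + (11 * t) • C0), y 0 * f ∈ A)
    (h4 : ∀ f ∈ LL k (0 + (11 * t) • C0), y 1 * f ∈ A) (h5 : ∀ f ∈ A', y 2 * f ∈ A) :
    (finrank k (LL k (0 + (11 * (t + 1)) • C0)) : ℚ) + finrank k A' ≤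
      finrank k A + finrank k (LL k (0 + (11 * t) • C0)) := by
  exact_mod_cast SKH.step_le (LinearMap.mulLeft k (y 2)) h1 (fun f hf => by
    obtain ⟨g, hg, rfl⟩ := h f hf
    rw [Fin.sum_univ_three]
    exact Submodule.add_mem_sup (add_mem (h3 _ (hg 0)) (h4 _ (hg 1))) ⟨_, hg 2, rfl⟩) h2 h5

theorem GenP.no_excess {y : Fin 3 → K k} (hg : GenP y) (hm : ∀ i, y i ∈ LL k ((11 : ℤ) • C0))
    (e : Edge) (h0 : y 0 ∈ LL k ((11 : ℤ) • C0 - sgl e)) :
    y 1 ∉ LL k ((11 : ℤ) • C0 - sgl e) := fun h1 => by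
  have h2 : ∀ᶠ t : ℤ in atTop, (finrank k (LL k (0 + (11 * t) • C0)) : ℚ) =
      finrank k (LL k (0 + (11 * t) • C0 - sgl e)) + t + 1 := by
    filter_upwards [(tendsto_id.const_mul_atTop' (by norm_num : (0 : ℤ) < 11)).eventually
      (ev_deep 0)] with t ht
    have := incr_eq (k := k) ht (e := e) ⟨t * C0 e, by simp [mul_assoc]⟩
    rw [id, mul_smul 11 t C0, fl_add_smul, fl_zero, zero_add (t • C0), bint_smul, C0, bint_Cp,
      mul_one, ← mul_smul] at this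
    exact_mod_cast this
  obtain ⟨t, h3, h4, h5⟩ := ((hg 0).and (h2.and (SeqH.ev_shift h2))).exists
  have h6 : ∀ t : ℤ, LL k (0 + (11 * t) • C0 - sgl e) ≤ LL k (0 + (11 * t) • C0) := fun t =>
    LL_mono (sub_le_self _ (Pi.single_nonneg.2 zero_le_one))
  have h7 : ∀ z ∈ LL k ((11 : ℤ) • C0 - sgl e), ∀ f ∈ LL k (0 + (11 * t) • C0),
      z * f ∈ LL k (0 + (11 * (t + 1)) • C0 - sgl e) := fun z hz f hf => by
    rw [show 0 + (11 * (t + 1)) • C0 - sgl e = (11 : ℤ) • C0 - sgl e + (0 + (11 * t) • C0) by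
      module]
    exact LL_mul hz hf
  have := hg.step h3 (h6 _) (h6 _) (h7 _ h0) (h7 _ h1) fun f hf => by
    rw [show 0 + (11 * (t + 1)) • C0 - sgl e = (11 : ℤ) • C0 + (0 + (11 * t) • C0 - sgl e) by
      module]
    exact LL_mul (hm 2) hf
  push_cast at h5
  linarith

theorem GenP.no_common {y : Fin 3 → K k} (hg : GenP y) (hm : ∀ i, y i ∈ LL k ((11 : ℤ) • C0)) :
    ∀ π ∈ BB k, π ≠ 0 → π⁻¹ * y 0 ∈ BB k → π⁻¹ * y 1 ∈ BB k → π⁻¹ ∈ BB k := by
  intro π hπ h0 h1 h2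
  by_contra hu
  let P : Submodule k (K k) := (Subalgebra.toSubmodule (BB k)).comap (LinearMap.mulLeft k π⁻¹)
  have hP : ∀ f, f ∈ P ↔ π⁻¹ * f ∈ BB k := fun _ => Iff.rfl
  let c : ℤ → ℕ := fun t => cod (LL k (0 + (11 * t) • C0) ⊓ P) (LL k (0 + (11 * t) • C0))
  obtain ⟨T, hT⟩ := eventually_atTop.1 (hg 0)
  have h3 : ∀ t, T ≤ t → c t ≤ c T := fun t ht => by
    induction t, ht using Int.leInduction with
    | base => exact le_rfl
    | succ t ht ih =>
      have h4 := hg.step (hT t ht) (A := _ ⊓ P) (A' := _ ⊓ P) inf_le_left inf_le_left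
        (fun f hf => ⟨mul_mem (hm 0) hf, (hP _).2 (by rw [← mul_assoc]; exact (BB k).mul_mem h1 hf.1)⟩)
        (fun f hf => ⟨mul_mem (hm 1) hf, (hP _).2 (by rw [← mul_assoc]; exact (BB k).mul_mem h2 hf.1)⟩)
        fun f hf => ⟨mul_mem (hm 2) hf.1, (hP _).2 (by
          rw [mul_left_comm]; exact (BB k).mul_mem (hm 2).1 hf.2)⟩
      have h5 := (SeqH.cod_fd (inf_le_left (a := LL k (0 + (11 * t) • C0)) (b := P))).2
      have h6 := (SeqH.cod_fd (inf_le_left (a := LL k (0 + (11 * (t + 1)) • C0)) (b := P))).2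
      norm_cast at h4
      simp only [c] at ih ⊢
      omega
  obtain ⟨f, hf, h4⟩ := quot_unbounded hπ h0 hu (c T + 1)
  choose m hm' using fun i => exists_LL (hf i)
  obtain ⟨n, hn⟩ : ∃ n : ℕ, T ≤ n ∧ ∀ i, m i ≤ n :=
    ⟨T.toNat + ∑ i, m i, by omega, fun i => (Finset.single_le_sum (fun _ _ => Nat.zero_le _)
      (Finset.mem_univ i)).trans (Nat.le_add_left _ _)⟩
  have hg' := zsmul_mem one_sub_mem (n : ℤ)
  have h5 : ∀ i, gu k ((n : ℤ) • (1 - (2 : ℤ) • C0)) * f i ∈ LL k (0 + (11 * (2 * n : ℤ)) • C0) :=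
    fun i => (LL_per hg').1 (LL_mono (fun e => by
      have := hn.2 i
      simp only [Pi.add_apply, Pi.smul_apply, Pi.sub_apply, Pi.one_apply, Pi.zero_apply,
        smul_eq_mul]
      nlinarith) (hm' i))
  have h6 := (cod_le_of_map (LinearMap.mulLeft k (gu k ((n : ℤ) • (1 - (2 : ℤ) • C0))) ∘ₗ
    Fintype.linearCombination k f) (A' := ⊥) (B' := ⊤)
    (SeqH.cod_fd (inf_le_left (a := LL k (0 + (11 * (2 * n : ℤ)) • C0)) (b := P))).1
    (fun d _ => by
      rw [LinearMap.comp_apply, Fintype.linearCombination_apply, map_sum]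
      exact Submodule.sum_mem _ fun i _ => by rw [map_smul]; exact Submodule.smul_mem _ _ (h5 i))
    fun d _ hd => h4 d (by
      have := (BB k).mul_mem (gu_mem (neg_mem hg')) hd.2
      rwa [gu_neg, LinearMap.comp_apply, LinearMap.mulLeft_apply, LinearMap.mulLeft_apply,
        mul_left_comm, inv_mul_cancel_left₀ (gu_ne_zero _), Fintype.linearCombination_apply]
        at this)).2
  have h7 := (SeqH.cod_fd (k := k) (bot_le (a := (⊤ : Submodule k (Fin (c T + 1) → k))))).2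
  have h8 := h3 (2 * n) (by omega)
  simp only [finrank_bot, finrank_top, finrank_fin_fun, c] at h6 h7 h8
  omega

end SopH

theorem exists_sop [Infinite k] : ∃ y : Fin 3 → K k, IsSop y := by
  set G := Submodule.span k (Set.range fun s : Pm => gu k (Cp s - C0))
  have h1 : G ≤ LL k ((11 : ℤ) • C0) :=
    Submodule.span_le.2 (by rintro _ ⟨s, rfl⟩; exact SKH.unit_mem s)
  have : FiniteDimensional k G := Submodule.finiteDimensional_of_le h1
  obtain ⟨y, hy, j, hj⟩ := noether_lin G 6 (by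
    filter_upwards [(tendsto_natCast_atTop_atTop (R := ℤ)).eventually (SopH.dim0 (k := k)),
      eventually_ge_atTop 1] with t ht h3
    have h4 : (finrank k ↥(G ^ t) : ℚ) ≤ finrank k (LL k (0 + (11 * (t : ℤ)) • C0)) :=
      Nat.cast_le.2 (Submodule.finrank_mono ((pow_le_pow_left' h1 t).trans (SopH.pow_le t)))
    have h5 : (1 : ℚ) ≤ t := by exact_mod_cast h3
    have : (finrank k ↥(G ^ t) : ℚ) ≤ 6 * t ^ 2 := by
      rw [ht] at h4
      push_cast at h4
      nlinarith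
    exact_mod_cast this)
  have hm := fun i => h1 (hy i)
  have hg : SopH.GenP y := fun b => (SKH.gen_of hj (fun t => LL k (b + (11 * t) • C0))
    (fun t => Submodule.mul_le.2 fun _ h2 _ h3 => SopH.mul_mem (h1 h2) h3)
    ((SKH.ev_gen b).mono fun t ht => ht.trans (iSup_le fun s => by
      rintro _ ⟨f, hf, rfl⟩
      exact Submodule.mul_mem_mul (Submodule.subset_span ⟨s, rfl⟩) hf))).mono
        fun t ht f hf => SKH.mem_span_mul (ht hf)
  have hne : y 0 ≠ 0 := fun h0 => by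
    have h2 : y 1 ≠ 0 := fun h2 => hg.no_excess hm (ce 1 0) (h0 ▸ zero_mem _) (h2 ▸ zero_mem _)
    obtain ⟨t, h3, h4, h5, h6⟩ := ((SeqH.ev_shift (hg 0)).and ((SopH.dim0 (k := k)).and
      ((SeqH.ev_shift (SopH.dim0 (k := k))).and
        (SeqH.ev_shift (SeqH.ev_shift (SopH.dim0 (k := k))))))).exists
    have h7 := hg.step h3 (A := (LL k (0 + (11 * (t + 1)) • C0)).map (LinearMap.mulLeft k (y 1)))
      (A' := (LL k (0 + (11 * t) • C0)).map (LinearMap.mulLeft k (y 1)))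
      (by rintro _ ⟨f, hf, rfl⟩; exact SopH.mul_mem (hm 1) hf)
      (by rintro _ ⟨f, hf, rfl⟩; exact SopH.mul_mem (hm 1) hf)
      (fun f _ => by simp [h0]) (fun f hf => ⟨f, hf, rfl⟩) (by
        rintro _ ⟨f, hf, rfl⟩
        exact ⟨_, SopH.mul_mem (hm 2) hf, mul_left_comm _ _ _⟩)
    rw [SopH.finrank_map h2, SopH.finrank_map h2, h4, h5, h6] at h7
    push_cast at h7
    linarith
  refine ⟨y, hy, hm, hne, hg, fun a x h0 h2 => ⟨cop_of_no_common (hm 0).1 (hm 1).1 hne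
    (hg.no_common hm) h0.1 h2.1, or_iff_not_imp_left.2 fun hx e => ?_⟩⟩
  have key : ∀ z ∈ LL k ((11 : ℤ) • C0), z ∉ LL k ((11 : ℤ) • C0 - sgl e) →
      z * x ∈ LL k (a + (11 : ℤ) • C0) → 0 ≤ 11 * nu e x + a e := fun z h3 h4 h5 => by
    have hz : z ≠ 0 := fun h => h4 (h ▸ zero_mem _)
    have h6 := h5.2.resolve_left (mul_ne_zero hz hx) e
    rw [nu_mul e hz hx, Pi.add_apply] at h6
    by_contra h7
    refine h4 ⟨h3.1, Or.inr fun f => ?_⟩
    have := h3.2.resolve_left hz f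
    rw [Pi.sub_apply, sgl, Pi.single_apply]
    split_ifs with h8
    · subst h8
      omega
    · omega
  by_cases h3 : y 0 ∈ LL k ((11 : ℤ) • C0 - sgl e)
  · exact key _ (hm 1) (hg.no_excess hm e h3) h2
  · exact key _ (hm 0) h3 h0

theorem IsSop.aeval_mem {y : Fin 3 → K k} (hy : IsSop y) {t : ℤ} {a : A3 k} (ha : a ∈ Hom3 k t) :
    aeval y a ∈ LL k ((11 * t) • C0) := by
  rcases lt_or_ge t 0 with h | h
  · rw [SeqH.Hom3_neg h, Submodule.mem_bot] at ha
    simp [ha]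
  · obtain ⟨n, rfl⟩ := Int.eq_ofNat_of_zero_le h
    rw [SeqH.Hom3_nat] at ha
    simpa using SopH.pow_le n (SeqH.aeval_mem_pow _ y hy.mem n a ha)

theorem ev_LL_bot (b : Dv) : ∃ t₀ : ℤ, ∀ t ≤ t₀, LL k (b + t • C0) = ⊥ := by
  refine ⟨-|vdeg b 0| - 1, fun t ht => (Submodule.eq_bot_iff _).2 fun f hf => by_contra fun h0 => ?_⟩
  have h1 := SKH.vdeg_LL hf h0 0
  have h2 := nu_vertex hf.1 h0 0
  rw [vdeg_add, vdeg_smul, C0, vdeg_Cp] at h1
  have := le_abs_self (vdeg b 0)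
  have := abs_nonneg (vdeg b 0)
  omega

/-- every nonzero section divides a nonzero form in the parameters -/
theorem IsSop.norm {y : Fin 3 → K k} (hy : IsSop y) {a : Dv} {f : K k} (hf : f ∈ LL k a)
    (h0 : f ≠ 0) : ∃ (t : ℤ) (P : A3 k), P ≠ 0 ∧ P ∈ Hom3 k t ∧
      ∃ g ∈ LL k ((11 * t) • C0 - a), aeval y P = g * f := by
  obtain ⟨t, P, h1, h2, g, hg, h3⟩ := exists_form y (fun t => LL k ((11 * (t : ℤ)) • C0))
    (fun t => (LL k ((11 * (t : ℤ)) • C0 - a)).map (LinearMap.mulLeft k f))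
    (fun _ => inferInstance) (fun t => by
      rintro _ ⟨g, hg, rfl⟩
      simpa using LL_mul hf hg) (fun t _ h => hy.aeval_mem h)
    (⌈|1 - Qi (fl (-a))|⌉₊ + (tot (fl (-a))).natAbs) (by
      filter_upwards [(tendsto_natCast_atTop_atTop (R := ℤ)).eventually
        ((SopH.dim0 (k := k)).and (SKH.ev_dim (k := k) (-a))), eventually_ge_atTop 1]
        with t ⟨h1, h2⟩ h3
      rw [SopH.finrank_map h0, ← Nat.cast_le (α := ℚ), sub_eq_neg_add]
      rw [zero_add] at h1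
      have h4 : (1 : ℚ) ≤ t := by exact_mod_cast h3
      have h5 := (le_abs_self _).trans (Nat.le_ceil |1 - Qi (fl (-a))|)
      have h6 := neg_le_abs (tot (fl (-a)) : ℚ)
      have h7 : (0 : ℚ) ≤ ⌈|1 - Qi (fl (-a))|⌉₊ := Nat.cast_nonneg _
      push_cast [Nat.cast_natAbs] at h1 h2 ⊢
      rw [h1, h2]
      nlinarith)
  exact ⟨t, P, h1, h2, g, hg, by rw [← h3, mul_comm]; rfl⟩

/-- saturation with respect to the pentagons -/
noncomputable def sat (N : Dv → Submodule k (K k)) (a : Dv) : Submodule k (K k) :=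
  LL k a ⊓ ⨅ s : Pm, ⨆ j : ℕ, N (a + (j : ℤ) • Cp s)

theorem TCl.mono {N : Dv → Submodule k (K k)} (hN : TCl N) {a a' : Dv} (h : a ≤ a') :
    N a ≤ N a' := by
  intro f hf
  simpa using hN a (a' - a) f 1 hf (one_mem_LL.2 (sub_nonneg.2 h))

theorem mem_sat {N : Dv → Submodule k (K k)} (hN : TCl N) {a : Dv} {f : K k} :
    f ∈ sat N a ↔ f ∈ LL k a ∧ ∀ s : Pm, ∃ j : ℕ, f ∈ N (a + (j : ℤ) • Cp s) := by
  refine and_congr_right fun _ => (Submodule.mem_iInf _).trans (forall_congr' fun s => ?_)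
  exact Submodule.mem_iSup_of_directed _ (Monotone.directed_le fun i j h => hN.mono
    (add_le_add_right (smul_le_smul_of_nonneg_right (Int.ofNat_le.2 h) (SKH.Cp_nonneg s)) _))

theorem sat_tcl {N : Dv → Submodule k (K k)} (hN : TCl N) : TCl (sat N) := by
  intro a a' f x hf hx
  rw [mem_sat hN] at hf ⊢
  refine ⟨add_comm a' a ▸ LL_mul hx hf.1, fun s => (hf.2 s).imp fun j hj => ?_⟩
  rw [add_right_comm]
  exact hN _ _ f x hj hx

theorem SopH.sat_le {N : Dv → Submodule k (K k)} (hN : TCl N) (b : Dv) :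
    ∀ᶠ t : ℤ in atTop, sat N (b + (11 * t) • C0) ≤ N (b + (11 * t) • C0) := by
  have e : ∀ t : ℤ, b + (11 * (t + 1)) • C0 = b + (11 * t) • C0 + (11 : ℤ) • C0 := fun t => by
    module
  obtain ⟨t₀, h0⟩ := noeth (y := fun s : Pm => LinearMap.mulLeft k (gu k (Cp s - C0)))
    (fun i j => LinearMap.ext fun x => mul_left_comm _ _ x)
    (E := fun t => LL k (b + (11 * t) • C0)) (D := fun t => sat N (b + (11 * t) • C0))
    (fun s t x hx => SopH.mul_mem (SKH.unit_mem s) hx) (eventually_atTop.1 (SKH.ev_gen b))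
    (fun _ => Submodule.FG.of_finite) (fun s t x hx => by
      simp only [e]; exact sat_tcl hN _ _ x _ hx (SKH.unit_mem s)) fun _ => inf_le_left
  have : FiniteDimensional k (sat N (b + (11 * t₀) • C0)) :=
    Submodule.finiteDimensional_of_le inf_le_left
  have mono : ∀ (s : Pm) {i j : ℕ}, i ≤ j → N (b + (11 * t₀) • C0 + (i : ℤ) • Cp s) ≤
      N (b + (11 * t₀) • C0 + (j : ℤ) • Cp s) := fun s i j h => hN.mono
    (add_le_add_right (smul_le_smul_of_nonneg_right (Int.ofNat_le.2 h) (SKH.Cp_nonneg s)) _)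
  have hj : ∀ s : Pm, ∃ j : ℕ, sat N (b + (11 * t₀) • C0) ≤
      N (b + (11 * t₀) • C0 + (j : ℤ) • Cp s) := fun s => by
    obtain ⟨_, ⟨j, rfl⟩, h⟩ := (Submodule.fg_iff_compact _).1
      (Submodule.FG.of_finite (N := sat N (b + (11 * t₀) • C0))) _ _ (Set.range_nonempty _)
      (directedOn_range.2 (Monotone.directed_le fun i j h => mono s h)) isLUB_iSup
      (inf_le_right.trans (iInf_le _ s))
    exact ⟨j, h⟩
  choose j hj using hj
  have h1 : ∀ n : ℕ, sat N (b + (11 * (t₀ + n)) • C0) ≤ ⨆ m : {m : Pm → ℕ // ∑ s, m s = n},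
      (sat N (b + (11 * t₀) • C0)).map
        (LinearMap.mulLeft k (gu k (∑ s, (m.1 s : ℤ) • (Cp s - C0)))) := fun n => by
    induction n with
    | zero => exact le_iSup_of_le ⟨0, by simp⟩ fun f hf => ⟨f, by simpa using hf, by simp [gu_zero]⟩
    | succ n ih =>
      rw [Nat.cast_succ, ← add_assoc]
      refine (h0 _ (by omega)).trans (iSup_le fun s => (Submodule.map_mono ih).trans ?_)
      rw [Submodule.map_iSup]
      refine iSup_le fun m => le_iSup_of_le ⟨m.1 + Pi.single s 1, by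
        simp [Finset.sum_add_distrib, m.2]⟩ ?_
      rintro _ ⟨_, ⟨f, hf, rfl⟩, rfl⟩
      refine ⟨f, hf, ?_⟩
      simp [add_smul, Finset.sum_add_distrib, Pi.single_apply, gu_add, mul_left_comm]
  filter_upwards [eventually_ge_atTop (t₀ + (∑ s, j s : ℕ))] with t ht
  obtain ⟨n, rfl⟩ : ∃ n : ℕ, t = t₀ + n := ⟨(t - t₀).toNat, by omega⟩
  refine (h1 n).trans (iSup_le ?_)
  rintro ⟨m, rfl⟩ _ ⟨f, hf, rfl⟩
  obtain ⟨s, -, hs⟩ := Finset.exists_le_of_sum_le Finset.univ_nonempty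
    (show ∑ s, j s ≤ ∑ s, m s by omega)
  rw [show b + (11 * (t₀ + (∑ s, m s : ℕ))) • C0 = b + (11 * t₀) • C0 + (m s : ℤ) • Cp s +
    ((11 * (∑ s, m s : ℕ) : ℤ) • C0 - (m s : ℤ) • Cp s) by module]
  refine hN _ _ f _ (mono s hs (hj s hf)) ((gu_mem_LL (sum_mem fun r _ =>
    zsmul_mem (Cp_sub_mem r 1) _)).2 fun x => ?_)
  have h2 : (m s : ℤ) * Cp s x ≤ ∑ r, (m r : ℤ) * Cp r x := Finset.single_le_sum
    (f := fun r => (m r : ℤ) * Cp r x)
    (fun r _ => mul_nonneg (Int.natCast_nonneg _) (SKH.Cp_nonneg r x)) (Finset.mem_univ s)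
  have h3 := mul_nonneg (Int.natCast_nonneg (m s)) (SKH.Cp_nonneg s x)
  simp only [Finset.sum_apply, Pi.smul_apply, Pi.sub_apply, smul_eq_mul, mul_sub,
    Finset.sum_sub_distrib, ← Finset.sum_mul, Nat.cast_sum, C0]
  linarith

theorem ev_sat_eq [Infinite k] {N : Dv → Submodule k (K k)} (hN : TCl N)
    (hle : ∀ a, N a ≤ LL k a) (b : Dv) : ∀ᶠ t : ℤ in atTop, sat N (b + t • C0) = N (b + t • C0) := by
  obtain ⟨T, hT⟩ := eventually_atTop.1 ((eventually_all_finset (Finset.range 11)).2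
    fun r _ => SopH.sat_le hN (b + (r : ℤ) • C0))
  filter_upwards [eventually_ge_atTop (11 * T)] with t ht
  refine le_antisymm ?_ fun f hf => (mem_sat hN).2 ⟨hle _ hf, fun s => ⟨0, by simpa using hf⟩⟩
  have := hT (t / 11) (by omega) (t % 11).toNat (Finset.mem_range.2 (by omega))
  rwa [add_assoc, ← add_smul, show ((t % 11).toNat : ℤ) + 11 * (t / 11) = t by omega] at this

variable {ι : Type} [Fintype ι]

/-- multiplication operators on vectors -/
noncomputable def mulOp (y : Fin 3 → K k) (i : Fin 3) : Module.End k (ι → K k) :=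
  (LinearMap.lsmul (K k) (ι → K k) (y i)).restrictScalars k

omit [Fintype ι] in
theorem mulOp_apply (y : Fin 3 → K k) (i : Fin 3) (v : ι → K k) : mulOp y i v = y i • v := rfl

/-- the module along a ray -/
noncomputable def ray (lam : ι → Dv) (W : Submodule (K k) (ι → K k)) (b : Dv) (t : ℤ) :
    Submodule k (ι → K k) := EE lam W (b + (11 * t) • C0)

theorem IsSop.closed {y : Fin 3 → K k} (hy : IsSop y) (lam : ι → Dv)
    (W : Submodule (K k) (ι → K k)) (b : Dv) : Closed (mulOp y) (ray lam W b) := by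
  intro i t v hv
  rw [ray, show b + (11 * (t + 1)) • C0 = b + (11 * t) • C0 + (11 : ℤ) • C0 by module]
  exact EE_smul hv (hy.mem i)

theorem IsSop.gen_ray {y : Fin 3 → K k} (hy : IsSop y) (lam : ι → Dv)
    (W : Submodule (K k) (ι → K k)) (b : Dv) : Gen (mulOp y) (ray lam W b) := by
  refine noeth (fun i j => LinearMap.ext fun v => smul_comm (y i) (y j) v) (hy.closed lam ⊤ b)
    (eventually_atTop.1 ((eventually_all.2 fun j => hy.gen (lam j + b)).mono fun t ht v hv => ?_))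
    (fun _ => Submodule.FG.of_finite (N := EE lam ⊤ _)) (hy.closed lam W b)
    fun t v hv => ⟨trivial, hv.2⟩
  choose g hg h using fun j => ht j (v j) (add_assoc (lam j) b _ ▸ (mem_EE.1 hv).2 j)
  rw [show v = ∑ i, mulOp y i fun j => g j i from funext fun j => by simp [h j, mulOp_apply]]
  exact Submodule.sum_mem _ fun i _ => Submodule.mem_iSup_of_mem i
    ⟨_, mem_EE.2 ⟨trivial, fun j => add_assoc (lam j) b _ ▸ hg j i⟩, rfl⟩

theorem ray_bot (lam : ι → Dv) (W : Submodule (K k) (ι → K k)) (b : Dv) :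
    ∃ t₀, ∀ t ≤ t₀, ray lam W b t = ⊥ := by
  obtain ⟨t₀, h⟩ := eventually_atBot.1 (eventually_all.2 fun j =>
    eventually_atBot.2 (ev_LL_bot (k := k) (lam j + b)))
  refine ⟨min t₀ 0, fun t ht => (Submodule.eq_bot_iff _).2 fun v hv => funext fun j => ?_⟩
  have := (mem_EE.1 hv).2 j
  rwa [← add_assoc, h _ (by omega) j] at this

theorem IsSop.ray_s2 {y : Fin 3 → K k} (hy : IsSop y) (lam : ι → Dv)
    (W : Submodule (K k) (ι → K k)) (b : Dv) : ∀ t, ∀ u ∈ ray lam W b t, ∀ v ∈ ray lam W b t,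
      mulOp y 1 u = mulOp y 0 v → ∃ c ∈ ray lam W b (t - 1), u = mulOp y 0 c := by
  intro t u hu v hv h
  refine ⟨(y 0)⁻¹ • u, mem_EE.2 ⟨W.smul_mem _ (mem_EE.1 hu).1, fun j => hy.s2 _ _ ?_ ?_⟩,
    by rw [mulOp_apply, smul_inv_smul₀ hy.ne]⟩
  all_goals rw [show lam j + (b + (11 * (t - 1)) • C0) + (11 : ℤ) • C0 =
    lam j + (b + (11 * t) • C0) by module, Pi.smul_apply, smul_eq_mul]
  · rw [mul_inv_cancel_left₀ hy.ne]
    exact (mem_EE.1 hu).2 j
  · rw [mul_left_comm, show y 1 * u j = y 0 * v j from congrFun h j, inv_mul_cancel_left₀ hy.ne]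
    exact (mem_EE.1 hv).2 j

end Vale.Agent.P190
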