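import Vale.Agent.P190.SpecA

/-! P190 job Spec: behaviour of Hilbert function and degree under specialisation. -/

namespace Vale.Agent.P190
open MvPolynomial Module Filter SpH

set_option linter.unusedSectionVars false

variable {ι κ : Type} [Fintype ι] [Fintype κ]

/-- the solution space of a matrix -/
noncomputable def kerM {k : Type} [Field k] (Φ : Matrix κ ι (K k)) : Submodule (K k) (ι → K k) :=
  LinearMap.ker Φ.mulVecLin

omit [Fintype κ] in
theorem mem_kerM {k : Type} [Field k] {Φ : Matrix κ ι (K k)} {v : ι → K k} :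
    v ∈ kerM Φ ↔ ∀ l, ∑ j, Φ l j * v j = 0 := by
  rw [kerM, LinearMap.mem_ker, funext_iff]
  rfl

theorem semi (lam : ι → Dv) (Φ : Matrix κ ι (K UK)) (Ψ : ∀ p, Matrix κ ι (K (kp p)))
    (h : ∀ l j, Sp (Φ l j) (fun p => Ψ p l j)) :
    ∀ᶠ p in (UU : Filter Nat.Primes), ∀ᶠ t : ℤ in atTop,
      hh lam (kerM Φ) t ≤ hh lam (kerM (Ψ p)) t := by
  filter_upwards [semi' lam Φ Ψ h] with p hp
  filter_upwards [eventually_all.2 fun j => ev_deep' (lam j)] with t ht
  unfold hh sumS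
  refine Finset.sum_le_sum fun c _ => ?_
  have := hp (0 + t • C0 + gam c) fun j => by
    rw [show lam j + (0 + t • C0 + gam c) = lam j + t • C0 + gam c by abel]
    exact ht j c
  exact Nat.cast_le.2 this

theorem deg_sp (lam : ι → Dv) (Φ : Matrix κ ι (K UK)) (Ψ : ∀ p, Matrix κ ι (K (kp p)))
    (h : ∀ l j, Sp (Φ l j) (fun p => Ψ p l j))
    (hr : rk (kerM Φ) + Fintype.card κ = Fintype.card ι) :
    ∀ᶠ p in (UU : Filter Nat.Primes), rk (kerM (Ψ p)) = rk (kerM Φ) ∧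
      deg lam (kerM (Ψ p)) = deg lam (kerM Φ) := by
  have h1 := (deg_le lam Φ Ψ h Finset.univ).2
  simp only [kerS_univ, Finset.card_univ] at h1
  filter_upwards [h1 hr, semi lam Φ Ψ h] with p ⟨a1, a2⟩ a3
  have a4 := (hasD_hh lam (kerM Φ)).le (hasD_hh lam (kerM (Ψ p))) 0 (by simpa using a3)
  unfold kerM at a4 ⊢
  omega

theorem exists_kerM {k : Type} [Field k] (V : Submodule (K k) (ι → K k)) :
    ∃ (m : ℕ) (Φ : Matrix (Fin m) ι (K k)), (∀ l j, Φ l j ∈ BB k) ∧ V = kerM Φ ∧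
      rk V + m = Fintype.card ι := by
  classical
  let e := (Module.finBasis (K k) ((ι → K k) ⧸ V)).equivFun
  let Φ₀ := LinearMap.toMatrix' (e.toLinearMap.comp V.mkQ)
  obtain ⟨x, -, hx, n, hn⟩ := exists_mul_mem
    (fun _ : Fin (finrank (K k) ((ι → K k) ⧸ V)) × ι => (0 : Dv)) (fun q => Φ₀ q.1 q.2)
  refine ⟨_, x • Φ₀, fun l j => (mem_FF.1 hn (l, j)).1, ?_, ?_⟩
  · ext v
    rw [kerM, LinearMap.mem_ker, Matrix.mulVecLin_apply, Matrix.smul_mulVec, smul_eq_zero,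
      or_iff_right hx, LinearMap.toMatrix'_mulVec]
    simp
  · have := V.finrank_quotient_add_finrank
    rw [finrank_fintype_fun_eq_card] at this
    unfold rk
    omega

/-- subspaces of bounded degree have bounded equations -/
theorem bnd_eq (lam : ι → Dv) (d₀ : ℤ) : ∃ S : Finset Dv, (∀ g ∈ S, g ∈ Gam) ∧
    ∀ (k : Type) [Field k] [Infinite k] (W : Submodule (K k) (ι → K k)), d₀ ≤ deg lam W →
      ∃ J : Finset ι, (J.card : ℤ) = rk W ∧ (∀ x : ι → K k, ∃ v ∈ W, ∀ j ∈ J, v j = x j) ∧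
        ∃ Φ : Matrix {l // l ∉ J} ι (K k),
          (∀ l j, Φ l j ∈ Submodule.span k (gu k '' (S : Set Dv))) ∧ (∀ l, Φ l l.1 ≠ 0) ∧
          (∀ l j, j ∉ J → j ≠ l.1 → Φ l j = 0) ∧ W = kerM Φ := by
  classical
  obtain ⟨m, hm, h⟩ := bnd_row lam d₀
  refine ⟨(finite_units ((11 : ℤ) • m • (1 : Dv))).toFinset,
    fun g hg => ((Set.Finite.mem_toFinset _).1 hg).1, fun k _ _ W hW => ?_⟩
  obtain ⟨J, h1, h2⟩ := exists_proj W
  obtain ⟨σ, hσ⟩ := exists_sec h1 h2
  choose x hx φ hφ hφ' using fun l : {l // l ∉ J} => h k W hW J h2 σ hσ l.1 l.2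
  have hσ3 : ∀ i, i ∉ J → σ (Pi.single i 1) = 0 := fun i hi =>
    h2 _ (hσ _).1 fun j hj => by
      rw [(hσ _).2 j hj, Pi.single_eq_of_ne (by rintro rfl; exact hi hj)]
  have hent : ∀ l i, i ∉ J → φ l i = x l * (Pi.single i 1 : ι → K k) l.1 := by
    intro l i hi
    have := hφ' l (Pi.single i 1)
    rw [hσ3 i hi, Finset.sum_eq_single i (fun j _ hj => by simp [hj]) (by simp)] at this
    simpa using this
  refine ⟨J, h1, fun y => ⟨σ y, hσ y⟩, φ, fun l j => ?_, fun l => ?_, fun l j hj hl => ?_, ?_⟩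
  · have h3 := hφ l j
    have h4 : fl ((11 : ℤ) • m • (1 : Dv)) = m • (1 : Dv) := by
      funext e
      simp only [fl, Pi.smul_apply, smul_eq_mul]
      omega
    rw [(good (by rw [h4]; exact deep_one m hm)).1] at h3
    refine Submodule.span_mono ?_ h3
    rintro _ ⟨g, hg, hg', rfl⟩
    exact ⟨g, (Set.Finite.mem_toFinset _).2 ⟨hg, hg'⟩, rfl⟩
  · rw [hent l l.1 l.2]
    simpa using hx l
  · rw [hent l j hj, Pi.single_eq_of_ne (Ne.symm hl), mul_zero]
  · ext v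
    refine Iff.trans ?_ mem_kerM.symm
    have hv : v ∈ W ↔ σ v = v := by
      refine ⟨fun hv => ?_, fun hv => hv ▸ (hσ v).1⟩
      rw [← sub_eq_zero]
      exact h2 _ (sub_mem (hσ v).1 hv) fun j hj => sub_eq_zero.2 ((hσ v).2 j hj)
    rw [hv]
    refine ⟨fun h3 l => by rw [hφ' l v, h3, sub_self, mul_zero], fun h3 => funext fun j => ?_⟩
    by_cases hj : j ∈ J
    · exact (hσ v).2 j hj
    · have := h3 ⟨j, hj⟩
      rw [hφ' ⟨j, hj⟩ v, mul_eq_zero, or_iff_right (hx _), sub_eq_zero] at this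
      exact this.symm

end Vale.Agent.P190
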