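import Vale.Agent.P190.Ultra
import Vale.Agent.P190.HN

/-! P190 job Spec, helper lemmas. -/

namespace Vale.Agent.P190
open MvPolynomial Module Filter

namespace SpH

set_option linter.unusedSectionVars false

variable {ι κ : Type} [Fintype ι] [Fintype κ]

/-- index set of the unit vectors in a graded piece -/
def TI (lam : ι → Dv) (a : Dv) : Set (Dv × ι) :=
  {q | q.1 ∈ Gam ∧ ∀ e, 0 ≤ 11 * q.1 e + (lam q.2 + a) e}

theorem FF_span {k : Type} [Field k] [DecidableEq ι] (lam : ι → Dv) {a : Dv}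
    (h : ∀ j, DeepI (fl (lam j + a))) :
    FF k lam a = Submodule.span k
      ((fun q : Dv × ι => (Pi.single q.2 (gu k q.1) : ι → K k)) '' TI lam a) := by
  refine le_antisymm (fun v hv => ?_) (Submodule.span_le.2 ?_)
  · rw [← Finset.univ_sum_single v]
    refine Submodule.sum_mem _ fun j _ => ?_
    have h1 := mem_FF.1 hv j
    rw [(good (h j)).1] at h1
    have h2 := Submodule.mem_map_of_mem (f := LinearMap.single k (fun _ : ι => K k) j) h1
    rw [USp, Submodule.map_span] at h2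
    refine Submodule.span_mono ?_ h2
    rintro _ ⟨_, ⟨g, hg, hg', rfl⟩, rfl⟩
    exact ⟨(g, j), ⟨hg, hg'⟩, rfl⟩
  · rintro _ ⟨⟨g, j⟩, ⟨hg, hg'⟩, rfl⟩
    refine mem_FF.2 fun i => ?_
    by_cases hi : i = j
    · subst hi
      simpa using (gu_mem_LL hg).2 hg'
    · simp [hi]

theorem map_span {k : Type} [Field k] (lam : ι → Dv) {a : Dv}
    (h : ∀ j, DeepI (fl (lam j + a))) (Φ : Matrix κ ι (K k)) :
    (FF k lam a).map (Φ.mulVecLin.restrictScalars k) = Submodule.span k
      ((fun q : Dv × ι => fun l => gu k q.1 * Φ l q.2) '' TI lam a) := by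
  classical
  rw [FF_span lam h, Submodule.map_span, ← Set.image_comp]
  refine congrArg _ (Set.image_congr fun q _ => ?_)
  funext l
  simp [Matrix.mulVec_single, mul_comm]

theorem finrank_FF_deep {k : Type} [Field k] (lam : ι → Dv) {a : Dv}
    (h : ∀ j, DeepI (fl (lam j + a))) :
    (finrank k (FF k lam a) : ℚ) = ∑ j, Qi (fl (lam j + a)) := by
  rw [finrank_FF]
  push_cast
  exact Finset.sum_congr rfl fun j _ => (good (h j)).2

theorem rank_EE {k : Type} [Field k] (lam : ι → Dv) (a : Dv) (Φ : Matrix κ ι (K k)) :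
    finrank k ((FF k lam a).map (Φ.mulVecLin.restrictScalars k)) +
      finrank k (EE lam (LinearMap.ker Φ.mulVecLin) a) = finrank k (FF k lam a) := by
  have h := DegH.rank_null (Φ.mulVecLin.restrictScalars k) (FF k lam a)
  have e : FF k lam a ⊓ LinearMap.ker (Φ.mulVecLin.restrictScalars k) =
      EE lam (LinearMap.ker Φ.mulVecLin) a := by
    rw [EE, inf_comm]
    rfl
  rwa [e] at h

theorem semi' (lam : ι → Dv) (Φ : Matrix κ ι (K UK)) (Ψ : ∀ p, Matrix κ ι (K (kp p)))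
    (h : ∀ l j, Sp (Φ l j) (fun p => Ψ p l j)) :
    ∀ᶠ p in (UU : Filter Nat.Primes), ∀ a, (∀ j, DeepI (fl (lam j + a))) →
      finrank UK (EE lam (LinearMap.ker Φ.mulVecLin) a) ≤
        finrank (kp p) (EE lam (LinearMap.ker (Ψ p).mulVecLin) a) := by
  have h1 := Sp.indep (κ := κ × ι) (f := fun q => Φ q.1 q.2) (F := fun q p => Ψ p q.1 q.2)
    fun q => h q.1 q.2
  filter_upwards [h1] with p hp a ha
  have e1 := rank_EE lam a Φ
  have e2 := rank_EE lam a (Ψ p)
  have e3 : finrank UK (FF UK lam a) = finrank (kp p) (FF (kp p) lam a) := by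
    have := (finrank_FF_deep (k := UK) lam ha).trans (finrank_FF_deep (k := kp p) lam ha).symm
    exact_mod_cast this
  have f1 : FiniteDimensional UK ((FF UK lam a).map (Φ.mulVecLin.restrictScalars UK)) :=
    inferInstance
  have f2 : FiniteDimensional (kp p)
      ((FF (kp p) lam a).map ((Ψ p).mulVecLin.restrictScalars (kp p))) := inferInstance
  rw [map_span lam ha] at e1 e2 f1 f2
  obtain ⟨f, hf, -, hli⟩ := Submodule.exists_fun_fin_finrank_span_eq (kp p)
    ((fun q : Dv × ι => fun l => gu (kp p) q.1 * Ψ p l q.2) '' TI lam a)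
  choose q hq hq' using hf
  have e4 : f = fun i l => gu (kp p) (q i).1 * Ψ p l (q i).2 := funext fun i => (hq' i).symm
  rw [e4] at hli
  have h2 := hp _ κ (fun i => (q i).1) (fun i l => (l, (q i).2)) (fun i => (hq i).1) hli
  have h3 : Submodule.span UK (Set.range fun i l => gu UK (q i).1 * Φ l (q i).2) ≤
      Submodule.span UK ((fun q : Dv × ι => fun l => gu UK q.1 * Φ l q.2) '' TI lam a) := by
    refine Submodule.span_mono ?_
    rintro _ ⟨i, rfl⟩
    exact ⟨q i, hq i, rfl⟩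
  have h4 := Submodule.finrank_mono h3
  rw [finrank_span_eq_card h2, Fintype.card_fin] at h4
  omega

/-- a row as a functional -/
noncomputable def row {k : Type} [Field k] (Φ : Matrix κ ι (K k)) (l : κ) :
    (ι → K k) →ₗ[K k] K k :=
  (LinearMap.proj l).comp Φ.mulVecLin

theorem row_apply {k : Type} [Field k] (Φ : Matrix κ ι (K k)) (l : κ) (v : ι → K k) :
    row Φ l v = ∑ j, Φ l j * v j := rfl

/-- the solution space of some rows -/
noncomputable def kerS {k : Type} [Field k] (Φ : Matrix κ ι (K k)) (s : Finset κ) :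
    Submodule (K k) (ι → K k) :=
  ⨅ l ∈ s, LinearMap.ker (row Φ l)

theorem mem_kerS {k : Type} [Field k] {Φ : Matrix κ ι (K k)} {s : Finset κ} {v : ι → K k} :
    v ∈ kerS Φ s ↔ ∀ l ∈ s, row Φ l v = 0 := by
  simp [kerS]

theorem kerS_empty {k : Type} [Field k] (Φ : Matrix κ ι (K k)) : kerS Φ ∅ = ⊤ := by
  simp [kerS]

theorem kerS_insert {k : Type} [Field k] [DecidableEq κ] (Φ : Matrix κ ι (K k)) (s : Finset κ)
    (l : κ) : kerS Φ (insert l s) = kerS Φ s ⊓ LinearMap.ker (row Φ l) := by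
  ext v
  simp only [mem_kerS, Finset.forall_mem_insert, Submodule.mem_inf, LinearMap.mem_ker]
  exact and_comm

theorem kerS_univ {k : Type} [Field k] (Φ : Matrix κ ι (K k)) :
    kerS Φ Finset.univ = LinearMap.ker Φ.mulVecLin := by
  ext v
  simp only [mem_kerS, Finset.mem_univ, forall_true_left, LinearMap.mem_ker, funext_iff]
  rfl

theorem sp_row {Φ : Matrix κ ι (K UK)} {Ψ : ∀ p, Matrix κ ι (K (kp p))}
    (h : ∀ l j, Sp (Φ l j) (fun p => Ψ p l j)) {v : ι → K UK} {V : ι → ∀ p, K (kp p)}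
    (hv : ∀ j, Sp (v j) (V j)) (l : κ) :
    Sp (row Φ l v) (fun p => row (Ψ p) l (fun j => V j p)) :=
  Sp.sum Finset.univ fun j _ => (h l j).mul (hv j)

theorem rk_cases {k : Type} [Field k] (W : Submodule (K k) (ι → K k))
    (φ : (ι → K k) →ₗ[K k] K k) :
    ((∃ v ∈ W, φ v ≠ 0) ∧ rk W = rk (W ⊓ LinearMap.ker φ) + 1) ∨
      rk W = rk (W ⊓ LinearMap.ker φ) := by
  by_cases h : ∃ v ∈ W, φ v ≠ 0
  · exact Or.inl ⟨h, rk_step W φ h⟩
  · push Not at h
    right
    rw [inf_eq_left.2 fun v hv => h v hv]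

theorem deg_le (lam : ι → Dv) (Φ : Matrix κ ι (K UK)) (Ψ : ∀ p, Matrix κ ι (K (kp p)))
    (h : ∀ l j, Sp (Φ l j) (fun p => Ψ p l j)) (s : Finset κ) :
    (Fintype.card ι : ℤ) ≤ rk (kerS Φ s) + s.card ∧
      (rk (kerS Φ s) + s.card = Fintype.card ι → ∀ᶠ p in (UU : Filter Nat.Primes),
        rk (kerS (Ψ p) s) = rk (kerS Φ s) ∧ deg lam (kerS (Ψ p) s) ≤ deg lam (kerS Φ s)) := by
  classical
  induction s using Finset.induction_on with
  | empty =>
    simp only [kerS_empty, rk_top, deg_top]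
    simp
  | insert l s hl ih =>
    obtain ⟨ih1, ih2⟩ := ih
    simp only [kerS_insert, Finset.card_insert_of_notMem hl]
    push_cast
    have hc := rk_cases (kerS Φ s) (row Φ l)
    refine ⟨by omega, fun hr => ?_⟩
    obtain ⟨hne, hc⟩ := hc.resolve_right (by omega)
    obtain ⟨x, hx, b, hb, m, al, w, hw, hW⟩ := exists_normal lam (kerS Φ s) (row Φ l) hne
    have hd := deg_step lam (kerS Φ s) (x • row Φ l) hb hw hW
    rw [DegH.ker_smul _ hx] at hd
    obtain ⟨x₂, hx₂, hx₂0, hx₁⟩ := exists_den x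
    obtain ⟨X₂, hX₂⟩ := exists_sp hx₂
    obtain ⟨X₁, hX₁⟩ := exists_sp hx₁
    choose V hV using fun i j => exists_sp ((mem_EE.1 (hw i)).2 j).1
    choose Y hY using fun i => exists_sp (hW.mem i).1
    have h1 : ∀ᶠ p in (UU : Filter Nat.Primes), ∀ i j, V i j p ∈ LL (kp p) (lam j + al i) :=
      eventually_all.2 fun i => eventually_all.2 fun j => (hV i j).mem_LL ((mem_EE.1 (hw i)).2 j)
    have h2 : ∀ᶠ p in (UU : Filter Nat.Primes), ∀ i, ∀ l' ∈ s,
        row (Ψ p) l' (fun j => V i j p) = 0 :=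
      eventually_all.2 fun i => (eventually_all_finset _).2 fun l' hl' =>
        (sp_row h (hV i) l').eq_zero_iff.1 (mem_kerS.1 (mem_EE.1 (hw i)).1 l' hl')
    have h3 : ∀ᶠ p in (UU : Filter Nat.Primes), ∀ i,
        X₂ p * Y i p = X₁ p * row (Ψ p) l (fun j => V i j p) := by
      refine eventually_all.2 fun i => ?_
      have e := hX₂.mul (hY i)
      rw [← mul_assoc] at e
      exact e.unique (hX₁.mul (sp_row h (hV i) l))
    filter_upwards [ih2 (by omega), h1, h2, h3, Sp.wit hY hW, hX₂.ne_zero hx₂0,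
      hX₁.ne_zero (mul_ne_zero hx₂0 hx)] with p ⟨a1, a2⟩ a3 a4 a5 a6 a7 a8
    have b1 : ∀ i, (fun j => V i j p) ∈ EE lam (kerS (Ψ p) s) (al i) := fun i =>
      mem_EE.2 ⟨mem_kerS.2 (a4 i), a3 i⟩
    have b2 : (fun i => Y i p) = fun i => ((X₁ p / X₂ p) • row (Ψ p) l) (fun j => V i j p) := by
      funext i
      rw [LinearMap.smul_apply, smul_eq_mul, div_mul_eq_mul_div, ← a5 i,
        mul_div_cancel_left₀ _ a7]
    rw [b2] at a6
    have b3 := deg_step_ge lam (kerS (Ψ p) s) _ b1 a6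
    obtain ⟨i, hi⟩ := DegH.wit_ne a6
    have b4 := rk_step (kerS (Ψ p) s) _ ⟨_, (mem_EE.1 (b1 i)).1, hi⟩
    rw [DegH.ker_smul _ (div_ne_zero a8 a7)] at b3 b4
    omega

theorem vdeg_mono {a b : Dv} (h : ∀ e, a e ≤ b e) (i : Fin 5) : vdeg a i ≤ vdeg b i := by
  refine Finset.sum_le_sum fun j _ => ?_
  split_ifs
  · exact le_rfl
  · exact h _

/-- bounded total degree and a nonzero section bound the class -/
theorem bnd_sec (M : ℤ) : ∃ D : ℤ, ∀ (k : Type) [Field k] (y : Dv) (x : K k), x ≠ 0 →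
    x ∈ LL k y → tot y ≤ M → ∃ g ∈ Gam, ∀ e, (y + (11 : ℤ) • g) e ≤ D := by
  obtain ⟨D, hD⟩ := bnd_class |M|
  refine ⟨11 * D + 10, fun k _ y x hx hy hM => ?_⟩
  have h1 := hy.2.resolve_left hx
  have a1 : ∀ i, 0 ≤ vdeg (fl y) i := by
    intro i
    have h3 := nu_vertex hy.1 hx i
    have h4 := vdeg_mono (a := -fun e => nu e x) (b := fl y) (fun e => by
      have := h1 e
      simp only [Pi.neg_apply, fl]
      omega) i
    rw [vdeg_neg] at h4
    omega
  have a2 : tot (fl y) ≤ |M| := by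
    have h3 : 11 * tot (fl y) ≤ tot y := by
      rw [tot, tot, Finset.mul_sum]
      refine Finset.sum_le_sum fun e _ => ?_
      simp only [fl]
      omega
    have := le_abs_self M
    have := abs_nonneg M
    omega
  obtain ⟨g, hg, h2⟩ := hD (fl y) a1 a2
  refine ⟨g, hg, fun e => ?_⟩
  have := h2 e
  simp only [Pi.add_apply, Pi.smul_apply, smul_eq_mul, fl] at this ⊢
  omega

theorem exists_sec {k : Type} [Field k] {W : Submodule (K k) (ι → K k)} {J : Finset ι}
    (h1 : (J.card : ℤ) = rk W) (h2 : ∀ v ∈ W, (∀ j ∈ J, v j = 0) → v = 0) :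
    ∃ σ : (ι → K k) →ₗ[K k] (ι → K k), ∀ x, σ x ∈ W ∧ ∀ j ∈ J, σ x j = x j := by
  let R : (ι → K k) →ₗ[K k] (J → K k) := LinearMap.funLeft (K k) (K k) Subtype.val
  let P : W →ₗ[K k] (J → K k) := R.comp W.subtype
  have hi : Function.Injective P := by
    rw [injective_iff_map_eq_zero]
    intro v hv
    exact Subtype.ext (h2 v v.2 fun j hj => congrFun hv ⟨j, hj⟩)
  have hd : finrank (K k) W = finrank (K k) (J → K k) := by
    rw [finrank_fintype_fun_eq_card, Fintype.card_coe]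
    unfold rk at h1
    omega
  let e := P.linearEquivOfInjective hi hd
  refine ⟨W.subtype.comp (e.symm.toLinearMap.comp R), fun x => ⟨(e.symm (R x)).2, fun j hj => ?_⟩⟩
  have : P (e.symm (R x)) = R x := e.apply_symm_apply (R x)
  exact congrFun this ⟨j, hj⟩

theorem tot_le_nrm (a : Dv) : -tot a ≤ nrm a := by
  rw [tot, nrm, ← Finset.sum_neg_distrib]
  exact Finset.sum_le_sum fun e _ => neg_le_abs _

theorem nrm_le_sum (lam : ι → Dv) (j : ι) : nrm (lam j) ≤ ∑ i, nrm (lam i) :=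
  Finset.single_le_sum (f := fun i => nrm (lam i))
    (fun _ _ => Finset.sum_nonneg fun _ _ => abs_nonneg _) (Finset.mem_univ j)

/-- one bounded equation -/
theorem bnd_row (lam : ι → Dv) (d₀ : ℤ) : ∃ m : ℤ, 100 ≤ m ∧
    ∀ (k : Type) [Field k] [Infinite k] (W : Submodule (K k) (ι → K k)), d₀ ≤ deg lam W →
      ∀ J : Finset ι, (∀ v ∈ W, (∀ j ∈ J, v j = 0) → v = 0) →
      ∀ σ : (ι → K k) →ₗ[K k] (ι → K k), (∀ x, σ x ∈ W ∧ ∀ j ∈ J, σ x j = x j) → ∀ l, l ∉ J →
        ∃ x : K k, x ≠ 0 ∧ ∃ φ : ι → K k, (∀ j, φ j ∈ LL k ((11 : ℤ) • m • (1 : Dv))) ∧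
          (∀ v, ∑ j, φ j * v j = x * (v l - σ v l)) := by
  classical
  obtain ⟨D, hD⟩ := bnd_sec (|∑ j, |dd (lam j)| - d₀| + ∑ j, nrm (lam j))
  refine ⟨|D| + 2 * |∑ j, nrm (lam j)| + 100, by
    have := abs_nonneg D
    have := abs_nonneg (∑ j, nrm (lam j))
    omega, fun k _ _ W hW J hJ σ hσ l hl => ?_⟩
  let ψ : (ι → K k) →ₗ[K k] K k := LinearMap.proj l - (LinearMap.proj l).comp σ
  have hψ : ∀ v, ψ v = v l - σ v l := fun _ => rfl
  let T : (ι → K k) →ₗ[K k] (ι → K k) :=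
    LinearMap.pi fun j => if j ∈ insert l J then LinearMap.proj j else 0
  have hT : ∀ v j, T v j = if j ∈ insert l J then v j else 0 := by
    intro v j
    simp only [T, LinearMap.pi_apply]
    split_ifs <;> rfl
  have hσ0 : ∀ v : ι → K k, (∀ j ∈ J, v j = 0) → σ v = 0 := fun v hv =>
    hJ _ (hσ v).1 fun j hj => by rw [(hσ v).2 j hj, hv j hj]
  have hσ1 : ∀ v v' : ι → K k, (∀ j ∈ J, v j = v' j) → σ v = σ v' := fun v v' hv => by
    rw [← sub_eq_zero, ← map_sub]
    exact hσ0 _ fun j hj => sub_eq_zero.2 (hv j hj)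
  have hσ2 : ∀ v ∈ W, σ v = v := fun v hv => by
    rw [← sub_eq_zero]
    exact hJ _ (sub_mem (hσ v).1 hv) fun j hj => sub_eq_zero.2 ((hσ v).2 j hj)
  have hsing : ∀ i, i ∈ insert l J → (Pi.single i 1 : ι → K k) ∈ LinearMap.range T := by
    intro i hi
    refine ⟨Pi.single i 1, funext fun j => ?_⟩
    rw [hT]
    split_ifs with hj
    · rfl
    · rw [Pi.single_eq_of_ne (by rintro rfl; exact hj hi)]
  have hσ3 : ∀ i, i ∉ J → σ (Pi.single i 1) = 0 := fun i hi =>
    hσ0 _ fun j hj => Pi.single_eq_of_ne (by rintro rfl; exact hi hj) _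
  have hψl : ψ (Pi.single l 1) = 1 := by
    rw [hψ, hσ3 l hl]
    simp
  obtain ⟨x, hx, b, hb, n, al, w, hw, hwit⟩ := exists_normal lam (LinearMap.range T) ψ
    ⟨_, hsing l (Finset.mem_insert_self _ _), by rw [hψl]; exact one_ne_zero⟩
  have hd := deg_step lam (LinearMap.range T) (x • ψ) hb hw hwit
  rw [DegH.ker_smul _ hx] at hd
  have e1 : W.map T = LinearMap.range T ⊓ LinearMap.ker ψ := by
    refine le_antisymm ?_ ?_
    · rintro _ ⟨v, hv, rfl⟩
      refine ⟨⟨v, rfl⟩, ?_⟩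
      rw [SetLike.mem_coe, LinearMap.mem_ker, hψ, hσ1 (T v) v fun j hj => by
        rw [hT, if_pos (Finset.mem_insert_of_mem hj)], hσ2 v hv, hT,
        if_pos (Finset.mem_insert_self _ _), sub_self]
    · rintro _ ⟨⟨v, rfl⟩, hv⟩
      refine ⟨σ (T v), (hσ _).1, funext fun j => ?_⟩
      rw [SetLike.mem_coe, LinearMap.mem_ker, hψ, sub_eq_zero] at hv
      rw [hT]
      split_ifs with hj
      · rcases Finset.mem_insert.1 hj with rfl | hj
        · exact hv.symm
        · exact (hσ _).2 j hj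
      · rw [hT, if_neg hj]
  have e2 : W ⊓ LinearMap.ker T = ⊥ := by
    rw [eq_bot_iff]
    rintro v ⟨hv, hv'⟩
    refine hJ v hv fun j hj => ?_
    have := congrFun (LinearMap.mem_ker.1 hv') j
    rwa [hT, if_pos (Finset.mem_insert_of_mem hj)] at this
  have e3 := HNH.deg_map_le (lam := lam) (lam' := lam) (V := W) (T := T) fun a v hv =>
    mem_FF.2 fun j => by
      rw [hT]
      split_ifs
      · exact (mem_EE.1 hv).2 j
      · exact zero_mem _
  rw [e1, e2, deg_bot] at e3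
  have e4 := deg_le_sum lam (LinearMap.range T)
  have hent : ∀ i, x * ψ (Pi.single i 1) ∈ LL k (b + -lam i) := by
    intro i
    by_cases hi : i ∈ insert l J
    · refine hb _ _ (mem_EE.2 ⟨hsing i hi, fun j => ?_⟩)
      by_cases hj : j = i
      · subst hj
        simpa using one_mem_LL.2 le_rfl
      · simp [hj]
    · rw [Finset.mem_insert, not_or] at hi
      rw [hψ, hσ3 i hi.2, Pi.single_eq_of_ne (Ne.symm hi.1)]
      simp
  have hxl := hent l
  rw [hψl, mul_one] at hxl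
  obtain ⟨g, hg, hg'⟩ := hD k _ x hx hxl (by
    have h1 := tot_add b (-lam l)
    have h2 := tot_smul (-1) (lam l)
    rw [neg_one_smul] at h2
    have h3 := tot_le_nrm (lam l)
    have h4 := nrm_le_sum lam l
    have h5 := le_abs_self (∑ j, |dd (lam j)| - d₀)
    have h6 := abs_nonneg (∑ j, |dd (lam j)| - d₀)
    unfold dd at hd
    omega)
  refine ⟨gu k (-g) * x, mul_ne_zero (gu_ne_zero _) hx,
    fun j => gu k (-g) * (x * ψ (Pi.single j 1)), fun j => ?_, fun v => ?_⟩
  · have h1 : gu k (-g) * (x * ψ (Pi.single j 1)) ∈ LL k (b + -lam j + (11 : ℤ) • g) := by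
      rw [LL_per hg, gu_neg, mul_inv_cancel_left₀ (gu_ne_zero g)]
      exact hent j
    refine LL_mono (fun e => ?_) h1
    have h2 := hg' e
    have h3 := abs_le.1 ((abs_le_nrm (lam j) e).trans (nrm_le_sum lam j))
    have h4 := abs_le.1 ((abs_le_nrm (lam l) e).trans (nrm_le_sum lam l))
    have h5 := le_abs_self D
    have h6 := abs_nonneg D
    have h7 := le_abs_self (∑ j, nrm (lam j))
    have h8 := abs_nonneg (∑ j, nrm (lam j))
    simp only [Pi.add_apply, Pi.neg_apply, Pi.smul_apply, Pi.one_apply, smul_eq_mul,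
      mul_one] at h2 ⊢
    omega
  · rw [← hψ]
    conv_rhs => rw [pi_eq_sum_univ' v, map_sum, Finset.mul_sum]
    refine Finset.sum_congr rfl fun j _ => ?_
    rw [map_smul, smul_eq_mul]
    ring

end SpH

end Vale.Agent.P190
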