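import Vale.Agent.P190.UltraA

/-! P190 job Ultra: the ultraproduct field and specialisation. -/

namespace Vale.Agent.P190
open MvPolynomial Module Filter UlH

instance primesFact (p : Nat.Primes) : Fact p.1.Prime := ⟨p.2⟩

/-- algebraic closure of the prime field -/
abbrev kp (p : Nat.Primes) : Type := AlgebraicClosure (ZMod p.1)

/-- the product of the fields -/
abbrev AH : Type := ∀ p : Nat.Primes, kp p

/-- a nonprincipal ultrafilter on the primes -/
noncomputable def UU : Ultrafilter Nat.Primes := Filter.hyperfilter Nat.Primes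

/-- families vanishing almost everywhere -/
def mU : Ideal AH where
  carrier := {a | ∀ᶠ p in (UU : Filter Nat.Primes), a p = 0}
  zero_mem' := Filter.Eventually.of_forall fun _ => rfl
  add_mem' := by
    intro a b ha hb
    filter_upwards [ha, hb] with p h1 h2
    simp [h1, h2]
  smul_mem' := by
    intro c a ha
    filter_upwards [ha] with p h1
    simp [h1]

instance mU_max : mU.IsMaximal := by
  rw [Ideal.isMaximal_iff]
  constructor
  · intro h
    have h' : ∀ᶠ p in (UU : Filter Nat.Primes), (1 : AH) p = 0 := h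
    obtain ⟨p, hp⟩ := h'.exists
    exact one_ne_zero hp
  · intro J x hJ hx hxJ
    have hx' : ∀ᶠ p in (UU : Filter Nat.Primes), ¬ x p = 0 := Ultrafilter.eventually_not.2 hx
    have h1 : (1 - (fun p => (x p)⁻¹ : AH) * x) ∈ mU := by
      change ∀ᶠ p in (UU : Filter Nat.Primes), _
      filter_upwards [hx'] with p hp
      simp [hp]
    have := J.add_mem (hJ h1) (J.mul_mem_left (fun p => (x p)⁻¹) hxJ)
    rwa [sub_add_cancel] at this

/-- the ultraproduct -/
def UK : Type := AH ⧸ mU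

noncomputable instance : Field UK := Ideal.Quotient.field mU

/-- the projection -/
noncomputable def piU : AH →+* UK := Ideal.Quotient.mk mU

theorem piU_surj : Function.Surjective piU := Ideal.Quotient.mk_surjective

theorem piU_eq_zero {a : AH} : piU a = 0 ↔ ∀ᶠ p in (UU : Filter Nat.Primes), a p = 0 :=
  Ideal.Quotient.eq_zero_iff_mem

theorem ev_prime_ge (m : ℕ) : ∀ᶠ p in (UU : Filter Nat.Primes), m ≤ p.1 := by
  refine Filter.mem_hyperfilter_of_finite_compl ?_
  refine ((Set.finite_lt_nat m).preimage Subtype.val_injective.injOn).subset fun p hp => ?_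
  exact not_le.1 (show ¬ m ≤ p.1 from hp)

theorem piU_ne_zero {a : AH} (h : piU a ≠ 0) : ∀ᶠ p in (UU : Filter Nat.Primes), a p ≠ 0 :=
  Ultrafilter.eventually_not.2 fun h' => h (piU_eq_zero.2 h')

theorem natCast_kp_ne {n : ℕ} (hn : n ≠ 0) {p : Nat.Primes} (hp : n + 1 ≤ p.1) :
    (n : kp p) ≠ 0 := by
  rw [Ne, CharP.cast_eq_zero_iff (kp p) p.1]
  intro h
  have := Nat.le_of_dvd (Nat.pos_of_ne_zero hn) h
  omega

instance : CharZero UK := by
  refine charZero_of_inj_zero fun n hn => ?_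
  by_contra h
  rw [← map_natCast piU, piU_eq_zero] at hn
  obtain ⟨p, hp, hp'⟩ := (hn.and (ev_prime_ge (n + 1))).exists
  exact natCast_kp_ne h hp' hp

theorem exists_root : ∃ ω : UK, IsPrimitiveRoot ω 11 := by
  have h : ∀ p : Nat.Primes, ∃ ω : kp p, 12 ≤ p.1 → IsPrimitiveRoot ω 11 := by
    intro p
    by_cases hp : 12 ≤ p.1
    · have : NeZero ((11 : ℕ) : kp p) := ⟨natCast_kp_ne (by norm_num) hp⟩
      obtain ⟨ω, hω⟩ := HasEnoughRootsOfUnity.exists_primitiveRoot (kp p) 11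
      exact ⟨ω, fun _ => hω⟩
    · exact ⟨1, fun h => absurd h hp⟩
  choose ω hω using h
  have h1 : piU ω ^ 11 = 1 := by
    rw [← sub_eq_zero, ← map_pow, ← map_one piU, ← map_sub, piU_eq_zero]
    filter_upwards [ev_prime_ge 12] with p hp
    exact sub_eq_zero.2 (hω p hp).pow_eq_one
  have h2 : piU ω ≠ 1 := by
    intro h
    rw [← sub_eq_zero, ← map_one piU, ← map_sub, piU_eq_zero] at h
    obtain ⟨p, hp, hp'⟩ := (h.and (ev_prime_ge 12)).exists
    exact (hω p hp').ne_one (by norm_num) (sub_eq_zero.1 hp)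
  have : Fact (Nat.Prime 11) := ⟨by norm_num⟩
  have h3 := orderOf_eq_prime h1 h2
  exact ⟨piU ω, h3 ▸ IsPrimitiveRoot.orderOf _⟩

/-- F is a family of reductions of f -/
def Sp (f : K UK) (F : ∀ p, K (kp p)) : Prop :=
  ∃ g ∈ Gam, ∃ P : MvPolynomial (Fin 2) AH,
    f = gu UK g * algebraMap (P2 UK) (K UK) (map piU P) ∧
    ∀ p, F p = gu (kp p) g * algebraMap (P2 (kp p)) (K (kp p)) (map (Pi.evalRingHom kp p) P)

theorem Sp.add {f f' : K UK} {F F' : ∀ p, K (kp p)} (h : Sp f F) (h' : Sp f' F') :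
    Sp (f + f') (fun p => F p + F' p) := by
  obtain ⟨g, _, P, rfl, h2⟩ := h
  obtain ⟨g', _, P', rfl, h2'⟩ := h'
  obtain ⟨d, hd, h3, h4⟩ := exists_low 1 g g'
  refine ⟨d, hd, uA AH (g - d) * P + uA AH (g' - d) * P', ?_, fun p => ?_⟩
  · rw [gu_shift piU h3, gu_shift piU h4, map_add, map_add, mul_add]
  · beta_reduce
    rw [h2, h2', gu_shift _ h3, gu_shift _ h4, map_add, map_add, mul_add]

theorem Sp.mul {f f' : K UK} {F F' : ∀ p, K (kp p)} (h : Sp f F) (h' : Sp f' F') :
    Sp (f * f') (fun p => F p * F' p) := by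
  obtain ⟨g, hg, P, rfl, h2⟩ := h
  obtain ⟨g', hg', P', rfl, h2'⟩ := h'
  refine ⟨g + g', add_mem hg hg', P * P', ?_, fun p => ?_⟩
  · rw [gu_add, map_mul, map_mul]; ring
  · beta_reduce
    rw [h2, h2', gu_add, map_mul, map_mul]; ring

theorem Sp.neg {f : K UK} {F : ∀ p, K (kp p)} (h : Sp f F) : Sp (-f) (fun p => -F p) := by
  obtain ⟨g, hg, P, rfl, h2⟩ := h
  refine ⟨g, hg, -P, ?_, fun p => ?_⟩
  · rw [map_neg, map_neg, mul_neg]
  · beta_reduce
    rw [h2, map_neg, map_neg, mul_neg]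

theorem Sp.sub {f f' : K UK} {F F' : ∀ p, K (kp p)} (h : Sp f F) (h' : Sp f' F') :
    Sp (f - f') (fun p => F p - F' p) := by
  simp only [sub_eq_add_neg]
  exact h.add h'.neg

theorem Sp.const (c : AH) :
    Sp (algebraMap UK (K UK) (piU c)) (fun p => algebraMap (kp p) (K (kp p)) (c p)) := by
  refine ⟨0, zero_mem _, C c, ?_, fun p => ?_⟩
  · rw [gu_zero, one_mul, map_C, IsScalarTower.algebraMap_apply UK (P2 UK) (K UK)]
    rfl
  · beta_reduce
    rw [gu_zero, one_mul, map_C, IsScalarTower.algebraMap_apply (kp p) (P2 (kp p)) (K (kp p))]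
    rfl

theorem Sp.intCast (m : ℤ) : Sp (m : K UK) (fun p => (m : K (kp p))) := by
  refine ⟨0, zero_mem _, m, ?_, fun p => ?_⟩
  · rw [gu_zero, one_mul, map_intCast, map_intCast]
  · rw [gu_zero, one_mul, map_intCast, map_intCast]

theorem Sp.unit {g : Dv} (hg : g ∈ Gam) : Sp (gu UK g) (fun p => gu (kp p) g) := by
  refine ⟨g, hg, 1, ?_, fun p => ?_⟩
  · rw [map_one, map_one, mul_one]
  · rw [map_one, map_one, mul_one]

theorem Sp.zero : Sp 0 (fun _ => 0) := by
  simpa using Sp.intCast 0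

theorem Sp.one : Sp 1 (fun _ => 1) := by
  simpa using Sp.intCast 1

theorem Sp.sum {κ : Type*} (s : Finset κ) {f : κ → K UK} {F : κ → ∀ p, K (kp p)}
    (h : ∀ i ∈ s, Sp (f i) (F i)) : Sp (∑ i ∈ s, f i) (fun p => ∑ i ∈ s, F i p) := by
  classical
  induction s using Finset.induction_on with
  | empty => simpa using Sp.zero
  | insert i s hi ih =>
    simp only [Finset.sum_insert hi]
    exact (h i (by simp)).add (ih fun j hj => h j (by simp [hj]))

theorem Sp.prod {κ : Type*} (s : Finset κ) {f : κ → K UK} {F : κ → ∀ p, K (kp p)}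
    (h : ∀ i ∈ s, Sp (f i) (F i)) : Sp (∏ i ∈ s, f i) (fun p => ∏ i ∈ s, F i p) := by
  classical
  induction s using Finset.induction_on with
  | empty => simpa using Sp.one
  | insert i s hi ih =>
    simp only [Finset.prod_insert hi]
    exact (h i (by simp)).mul (ih fun j hj => h j (by simp [hj]))

theorem Sp.mem {f : K UK} {F : ∀ p, K (kp p)} (h : Sp f F) :
    f ∈ BB UK ∧ ∀ p, F p ∈ BB (kp p) := by
  obtain ⟨g, hg, P, rfl, h2⟩ := h
  refine ⟨mul_mem (gu_mem hg) (poly_mem_BB _), fun p => ?_⟩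
  rw [h2]
  exact mul_mem (gu_mem hg) (poly_mem_BB _)

theorem exists_sp {f : K UK} (hf : f ∈ BB UK) : ∃ F, Sp f F := by
  obtain ⟨g, hg, P, rfl⟩ := ch_B' 1 hf
  obtain ⟨Q, rfl⟩ := map_surjective piU piU_surj P
  exact ⟨_, g, hg, Q, by rw [aeval_uv_one], fun _ => rfl⟩

theorem map_piU_eq_zero {P : MvPolynomial (Fin 2) AH} :
    map piU P = 0 ↔ ∀ᶠ p in (UU : Filter Nat.Primes), map (Pi.evalRingHom kp p) P = 0 := by
  constructor
  · intro h
    have h1 : ∀ d ∈ P.support, ∀ᶠ p in (UU : Filter Nat.Primes), coeff d P p = 0 := by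
      intro d _
      rw [← piU_eq_zero, ← coeff_map, h, coeff_zero]
    filter_upwards [(Filter.eventually_all_finset _).2 h1] with p hp
    ext d
    rw [coeff_map, coeff_zero]
    by_cases hd : d ∈ P.support
    · exact hp d hd
    · rw [notMem_support_iff.1 hd, map_zero]
  · intro h
    ext d
    rw [coeff_map, coeff_zero, piU_eq_zero]
    filter_upwards [h] with p hp
    have := congrArg (coeff d) hp
    rwa [coeff_map, coeff_zero] at this

theorem Sp.eq_zero_iff {f : K UK} {F : ∀ p, K (kp p)} (h : Sp f F) :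
    f = 0 ↔ ∀ᶠ p in (UU : Filter Nat.Primes), F p = 0 := by
  obtain ⟨g, _, P, rfl, h2⟩ := h
  have e : ∀ (k : Type) [Field k] (Q : P2 k), gu k g * algebraMap (P2 k) (K k) Q = 0 ↔ Q = 0 := by
    intro k _ Q
    rw [mul_eq_zero, or_iff_right (gu_ne_zero g)]
    exact map_eq_zero_iff _ (IsFractionRing.injective _ _)
  simp only [h2, e]
  exact map_piU_eq_zero

theorem Sp.ne_zero {f : K UK} {F : ∀ p, K (kp p)} (h : Sp f F) (h0 : f ≠ 0) :
    ∀ᶠ p in (UU : Filter Nat.Primes), F p ≠ 0 :=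
  Ultrafilter.eventually_not.2 fun h' => h0 (h.eq_zero_iff.2 h')

theorem Sp.unique {f : K UK} {F F' : ∀ p, K (kp p)} (h : Sp f F) (h' : Sp f F') :
    ∀ᶠ p in (UU : Filter Nat.Primes), F p = F' p := by
  filter_upwards [(h.sub h').eq_zero_iff.1 (sub_self f)] with p hp
  exact sub_eq_zero.1 hp

theorem Sp.uv (s : Pm) (i : Fin 2) : Sp (uv UK s i) (fun p => uv (kp p) s i) := by
  fin_cases i
  · exact (Sp.intCast _).mul (Sp.unit (gb_mem s 0))
  · exact (Sp.intCast _).mul (Sp.unit (gb_mem s 1))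

theorem Sp.aeval (s : Pm) (P : MvPolynomial (Fin 2) AH) :
    Sp (aeval (P190.uv UK s) (map piU P))
      (fun p => aeval (P190.uv (kp p) s) (map (Pi.evalRingHom kp p) P)) := by
  induction P using MvPolynomial.induction_on with
  | C c =>
    simp only [map_C, aeval_C]
    exact Sp.const c
  | add P Q hP hQ =>
    simp only [map_add]
    exact hP.add hQ
  | mul_X P i hP =>
    simp only [map_mul, map_X, aeval_X]
    exact hP.mul (Sp.uv s i)

theorem Sp.paeval {y : K UK} {Y : ∀ p, K (kp p)} (h : Sp y Y) (P : Polynomial AH) :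
    Sp (Polynomial.aeval y (P.map piU))
      (fun p => Polynomial.aeval (Y p) (P.map (Pi.evalRingHom kp p))) := by
  induction P using Polynomial.induction_on with
  | C c =>
    simp only [Polynomial.map_C, Polynomial.aeval_C]
    exact Sp.const c
  | add P Q hP hQ =>
    simp only [Polynomial.map_add, map_add]
    exact hP.add hQ
  | monomial n c hP =>
    simp only [pow_succ, ← mul_assoc, Polynomial.map_mul, Polynomial.map_X, map_mul,
      Polynomial.aeval_X] at hP ⊢
    exact hP.mul h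

theorem Sp.nu_eq {f : K UK} {F : ∀ p, K (kp p)} (h : Sp f F) (h0 : f ≠ 0) :
    ∀ᶠ p in (UU : Filter Nat.Primes), F p ≠ 0 ∧ ∀ e, nu e (F p) = nu e f := by
  refine (h.ne_zero h0).and (Filter.eventually_all.2 fun e => ?_)
  obtain ⟨s, rfl⟩ := exists_E e
  obtain ⟨g, hg, P, hP, -, rfl⟩ := ch_B s h.mem.1 h0
  obtain ⟨Q, rfl⟩ := map_surjective piU piU_surj P
  have h1 := h.unique ((Sp.unit hg).mul (Sp.aeval s Q))
  have hP' := hP
  rw [X_dvd_iff] at hP'
  push Not at hP'
  obtain ⟨d, hd, hd'⟩ := hP'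
  rw [coeff_map] at hd'
  filter_upwards [h1, piU_ne_zero hd'] with p hp hp'
  have h2 : ¬ X 0 ∣ map (Pi.evalRingHom kp p) Q := by
    rw [X_dvd_iff]
    intro h3
    have := h3 d hd
    rw [coeff_map] at this
    exact hp' this
  obtain ⟨h3, h4⟩ := ch_v0 s h2
  obtain ⟨h5, h6⟩ := ch_v0 s hP
  rw [hp, nu_mul _ (gu_ne_zero g) h3, nu_mul _ (gu_ne_zero g) h5, h4, h6, nu_gu hg, nu_gu hg]

theorem Sp.mem_LL {f : K UK} {F : ∀ p, K (kp p)} (h : Sp f F) {a : Dv} (ha : f ∈ LL UK a) :
    ∀ᶠ p in (UU : Filter Nat.Primes), F p ∈ LL (kp p) a := by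
  by_cases h0 : f = 0
  · filter_upwards [h.eq_zero_iff.1 h0] with p hp
    rw [hp]
    exact zero_mem _
  · filter_upwards [h.nu_eq h0] with p hp
    refine P190.mem_LL.2 ⟨h.mem.2 p, Or.inr fun e => ?_⟩
    rw [hp.2]
    exact (P190.mem_LL.1 ha).2.resolve_left h0 e

theorem exists_up (S : Finset Dv) (hS : ∀ g ∈ S, g ∈ Gam) {F : ∀ p, K (kp p)}
    (hF : ∀ p, F p ∈ Submodule.span (kp p) (gu (kp p) '' (S : Set Dv))) : ∃ f, Sp f F := by
  simp only [Submodule.mem_span_image_finset_iff_exists_fun'] at hF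
  choose c hc using hF
  have h := Sp.sum S fun g hg => (Sp.const fun p => c p g).mul (Sp.unit (hS g hg))
  refine ⟨∑ g ∈ S, algebraMap UK (K UK) (piU fun p => c p g) * gu UK g, ?_⟩
  have e : F = fun p => ∑ g ∈ S, algebraMap (kp p) (K (kp p)) (c p g) * gu (kp p) g := by
    funext p
    rw [← hc p]
    exact Finset.sum_congr rfl fun g _ => Algebra.smul_def _ _
  rw [e]
  exact h

theorem Sp.wit {b : Dv} {κ : Type} [Fintype κ] {al : κ → Dv} {w : κ → K UK}
    {W : κ → ∀ p, K (kp p)} (h : ∀ i, Sp (w i) (W i)) (hw : Wit b al w) :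
    ∀ᶠ p in (UU : Filter Nat.Primes), Wit b al (fun i => W i p) := by
  have h1 : ∀ᶠ p in (UU : Filter Nat.Primes), ∀ i, W i p ∈ LL (kp p) (b + al i) :=
    Filter.eventually_all.2 fun i => (h i).mem_LL (hw.mem i)
  have h2 : ∀ᶠ p in (UU : Filter Nat.Primes),
      ∀ e, ∃ i, W i p ≠ 0 ∧ 11 * nu e (W i p) + b e + al i e = 0 := by
    refine Filter.eventually_all.2 fun e => ?_
    obtain ⟨i, hi, hi'⟩ := hw.sharp e
    filter_upwards [(h i).nu_eq hi] with p hp
    exact ⟨i, hp.1, by rw [hp.2]; exact hi'⟩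
  have h3 : ∀ᶠ p in (UU : Filter Nat.Primes), ∀ j : Fin 2, ∃ P : Polynomial (kp p), P ≠ 0 ∧
      ∃ c : κ → K (kp p), (∀ i, c i ∈ BB (kp p)) ∧
        ∑ i, c i * W i p = Polynomial.aeval (P190.uv (kp p) 1 j) P := by
    refine Filter.eventually_all.2 fun j => ?_
    obtain ⟨P, hP, c, hc, hc'⟩ := hw.cop j
    obtain ⟨Q, rfl⟩ := Polynomial.map_surjective piU piU_surj P
    choose cc hcc using fun i => exists_sp (hc i)
    have h4 := Sp.sum Finset.univ fun i _ => (hcc i).mul (h i)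
    rw [hc'] at h4
    obtain ⟨n, hn⟩ : ∃ n, (Q.map piU).coeff n ≠ 0 := by
      by_contra h5
      push Not at h5
      exact hP (Polynomial.ext h5)
    rw [Polynomial.coeff_map] at hn
    filter_upwards [h4.unique ((Sp.uv 1 j).paeval Q), piU_ne_zero hn] with p hp hp'
    refine ⟨_, fun h5 => hp' ?_, fun i => cc i p, fun i => (hcc i).mem.2 p, hp⟩
    have := congrArg (fun x => Polynomial.coeff x n) h5
    simpa using this
  filter_upwards [h1, h2, h3] with p hp1 hp2 hp3
  exact ⟨hp1, hp2, hp3⟩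

/-- simultaneous semicontinuity of rank -/
theorem Sp.indep {κ : Type} [Fintype κ] {f : κ → K UK} {F : κ → ∀ p, K (kp p)}
    (h : ∀ i, Sp (f i) (F i)) : ∀ᶠ p in (UU : Filter Nat.Primes),
      ∀ (m : ℕ) (ι : Type) [Fintype ι] (g : Fin m → Dv) (r : Fin m → ι → κ), (∀ l, g l ∈ Gam) →
        LinearIndependent (kp p) (fun l j => gu (kp p) (g l) * F (r l j) p) →
        LinearIndependent UK (fun l j => gu UK (g l) * f (r l j)) := by
  classical
  choose gg _ P hP hP' using h
  let D : Subalgebra ℤ AH := Algebra.adjoin ℤ (Finset.univ.biUnion fun i => (P i).coeffs : Finset AH)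
  have hD : IsNoetherianRing D := isNoetherianRing_of_fg (Subalgebra.fg_adjoin_finset _)
  let θ : D →+* AH := D.val.toRingHom
  have hlift : ∀ i, ∃ Q : MvPolynomial (Fin 2) D, map θ Q = P i := by
    intro i
    refine mem_range_map_iff_coeffs_subset.2 fun x hx => ⟨⟨x, Algebra.subset_adjoin ?_⟩, rfl⟩
    simp only [Finset.coe_biUnion, Set.mem_iUnion]
    exact ⟨i, by simp, hx⟩
  choose Q hQ using hlift
  obtain ⟨T, hT⟩ : (RingHom.ker (piU.comp θ)).FG := IsNoetherian.noetherian _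
  have h1 : ∀ x ∈ T, ∀ᶠ p in (UU : Filter Nat.Primes), θ x p = 0 := by
    intro x hx
    have : x ∈ RingHom.ker (piU.comp θ) := hT ▸ Ideal.subset_span hx
    exact piU_eq_zero.1 this
  filter_upwards [(Filter.eventually_all_finset _).2 h1] with p hp m ι _ g r _ hli
  have hk : RingHom.ker (piU.comp θ) ≤ RingHom.ker ((Pi.evalRingHom kp p).comp θ) := by
    rw [← hT, Ideal.span_le]
    exact fun x hx => hp x hx
  simp only [hP', ← hQ, MvPolynomial.map_map] at hli
  simp only [hP, ← hQ, MvPolynomial.map_map]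
  exact indep_K _ _ (fun x hx => hk hx) gg Q m ι g r hli

end Vale.Agent.P190
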