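import Vale.Agent.P190.RankOne

/-! P190 job Ultra, part A: field independent lemmas. -/

namespace Vale.Agent.P190.UlH
open MvPolynomial Module Filter

/-- integral chart polynomials -/
noncomputable def cZ : Fin 5 → MvPolynomial (Fin 2) ℤ := ![X 0, X 1, 1 + X 1, 1 - X 0, 1 + X 1 - X 0]

/-- the unit polynomial over a ring -/
noncomputable def uA (A : Type) [CommRing A] (g : Dv) : MvPolynomial (Fin 2) A :=
  map (Int.castRingHom A) (∏ i, cZ i ^ (g (ce 1 i)).toNat)

theorem map_uA {A B : Type} [CommRing A] [CommRing B] (φ : A →+* B) (g : Dv) :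
    map φ (uA A g) = uA B g := by
  unfold uA
  rw [MvPolynomial.map_map, RingHom.ext_int (φ.comp (Int.castRingHom A)) (Int.castRingHom B)]

theorem map_cZ (k : Type) [Field k] (i : Fin 5) : map (Int.castRingHom k) (cZ i) = cpol k i := by
  fin_cases i <;> simp [cZ, cpol]

theorem gu_uA (k : Type) [Field k] {g : Dv} (h : ∀ i, 0 ≤ g (ce 1 i)) :
    gu k g = algebraMap (P2 k) (K k) (uA k g) := by
  unfold gu uA
  rw [map_prod, map_prod]
  refine Finset.prod_congr rfl fun i _ => ?_
  rw [map_pow, map_pow, map_cZ, ← zpow_natCast, Int.toNat_of_nonneg (h i)]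

theorem gu_shift {A k : Type} [CommRing A] [Field k] (φ : A →+* k) {g d : Dv}
    (h : ∀ i, 0 ≤ (g - d) (ce 1 i)) (P : MvPolynomial (Fin 2) A) :
    gu k g * algebraMap (P2 k) (K k) (map φ P) =
      gu k d * algebraMap (P2 k) (K k) (map φ (uA A (g - d) * P)) := by
  rw [map_mul, map_mul, map_uA, ← gu_uA k h, ← mul_assoc, ← gu_add, add_sub_cancel]

theorem X_dvd_iff {k : Type} [Field k] (i : Fin 2) (P : P2 k) :
    X i ∣ P ↔ ∀ d : Fin 2 →₀ ℕ, d i = 0 → coeff d P = 0 := by
  constructor
  · rintro ⟨Q, rfl⟩ d hd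
    rw [coeff_X_mul', if_neg (by simp [hd])]
  · intro h
    rw [X_dvd_iff_modMonomial_eq_zero]
    ext d
    by_cases hle : Finsupp.single i 1 ≤ d
    · rw [coeff_modMonomial_of_le P hle, coeff_zero]
    · rw [coeff_modMonomial_of_not_le P hle, coeff_zero]
      rw [Finsupp.single_le_iff] at hle
      exact h d (by omega)

theorem exists_minor {k T : Type} [Field k] {m : ℕ} {v : Fin m → T → k}
    (h : LinearIndependent k v) : ∃ c : Fin m → T, (Matrix.of fun l i => v l (c i)).det ≠ 0 := by
  classical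
  let w : T → Fin m → k := fun t l => v l t
  have hspan : Submodule.span k (Set.range w) = ⊤ := by
    by_contra hne
    obtain ⟨f, hf0, hf⟩ := Submodule.exists_le_ker_of_lt_top _ (lt_top_iff_ne_top.2 hne)
    have h1 := Fintype.linearIndependent_iff.1 h (fun l => f fun j => if l = j then 1 else 0) (by
      funext t
      have h2 : f (w t) = 0 := hf (Submodule.subset_span ⟨t, rfl⟩)
      rw [LinearMap.pi_apply_eq_sum_univ] at h2
      rw [Finset.sum_apply]
      refine Eq.trans (Finset.sum_congr rfl fun l _ => ?_) h2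
      simp [w, mul_comm])
    apply hf0
    refine LinearMap.ext fun x => ?_
    rw [LinearMap.pi_apply_eq_sum_univ]
    simp [h1]
  obtain ⟨κ, a, _, h1, h2⟩ := exists_linearIndependent' k w
  let b : Basis κ k (Fin m → k) := Basis.mk h2 (by rw [h1, hspan])
  let e := b.indexEquiv (Pi.basisFun k (Fin m))
  refine ⟨fun i => a (e.symm i), ?_⟩
  have h3 : LinearIndependent k (Matrix.of fun l i => v l (a (e.symm i))).col :=
    h2.comp e.symm e.symm.injective
  exact ((Matrix.isUnit_iff_isUnit_det _).1 (Matrix.linearIndependent_cols_iff_isUnit.1 h3)).ne_zero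

theorem indep_transfer {D k k' T : Type} [CommRing D] [Field k] [Field k'] (φ : D →+* k)
    (ψ : D →+* k') (hk : ∀ x, ψ x = 0 → φ x = 0) {m : ℕ} (Q : Fin m → T → D)
    (h : LinearIndependent k fun l t => φ (Q l t)) : LinearIndependent k' fun l t => ψ (Q l t) := by
  classical
  obtain ⟨c, hc⟩ := exists_minor h
  let A : Matrix (Fin m) (Fin m) D := Matrix.of fun l i => Q l (c i)
  have h1 : φ A.det ≠ 0 := by
    rw [RingHom.map_det]
    exact hc
  have h2 : (ψ.mapMatrix A).det ≠ 0 := by
    rw [← RingHom.map_det]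
    exact fun h0 => h1 (hk _ h0)
  have h3 := Matrix.linearIndependent_rows_of_det_ne_zero h2
  exact LinearIndependent.of_comp (LinearMap.funLeft k' k' c) h3

/-- polynomial vectors as vectors of rational functions -/
noncomputable def toK (k : Type) [Field k] (ι : Type) (d : Dv) : (ι → P2 k) →ₗ[k] (ι → K k) :=
  LinearMap.pi fun j => ((LinearMap.mulLeft k (gu k d)).comp
    (IsScalarTower.toAlgHom k (P2 k) (K k)).toLinearMap).comp (LinearMap.proj j)

theorem toK_apply (k : Type) [Field k] (ι : Type) (d : Dv) (Q : ι → P2 k) (j : ι) :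
    toK k ι d Q j = gu k d * algebraMap (P2 k) (K k) (Q j) := rfl

theorem toK_ker (k : Type) [Field k] (ι : Type) (d : Dv) : LinearMap.ker (toK k ι d) = ⊥ := by
  rw [eq_bot_iff]
  intro Q hQ
  refine funext fun j => ?_
  have h1 : gu k d * algebraMap (P2 k) (K k) (Q j) = 0 := congrFun hQ j
  have h2 := (mul_eq_zero.1 h1).resolve_left (gu_ne_zero d)
  simpa using h2

/-- coefficients of polynomial vectors -/
noncomputable def toC (k : Type) [Field k] (ι : Type) :
    (ι → P2 k) →ₗ[k] (ι × (Fin 2 →₀ ℕ) → k) :=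
  LinearMap.pi fun t => (lcoeff k t.2).comp (LinearMap.proj t.1)

theorem toC_ker (k : Type) [Field k] (ι : Type) : LinearMap.ker (toC k ι) = ⊥ := by
  rw [eq_bot_iff]
  intro Q hQ
  refine funext fun j => ?_
  ext d
  exact congrFun hQ (j, d)

theorem indep_iff {D k ι : Type} [CommRing D] [Field k] (φ : D →+* k) {m : ℕ}
    (Q : Fin m → ι → MvPolynomial (Fin 2) D) (d : Dv) :
    LinearIndependent k (fun l j => gu k d * algebraMap (P2 k) (K k) (map φ (Q l j))) ↔
      LinearIndependent k (fun l (t : ι × (Fin 2 →₀ ℕ)) => φ (coeff t.2 (Q l t.1))) := by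
  have h1 := (toK k ι d).linearIndependent_iff (v := fun l j => map φ (Q l j)) (toK_ker k ι d)
  have h2 := (toC k ι).linearIndependent_iff (v := fun l j => map φ (Q l j)) (toC_ker k ι)
  have e : (toC k ι ∘ fun l j => map φ (Q l j)) =
      fun l (t : ι × (Fin 2 →₀ ℕ)) => φ (coeff t.2 (Q l t.1)) := by
    funext l t
    exact coeff_map φ _ _
  rw [e] at h2
  exact h1.trans h2.symm

theorem indep_K {D k k' κ : Type} [CommRing D] [Field k] [Field k'] (φ : D →+* k)
    (ψ : D →+* k') (hk : ∀ x, ψ x = 0 → φ x = 0) (gg : κ → Dv) (P : κ → MvPolynomial (Fin 2) D)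
    (m : ℕ) (ι : Type) [Fintype ι] (g : Fin m → Dv) (r : Fin m → ι → κ)
    (h : LinearIndependent k (fun l j => gu k (g l) *
      (gu k (gg (r l j)) * algebraMap (P2 k) (K k) (map φ (P (r l j)))))) :
    LinearIndependent k' (fun l j => gu k' (g l) *
      (gu k' (gg (r l j)) * algebraMap (P2 k') (K k') (map ψ (P (r l j))))) := by
  obtain ⟨b, hb⟩ := (Set.finite_range fun x : Fin m × ι × Fin 5 =>
    (g x.1 + gg (r x.1 x.2.1)) (ce 1 x.2.2)).bddBelow
  have hd : ∀ l j i, 0 ≤ (g l + gg (r l j) - (fun _ => b : Dv) : Dv) (ce 1 i) := by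
    intro l j i
    have : b ≤ (g l + gg (r l j)) (ce 1 i) := hb ⟨(l, j, i), rfl⟩
    simp only [Pi.sub_apply]
    omega
  simp only [← mul_assoc, ← gu_add] at h ⊢
  simp only [fun l j => gu_shift φ (hd l j)] at h
  simp only [fun l j => gu_shift ψ (hd l j)]
  rw [indep_iff] at h ⊢
  exact indep_transfer φ ψ hk _ h

end Vale.Agent.P190.UlH
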