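import Vale.Agent.P190.ValX

/-! P190 job Val: valuations, units, the spaces LL. -/

namespace Vale.Agent.P190
open MvPolynomial Module Filter

variable {k : Type} [Field k]

theorem io_poly (P : P2 k) : io k (algebraMap (P2 k) (K k) P) = aeval (crs k 1) P :=
  IsFractionRing.lift_algebraMap (chi_inj k) P

theorem io_const (c : k) : io k (algebraMap k (K k) c) = algebraMap k (KX k) c := by
  rw [IsScalarTower.algebraMap_apply k (P2 k) (K k), io_poly]
  simp

variable (k) in
/-- the embedding as an algebra map -/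
noncomputable def ioA : K k →ₐ[k] KX k := { io k with commutes' := io_const }

theorem ioA_apply (f : K k) : ioA k f = io k f := rfl

theorem io_ne {f : K k} (hf : f ≠ 0) : io k f ≠ 0 := by simpa using hf

theorem nu_mul (e : Edge) {f g : K k} (hf : f ≠ 0) (hg : g ≠ 0) :
    nu e (f * g) = nu e f + nu e g := by
  simp only [nu, map_mul, ordX_eq]
  exact extW_mul (addW_mult e) (io_ne hf) (io_ne hg)

theorem nu_add (e : Edge) {f g : K k} (hf : f ≠ 0) (hg : g ≠ 0) (hfg : f + g ≠ 0) :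
    min (nu e f) (nu e g) ≤ nu e (f + g) := by
  simp only [nu, map_add]
  exact ordX_add e (io_ne hf) (io_ne hg) (by rw [← map_add]; exact io_ne hfg)

theorem nu_const (e : Edge) {c : k} (hc : c ≠ 0) : nu e (algebraMap k (K k) c) = 0 := by
  rw [nu, io_const, IsScalarTower.algebraMap_apply k (PX k) (KX k), ordX_eq,
    extW_poly (addW_mult e) (by simpa using hc)]
  have : ¬ pp k e ∣ algebraMap k (PX k) c := by
    rw [pp_dvd_iff]; simpa using hc
  rw [multiplicity_eq_zero.mpr this]; rfl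

theorem nu_one (e : Edge) : nu e (1 : K k) = 0 := by
  simpa using nu_const (k := k) e (c := 1) one_ne_zero

theorem nu_neg (e : Edge) (f : K k) : nu e (-f) = nu e f := by
  by_cases hf : f = 0
  · simp [hf]
  have h1 : nu e (-1 : K k) = 0 := by
    simpa using nu_const (k := k) e (c := -1) (by simp)
  rw [← neg_one_mul, nu_mul e (by simp) hf, h1, zero_add]

theorem nu_inv (e : Edge) {f : K k} (hf : f ≠ 0) : nu e f⁻¹ = -nu e f := by
  simp only [nu, map_inv₀, ordX_eq]
  exact extW_inv (addW_mult e) (io_ne hf)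

theorem nu_zpow (e : Edge) {f : K k} (hf : f ≠ 0) (m : ℤ) : nu e (f ^ m) = m * nu e f := by
  simp only [nu, map_zpow₀, ordX_eq]
  exact extW_zpow (addW_mult e) (io_ne hf) m

theorem nu_pow (e : Edge) {f : K k} (hf : f ≠ 0) (m : ℕ) : nu e (f ^ m) = m * nu e f := by
  simp only [nu, map_pow, ordX_eq]
  exact extW_pow (addW_mult e) (io_ne hf) m

theorem cpol_ne_zero (i : Fin 5) : algebraMap (P2 k) (K k) (cpol k i) ≠ 0 := by
  fin_cases i
  · exact P2_ne_zero ![1, 1] (by simp [cpol])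
  · exact P2_ne_zero ![1, 1] (by simp [cpol])
  · exact P2_ne_zero ![0, 0] (by simp [cpol])
  · exact P2_ne_zero ![0, 0] (by simp [cpol])
  · exact P2_ne_zero ![0, 0] (by simp [cpol])

theorem gu_ne_zero (a : Dv) : gu k a ≠ 0 := by
  exact Finset.prod_ne_zero_iff.mpr fun i _ => zpow_ne_zero _ (cpol_ne_zero i)

theorem gu_add (a b : Dv) : gu k (a + b) = gu k a * gu k b := by
  simp only [gu, ← Finset.prod_mul_distrib]
  exact Finset.prod_congr rfl fun i _ => zpow_add₀ (cpol_ne_zero i) _ _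

theorem gu_zero : gu k 0 = 1 := by
  simp [gu]

theorem gu_neg (a : Dv) : gu k (-a) = (gu k a)⁻¹ := by
  simp [gu, ← Finset.prod_inv_distrib]

theorem gu_zsmul (m : ℤ) (a : Dv) : gu k (m • a) = gu k a ^ m := by
  simp only [gu, ← Finset.prod_zpow]
  exact Finset.prod_congr rfl fun e _ => by rw [← zpow_mul, mul_comm]; rfl

theorem gu_sub (a b : Dv) : gu k (a - b) = gu k a / gu k b := by
  rw [sub_eq_add_neg, gu_add, gu_neg, div_eq_mul_inv]

theorem gu_sum {ι : Type*} (s : Finset ι) (a : ι → Dv) :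
    gu k (∑ i ∈ s, a i) = ∏ i ∈ s, gu k (a i) := by
  classical
  induction s using Finset.induction_on with
  | empty => simp [gu_zero]
  | insert i s hi ih => rw [Finset.sum_insert hi, Finset.prod_insert hi, gu_add, ih]

theorem dX_ne {i j : Fin 5} (h : i ≠ j) : dX k i j ≠ 0 := aX_ne (X_sub_ne h)

/-- the chart units as quotients of differences -/
theorem crs_cpol (s : Pm) (i : Fin 5) : aeval (crs k s) (cpol k i) =
    ![dX k (s 0) (s 1) * dX k (s 2) (s 4) / dX k (s 0) (s 2) / dX k (s 1) (s 4),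
      dX k (s 2) (s 3) * dX k (s 0) (s 4) / dX k (s 0) (s 2) / dX k (s 3) (s 4),
      dX k (s 0) (s 3) * dX k (s 2) (s 4) / dX k (s 0) (s 2) / dX k (s 3) (s 4),
      dX k (s 1) (s 2) * dX k (s 0) (s 4) / dX k (s 0) (s 2) / dX k (s 1) (s 4),
      dX k (s 1) (s 3) * dX k (s 0) (s 4) * dX k (s 2) (s 4) / dX k (s 0) (s 2) /
        dX k (s 1) (s 4) / dX k (s 3) (s 4)] i := by
  have h02 : dX k (s 0) (s 2) ≠ 0 := dX_ne (s.injective.ne (by decide))
  have h14 : dX k (s 1) (s 4) ≠ 0 := dX_ne (s.injective.ne (by decide))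
  have h34 : dX k (s 3) (s 4) ≠ 0 := dX_ne (s.injective.ne (by decide))
  fin_cases i
  · simp [cpol, crs, div_div]
  · simp [cpol, crs, div_div]
  · simp only [cpol, crs, Fin.reduceFinMk, Matrix.cons_val, map_add, map_one, aeval_X,
      Matrix.cons_val_one, Matrix.cons_val_zero]
    field_simp
    simp only [dX, map_sub]; ring
  · simp only [cpol, crs, Fin.reduceFinMk, Matrix.cons_val, map_sub, map_one, aeval_X,
      Matrix.cons_val_one, Matrix.cons_val_zero]
    field_simp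
    simp only [dX, map_sub]; ring
  · simp only [cpol, crs, Fin.reduceFinMk, Matrix.cons_val, map_sub, map_add, map_one, aeval_X,
      Matrix.cons_val_one, Matrix.cons_val_zero]
    field_simp
    simp only [dX, map_sub]; ring

theorem sg_cases (i j : Fin 5) : sg i j = 1 ∨ sg i j = -1 := by
  unfold sg; split_ifs <;> simp

theorem dX_E (s : Pm) {a b : Fin 5} (h : a ≠ b) :
    dX k (s a) (s b) = ((sg (s a) (s b) : ℤ) : KX k) * mon k (sgl (E s a b)) := by
  rw [dX_eq (s.injective.ne h), mon_sgl]; rfl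

/-- signs of the chart units -/
def sgc (s : Pm) : Fin 5 → ℤ :=
  ![sg (s 0) (s 1) * sg (s 2) (s 4) * sg (s 0) (s 2) * sg (s 1) (s 4),
    sg (s 2) (s 3) * sg (s 0) (s 4) * sg (s 0) (s 2) * sg (s 3) (s 4),
    sg (s 0) (s 3) * sg (s 2) (s 4) * sg (s 0) (s 2) * sg (s 3) (s 4),
    sg (s 1) (s 2) * sg (s 0) (s 4) * sg (s 0) (s 2) * sg (s 1) (s 4),
    sg (s 1) (s 3) * sg (s 0) (s 4) * sg (s 2) (s 4) * sg (s 0) (s 2) * sg (s 1) (s 4) *
      sg (s 3) (s 4)]

theorem sgc_cases (s : Pm) (i : Fin 5) : sgc s i = 1 ∨ sgc s i = -1 := by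
  have key : ∀ x y : ℤ, (x = 1 ∨ x = -1) → (y = 1 ∨ y = -1) → (x * y = 1 ∨ x * y = -1) := by
    rintro x y (rfl | rfl) (rfl | rfl) <;> simp
  fin_cases i <;> simp only [sgc, Fin.reduceFinMk, Matrix.cons_val, Matrix.cons_val_zero,
    Matrix.cons_val_one, Fin.zero_eta, Fin.mk_one] <;>
    repeat (first | exact sg_cases _ _ | apply key)

theorem sgc_one (i : Fin 5) : sgc 1 i = 1 := by
  fin_cases i <;> simp [sgc, sg]

theorem crs_mon (s : Pm) (i : Fin 5) :
    aeval (crs k s) (cpol k i) = ((sgc s i : ℤ) : KX k) * mon k (gb s i) := by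
  have hinv : ∀ a b : Fin 5, (((sg a b : ℤ) : KX k))⁻¹ = ((sg a b : ℤ) : KX k) := fun a b =>
    inv_eq_of_mul_eq_one_right (sg_sq a b)
  rw [crs_cpol]
  fin_cases i <;>
    simp only [sgc, gb, Fin.reduceFinMk, Matrix.cons_val, Matrix.cons_val_zero,
      Matrix.cons_val_one, Fin.zero_eta, Fin.mk_one, mon_add, mon_sub] <;>
    (repeat rw [dX_E s (by decide)]) <;>
    simp only [div_eq_mul_inv, mul_inv, hinv] <;> push_cast <;> ring

theorem io_gu {g : Dv} (hg : g ∈ Gam) : io k (gu k g) = mon k g := by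
  conv_rhs => rw [Gam_eq_sum 1 hg, mon_sum]
  rw [gu, map_prod]
  refine Finset.prod_congr rfl fun i _ => ?_
  rw [map_zpow₀, io_poly, crs_mon, sgc_one, mon_zsmul]
  simp

theorem nu_gu {g : Dv} (hg : g ∈ Gam) (e : Edge) : nu e (gu k g) = g e := by
  rw [nu, io_gu hg, ordX_mon]

theorem gu_mem {g : Dv} (hg : g ∈ Gam) : gu k g ∈ BB k := by
  exact Algebra.subset_adjoin ⟨g, hg, rfl⟩

variable (k) in
/-- sections of the divisor a / 11 -/
noncomputable def LL (a : Dv) : Submodule k (K k) where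
  carrier := LS k a
  zero_mem' := ⟨zero_mem _, Or.inl rfl⟩
  add_mem' := by
    rintro f g ⟨hf, hf'⟩ ⟨hg, hg'⟩
    refine ⟨add_mem hf hg, ?_⟩
    by_cases h0 : f = 0
    · simpa [h0] using hg'
    by_cases h1 : g = 0
    · simpa [h1] using hf'
    by_cases h2 : f + g = 0
    · exact Or.inl h2
    refine Or.inr fun e => ?_
    have := nu_add e h0 h1 h2
    have := hf'.resolve_left h0 e
    have := hg'.resolve_left h1 e
    omega
  smul_mem' := by
    rintro c f ⟨hf, hf'⟩
    refine ⟨(BB k).smul_mem hf c, ?_⟩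
    by_cases h0 : f = 0
    · simp [h0]
    by_cases h1 : c = 0
    · simp [h1]
    refine Or.inr fun e => ?_
    rw [Algebra.smul_def, nu_mul e (by simpa using h1) h0, nu_const e h1, zero_add]
    exact hf'.resolve_left h0 e

theorem mem_LL {a : Dv} {f : K k} :
    f ∈ LL k a ↔ f ∈ BB k ∧ (f = 0 ∨ ∀ e, 0 ≤ 11 * nu e f + a e) := Iff.rfl

theorem LL_mul {a a' : Dv} {f f' : K k} (h : f ∈ LL k a) (h' : f' ∈ LL k a') :
    f * f' ∈ LL k (a + a') := by
  refine ⟨mul_mem h.1 h'.1, ?_⟩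
  by_cases h0 : f = 0
  · simp [h0]
  by_cases h1 : f' = 0
  · simp [h1]
  refine Or.inr fun e => ?_
  have := h.2.resolve_left h0 e
  have := h'.2.resolve_left h1 e
  rw [nu_mul e h0 h1, Pi.add_apply]
  omega

theorem LL_pow {a : Dv} {f : K k} (h : f ∈ LL k a) (m : ℕ) : f ^ m ∈ LL k ((m : ℤ) • a) := by
  refine ⟨pow_mem h.1 m, ?_⟩
  by_cases h0 : f = 0
  · rcases Nat.eq_zero_or_pos m with rfl | hm
    · right; intro e; simp [nu_one]
    · left; simp [h0, hm.ne']
  refine Or.inr fun e => ?_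
  have := h.2.resolve_left h0 e
  rw [nu_pow e h0, Pi.smul_apply, smul_eq_mul]
  have : 0 ≤ (m : ℤ) * (11 * nu e f + a e) := by positivity
  linarith

theorem LL_mono {a a' : Dv} (h : a ≤ a') : LL k a ≤ LL k a' := by
  rintro f ⟨hf, hf'⟩
  refine ⟨hf, hf'.imp_right fun h1 e => ?_⟩
  have := h1 e
  have : a e ≤ a' e := h e
  omega

theorem gu_mem_LL {g : Dv} (hg : g ∈ Gam) {a : Dv} :
    gu k g ∈ LL k a ↔ ∀ e, 0 ≤ 11 * g e + a e := by
  simp [mem_LL, gu_mem hg, gu_ne_zero, nu_gu hg]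

theorem one_mem_LL {a : Dv} : (1 : K k) ∈ LL k a ↔ 0 ≤ a := by
  simp [mem_LL, nu_one, Pi.le_def]

theorem LL_fl (a : Dv) : LL k a = LL k ((11 : ℤ) • fl a) := by
  ext f
  simp only [mem_LL, fl, Pi.smul_apply, smul_eq_mul]
  refine and_congr_right fun _ => or_congr_right (forall_congr' fun e => ?_)
  omega

theorem LL_per {g : Dv} (hg : g ∈ Gam) {a : Dv} {f : K k} :
    f ∈ LL k (a + (11 : ℤ) • g) ↔ gu k g * f ∈ LL k a := by
  constructor
  · intro h
    have := LL_mul ((gu_mem_LL hg (a := -((11 : ℤ) • g))).mpr (by simp)) h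
    simpa using this
  · intro h
    have := LL_mul ((gu_mem_LL (neg_mem hg) (a := (11 : ℤ) • g)).mpr (by simp)) h
    rw [gu_neg, ← mul_assoc, inv_mul_cancel₀ (gu_ne_zero g), one_mul, add_comm] at this
    exact this

theorem mem_BB_iff {f : K k} : f ∈ BB k ↔ f ∈ Submodule.span k (gu k '' (Gam : Set Dv)) := by
  constructor
  · intro h
    induction h using Algebra.adjoin_induction with
    | mem x hx => exact Submodule.subset_span hx
    | algebraMap c =>
      rw [Algebra.algebraMap_eq_smul_one]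
      exact Submodule.smul_mem _ _ (Submodule.subset_span ⟨0, zero_mem Gam, gu_zero⟩)
    | add x y _ _ hx hy => exact add_mem hx hy
    | mul x y _ _ hx hy =>
      have := Submodule.mul_mem_mul hx hy
      rw [Submodule.span_mul_span] at this
      refine Submodule.span_mono ?_ this
      rintro _ ⟨_, ⟨g, hg, rfl⟩, _, ⟨g', hg', rfl⟩, rfl⟩
      exact ⟨g + g', add_mem hg hg', gu_add g g'⟩
  · intro h
    exact (Submodule.span_le (p := (BB k).toSubmodule)).mpr Algebra.subset_adjoin h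

theorem exists_LL {f : K k} (hf : f ∈ BB k) : ∃ m : ℕ, f ∈ LL k ((m : ℤ) • (1 : Dv)) := by
  by_cases h0 : f = 0
  · exact ⟨0, by simp [h0]⟩
  refine ⟨(∑ e, 11 * |nu e f|).toNat, hf, Or.inr fun e => ?_⟩
  have h1 : 11 * |nu e f| ≤ ∑ e, 11 * |nu e f| :=
    Finset.single_le_sum (f := fun e => 11 * |nu e f|) (fun _ _ => by positivity) (Finset.mem_univ e)
  have h2 := neg_abs_le (nu e f)
  simp only [Pi.smul_apply, Pi.one_apply, smul_eq_mul, mul_one]
  omega

theorem gu_gb_one (i : Fin 5) : gu k (gb 1 i) = algebraMap (P2 k) (K k) (cpol k i) := by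
  rw [gu, Finset.prod_eq_single i]
  · simp [gb_ce]
  · intro j _ hj; simp [gb_ce, Ne.symm hj]
  · simp

theorem poly_mem_BB (P : P2 k) : algebraMap (P2 k) (K k) P ∈ BB k := by
  induction P using MvPolynomial.induction_on with
  | C c =>
    have := (BB k).algebraMap_mem c
    rwa [IsScalarTower.algebraMap_apply k (P2 k) (K k)] at this
  | add P Q hP hQ => rw [map_add]; exact add_mem hP hQ
  | mul_X P i hP =>
    rw [map_mul]
    refine mul_mem hP ?_
    fin_cases i
    · have := gu_mem (k := k) (gb_mem 1 0); rwa [gu_gb_one] at this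
    · have := gu_mem (k := k) (gb_mem 1 1); rwa [gu_gb_one] at this

theorem exists_den (x : K k) : ∃ b ∈ BB k, b ≠ 0 ∧ b * x ∈ BB k := by
  obtain ⟨a, b, hb, rfl⟩ := IsFractionRing.div_surjective (A := P2 k) x
  have hb' : algebraMap (P2 k) (K k) b ≠ 0 := by simpa using nonZeroDivisors.ne_zero hb
  refine ⟨_, poly_mem_BB b, hb', ?_⟩
  rw [mul_div_cancel₀ _ hb']
  exact poly_mem_BB a

theorem uv_one (i : Fin 2) : uv k 1 i = algebraMap (P2 k) (K k) (X i) := by
  fin_cases i <;> simp [uv, sg, gu_gb_one, cpol]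

theorem aeval_uv_one (P : P2 k) : aeval (uv k 1) P = algebraMap (P2 k) (K k) P := by
  rw [← aeval_XK]
  congr 2
  funext i
  exact uv_one i

theorem BB_X {f : K k} (hf : f ∈ BB k) :
    (∃ (N : ℕ) (P : PX k), io k f * mon k ((N : ℤ) • (1 : Dv)) = algebraMap (PX k) (KX k) P) ∧
      (f = 0 ∨ ∀ i, degX i (io k f) ≤ 0) := by
  have hraise : ∀ {x : KX k} {N M : ℕ} {P : PX k}, N ≤ M →
      x * mon k ((N : ℤ) • (1 : Dv)) = algebraMap (PX k) (KX k) P →
      ∃ Q : PX k, x * mon k ((M : ℤ) • (1 : Dv)) = algebraMap (PX k) (KX k) Q := by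
    intro x N M P h hP
    refine ⟨P * ∏ e, pp k e ^ (M - N), ?_⟩
    rw [map_mul, ← hP, ← mon_nat (fun _ => M - N), mul_assoc, ← mon_add]
    congr 2
    funext e
    simp only [Pi.smul_apply, Pi.one_apply, smul_eq_mul, Pi.add_apply]
    omega
  rw [mem_BB_iff] at hf
  induction hf using Submodule.span_induction with
  | mem x hx =>
    obtain ⟨g, hg, rfl⟩ := hx
    refine ⟨⟨(∑ e, |g e|).toNat, ∏ e, pp k e ^ (g e + ∑ e, |g e|).toNat, ?_⟩, Or.inr fun i => ?_⟩
    · rw [io_gu hg, ← mon_add, ← mon_nat]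
      congr 1
      funext e
      have h1 : |g e| ≤ ∑ e, |g e| :=
        Finset.single_le_sum (f := fun e => |g e|) (fun _ _ => by positivity) (Finset.mem_univ e)
      have h2 := neg_abs_le (g e)
      have h3 := abs_nonneg (g e)
      simp only [Pi.smul_apply, Pi.one_apply, smul_eq_mul, Pi.add_apply]
      omega
    · rw [io_gu hg, degX_mon, hg i]
  | zero => exact ⟨⟨0, 0, by simp⟩, Or.inl rfl⟩
  | add x y _ _ hx hy =>
    obtain ⟨⟨N, P, hP⟩, hx⟩ := hx
    obtain ⟨⟨M, Q, hQ⟩, hy⟩ := hy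
    obtain ⟨P', hP'⟩ := hraise (Nat.le_add_right N M) hP
    obtain ⟨Q', hQ'⟩ := hraise (Nat.le_add_left M N) hQ
    refine ⟨⟨N + M, P' + Q', by rw [map_add, add_mul, hP', hQ', map_add]⟩, ?_⟩
    by_cases h0 : x = 0
    · simpa [h0] using hy
    by_cases h1 : y = 0
    · simpa [h1] using hx
    by_cases h2 : x + y = 0
    · exact Or.inl h2
    refine Or.inr fun i => ?_
    have := degX_add i (io_ne h0) (io_ne h1) (by rw [← map_add]; exact io_ne h2)
    have := hx.resolve_left h0 i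
    have := hy.resolve_left h1 i
    rw [map_add]
    omega
  | smul c x _ hx =>
    obtain ⟨⟨N, P, hP⟩, hx⟩ := hx
    have e : io k (c • x) = algebraMap (PX k) (KX k) (C c) * io k x := by
      rw [Algebra.smul_def, map_mul, io_const, IsScalarTower.algebraMap_apply k (PX k) (KX k)]; rfl
    refine ⟨⟨N, C c * P, by rw [e, map_mul, mul_assoc, hP]⟩, ?_⟩
    by_cases h0 : x = 0
    · simp [h0]
    by_cases h1 : c = 0
    · simp [h1]
    refine Or.inr fun i => ?_
    have hc : (C c : PX k) ≠ 0 := by simpa using h1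
    rw [e, degX, extW_mul (addW_deg i) (aX_ne hc) (io_ne h0), extW_poly (addW_deg i) hc]
    have := hx.resolve_left h0 i
    simpa [degX, degreeOf_C] using this

theorem poly_of_LL {f : K k} (hf : f ∈ BB k) {a : Dv} (ha : f = 0 ∨ ∀ e, 0 ≤ nu e f + a e) :
    ∃ Q : PX k, io k f * mon k a = algebraMap (PX k) (KX k) Q ∧
      (f = 0 ∧ Q = 0 ∨ ∀ i, (degreeOf i Q : ℤ) ≤ vdeg a i) := by
  by_cases h0 : f = 0
  · exact ⟨0, by simp [h0], Or.inl ⟨h0, rfl⟩⟩
  obtain ⟨⟨N, P, hP⟩, hd⟩ := BB_X hf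
  obtain ⟨Q, hQ⟩ := poly_of_ord (io_ne h0) hP (ha.resolve_left h0)
  refine ⟨Q, hQ, Or.inr fun i => ?_⟩
  have hQ0 : Q ≠ 0 := by
    rintro rfl
    exact mul_ne_zero (io_ne h0) (mon_ne_zero a) (by simpa using hQ)
  have := congrArg (degX i) hQ
  rw [degX, degX, extW_mul (addW_deg i) (io_ne h0) (mon_ne_zero a), extW_poly (addW_deg i) hQ0,
    ← degX, ← degX, degX_mon] at this
  have := hd.resolve_left h0 i
  omega

theorem nu_vertex {f : K k} (hf : f ∈ BB k) (h0 : f ≠ 0) (i : Fin 5) :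
    vdeg (fun e => nu e f) i ≤ 0 := by
  obtain ⟨Q, -, h⟩ := poly_of_LL hf (a := -fun e => nu e f) (Or.inr fun e => by simp)
  rcases h with h | h
  · exact absurd h.1 h0
  · have := h i
    rw [vdeg_neg] at this
    omega

instance LL_fd (a : Dv) : FiniteDimensional k (LL k a) := by
  let T : K k →ₗ[k] KX k := (LinearMap.mulRight k (mon k (fl a))).comp (ioA k).toLinearMap
  have hT : Function.Injective T := by
    intro x y h
    have : io k x * mon k (fl a) = io k y * mon k (fl a) := h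
    exact (io k).injective (mul_right_cancel₀ (mon_ne_zero _) this)
  let U : Submodule k (KX k) := (restrictDegree (Fin 5) k (∑ i, |vdeg (fl a) i|).toNat).map
    (IsScalarTower.toAlgHom k (PX k) (KX k)).toLinearMap
  have hle : (LL k a).map T ≤ U := by
    rintro _ ⟨f, hf, rfl⟩
    obtain ⟨Q, hQ, h⟩ := poly_of_LL hf.1 (a := fl a) (hf.2.imp_right fun h e => by
      have := h e; simp only [fl]; omega)
    refine ⟨Q, ?_, hQ.symm⟩
    rcases h with h | h
    · rw [h.2]; exact zero_mem _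
    · rw [SetLike.mem_coe, mem_restrictDegree]
      intro s hs i
      have h1 := monomial_le_degreeOf i hs
      have h2 := h i
      have h3 : |vdeg (fl a) i| ≤ ∑ i, |vdeg (fl a) i| :=
        Finset.single_le_sum (f := fun i => |vdeg (fl a) i|) (fun _ _ => by positivity)
          (Finset.mem_univ i)
      have h4 := le_abs_self (vdeg (fl a) i)
      omega
  have : FiniteDimensional k ((LL k a).map T) := Submodule.finiteDimensional_of_le hle
  exact (Submodule.equivMapOfInjective T hT (LL k a)).symm.finiteDimensional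

theorem LL_zero {f : K k} (hf : f ∈ LL k 0) : ∃ c : k, f = algebraMap k (K k) c := by
  obtain ⟨Q, hQ, h⟩ := poly_of_LL hf.1 (a := 0) (hf.2.imp_right fun h e => by
      have := h e; simp only [Pi.zero_apply] at *; omega)
  rcases h with h | h
  · exact ⟨0, by simp [h.1]⟩
  have hC : Q = C (coeff 0 Q) := by
    apply totalDegree_eq_zero_iff_eq_C.mp
    rw [totalDegree_eq_zero_iff]
    intro m hm x
    have h1 := monomial_le_degreeOf x hm
    have h2 := h x
    have h3 : vdeg 0 x = 0 := zero_mem Gam x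
    omega
  refine ⟨coeff 0 Q, (io k).injective ?_⟩
  rw [mon_zero, mul_one] at hQ
  rw [hQ, io_const, IsScalarTower.algebraMap_apply k (PX k) (KX k)]
  exact congrArg _ hC

theorem per_LL : Per (fun a => (finrank k (LL k a) : ℚ)) := by
  intro a g hg
  have : (LL k (a + (11 : ℤ) • g)).map (LinearMap.mulLeft k (gu k g)) = LL k a := by
    ext f
    constructor
    · rintro ⟨x, hx, rfl⟩; exact (LL_per hg).mp hx
    · intro hf
      refine ⟨(gu k g)⁻¹ * f, (LL_per hg).mpr ?_, ?_⟩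
      · rwa [← mul_assoc, mul_inv_cancel₀ (gu_ne_zero g), one_mul]
      · show gu k g * _ = f
        rw [← mul_assoc, mul_inv_cancel₀ (gu_ne_zero g), one_mul]
  show ((finrank k (LL k (a + (11 : ℤ) • g)) : ℕ) : ℚ) = finrank k (LL k a)
  have hi : Function.Injective (LinearMap.mulLeft k (gu k g)) :=
    fun x y h => mul_left_cancel₀ (gu_ne_zero g) h
  rw [← this, (Submodule.equivMapOfInjective _ hi _).finrank_eq]

/-! ### charts -/

theorem io_uv (s : Pm) (i : Fin 2) : io k (uv k s i) = crs k s i := by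
  fin_cases i
  · have := crs_mon (k := k) s 0
    simp only [cpol, Matrix.cons_val_zero, aeval_X, sgc] at this
    simp only [uv, Fin.zero_eta, Matrix.cons_val_zero, map_mul, map_intCast, io_gu (gb_mem s 0)]
    exact this.symm
  · have := crs_mon (k := k) s 1
    simp only [cpol, Matrix.cons_val_zero, Matrix.cons_val_one, aeval_X, sgc] at this
    simp only [uv, Fin.mk_one, Matrix.cons_val_zero, Matrix.cons_val_one, map_mul, map_intCast,
      io_gu (gb_mem s 1)]
    exact this.symm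

theorem io_aeval (s : Pm) (P : P2 k) : io k (aeval (uv k s) P) = aeval (crs k s) P := by
  have : (ioA k).comp (aeval (uv k s)) = aeval (crs k s) := by
    ext i
    simp [ioA_apply, io_uv]
  exact DFunLike.congr_fun this P

theorem cu_eq (s : Pm) (i : Fin 5) : cu k s i = ((sgc s i : ℤ) : K k) * gu k (gb s i) := by
  apply (io k).injective
  rw [cu, io_aeval, crs_mon, map_mul, map_intCast, io_gu (gb_mem s i)]

theorem Sg.refl (x : K k) : Sg x x := Or.inl rfl

theorem Sg.symm {x y : K k} (h : Sg x y) : Sg y x := by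
  rcases h with rfl | rfl
  · exact Or.inl rfl
  · exact Or.inr (by simp)

theorem Sg.trans {x y z : K k} (h : Sg x y) (h' : Sg y z) : Sg x z := by
  rcases h with rfl | rfl <;> rcases h' with rfl | rfl <;> simp [Sg]

theorem Sg.mul {x y z w : K k} (h : Sg x y) (h' : Sg z w) : Sg (x * z) (y * w) := by
  rcases h with rfl | rfl <;> rcases h' with rfl | rfl <;> simp [Sg]

theorem Sg.zpow {x y : K k} (h : Sg x y) (m : ℤ) : Sg (x ^ m) (y ^ m) := by
  rcases h with rfl | rfl
  · exact Or.inl rfl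
  · rcases Int.even_or_odd m with hm | hm
    · exact Or.inl (hm.neg_zpow y)
    · exact Or.inr (hm.neg_zpow y)

theorem Sg.pow {x y : K k} (h : Sg x y) (m : ℕ) : Sg (x ^ m) (y ^ m) := by
  simpa using h.zpow m

theorem Sg.prod {ι : Type*} (s : Finset ι) {x y : ι → K k} (h : ∀ i ∈ s, Sg (x i) (y i)) :
    Sg (∏ i ∈ s, x i) (∏ i ∈ s, y i) := by
  classical
  induction s using Finset.induction_on with
  | empty => simp [Sg]
  | insert i s hi ih =>
    rw [Finset.prod_insert hi, Finset.prod_insert hi]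
    exact (h i (by simp)).mul (ih fun j hj => h j (by simp [hj]))

theorem Sg.mem {x y : K k} (h : Sg x y) {U : Submodule k (K k)} (hy : y ∈ U) : x ∈ U := by
  rcases h with rfl | rfl
  · exact hy
  · exact neg_mem hy

theorem Sg.nu_eq {x y : K k} (h : Sg x y) (e : Edge) : nu e x = nu e y := by
  rcases h with rfl | rfl
  · rfl
  · exact nu_neg e y

theorem Sg.ne_zero {x y : K k} (h : Sg x y) (hy : y ≠ 0) : x ≠ 0 := by
  rcases h with rfl | rfl
  · exact hy
  · exact neg_ne_zero.mpr hy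

theorem cu_Sg (s : Pm) (i : Fin 5) : Sg (cu k s i) (gu k (gb s i)) := by
  rw [cu_eq]
  rcases sgc_cases s i with h | h <;> simp [h, Sg]

theorem gu_Sg (s : Pm) {g : Dv} (hg : g ∈ Gam) :
    Sg (gu k g) (∏ i, cu k s i ^ (g (ce s i))) := by
  conv_lhs => rw [Gam_eq_sum s hg, gu_sum]
  refine Sg.prod _ fun i _ => ?_
  rw [gu_zsmul]
  exact (cu_Sg s i).symm.zpow _

theorem cu_zero (s : Pm) : cu k s 0 = uv k s 0 := by simp [cu, cpol]

theorem cu_one (s : Pm) : cu k s 1 = uv k s 1 := by simp [cu, cpol]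

theorem cu_two (s : Pm) : cu k s 2 = 1 + uv k s 1 := by simp [cu, cpol]

theorem cu_three (s : Pm) : cu k s 3 = 1 - uv k s 0 := by simp [cu, cpol]

theorem cu_four (s : Pm) : cu k s 4 = 1 + uv k s 1 - uv k s 0 := by simp [cu, cpol]

theorem cu_ne_zero (s : Pm) (i : Fin 5) : cu k s i ≠ 0 := (cu_Sg s i).ne_zero (gu_ne_zero _)

theorem X_dvd_sub (j : Fin 2) (P : P2 k) :
    X j ∣ P - aeval (fun i => if i = j then 0 else X i) P := by
  induction P using MvPolynomial.induction_on with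
  | C c => simp
  | add P Q hP hQ =>
    have := dvd_add hP hQ
    rw [map_add]
    rwa [show P + Q - _ = P - aeval (fun i => if i = j then 0 else X i) P +
      (Q - aeval (fun i => if i = j then 0 else X i) Q) by ring]
  | mul_X P i hP =>
    rw [map_mul, aeval_X]
    split_ifs with h
    · simp [h]
    · rw [← sub_mul]; exact hP.mul_right _

theorem aeval_ne_of_not_dvd (j : Fin 2) {P : P2 k} (h : ¬ X j ∣ P) :
    aeval (fun i => if i = j then 0 else algebraMap (P2 k) (K k) (X i)) P ≠ 0 := by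
  have h1 : aeval (fun i => if i = j then (0 : P2 k) else X i) P ≠ 0 := by
    intro h0
    have := X_dvd_sub j P
    rw [h0, sub_zero] at this
    exact h this
  have h2 : (IsScalarTower.toAlgHom k (P2 k) (K k)).comp
      (aeval (fun i => if i = j then (0 : P2 k) else X i)) =
      aeval (fun i => if i = j then 0 else algebraMap (P2 k) (K k) (X i)) := by
    ext i
    simp only [AlgHom.comp_apply, aeval_X]
    split_ifs <;> simp
  rw [← h2]
  simpa using h1

theorem evs_pp {F : Type} [Field F] [Algebra k F] (s : Pm) (x₁ x₃ c : F) {a b : Fin 5} (h : a ≠ b)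
    (h0 : evs (k := k) s x₁ x₃ c (X (s a)) = evs (k := k) s x₁ x₃ c (X (s b))) :
    evs (k := k) s x₁ x₃ c (pp k (E s a b)) = 0 := by
  have hne := s.injective.ne h
  rcases lt_or_gt_of_ne hne with h1 | h1
  · simp [E, ed, pp, h1, h0]
  · simp [E, ed, pp, h1, not_lt.mpr h1.le, h0]

theorem ch_v0 (s : Pm) {P : P2 k} (h : ¬ X 0 ∣ P) :
    aeval (uv k s) P ≠ 0 ∧ nu (E s 0 1) (aeval (uv k s) P) = 0 := by
  set a := algebraMap (P2 k) (K k)
  have hv := hasVal_crs (k := k) s (x₁ := 0) (x₃ := 1 + a (X 1)) (c := a (X 0))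
    (by have := P2_ne_zero (k := k) (P := 0 - X 0) ![1, 0] (by simp); rwa [map_sub, map_zero] at this)
    (by have := P2_ne_zero (k := k) (P := 0 - X 0) ![1, 0] (by simp); rwa [map_sub, map_zero] at this)
    (by have := P2_ne_zero (k := k) (P := 1 - X 0) ![0, 0] (by simp); simpa using this)
    (by have := P2_ne_zero (k := k) (P := 1 + X 1 - X 0) ![0, 0] (by simp); simpa using this) P
  have e : (![0, 1 + a (X 1) - 1] : Fin 2 → K k) = fun i => if i = 0 then 0 else a (X i) := by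
    funext i; fin_cases i <;> simp
  rw [e, ← io_aeval] at hv
  have hz := aeval_ne_of_not_dvd 0 h
  refine ⟨fun h0 => hv.ne_zero hz (by rw [h0, map_zero]), ?_⟩
  exact hv.ordX_eq_zero hz (evs_pp s _ _ _ (by decide) (by rw [evs_X, evs_X]; rfl))

theorem ch_v1 (s : Pm) {P : P2 k} (h : ¬ X 1 ∣ P) :
    aeval (uv k s) P ≠ 0 ∧ nu (E s 2 3) (aeval (uv k s) P) = 0 := by
  set a := algebraMap (P2 k) (K k)
  have hv := hasVal_crs (k := k) s (x₁ := a (X 0)) (x₃ := 1) (c := a (X 1))
    (by have := P2_ne_zero (k := k) (P := 0 - X 1) ![0, 1] (by simp); rwa [map_sub, map_zero] at this)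
    (by have := P2_ne_zero (k := k) (P := X 0 - X 1) ![0, 1] (by simp); simpa using this)
    (by have := P2_ne_zero (k := k) (P := 1 - X 1) ![0, 0] (by simp); simpa using this)
    (by have := P2_ne_zero (k := k) (P := 1 - X 1) ![0, 0] (by simp); simpa using this) P
  have e : (![a (X 0), 1 - 1] : Fin 2 → K k) = fun i => if i = 1 then 0 else a (X i) := by
    funext i; fin_cases i <;> simp
  rw [e, ← io_aeval] at hv
  have hz := aeval_ne_of_not_dvd 1 h
  refine ⟨fun h0 => hv.ne_zero hz (by rw [h0, map_zero]), ?_⟩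
  exact hv.ordX_eq_zero hz (evs_pp s _ _ _ (by decide) (by rw [evs_X, evs_X]; rfl))

theorem poly_of_nonneg (s : Pm) {g : Dv} (hg : g ∈ Gam) (h : ∀ i, 0 ≤ g (ce s i)) :
    ∃ P : P2 k, gu k g = aeval (uv k s) P := by
  have e : ∏ i, cu k s i ^ (g (ce s i)) = aeval (uv k s) (∏ i, cpol k i ^ (g (ce s i)).toNat) := by
    rw [map_prod]
    refine Finset.prod_congr rfl fun i _ => ?_
    rw [map_pow, ← zpow_natCast, Int.toNat_of_nonneg (h i)]; rfl
  rcases gu_Sg (k := k) s hg with h1 | h1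
  · exact ⟨_, h1.trans e⟩
  · exact ⟨-_, by rw [h1, e, map_neg]⟩

theorem exists_low (s : Pm) (g g' : Dv) : ∃ d ∈ Gam, (∀ i, 0 ≤ (g - d) (ce s i)) ∧
    ∀ i, 0 ≤ (g' - d) (ce s i) := by
  refine ⟨∑ i, (min (g (ce s i)) (g' (ce s i))) • gb s i,
    sum_mem fun i _ => zsmul_mem (gb_mem s i) _, fun i => ?_, fun i => ?_⟩ <;>
  simp [Finset.sum_apply, gb_ce]

theorem ch_B' (s : Pm) {f : K k} (hf : f ∈ BB k) :
    ∃ g ∈ Gam, ∃ P : P2 k, f = gu k g * aeval (uv k s) P := by
  rw [mem_BB_iff] at hf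
  induction hf using Submodule.span_induction with
  | mem x hx =>
    obtain ⟨g, hg, rfl⟩ := hx
    exact ⟨g, hg, 1, by simp⟩
  | zero => exact ⟨0, zero_mem _, 0, by simp⟩
  | add x y _ _ hx hy =>
    obtain ⟨g, hg, P, rfl⟩ := hx
    obtain ⟨g', hg', P', rfl⟩ := hy
    obtain ⟨d, hd, h1, h2⟩ := exists_low s g g'
    obtain ⟨Q, hQ⟩ := poly_of_nonneg (k := k) s (sub_mem hg hd) h1
    obtain ⟨Q', hQ'⟩ := poly_of_nonneg (k := k) s (sub_mem hg' hd) h2
    refine ⟨d, hd, Q * P + Q' * P', ?_⟩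
    rw [map_add, map_mul, map_mul, ← hQ, ← hQ', gu_sub, gu_sub]
    have := gu_ne_zero (k := k) d
    field_simp
  | smul c x _ hx =>
    obtain ⟨g, hg, P, rfl⟩ := hx
    exact ⟨g, hg, c • P, by simp⟩

theorem uv_pow_Sg (s : Pm) (a b : ℕ) : Sg (uv k s 0 ^ a * uv k s 1 ^ b)
    (gu k ((a : ℤ) • gb s 0 + (b : ℤ) • gb s 1)) := by
  rw [gu_add, gu_zsmul, gu_zsmul, zpow_natCast, zpow_natCast, ← cu_zero, ← cu_one]
  exact ((cu_Sg s 0).pow a).mul ((cu_Sg s 1).pow b)

theorem ch_B (s : Pm) {f : K k} (hf : f ∈ BB k) (h0 : f ≠ 0) :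
    ∃ g ∈ Gam, ∃ P : P2 k, ¬ X 0 ∣ P ∧ ¬ X 1 ∣ P ∧ f = gu k g * aeval (uv k s) P := by
  obtain ⟨g, hg, P, rfl⟩ := ch_B' s hf
  have hP : P ≠ 0 := by rintro rfl; simp at h0
  obtain ⟨a, P1, h1, rfl⟩ := WfDvdMonoid.max_power_factor' hP (X_prime (i := 0)).not_unit
  have hP1 : P1 ≠ 0 := by rintro rfl; simp at hP
  obtain ⟨b, P2, h2, rfl⟩ := WfDvdMonoid.max_power_factor' hP1 (X_prime (i := 1)).not_unit
  have h3 : ¬ X 0 ∣ P2 := fun h => h1 (h.mul_left _)
  have hm : g + ((a : ℤ) • gb s 0 + (b : ℤ) • gb s 1) ∈ Gam :=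
    add_mem hg (add_mem (zsmul_mem (gb_mem s 0) _) (zsmul_mem (gb_mem s 1) _))
  rcases uv_pow_Sg (k := k) s a b with h | h
  · refine ⟨_, hm, P2, h3, h2, ?_⟩
    rw [gu_add, ← h]; simp only [map_mul, map_pow, aeval_X]; ring
  · refine ⟨_, hm, -P2, by simpa using h3, by simpa using h2, ?_⟩
    rw [gu_add, ← neg_eq_iff_eq_neg.mpr h]; simp only [map_mul, map_pow, aeval_X, map_neg]; ring

/-- the pair chart lemma -/
theorem pair_chart (s : Pm) {f : K k} (hf : f ∈ BB k) {a b : ℤ}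
    (h : f = 0 ∨ (a ≤ nu (E s 0 1) f ∧ b ≤ nu (E s 2 3) f)) :
    f ∈ Submodule.span k {x | ∃ g ∈ Gam, a ≤ g (E s 0 1) ∧ b ≤ g (E s 2 3) ∧ x = gu k g} := by
  by_cases h0 : f = 0
  · rw [h0]; exact zero_mem _
  obtain ⟨h1, h2⟩ := h.resolve_left h0
  obtain ⟨g, hg, P, hP0, hP1, rfl⟩ := ch_B s hf h0
  rw [nu_mul _ (gu_ne_zero g) (ch_v0 s hP0).1, nu_gu hg] at h1 h2
  rw [(ch_v0 s hP0).2] at h1
  rw [(ch_v1 s hP1).2] at h2
  rw [P.as_sum, map_sum, Finset.mul_sum]
  refine sum_mem fun m _ => ?_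
  rw [aeval_monomial, Finsupp.prod_fintype _ _ (by simp), Fin.prod_univ_two, mul_left_comm,
    ← Algebra.smul_def]
  refine Submodule.smul_mem _ _ ?_
  refine ((Sg.refl _).mul (uv_pow_Sg s (m 0) (m 1))).mem (Submodule.subset_span ?_)
  have e0 := gb_ce s 0 0
  have e1 := gb_ce s 0 1
  have e2 := gb_ce s 1 0
  have e3 := gb_ce s 1 1
  simp only [ce, Matrix.cons_val_zero, Matrix.cons_val_one] at e0 e1 e2 e3
  refine ⟨g + (((m 0 : ℕ) : ℤ) • gb s 0 + ((m 1 : ℕ) : ℤ) • gb s 1),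
    add_mem hg (add_mem (zsmul_mem (gb_mem s 0) _) (zsmul_mem (gb_mem s 1) _)), ?_, ?_,
    (gu_add _ _).symm⟩
  · simp only [Pi.add_apply, Pi.smul_apply, smul_eq_mul, e0, e2]; simp; omega
  · simp only [Pi.add_apply, Pi.smul_apply, smul_eq_mul, e1, e3]; simp; omega

end Vale.Agent.P190
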