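import Vale.Agent.P190.Comb

/-! P190: valuations and degrees in the five point model. -/

namespace Vale.Agent.P190
open MvPolynomial Module Filter

variable {k : Type} [Field k]

/-- extension of an additive function to the fraction field -/
noncomputable def extW (w : PX k → ℕ) (f : KX k) : ℤ :=
  (w (IsLocalization.sec (nonZeroDivisors (PX k)) f).1 : ℤ) -
    (w ((IsLocalization.sec (nonZeroDivisors (PX k)) f).2 : PX k) : ℤ)

/-- additivity on nonzero products -/
def AddW (w : PX k → ℕ) : Prop := ∀ a b, a ≠ 0 → b ≠ 0 → w (a * b) = w a + w b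

theorem aX_inj : Function.Injective (algebraMap (PX k) (KX k)) := IsFractionRing.injective _ _

theorem aX_ne {a : PX k} (h : a ≠ 0) : algebraMap (PX k) (KX k) a ≠ 0 := by simpa using h

theorem extW_eq {w : PX k → ℕ} (hw : AddW w) {f : KX k} {a b : PX k} (ha : a ≠ 0) (hb : b ≠ 0)
    (h : f * algebraMap (PX k) (KX k) b = algebraMap (PX k) (KX k) a) :
    extW w f = (w a : ℤ) - w b := by
  have h1 := IsLocalization.sec_spec (nonZeroDivisors (PX k)) f
  set a' := (IsLocalization.sec (nonZeroDivisors (PX k)) f).1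
  set b' := (IsLocalization.sec (nonZeroDivisors (PX k)) f).2
  have hb' : (b' : PX k) ≠ 0 := nonZeroDivisors.coe_ne_zero b'
  have hf : f ≠ 0 := by
    rintro rfl
    exact aX_ne ha (by rw [← h]; simp)
  have ha' : a' ≠ 0 := by
    intro h0
    rw [h0, map_zero] at h1
    exact mul_ne_zero hf (aX_ne hb') h1
  have h2 : a' * b = a * b' := by
    apply aX_inj
    rw [map_mul, map_mul, ← h, ← h1]; ring
  have h3 := congrArg w h2
  rw [hw _ _ ha' hb, hw _ _ ha hb'] at h3
  show (w a' : ℤ) - w b' = _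
  omega

theorem exists_frac {f : KX k} (hf : f ≠ 0) : ∃ a b : PX k, a ≠ 0 ∧ b ≠ 0 ∧
    f * algebraMap (PX k) (KX k) b = algebraMap (PX k) (KX k) a := by
  have h1 := IsLocalization.sec_spec (nonZeroDivisors (PX k)) f
  refine ⟨_, _, ?_, nonZeroDivisors.coe_ne_zero _, h1⟩
  intro h0
  rw [h0, map_zero] at h1
  exact mul_ne_zero hf (aX_ne (nonZeroDivisors.coe_ne_zero _)) h1

theorem AddW.one {w : PX k → ℕ} (hw : AddW w) : w 1 = 0 := by
  have := hw 1 1 one_ne_zero one_ne_zero
  rw [mul_one] at this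
  omega

theorem extW_poly {w : PX k → ℕ} (hw : AddW w) {a : PX k} (ha : a ≠ 0) :
    extW w (algebraMap (PX k) (KX k) a) = w a := by
  rw [extW_eq hw ha one_ne_zero (by simp), hw.one]; simp

theorem extW_mul {w : PX k → ℕ} (hw : AddW w) {f g : KX k} (hf : f ≠ 0) (hg : g ≠ 0) :
    extW w (f * g) = extW w f + extW w g := by
  obtain ⟨a, b, ha, hb, h⟩ := exists_frac hf
  obtain ⟨a', b', ha', hb', h'⟩ := exists_frac hg
  rw [extW_eq hw ha hb h, extW_eq hw ha' hb' h', extW_eq hw (mul_ne_zero ha ha')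
    (mul_ne_zero hb hb') (by rw [map_mul, map_mul, ← h, ← h']; ring), hw _ _ ha ha', hw _ _ hb hb']
  push_cast; ring

theorem extW_one {w : PX k → ℕ} (hw : AddW w) : extW w (1 : KX k) = 0 := by
  have := extW_mul hw (one_ne_zero (α := KX k)) one_ne_zero
  rw [mul_one] at this
  omega

theorem extW_inv {w : PX k → ℕ} (hw : AddW w) {f : KX k} (hf : f ≠ 0) :
    extW w f⁻¹ = -extW w f := by
  have := extW_mul hw hf (inv_ne_zero hf)
  rw [mul_inv_cancel₀ hf, extW_one hw] at this
  omega

theorem extW_pow {w : PX k → ℕ} (hw : AddW w) {f : KX k} (hf : f ≠ 0) (m : ℕ) :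
    extW w (f ^ m) = m * extW w f := by
  induction m with
  | zero => simp [extW_one hw]
  | succ m ih => rw [pow_succ, extW_mul hw (pow_ne_zero _ hf) hf, ih]; push_cast; ring

theorem extW_zpow {w : PX k → ℕ} (hw : AddW w) {f : KX k} (hf : f ≠ 0) (m : ℤ) :
    extW w (f ^ m) = m * extW w f := by
  obtain ⟨n, rfl | rfl⟩ := Int.eq_nat_or_neg m
  · rw [zpow_natCast, extW_pow hw hf]
  · rw [zpow_neg, zpow_natCast, extW_inv hw (pow_ne_zero _ hf), extW_pow hw hf]; ring

theorem extW_prod {w : PX k → ℕ} (hw : AddW w) {ι : Type*} (s : Finset ι) {f : ι → KX k}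
    (hf : ∀ i ∈ s, f i ≠ 0) : extW w (∏ i ∈ s, f i) = ∑ i ∈ s, extW w (f i) := by
  classical
  induction s using Finset.induction_on with
  | empty => simp [extW_one hw]
  | insert i s hi ih =>
    rw [Finset.prod_insert hi, Finset.sum_insert hi, extW_mul hw (hf i (by simp))
      (Finset.prod_ne_zero_iff.mpr fun j hj => hf j (by simp [hj])),
      ih fun j hj => hf j (by simp [hj])]

theorem common_den {f g : KX k} (hf : f ≠ 0) (hg : g ≠ 0) (hfg : f + g ≠ 0) :
    ∃ a a' b : PX k, a ≠ 0 ∧ a' ≠ 0 ∧ a + a' ≠ 0 ∧ b ≠ 0 ∧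
      f * algebraMap (PX k) (KX k) b = algebraMap (PX k) (KX k) a ∧
      g * algebraMap (PX k) (KX k) b = algebraMap (PX k) (KX k) a' ∧
      (f + g) * algebraMap (PX k) (KX k) b = algebraMap (PX k) (KX k) (a + a') := by
  obtain ⟨a, b, ha, hb, h⟩ := exists_frac hf
  obtain ⟨a', b', ha', hb', h'⟩ := exists_frac hg
  have h3 : (f + g) * algebraMap (PX k) (KX k) (b * b') =
      algebraMap (PX k) (KX k) (a * b' + a' * b) := by
    rw [map_add, map_mul, map_mul, map_mul, ← h, ← h']; ring
  refine ⟨a * b', a' * b, b * b', mul_ne_zero ha hb', mul_ne_zero ha' hb, ?_, mul_ne_zero hb hb',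
    by rw [map_mul, map_mul, ← h]; ring, by rw [map_mul, map_mul, ← h']; ring, h3⟩
  intro h0
  rw [h0, map_zero] at h3
  exact mul_ne_zero hfg (aX_ne (mul_ne_zero hb hb')) h3

/-! ### the primes -/

/-- identify the end points of an edge -/
noncomputable def sbs (e : Edge) : PX k →ₐ[k] PX k :=
  aeval fun l => if l = e.1.1 then X e.1.2 else X l

theorem sbs_pp (e : Edge) : sbs e (pp k e) = 0 := by
  have : e.1.2 ≠ e.1.1 := (ne_of_lt e.2).symm
  simp [sbs, pp, this]

theorem pp_dvd_sub (e : Edge) (P : PX k) : pp k e ∣ P - sbs e P := by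
  induction P using MvPolynomial.induction_on with
  | C c => simp [sbs]
  | add P Q hP hQ =>
    have : P + Q - sbs e (P + Q) = (P - sbs e P) + (Q - sbs e Q) := by rw [map_add]; ring
    rw [this]; exact dvd_add hP hQ
  | mul_X P i hP =>
    have h1 : pp k e ∣ X i - sbs e (X i) := by
      by_cases h : i = e.1.1
      · simp [sbs, h, pp]
      · simp [sbs, h]
    have : P * X i - sbs e (P * X i) = (P - sbs e P) * X i + sbs e P * (X i - sbs e (X i)) := by
      rw [map_mul]; ring
    rw [this]; exact dvd_add (hP.mul_right _) (h1.mul_left _)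

theorem pp_dvd_iff (e : Edge) (P : PX k) : pp k e ∣ P ↔ sbs e P = 0 := by
  constructor
  · rintro ⟨Q, rfl⟩; rw [map_mul, sbs_pp, zero_mul]
  · intro h; simpa [h] using pp_dvd_sub e P

theorem X_sub_ne {i j : Fin 5} (h : i ≠ j) : (X i - X j : PX k) ≠ 0 := by
  intro h0
  exact h (X_injective (sub_eq_zero.mp h0))

theorem pp_ne_zero (e : Edge) : pp k e ≠ 0 := X_sub_ne (ne_of_lt e.2)

theorem pp_prime (e : Edge) : Prime (pp k e) := by
  refine ⟨pp_ne_zero e, ?_, ?_⟩
  · intro h
    have := (pp_dvd_iff e 1).mp (isUnit_iff_dvd_one.mp h)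
    simp at this
  · intro a b h
    rw [pp_dvd_iff, map_mul] at h
    rw [pp_dvd_iff, pp_dvd_iff]
    exact mul_eq_zero.mp h

theorem pp_not_dvd {e f : Edge} (h : e ≠ f) : ¬ pp k e ∣ pp k f := by
  rw [pp_dvd_iff]
  have : (if f.1.1 = e.1.1 then e.1.2 else f.1.1) ≠ (if f.1.2 = e.1.1 then e.1.2 else f.1.2) := by
    revert e f; decide
  have h2 : sbs e (pp k f) = X (if f.1.1 = e.1.1 then e.1.2 else f.1.1) -
      X (if f.1.2 = e.1.1 then e.1.2 else f.1.2) := by
    simp only [sbs, pp, map_sub, aeval_X]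
    split_ifs <;> rfl
  rw [h2]
  exact X_sub_ne this

theorem fin_mult (e : Edge) {a : PX k} (ha : a ≠ 0) : FiniteMultiplicity (pp k e) a :=
  FiniteMultiplicity.of_prime_left (pp_prime e) ha

theorem addW_mult (e : Edge) : AddW (fun a => multiplicity (pp k e) a) := fun _ _ ha hb =>
  multiplicity_mul (pp_prime e) (fin_mult e (mul_ne_zero ha hb))

theorem addW_deg (i : Fin 5) : AddW (fun a : PX k => degreeOf i a) := fun _ _ ha hb =>
  degreeOf_mul_eq ha hb

theorem ordX_eq (e : Edge) (f : KX k) : ordX k e f = extW (fun a => multiplicity (pp k e) a) f :=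
  rfl

theorem ordX_add (e : Edge) {f g : KX k} (hf : f ≠ 0) (hg : g ≠ 0) (hfg : f + g ≠ 0) :
    min (ordX k e f) (ordX k e g) ≤ ordX k e (f + g) := by
  obtain ⟨a, a', b, ha, ha', haa, hb, h1, h2, h3⟩ := common_den hf hg hfg
  rw [ordX_eq, ordX_eq, ordX_eq, extW_eq (addW_mult e) ha hb h1, extW_eq (addW_mult e) ha' hb h2,
    extW_eq (addW_mult e) haa hb h3]
  have : min (multiplicity (pp k e) a) (multiplicity (pp k e) a') ≤
      multiplicity (pp k e) (a + a') :=
    (fin_mult e haa).le_multiplicity_of_pow_dvd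
      (dvd_add (pow_dvd_of_le_multiplicity (min_le_left _ _))
        (pow_dvd_of_le_multiplicity (min_le_right _ _)))
  omega

/-- degree in one of the five variables -/
noncomputable def degX (i : Fin 5) (f : KX k) : ℤ := extW (fun a : PX k => degreeOf i a) f

theorem degX_add (i : Fin 5) {f g : KX k} (hf : f ≠ 0) (hg : g ≠ 0) (hfg : f + g ≠ 0) :
    degX i (f + g) ≤ max (degX i f) (degX i g) := by
  obtain ⟨a, a', b, ha, ha', haa, hb, h1, h2, h3⟩ := common_den hf hg hfg
  rw [degX, degX, degX, extW_eq (addW_deg i) ha hb h1, extW_eq (addW_deg i) ha' hb h2,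
    extW_eq (addW_deg i) haa hb h3]
  have := degreeOf_add_le i a a'
  omega

theorem HasVal.ordX_eq_zero {F : Type} [Field F] [Algebra k F] {ψ : PX k →ₐ[k] F} {f : KX k}
    {z : F} (h : HasVal ψ f z) (hz : z ≠ 0) {e : Edge} (he : ψ (pp k e) = 0) : ordX k e f = 0 := by
  obtain ⟨Q, d, hd, h1, h2⟩ := h
  have hQ : ψ Q ≠ 0 := by rw [h2]; exact mul_ne_zero hz hd
  have key : ∀ a : PX k, ψ a ≠ 0 → multiplicity (pp k e) a = 0 := by
    intro a ha
    rw [multiplicity_eq_zero]
    rintro ⟨b, rfl⟩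
    simp [he] at ha
  rw [ordX_eq, extW_eq (addW_mult e) (by rintro rfl; simp at hQ) (by rintro rfl; simp at hd) h1]
  simp [key _ hQ, key _ hd]

/-! ### monomials -/

variable (k) in
/-- Laurent monomial in the ten primes -/
noncomputable def mon (a : Dv) : KX k := ∏ e, (algebraMap (PX k) (KX k) (pp k e)) ^ (a e)

theorem mon_ne_zero (a : Dv) : mon k a ≠ 0 :=
  Finset.prod_ne_zero_iff.mpr fun e _ => zpow_ne_zero _ (aX_ne (pp_ne_zero e))

theorem mon_add (a b : Dv) : mon k (a + b) = mon k a * mon k b := by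
  simp only [mon, ← Finset.prod_mul_distrib]
  exact Finset.prod_congr rfl fun e _ => zpow_add₀ (aX_ne (pp_ne_zero e)) _ _

theorem mon_zero : mon k 0 = 1 := by simp [mon]

theorem mon_neg (a : Dv) : mon k (-a) = (mon k a)⁻¹ := by
  simp [mon, ← Finset.prod_inv_distrib]

theorem mon_sub (a b : Dv) : mon k (a - b) = mon k a / mon k b := by
  rw [sub_eq_add_neg, mon_add, mon_neg, div_eq_mul_inv]

theorem mon_zsmul (m : ℤ) (a : Dv) : mon k (m • a) = mon k a ^ m := by
  simp only [mon, ← Finset.prod_zpow]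
  exact Finset.prod_congr rfl fun e _ => by rw [← zpow_mul, mul_comm]; rfl

theorem mon_sum {ι : Type*} (s : Finset ι) (a : ι → Dv) :
    mon k (∑ i ∈ s, a i) = ∏ i ∈ s, mon k (a i) := by
  classical
  induction s using Finset.induction_on with
  | empty => simp [mon_zero]
  | insert i s hi ih => rw [Finset.sum_insert hi, Finset.prod_insert hi, mon_add, ih]

theorem mon_sgl (e : Edge) : mon k (sgl e) = algebraMap (PX k) (KX k) (pp k e) := by
  rw [mon, Finset.prod_eq_single e]
  · simp [sgl]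
  · intro f _ hf; simp [sgl, hf]
  · simp

theorem mon_nat (a : Edge → ℕ) :
    mon k (fun e => (a e : ℤ)) = algebraMap (PX k) (KX k) (∏ e, pp k e ^ a e) := by
  simp [mon]

theorem ordX_mon (a : Dv) (e : Edge) : ordX k e (mon k a) = a e := by
  rw [ordX_eq, mon, extW_prod (addW_mult e) _ fun f _ => zpow_ne_zero _ (aX_ne (pp_ne_zero f)),
    Finset.sum_eq_single e]
  · rw [extW_zpow (addW_mult e) (aX_ne (pp_ne_zero e)), extW_poly (addW_mult e) (pp_ne_zero e)]
    simp [multiplicity_self]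
  · intro f _ hf
    rw [extW_zpow (addW_mult e) (aX_ne (pp_ne_zero f)), extW_poly (addW_mult e) (pp_ne_zero f)]
    simp [multiplicity_eq_zero.mpr (pp_not_dvd (Ne.symm hf))]
  · simp

theorem degreeOf_pp (i : Fin 5) (e : Edge) :
    degreeOf i (pp k e) = if e.1.1 = i ∨ e.1.2 = i then 1 else 0 := by
  have hne : e.1.1 ≠ e.1.2 := ne_of_lt e.2
  have hle : degreeOf i (pp k e) ≤ max (degreeOf i (X e.1.1 : PX k)) (degreeOf i (X e.1.2 : PX k)) :=
    degreeOf_sub_le _ _ _
  rw [degreeOf_X, degreeOf_X] at hle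
  split_ifs with h
  · apply le_antisymm
    · refine hle.trans ?_; split_ifs <;> simp
    · have hs : ∀ a b : Fin 5, a ≠ b → coeff (Finsupp.single a 1) (X b : PX k) = 0 := by
        intro a b hab
        rw [coeff_X', if_neg]
        intro h2
        rw [Finsupp.single_left_inj one_ne_zero] at h2
        exact hab h2.symm
      have : Finsupp.single i 1 ∈ (pp k e).support := by
        rw [MvPolynomial.mem_support_iff, pp, coeff_sub]
        rcases h with h | h
        · rw [← h, hs _ _ hne, coeff_X]; simp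
        · rw [← h, hs _ _ hne.symm, coeff_X]; simp
      simpa using monomial_le_degreeOf i this
  · push Not at h
    rw [if_neg (Ne.symm h.1), if_neg (Ne.symm h.2)] at hle
    simpa using hle

theorem vdeg_eq_sum (a : Dv) (i : Fin 5) :
    vdeg a i = ∑ e : Edge, a e * if e.1.1 = i ∨ e.1.2 = i then 1 else 0 := by
  rw [sum_edge 1]
  fin_cases i <;> simp [vdeg, Fin.sum_univ_five, E, ed]

theorem degX_mon (a : Dv) (i : Fin 5) : degX i (mon k a) = vdeg a i := by
  rw [degX, mon, extW_prod (addW_deg i) _ fun f _ => zpow_ne_zero _ (aX_ne (pp_ne_zero f)),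
    vdeg_eq_sum]
  refine Finset.sum_congr rfl fun e _ => ?_
  rw [extW_zpow (addW_deg i) (aX_ne (pp_ne_zero e)), extW_poly (addW_deg i) (pp_ne_zero e)]
  simp only [degreeOf_pp]
  split_ifs <;> simp

/-- clearing denominators -/
theorem poly_of_ord {f : KX k} (hf : f ≠ 0) {N : Dv} {P : PX k}
    (h : f * mon k N = algebraMap (PX k) (KX k) P) {a : Dv} (ha : ∀ e, 0 ≤ ordX k e f + a e) :
    ∃ Q : PX k, f * mon k a = algebraMap (PX k) (KX k) Q := by
  have hP : P ≠ 0 := by
    rintro rfl
    exact mul_ne_zero hf (mon_ne_zero N) (by simpa using h)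
  have hm : ∀ e, (multiplicity (pp k e) P : ℤ) = ordX k e f + N e := by
    intro e
    have := congrArg (ordX k e) h
    rw [ordX_eq, ordX_eq, extW_mul (addW_mult e) hf (mon_ne_zero N), extW_poly (addW_mult e) hP,
      ← ordX_eq, ← ordX_eq, ordX_mon] at this
    exact this.symm
  have hd : ∏ e, pp k e ^ multiplicity (pp k e) P ∣ P := by
    refine Finset.prod_dvd_of_isRelPrime ?_ fun e _ => pow_multiplicity_dvd _ _
    intro e _ e' _ hne
    exact ((pp_prime e).irreducible.isRelPrime_iff_not_dvd.mpr (pp_not_dvd hne)).pow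
  obtain ⟨Q, hQ⟩ := hd
  refine ⟨Q * ∏ e, pp k e ^ (ordX k e f + a e).toNat, ?_⟩
  have e1 : mon k a * mon k (fun e => (multiplicity (pp k e) P : ℤ)) =
      mon k N * mon k (fun e => (((ordX k e f + a e).toNat : ℕ) : ℤ)) := by
    rw [← mon_add, ← mon_add]
    congr 1
    funext e
    have := ha e
    have := hm e
    simp only [Pi.add_apply]
    omega
  have e2 : f * mon k N = mon k (fun e => (multiplicity (pp k e) P : ℤ)) *
      algebraMap (PX k) (KX k) Q := by
    rw [mon_nat, ← map_mul, ← hQ, h]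
  rw [map_mul, ← mon_nat]
  apply mul_right_cancel₀ (mon_ne_zero (k := k) (fun e => (multiplicity (pp k e) P : ℤ)))
  apply mul_right_cancel₀ (mon_ne_zero (k := k) N)
  calc f * mon k a * mon k (fun e => (multiplicity (pp k e) P : ℤ)) * mon k N
      = (f * mon k N) * (mon k a * mon k (fun e => (multiplicity (pp k e) P : ℤ))) := by ring
    _ = _ := by rw [e1, e2]; ring

theorem dX_eq {i j : Fin 5} (h : i ≠ j) :
    dX k i j = ((sg i j : ℤ) : KX k) * algebraMap (PX k) (KX k) (pp k (ed i j)) := by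
  rcases lt_or_gt_of_ne h with h1 | h1
  · simp [dX, sg, ed, pp, h1]
  · simp [dX, sg, ed, pp, h1, not_lt.mpr h1.le]

theorem sg_sq (i j : Fin 5) : ((sg i j : ℤ) : KX k) * ((sg i j : ℤ) : KX k) = 1 := by
  unfold sg; split_ifs <;> simp

end Vale.Agent.P190
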